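import Crest.Agent.R266.Defs
import Crest.Agent.R245.SCV

/-!
# Row 266: several complex variables (use `Crest.Agent.R245` SCV lemmas)
-/

set_option autoImplicit false
set_option linter.unusedSectionVars false
set_option linter.unusedVariables false

namespace Crest.Agent.R266

open Set Metric Filter Topology MeasureTheory Polynomial
open scoped ENNReal Classical

noncomputable section

variable {D F : Type} [NormedAddCommGroup D] [NormedSpace ℂ D] [FiniteDimensional ℂ D]
  [NormedAddCommGroup F] [NormedSpace ℂ F] [CompleteSpace F]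

theorem osgood_contDiffOn {U : Set D} (hU : IsOpen U) (n : ℕ) :
    ∀ {f : D → F}, DifferentiableOn ℂ f U → ContDiffOn ℂ n f U := by
  induction n with
  | zero => intro f hf; exact contDiffOn_zero.2 hf.continuousOn
  | succ n ih =>
    intro f hf
    push_cast
    exact (contDiffOn_succ_iff_fderiv_of_isOpen hU).2 ⟨hf, fun h => absurd h (by simp),
      contDiffOn_clm_apply.2 fun y => ih (R245.differentiableOn_fderiv_apply hU hf y)⟩

/-- **Osgood.**  (1) `fderiv f` is again `DifferentiableOn U` (`R245.differentiableOn_fderiv_apply`,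
`differentiableOn_clm_apply`), so `f` is `ContDiffOn ℂ n` for all `n : ℕ` (induction generalizing `F`) and
`iteratedFDeriv ℂ k f` is differentiable on `U`.  (2) On a ball `B(z,R) ⊆ U` with `‖f‖ ≤ M`: `n` Cauchy steps of size
`R/(2n)` (`R245.norm_fderiv_le_ball`, `norm_fderiv_iteratedFDeriv`) give `‖iteratedFDeriv n f z‖ ≤ M (4n/R)^n`, and
`n^n/n! ≤ e^n`, so `p n = (n!)⁻¹ • iteratedFDeriv n f z` has positive radius.  (3) `HasSum`: one-variable Taylor series
(`Complex.hasSum_taylorSeries_on_ball`) of `t ↦ f (z + t • y)` at `t = 1`. -/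
theorem osgood {f : D → F} {U : Set D} (hU : IsOpen U) (hf : DifferentiableOn ℂ f U) : AnalyticOnNhd ℂ f U := by
  intro z hz
  have hd : ∀ k : ℕ, ∀ w ∈ U, DifferentiableAt ℂ (iteratedFDeriv ℂ k f) w := fun k w hw =>
    ((osgood_contDiffOn hU (k + 1) hf).contDiffAt (hU.mem_nhds hw)).differentiableAt_iteratedFDeriv
      (by exact_mod_cast Nat.lt_succ_self k)
  obtain ⟨R, hR, hb⟩ := Metric.eventually_nhds_iff_ball.1 ((hU.eventually_mem hz).and
    ((hf.continuousOn.continuousAt (hU.mem_nhds hz)).norm.eventually (gt_mem_nhds (lt_add_one ‖f z‖))))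
  set M := ‖f z‖ + 1 with hM
  have hM0 : 0 ≤ M := by positivity
  have h1 : ∀ ρ : ℝ, 0 < ρ → ∀ k : ℕ, ∀ w, dist w z + k * ρ < R → ‖iteratedFDeriv ℂ k f w‖ ≤ M * (2 / ρ) ^ k := by
    intro ρ hρ k
    induction k with
    | zero => intro w hw; simpa using (hb w (by simpa using hw)).2.le
    | succ k ih =>
      intro w hw
      have h2 : ∀ w' ∈ ball w ρ, dist w' z + k * ρ < R := fun w' hw' => by
        have := dist_triangle w' w z
        rw [mem_ball] at hw'
        push_cast at hw
        linarith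
      have h3 : ∀ w' ∈ ball w ρ, w' ∈ U := fun w' hw' =>
        (hb w' (lt_of_le_of_lt (le_add_of_nonneg_right (by positivity)) (h2 w' hw'))).1
      rw [← norm_fderiv_iteratedFDeriv]
      refine (R245.norm_fderiv_le_ball hρ (fun w' hw' => (hd k w' (h3 w' hw')).differentiableWithinAt)
        fun w' hw' => ih w' (h2 w' hw')).trans_eq ?_
      ring
  let p : FormalMultilinearSeries ℂ D F := fun n => ((n.factorial : ℂ))⁻¹ • iteratedFDeriv ℂ n f z
  have he : 1 ≤ Real.exp 1 := Real.one_le_exp zero_le_one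
  let r : NNReal := ⟨R / (2 * Real.exp 1), by positivity⟩
  have hr : (r : ℝ) = R / (2 * Real.exp 1) := rfl
  refine HasFPowerSeriesOnBall.analyticAt (p := p) (r := r) ⟨p.le_radius_of_bound (M * Real.exp 1) fun n => ?_, ?_, ?_⟩
  · have h2 := h1 (R / (n + 1)) (by positivity) n z (by
      rw [dist_self, zero_add, ← mul_div_assoc, div_lt_iff₀ (by positivity)]
      nlinarith)
    have h3 := Real.pow_div_factorial_le_exp ((n : ℝ) + 1) (by positivity) n
    have h4 : ‖p n‖ = (n.factorial : ℝ)⁻¹ * ‖iteratedFDeriv ℂ n f z‖ := by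
      simp [p, norm_smul]
    calc ‖p n‖ * (r : ℝ) ^ n ≤ (n.factorial : ℝ)⁻¹ * (M * (2 / (R / (n + 1))) ^ n) * (r : ℝ) ^ n := by
          rw [h4]; gcongr
      _ = M * (((n : ℝ) + 1) ^ n / n.factorial) * ((Real.exp 1) ^ n)⁻¹ := by
          rw [hr, mul_assoc, mul_assoc, ← mul_pow,
            show 2 / (R / ((n : ℝ) + 1)) * (R / (2 * Real.exp 1)) = (n + 1) / Real.exp 1 by field_simp, div_pow]
          ring
      _ ≤ M * Real.exp (n + 1) * ((Real.exp 1) ^ n)⁻¹ := by gcongr
      _ = M * Real.exp 1 := by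
          rw [Real.exp_add, ← Real.exp_nat_mul, mul_one]
          field_simp
  · exact_mod_cast (show (0 : ℝ) < r by rw [hr]; positivity)
  · intro y hy
    have hy' : ‖y‖ < R / (2 * Real.exp 1) := by
      rw [mem_eball_zero_iff, enorm_eq_nnnorm, ENNReal.coe_lt_coe] at hy
      exact_mod_cast hy
    have hy2 : 2 * ‖y‖ < R := by
      rw [lt_div_iff₀ (by positivity)] at hy'
      nlinarith [norm_nonneg y]
    have hm : ∀ t ∈ ball (0 : ℂ) 2, z + t • y ∈ U := fun t ht => by
      refine (hb _ ?_).1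
      rw [mem_ball, dist_eq_norm, add_sub_cancel_left, norm_smul]
      rw [mem_ball_zero_iff] at ht
      nlinarith [norm_nonneg y]
    have hl : ∀ t : ℂ, HasDerivAt (fun t : ℂ => z + t • y) y t := fun t => by
      simpa using ((hasDerivAt_id t).smul_const y).const_add z
    have h2 : ∀ n : ℕ, ∀ t ∈ ball (0 : ℂ) 2, iteratedDeriv n (fun t : ℂ => f (z + t • y)) t =
        iteratedFDeriv ℂ n f (z + t • y) fun _ => y := by
      intro n
      induction n with
      | zero => intro t ht; simp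
      | succ n ih =>
        intro t ht
        have e : iteratedDeriv n (fun t : ℂ => f (z + t • y)) =ᶠ[𝓝 t]
            fun t => iteratedFDeriv ℂ n f (z + t • y) fun _ => y := by
          filter_upwards [isOpen_ball.mem_nhds ht] with s hs using ih s hs
        rw [iteratedDeriv_succ, e.deriv_eq, iteratedFDeriv_succ_apply_left]
        exact ((ContinuousMultilinearMap.apply ℂ (fun _ : Fin n => D) F fun _ => y).hasFDerivAt.comp_hasDerivAt t
          ((hd n _ (hm t ht)).hasFDerivAt.comp_hasDerivAt t (hl t))).deriv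
    have h3 := Complex.hasSum_taylorSeries_on_ball (f := fun t : ℂ => f (z + t • y)) (c := 0) (r := 2)
      (fun t ht => ((hf.differentiableAt (hU.mem_nhds (hm t ht))).comp t (hl t).differentiableAt).differentiableWithinAt)
      (z := 1) (by simp)
    simp only [h2 _ 0 (by simp), sub_zero, one_pow, one_smul, zero_smul, add_zero] at h3
    exact h3

theorem analyticAt_of_ev {f : D → F} {x : D} (hf : ∀ᶠ y in 𝓝 x, DifferentiableAt ℂ f y) : AnalyticAt ℂ f x := by
  obtain ⟨U, hU, hUo, hx⟩ := _root_.eventually_nhds_iff.1 hf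
  exact osgood hUo (fun y hy => (hU y hy).differentiableWithinAt) x hx

/-- Parametric integral.  `hasFDerivAt_integral_of_dominated_of_fderiv_le` (interval version) with
`F' x t = (fderiv k (t, x)).comp (inr ..)`; `fderiv k` is continuous on `W` (`osgood`), tube lemma for the bound. -/
theorem int_diff {k : ℂ × D → F} {W : Set (ℂ × D)} (hW : IsOpen W) (hk : DifferentiableOn ℂ k W) {U : Set D}
    (hU : IsOpen U) (h : ∀ x ∈ U, ∀ t ∈ Icc (0 : ℝ) 1, ((t : ℂ), x) ∈ W) :
    DifferentiableOn ℂ (fun x => ∫ t in (0 : ℝ)..1, k ((t : ℂ), x)) U := by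
  have ha := osgood hW hk
  intro x hx
  refine DifferentiableAt.differentiableWithinAt ?_
  have hK : IsCompact ((fun t : ℝ => ((t : ℂ), x)) '' Icc 0 1) := isCompact_Icc.image (by fun_prop)
  have hKW : ((fun t : ℝ => ((t : ℂ), x)) '' Icc 0 1) ⊆ W := by
    rintro _ ⟨t, ht, rfl⟩; exact h x hx t ht
  obtain ⟨δ, hδ, hth⟩ := hK.exists_cthickening_subset_open hW hKW
  obtain ⟨C, hC⟩ := (hK.cthickening (r := δ)).exists_bound_of_continuousOn (ha.fderiv.continuousOn.mono hth)
  have hm : ∀ t ∈ Icc (0 : ℝ) 1, ∀ y ∈ ball x δ,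
      ((t : ℂ), y) ∈ cthickening δ ((fun t : ℝ => ((t : ℂ), x)) '' Icc 0 1) := fun t ht y hy =>
    mem_cthickening_of_dist_le _ ((t : ℂ), x) _ _ ⟨t, ht, rfl⟩ (by simpa [Prod.dist_eq] using (mem_ball.1 hy).le)
  have hc : ∀ y ∈ ball x δ, ContinuousOn (fun t : ℝ => k ((t : ℂ), y)) (Icc 0 1) := fun y hy =>
    hk.continuousOn.comp (by fun_prop) fun t ht => hth (hm t ht y hy)
  have hc' : ContinuousOn (fun t : ℝ => (fderiv ℂ k ((t : ℂ), x)).comp (ContinuousLinearMap.inr ℂ ℂ D)) (Icc 0 1) :=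
    (ha.fderiv.continuousOn.comp (by fun_prop) fun t ht => h x hx t ht).clm_comp continuousOn_const
  have hI : uIoc (0 : ℝ) 1 ⊆ Icc 0 1 := by rw [uIoc_of_le zero_le_one]; exact Ioc_subset_Icc_self
  refine (intervalIntegral.hasFDerivAt_integral_of_dominated_of_fderiv_le (𝕜 := ℂ) (μ := volume)
    (F := fun y (t : ℝ) => k ((t : ℂ), y))
    (F' := fun y (t : ℝ) => (fderiv ℂ k ((t : ℂ), y)).comp (ContinuousLinearMap.inr ℂ ℂ D)) (bound := fun _ => C)
    (ball_mem_nhds x hδ) ?_ ?_ ?_ ?_ intervalIntegrable_const ?_).differentiableAt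
  · filter_upwards [ball_mem_nhds x hδ] with y hy
    exact ((hc y hy).mono hI).aestronglyMeasurable measurableSet_uIoc
  · exact ContinuousOn.intervalIntegrable (by rw [uIcc_of_le zero_le_one]; exact hc x (mem_ball_self hδ))
  · exact (hc'.mono hI).aestronglyMeasurable measurableSet_uIoc
  · refine Eventually.of_forall fun t ht y hy => ?_
    refine (ContinuousLinearMap.opNorm_comp_le _ _).trans ?_
    exact (mul_le_of_le_one_right (norm_nonneg _) (ContinuousLinearMap.norm_inr_le_one ..)).trans (hC _ (hm t (hI ht) y hy))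
  · refine Eventually.of_forall fun t ht y hy => ?_
    exact (ha _ (hth (hm t (hI ht) y hy))).differentiableAt.hasFDerivAt.comp y (hasFDerivAt_prodMk_right _ y)

/-- Division by the last variable: `G (q, u) = ∫₀¹ ∂ᵤ H (q, t u) dt` (`int_diff`, `osgood`, FTC). -/
theorem divide {H : D × ℂ → F} {p : D} (hH : AnalyticAt ℂ H (p, 0)) (h0 : ∀ᶠ q in 𝓝 p, H (q, 0) = 0) :
    ∃ G : D × ℂ → F, AnalyticAt ℂ G (p, 0) ∧ H =ᶠ[𝓝 (p, 0)] fun x => x.2 • G x := by
  obtain ⟨r, hr, hb⟩ := Metric.eventually_nhds_iff_ball.1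
    (hH.eventually_analyticAt.and ((continuousAt_fst (p := (p, (0 : ℂ)))).eventually h0))
  have hm : ∀ x ∈ ball (p, (0 : ℂ)) r, ∀ t ∈ Icc (0 : ℝ) 1, (x.1, (t : ℂ) * x.2) ∈ ball (p, (0 : ℂ)) r := fun x hx t ht => by
    rw [← ball_prod_same] at hx ⊢
    refine ⟨hx.1, ?_⟩
    have := hx.2
    rw [mem_ball_zero_iff] at this ⊢
    rw [norm_mul, Complex.norm_real, Real.norm_of_nonneg ht.1]
    exact lt_of_le_of_lt (mul_le_of_le_one_left (norm_nonneg _) ht.2) this
  have hcm : Continuous fun y : ℂ × D × ℂ => (y.2.1, y.1 * y.2.2) := by fun_prop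
  have hd := int_diff (k := fun y : ℂ × D × ℂ => fderiv ℂ H (y.2.1, y.1 * y.2.2) (0, 1)) (isOpen_ball.preimage hcm)
    (fun y hy => (((hb _ hy).1.fderiv.differentiableAt.comp y (f := fun y : ℂ × D × ℂ => (y.2.1, y.1 * y.2.2))
      (by fun_prop)).clm_apply (differentiableAt_const _)).differentiableWithinAt) isOpen_ball hm
  refine ⟨_, osgood isOpen_ball hd _ (mem_ball_self hr), ?_⟩
  filter_upwards [ball_mem_nhds _ hr] with x hx
  have h1 : ∀ t ∈ uIcc (0 : ℝ) 1, HasDerivAt (fun s : ℝ => H (x.1, (s : ℂ) * x.2))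
      (x.2 • fderiv ℂ H (x.1, (t : ℂ) * x.2) (0, 1)) t := fun t ht => by
    rw [uIcc_of_le zero_le_one] at ht
    have h2 : HasDerivAt (fun s : ℂ => (x.1, s * x.2)) (0, x.2) (t : ℂ) :=
      (hasDerivAt_const _ _).prodMk (hasDerivAt_mul_const _)
    have h3 := (hb _ (hm x hx t ht)).1.differentiableAt.hasFDerivAt.comp_hasDerivAt (t : ℂ) h2
    have h4 := h3.scomp t (Complex.ofRealCLM.hasDerivAt (x := t))
    rw [← map_smul]
    simpa [Function.comp_def] using h4
  have h2 : ContinuousOn (fun t : ℝ => fderiv ℂ H (x.1, (t : ℂ) * x.2) (0, 1)) (uIcc 0 1) := fun t ht => by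
    rw [uIcc_of_le zero_le_one] at ht
    exact (((hb _ (hm x hx t ht)).1.fderiv.continuousAt.comp (f := fun t : ℝ => (x.1, (t : ℂ) * x.2))
      (by fun_prop)).clm_apply continuousAt_const).continuousWithinAt
  have h3 := intervalIntegral.integral_eq_sub_of_hasDerivAt h1 (h2.const_smul x.2).intervalIntegrable
  rw [intervalIntegral.integral_smul] at h3
  rw [h3]
  simp [(hb x hx).2]

end

end Crest.Agent.R266

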