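import Crest.Agent.R266.SCV

/-!
# Row 266: holomorphic solutions along rays
-/

set_option autoImplicit false
set_option linter.unusedSectionVars false
set_option linter.unusedVariables false

namespace Crest.Agent.R266

open Set Metric Filter Topology MeasureTheory Polynomial
open scoped ENNReal Classical

noncomputable section

variable {E : Type} [NormedAddCommGroup E] [NormedSpace ℂ E] [FiniteDimensional ℂ E] [CompleteSpace E]

theorem exists_ray_mem {y₀ : E} {r : ℝ} {p : E × E} (hp : p ∈ ball ((0 : E), y₀) r) {t : ℝ}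
    (ht : t ∈ Icc (0 : ℝ) 1) : ((t : ℂ) • p.1, p.2) ∈ ball ((0 : E), y₀) r := by
  rw [← ball_prod_same] at hp ⊢
  refine ⟨mem_ball_zero_iff.2 (lt_of_le_of_lt ?_ (mem_ball_zero_iff.1 hp.1)), hp.2⟩
  rw [norm_smul, Complex.norm_real, Real.norm_of_nonneg ht.1]
  exact mul_le_of_le_one_left (norm_nonneg _) ht.2

/-- the Picard operator -/
def exists_ray_op (S : E → E →L[ℂ] E) (Y : E × E → E) (p : E × E) : E :=
  p.2 + ∫ t in (0 : ℝ)..1, S (Y ((t : ℂ) • p.1, p.2)) p.1

/-- Picard iteration `Y₀ (a, b) = b`, `Y_{n+1} (a, b) = b + ∫₀¹ S (Y_n (t a, b)) a dt` on `ball (0, y₀) r`.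
`S` is bounded by `K` and `K`-Lipschitz on `ball y₀ ρ ⊆ N`; for `r (K + 1) ≤ min ρ 1 / 2` all iterates map into
`closedBall y₀ (ρ/2)`, are holomorphic (`int_diff` with `W = {(t, a, b) | (t • a, b) ∈ ball}`) and
`‖Y_{n+1} - Y_n‖ ≤ 2⁻ⁿ`; the limit is holomorphic (`R245.differentiableAt_of_unif`) and solves the integral equation.
Then `Y (s a, b) = b + ∫₀^s S (Y (t a, b)) a dt` for real `s` near `1`; differentiate at `s = 1`. -/
theorem exists_ray {S : E → E →L[ℂ] E} {y₀ : E} (hS : AnalyticAt ℂ S y₀) {N : Set E} (hN : N ∈ 𝓝 y₀) :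
    ∃ r > 0, ∃ Y : E × E → E, DifferentiableOn ℂ Y (ball (0, y₀) r) ∧ MapsTo Y (ball (0, y₀) r) N ∧
      (∀ b ∈ ball y₀ r, Y (0, b) = b) ∧
      ∀ p ∈ ball ((0 : E), y₀) r, fderiv ℂ Y p (p.1, 0) = S (Y p) p.1 := by
  obtain ⟨K, T, hT, hK⟩ := (hS.contDiffAt (n := 1)).exists_lipschitzOnWith
  obtain ⟨ρ₀, hρ₀, h0⟩ := nhds_basis_closedBall.mem_iff.1
    (inter_mem hN (inter_mem hT hS.eventually_analyticAt))
  obtain ⟨ρ, hρ, hρ1, hB⟩ : ∃ ρ > (0 : ℝ), ρ ≤ 1 ∧
      closedBall y₀ ρ ⊆ N ∩ (T ∩ {y | AnalyticAt ℂ S y}) :=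
    ⟨min ρ₀ 1, lt_min hρ₀ one_pos, min_le_right _ _,
      (closedBall_subset_closedBall (min_le_left _ _)).trans h0⟩
  have hL : ∀ x ∈ closedBall y₀ ρ, ∀ y ∈ closedBall y₀ ρ, ‖S x - S y‖ ≤ K * ‖x - y‖ :=
    fun x hx y hy => hK.norm_sub_le (hB hx).2.1 (hB hy).2.1
  obtain ⟨M, hM⟩ : ∃ M : ℝ, M = ‖S y₀‖ + K := ⟨_, rfl⟩
  have hKM : (K : ℝ) ≤ M := by linarith [norm_nonneg (S y₀)]
  have hM0 : 0 ≤ M := K.coe_nonneg.trans hKM
  have hSM : ∀ x ∈ closedBall y₀ ρ, ‖S x‖ ≤ M := fun x hx => by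
    have h1 := hL x hx y₀ (mem_closedBall_self hρ.le)
    have h2 := mul_le_of_le_one_right K.coe_nonneg ((mem_closedBall_iff_norm.1 hx).trans hρ1)
    linarith [norm_sub_norm_le (S x) (S y₀)]
  obtain ⟨r, hr, hrM⟩ : ∃ r > (0 : ℝ), r * (M + 1) = ρ / 2 :=
    ⟨ρ / 2 / (M + 1), by positivity, div_mul_cancel₀ _ (by positivity)⟩
  set U := ball ((0 : E), y₀) r
  have hU : ∀ p ∈ U, ‖p.1‖ < r ∧ ‖p.2 - y₀‖ < r := fun p hp => by
    rw [show U = ball ((0 : E), y₀) r from rfl, ← ball_prod_same] at hp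
    exact ⟨mem_ball_zero_iff.1 hp.1, mem_ball_iff_norm.1 hp.2⟩
  have hSd : DifferentiableOn ℂ S (closedBall y₀ ρ) := fun y hy =>
    (hB hy).2.2.differentiableAt.differentiableWithinAt
  have hcont : ∀ {Y : E × E → E}, DifferentiableOn ℂ Y U → MapsTo Y U (closedBall y₀ ρ) → ∀ p : E × E,
      ContinuousOn (fun t : ℝ => S (Y ((t : ℂ) • p.1, p.2)) p.1) {t | ((t : ℂ) • p.1, p.2) ∈ U} :=
    fun hY hY' p => ((hSd.continuousOn.comp hY.continuousOn hY').comp
      (f := fun t : ℝ => ((t : ℂ) • p.1, p.2)) (by fun_prop) fun _ ht => ht).clm_apply continuousOn_const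
  have hint : ∀ {Y : E × E → E}, DifferentiableOn ℂ Y U → MapsTo Y U (closedBall y₀ ρ) → ∀ p ∈ U,
      IntervalIntegrable (fun t : ℝ => S (Y ((t : ℂ) • p.1, p.2)) p.1) volume 0 1 :=
    fun hY hY' p hp => ((hcont hY hY' p).mono fun t ht =>
      exists_ray_mem hp ht).intervalIntegrable_of_Icc zero_le_one
  have hA : ∀ {Y : E × E → E}, DifferentiableOn ℂ Y U → MapsTo Y U (closedBall y₀ ρ) →
      DifferentiableOn ℂ (exists_ray_op S Y) U ∧ MapsTo (exists_ray_op S Y) U (closedBall y₀ ρ) := by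
    intro Y hY hY'
    refine ⟨differentiableOn_snd.add (int_diff (k := fun q : ℂ × (E × E) =>
      S (Y (q.1 • q.2.1, q.2.2)) q.2.1) (W := {q | (q.1 • q.2.1, q.2.2) ∈ U})
      (isOpen_ball.preimage (by fun_prop)) (((hSd.comp hY hY').comp
        (f := fun q : ℂ × (E × E) => (q.1 • q.2.1, q.2.2)) (by fun_prop)
        fun _ h => h).clm_apply (by fun_prop)) isOpen_ball fun p hp t ht => exists_ray_mem hp ht),
      fun p hp => ?_⟩
    have h1 := intervalIntegral.norm_integral_le_of_norm_le_const (a := 0) (b := 1) (C := M * r)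
      (f := fun t : ℝ => S (Y ((t : ℂ) • p.1, p.2)) p.1) fun t ht => by
        rw [uIoc_of_le zero_le_one] at ht
        exact (S _).le_of_opNorm_le_of_le (hSM _ (hY' (exists_ray_mem hp (Ioc_subset_Icc_self ht))))
          (hU p hp).1.le
    rw [mem_closedBall_iff_norm, exists_ray_op, add_sub_right_comm]
    refine (norm_add_le _ _).trans ?_
    simp only [sub_zero, abs_one, mul_one] at h1
    linarith [(hU p hp).2]
  have hC : ∀ {Y Z : E × E → E} {δ : ℝ}, DifferentiableOn ℂ Y U → MapsTo Y U (closedBall y₀ ρ) →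
      DifferentiableOn ℂ Z U → MapsTo Z U (closedBall y₀ ρ) → (∀ p ∈ U, dist (Y p) (Z p) ≤ δ) →
      ∀ p ∈ U, dist (exists_ray_op S Y p) (exists_ray_op S Z p) ≤ δ / 2 := by
    intro Y Z δ hY hY' hZ hZ' h p hp
    have hδ : 0 ≤ δ := dist_nonneg.trans (h p hp)
    rw [exists_ray_op, exists_ray_op, dist_add_left, dist_eq_norm,
      ← intervalIntegral.integral_sub (hint hY hY' p hp) (hint hZ hZ' p hp)]
    refine (intervalIntegral.norm_integral_le_of_norm_le_const (C := δ / 2) fun t ht => ?_).trans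
      (by simp)
    rw [uIoc_of_le zero_le_one] at ht
    have hq := exists_ray_mem hp (Ioc_subset_Icc_self ht)
    have h1 := (hL _ (hY' hq) _ (hZ' hq)).trans
      (mul_le_mul_of_nonneg_left (dist_eq_norm (Y _) (Z _) ▸ h _ hq) K.coe_nonneg)
    refine ((S _ - S _).le_of_opNorm_le_of_le h1 (hU p hp).1.le).trans ?_
    nlinarith [mul_le_mul_of_nonneg_left hKM hr.le]
  obtain ⟨Y, hY0, hYs⟩ : ∃ Y : ℕ → E × E → E, Y 0 = Prod.snd ∧ ∀ n, Y (n + 1) = exists_ray_op S (Y n) :=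
    ⟨fun n => (exists_ray_op S)^[n] Prod.snd, rfl, fun n => Function.iterate_succ_apply' _ _ _⟩
  have h1 : ∀ n, DifferentiableOn ℂ (Y n) U ∧ MapsTo (Y n) U (closedBall y₀ ρ) := by
    intro n
    induction n with
    | zero =>
      rw [hY0]
      exact ⟨differentiableOn_snd, fun p hp => mem_closedBall_iff_norm.2 (by nlinarith [(hU p hp).2])⟩
    | succ n ih => exact hYs n ▸ hA ih.1 ih.2
  have h2 : ∀ n, ∀ p ∈ U, dist (Y n p) (Y (n + 1) p) ≤ 4 * ρ / 2 / 2 ^ n := by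
    intro n
    induction n with
    | zero =>
      intro p hp
      linarith [dist_triangle_right (Y 0 p) (Y (0 + 1) p) y₀, mem_closedBall.1 ((h1 0).2 hp),
        mem_closedBall.1 ((h1 (0 + 1)).2 hp)]
    | succ n ih =>
      intro p hp
      have := hC (h1 n).1 (h1 n).2 (h1 (n + 1)).1 (h1 (n + 1)).2 ih p hp
      rwa [← hYs, ← hYs, div_div _ (2 ^ n), ← pow_succ] at this
  have h3 : ∀ p ∈ U, Tendsto (fun n => Y n p) atTop (𝓝 (limUnder atTop fun n => Y n p)) :=
    fun p hp => (cauchySeq_of_le_geometric_two fun n => h2 n p hp).tendsto_limUnder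
  generalize hZ : (fun p => limUnder atTop fun n => Y n p) = Z
  replace h3 : ∀ p ∈ U, Tendsto (fun n => Y n p) atTop (𝓝 (Z p)) := hZ ▸ h3
  have h4 : ∀ n, ∀ p ∈ U, dist (Y n p) (Z p) ≤ 4 * ρ / 2 ^ n := fun n p hp =>
    dist_le_of_le_geometric_two_of_tendsto (fun n => h2 n p hp) (h3 p hp) n
  have h5 : Tendsto (fun n : ℕ => 4 * ρ / 2 ^ n) atTop (𝓝 0) :=
    tendsto_const_nhds.div_atTop (tendsto_pow_atTop_atTop_of_one_lt one_lt_two)
  have hZm : MapsTo Z U (closedBall y₀ ρ) := fun p hp =>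
    isClosed_closedBall.mem_of_tendsto (h3 p hp) (Eventually.of_forall fun n => (h1 n).2 hp)
  have hZd : DifferentiableOn ℂ Z U := fun p hp => by
    obtain ⟨R, hR, hRU⟩ := Metric.isOpen_iff.1 isOpen_ball p hp
    exact (R245.differentiableAt_of_unif hR (fun n => (h1 n).1.mono hRU) h5
      (fun n q hq => dist_eq_norm (Y n q) (Z q) ▸ h4 n q (hRU hq)) (B := ‖y₀‖ + ρ) fun q hq => by
        linarith [mem_closedBall_iff_norm.1 (hZm (hRU hq)),
          norm_sub_norm_le (Z q) y₀]).differentiableWithinAt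
  have hfix : ∀ p ∈ U, Z p = exists_ray_op S Z p := fun p hp => by
    refine tendsto_nhds_unique ((h3 p hp).comp (tendsto_add_atTop_nat 1))
      (tendsto_iff_dist_tendsto_zero.2 (squeeze_zero (fun _ => dist_nonneg) (fun n => ?_)
        (by simpa using h5.div_const 2)))
    rw [Function.comp_apply, hYs]
    exact hC (h1 n).1 (h1 n).2 hZd hZm (h4 n) p hp
  refine ⟨r, hr, Z, hZd, fun p hp => (hB (hZm hp)).1, fun b hb => ?_, fun p hp => ?_⟩
  · rw [hfix (0, b) (by
      rw [show U = ball ((0 : E), y₀) r from rfl, ← ball_prod_same]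
      exact ⟨mem_ball_self hr, hb⟩)]
    simp [exists_ray_op]
  · have hI : IsOpen {t : ℝ | ((t : ℂ) • p.1, p.2) ∈ U} := isOpen_ball.preimage (by fun_prop)
    have h1I : (1 : ℝ) ∈ {t : ℝ | ((t : ℂ) • p.1, p.2) ∈ U} := by
      simpa only [mem_ofPred_eq, Complex.ofReal_one, one_smul] using hp
    have h6 := (intervalIntegral.integral_hasDerivAt_right (hint hZd hZm p hp)
      ((hcont hZd hZm p).stronglyMeasurableAtFilter hI 1 h1I)
      ((hcont hZd hZm p).continuousAt (hI.mem_nhds h1I))).const_add p.2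
    have h7 : HasDerivAt (fun t : ℝ => ((t : ℂ) • p.1, p.2)) (p.1, 0) 1 := by
      simpa using (Complex.ofRealCLM.hasDerivAt.smul_const p.1).prodMk (hasDerivAt_const (1 : ℝ) p.2)
    have h8 : HasFDerivAt Z (fderiv ℂ Z p) (((1 : ℝ) : ℂ) • p.1, p.2) := by
      simpa using (hZd.differentiableAt (isOpen_ball.mem_nhds hp)).hasFDerivAt
    have h9 := ((h8.restrictScalars ℝ).comp_hasDerivAt 1 h7).unique (h6.congr_of_eventuallyEq (by
      filter_upwards [hI.mem_nhds h1I] with s hs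
      have := intervalIntegral.smul_integral_comp_mul_right (a := 0) (b := 1)
        (fun t : ℝ => S (Z ((t : ℂ) • p.1, p.2)) p.1) s
      rw [zero_mul, one_mul] at this
      rw [Function.comp_apply, hfix _ hs, exists_ray_op, ← this, ← intervalIntegral.integral_smul]
      simp only [← Complex.coe_smul, smul_smul, map_smul, Complex.ofReal_mul]))
    simpa using h9

end

end Crest.Agent.R266

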