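import Crest.Agent.R266.Defs

/-!
# Row 266: a union of plaques is a manifold
-/

set_option autoImplicit false
set_option linter.unusedSectionVars false
set_option linter.unusedVariables false

namespace Crest.Agent.R266

open Set Metric Filter Topology MeasureTheory Polynomial
open scoped ENNReal Classical

noncomputable section

open Crest.AlgGeometry.HolSplit
open scoped Manifold ContDiff

/-- the chart of a plaque -/
def exists_leaf_manifold_chart {X A B : Type} [TopologicalSpace X] [TopologicalSpace A] [TopologicalSpace B]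
    (κ : OpenPartialHomeomorph X (A × B)) (Y O : Set X) (β : B) (y : Y) (hO : IsOpen O) (hs : O ⊆ κ.source)
    (h : ∀ x ∈ O, x ∈ Y ↔ (κ x).2 = β) : OpenPartialHomeomorph Y A where
  toFun x := (κ x).1
  invFun z := if hz : κ.symm (z, β) ∈ Y then ⟨_, hz⟩ else y
  source := {x : Y | (x : X) ∈ O}
  target := {z | (z, β) ∈ κ.target ∧ κ.symm (z, β) ∈ O}
  map_source' := by
    intro x hx
    have h1 : ((κ x).1, β) = κ x := Prod.ext rfl ((h x hx).1 x.2).symm
    refine ⟨?_, ?_⟩
    · rw [h1]; exact κ.map_source (hs hx)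
    · rw [h1, κ.left_inv (hs hx)]; exact hx
  map_target' := by
    intro z hz
    have hY : κ.symm (z, β) ∈ Y := (h _ hz.2).2 (by rw [κ.right_inv hz.1])
    simp only [dif_pos hY]
    exact hz.2
  left_inv' := by
    intro x hx
    have h1 : ((κ x).1, β) = κ x := Prod.ext rfl ((h x hx).1 x.2).symm
    have h2 : κ.symm ((κ x).1, β) = x := by rw [h1, κ.left_inv (hs hx)]
    have hY : κ.symm ((κ x).1, β) ∈ Y := by rw [h2]; exact x.2
    simp only [dif_pos hY]
    exact Subtype.ext h2
  right_inv' := by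
    intro z hz
    have hY : κ.symm (z, β) ∈ Y := (h _ hz.2).2 (by rw [κ.right_inv hz.1])
    simp only [dif_pos hY]
    rw [κ.right_inv hz.1]
  open_source := hO.preimage continuous_subtype_val
  open_target := by
    have h1 : IsOpen (κ.target ∩ κ.symm ⁻¹' O) := κ.continuousOn_symm.isOpen_inter_preimage κ.open_target hO
    exact h1.preimage (f := fun z : A => (z, β)) (by fun_prop)
  continuousOn_toFun := by
    refine continuous_fst.comp_continuousOn ?_
    exact κ.continuousOn.comp continuous_subtype_val.continuousOn (fun x hx => hs hx)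
  continuousOn_invFun := by
    rw [Topology.IsInducing.subtypeVal.continuousOn_iff]
    have h1 : ContinuousOn (fun z : A => κ.symm (z, β)) {z | (z, β) ∈ κ.target ∧ κ.symm (z, β) ∈ O} :=
      κ.continuousOn_symm.comp (f := fun z : A => (z, β)) (by fun_prop) (fun z hz => hz.1)
    refine h1.congr (fun z hz => ?_)
    have hY : κ.symm (z, β) ∈ Y := (h _ hz.2).2 (by rw [κ.right_inv hz.1])
    simp only [Function.comp, dif_pos hY]

theorem exists_leaf_manifold_symm {X A B : Type} [TopologicalSpace X] [TopologicalSpace A] [TopologicalSpace B]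
    (κ : OpenPartialHomeomorph X (A × B)) (Y O : Set X) (β : B) (y : Y) (hO : IsOpen O) (hs : O ⊆ κ.source)
    (h : ∀ x ∈ O, x ∈ Y ↔ (κ x).2 = β) {z : A} (hz : z ∈ (exists_leaf_manifold_chart κ Y O β y hO hs h).target) :
    (((exists_leaf_manifold_chart κ Y O β y hO hs h).symm z : Y) : X) = κ.symm (z, β) := by
  have hY : κ.symm (z, β) ∈ Y := (h _ hz.2).2 (by rw [κ.right_inv hz.1])
  change ((if hz : κ.symm (z, β) ∈ Y then ⟨_, hz⟩ else y : Y) : X) = _
  simp only [dif_pos hY]

/-- For `y : Y` pick `j` and an open `O ∋ y`, `O ⊆ source j`, on which `x ∈ Y ↔ (κ j x).2 = β := (κ j y).2`.  Chart: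
source `{x : Y | ↑x ∈ O}`, target `{z | (z, β) ∈ target ∧ (κ j).symm (z, β) ∈ O}`, `toFun x = (κ j x).1`,
`invFun z = if h : (κ j).symm (z, β) ∈ Y then ⟨_, h⟩ else y`.  `isManifold_of_contDiffOn`; a transition map is
`z ↦ (κ j' ((κ j).symm (z, β))).1`. -/
theorem exists_leaf_manifold {X ι B : Type} [TopologicalSpace X] {k : ℕ} [NormedAddCommGroup B] [NormedSpace ℂ B]
    (κ : ι → OpenPartialHomeomorph X (Model k × B)) (cov : ∀ x, ∃ i, x ∈ (κ i).source)
    (an : ∀ i j x, x ∈ (κ i).source → x ∈ (κ j).source → AnalyticAt ℂ (κ j ∘ (κ i).symm) (κ i x)) (Y : Set X)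
    (hY : ∀ y ∈ Y, ∀ j, y ∈ (κ j).source → ∀ᶠ x in 𝓝 y, x ∈ Y ↔ (κ j x).2 = (κ j y).2) :
    ∃ _ : ChartedSpace (Model k) Y, IsManifold (mI k) ω Y ∧ ∀ y : Y, ∃ j, (y : X) ∈ (κ j).source ∧
      (∀ x : Y, chartAt (Model k) y x = (κ j x).1) ∧
      ∀ᶠ x : Y in 𝓝 y, (κ j x).2 = (κ j y).2 := by
  have hex : ∀ y : Y, ∃ (j : ι) (O : Set X), IsOpen O ∧ (y : X) ∈ O ∧ O ⊆ (κ j).source ∧
      ∀ x ∈ O, x ∈ Y ↔ (κ j x).2 = (κ j y).2 := by
    intro y
    obtain ⟨j, hj⟩ := cov y
    obtain ⟨O, hO1, hO2, hO3⟩ := eventually_nhds_iff.1 ((hY y y.2 j hj).and ((κ j).open_source.mem_nhds hj))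
    exact ⟨j, O, hO2, hO3, fun x hx => (hO1 x hx).2, fun x hx => (hO1 x hx).1⟩
  choose j O hO hyO hs h using hex
  let c : Y → OpenPartialHomeomorph Y (Model k) := fun y =>
    exists_leaf_manifold_chart (κ (j y)) Y (O y) (κ (j y) y).2 y (hO y) (hs y) (h y)
  letI : ChartedSpace (Model k) Y :=
    { atlas := range c
      chartAt := c
      mem_chart_source := fun y => hyO y
      chart_mem_atlas := fun y => ⟨y, rfl⟩ }
  refine ⟨this, ?_, fun y => ⟨j y, hs y (hyO y), fun x => rfl, ?_⟩⟩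
  · refine isManifold_of_contDiffOn _ _ _ ?_
    rintro _ _ ⟨y, rfl⟩ ⟨y', rfl⟩
    simp only [modelWithCornersSelf_coe, modelWithCornersSelf_coe_symm, preimage_id_eq, id_eq, range_id,
      inter_univ, Function.id_comp, Function.comp_id]
    intro z hz
    have hz1 : z ∈ (c y).target := hz.1
    have hz2 : (((c y).symm z : Y) : X) ∈ O y' := hz.2
    have e1 := exists_leaf_manifold_symm (κ (j y)) Y (O y) (κ (j y) y).2 y (hO y) (hs y) (h y) hz1
    have hz3 : (κ (j y)).symm (z, (κ (j y) y).2) ∈ (κ (j y')).source := by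
      rw [← e1]; exact hs y' hz2
    have ha := an (j y) (j y') _ ((κ (j y)).map_target hz1.1) hz3
    rw [(κ (j y)).right_inv hz1.1] at ha
    have hb : AnalyticAt ℂ (fun w : Model k => (κ (j y') ((κ (j y)).symm (w, (κ (j y) y).2))).1) z :=
      analyticAt_fst.comp (ha.comp_of_eq (analyticAt_id.prod analyticAt_const) rfl)
    refine (hb.contDiffAt.congr_of_eventuallyEq ?_).contDiffWithinAt
    filter_upwards [(c y).open_target.mem_nhds hz1] with w hw
    change (κ (j y') (((c y).symm w : Y) : X)).1 = _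
    rw [exists_leaf_manifold_symm (κ (j y)) Y (O y) (κ (j y) y).2 y (hO y) (hs y) (h y) hw]
  · filter_upwards [((hO y).preimage continuous_subtype_val).mem_nhds (hyO y)] with x hx
    exact (h y x hx).1 x.2

variable {n k : ℕ} {X' Y : Type} [TopologicalSpace X'] [ChartedSpace (Model n) X'] [IsManifold (mI n) ω X']
  [TopologicalSpace Y] [ChartedSpace (Model k) Y] [IsManifold (mI k) ω Y]

/-- a continuous map whose expression in the preferred chart of the target factors through `L ∘ κ`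
(`contMDiffAt_iff_target`; `mfderiv (chartAt y) y = id`) -/
theorem into_leaf {C D : Type} [NormedAddCommGroup C] [NormedSpace ℂ C] [NormedAddCommGroup D] [NormedSpace ℂ D]
    {f : X' → Y} {κ : X' → C} {L : C →L[ℂ] D} {F : D → Model k} {x : X'} (hf : ContinuousAt f x)
    (hκ : ContMDiffAt (mI n) 𝓘(ℂ, C) ω κ x) (hF : AnalyticAt ℂ F (L (κ x)))
    (h : ∀ᶠ x' in 𝓝 x, chartAt (Model k) (f x) (f x') = F (L (κ x'))) :
    ContMDiffAt (mI n) (mI k) ω f x ∧ ∀ v : TangentSpace (mI n) x,
      L (mfderiv (mI n) 𝓘(ℂ, C) κ x v) = 0 → mfderiv (mI n) (mI k) f x v = 0 := by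
  have h1 : ContMDiffAt (mI n) (mI k) ω (fun x' => F (L (κ x'))) x :=
    hF.contDiffAt.contMDiffAt.comp x (L.contMDiffAt.comp x hκ)
  have h2 : ContMDiffAt (mI n) (mI k) ω f x := contMDiffAt_iff_target.2 ⟨hf, h1.congr_of_eventuallyEq h⟩
  refine ⟨h2, fun v hv => ?_⟩
  have h3 := (hasMFDerivAt_extChartAt (I := mI k) (mem_chart_source (Model k) (f x))).comp x
    (h2.mdifferentiableAt (by simp)).hasMFDerivAt
  have h4 := hF.differentiableAt.hasFDerivAt.hasMFDerivAt.comp x
    (L.hasMFDerivAt.comp x (hκ.mdifferentiableAt (by simp)).hasMFDerivAt)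
  have h5 := congrArg (fun A : Model n →L[ℂ] Model k => A v) (hasMFDerivAt_unique h3 (h4.congr_of_eventuallyEq h))
  have h6 : mfderiv (mI k) (mI k) (chartAt (Model k) (f x)) (f x) = ContinuousLinearMap.id ℂ (Model k) :=
    (hasMFDerivAt_extChartAt (I := mI k) (mem_chart_source (Model k) (f x))).mfderiv.symm.trans mfderiv_extChartAt_self
  exact (congrArg (fun A : Model k →L[ℂ] Model k => A (mfderiv (mI n) (mI k) f x v)) h6).symm.trans
    (h5.trans ((congrArg (fderiv ℂ F (L (κ x))) hv).trans (map_zero _)))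

end

end Crest.Agent.R266

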