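import Crest.Agent.R266.Band
import Crest.Agent.R266.Leaf

/-!
# Row 266: the product decomposition from a band
-/

set_option autoImplicit false
set_option linter.unusedSectionVars false
set_option linter.unusedVariables false

namespace Crest.Agent.R266

open Set Metric Filter Topology MeasureTheory Polynomial
open scoped ENNReal Classical

noncomputable section

open Crest.AlgGeometry.HolSplit
open scoped Manifold ContDiff

/-- `Y₁ = {y | b (x₀, y) = y}`, `Y₂ = {y | b (y, x₀) = y}` (`exists_leaf_manifold` with `plaque₁`; for `Y₂` use the charts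
`(κ j).transHomeomorph (Homeomorph.prodComm _ _)` and `plaque₂`), `Φ x = (b (x₀, x), b (x, x₀))`, `Ψ y = b (y.2, y.1)`.
`Φ`: `into_leaf` with `Band.form`, `ContMDiffAt.prodMk`, `mfderiv_prodMk`.  `Ψ`: near `y`,
`Ψ y' = (κ k).symm (F (chartAt y.1 y'.1), G (chartAt y.2 y'.2))` (`Band.form`), `hol_symm`.
Retracts: `simplyConnected_retract`. -/
theorem asm {n n₁ n₂ : ℕ} {X : Type} [TopologicalSpace X] [ChartedSpace (Model n) X] [IsManifold (mI n) ω X]
    (S : Splitting n X) {X' : Type} [TopologicalSpace X'] [T2Space X'] [SimplyConnectedSpace X']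
    [ChartedSpace (Model n) X'] [IsManifold (mI n) ω X'] (π : X' → X) (𝒰 : UPA X' (Model n₁) (Model n₂))
    (hc : ∀ i, Compat S π (𝒰.κ i)) {b : X' × X' → X'} (hb : 𝒰.Band b) : HasCompatibleProductCover S X' π := by
  obtain ⟨x₀⟩ : Nonempty X' := inferInstance
  have hcont := hb.continuous
  obtain ⟨c₁, m₁, h₁⟩ := exists_leaf_manifold 𝒰.κ 𝒰.cov 𝒰.an {y | b (x₀, y) = y}
    (fun y hy j hj => hb.plaque₁ hy hj)
  obtain ⟨c₂, m₂, h₂⟩ := exists_leaf_manifold
    (fun j => (𝒰.κ j).transHomeomorph (Homeomorph.prodComm (Model n₁) (Model n₂))) 𝒰.cov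
    (fun i j x hi hj => by
      have h1 : AnalyticAt ℂ (fun p : Model n₂ × Model n₁ => (p.2, p.1)) ((𝒰.κ i x).2, (𝒰.κ i x).1) :=
        analyticAt_snd.prod analyticAt_fst
      have h2 := (𝒰.an i j x hi hj).comp_of_eq h1 rfl
      exact (analyticAt_snd.comp h2).prod (analyticAt_fst.comp h2))
    {y | b (y, x₀) = y} (fun y hy j hj => hb.plaque₂ hy hj)
  let r₁ : X' → {y | b (x₀, y) = y} := fun x => ⟨b (x₀, x), hb.right x₀ x₀ x⟩
  let r₂ : X' → {y | b (y, x₀) = y} := fun x => ⟨b (x, x₀), hb.left x x₀ x₀⟩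
  have k₁ : Continuous r₁ := (hcont.comp (continuous_const.prodMk continuous_id)).subtype_mk _
  have k₂ : Continuous r₂ := (hcont.comp (continuous_id.prodMk continuous_const)).subtype_mk _
  have s₁ : SimplyConnectedSpace {y | b (x₀, y) = y} :=
    simplyConnected_retract continuous_subtype_val k₁ fun z => Subtype.ext z.2
  have s₂ : SimplyConnectedSpace {y | b (y, x₀) = y} :=
    simplyConnected_retract continuous_subtype_val k₂ fun z => Subtype.ext z.2
  obtain ⟨i₀, hi₀⟩ := 𝒰.cov x₀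
  have d₁ : ∀ x l, x ∈ (𝒰.κ l).source → ContMDiffAt (mI n) (mI n₁) ω r₁ x ∧ ∀ v : TangentSpace (mI n) x,
      (mfderiv (mI n) 𝓘(ℂ, Model n₁ × Model n₂) (𝒰.κ l) x v).1 = 0 → mfderiv (mI n) (mI n₁) r₁ x v = 0 := by
    intro x l hl
    obtain ⟨j, hj, e, -⟩ := h₁ (r₁ x)
    obtain ⟨F, G, hF, -, hev⟩ := hb.form (q := (x₀, x)) hi₀ hl hj
    refine into_leaf (L := ContinuousLinearMap.fst ℂ (Model n₁) (Model n₂)) (F := F) k₁.continuousAt
      ((hc l).hol.contMDiffAt ((𝒰.κ l).open_source.mem_nhds hl)) hF ?_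
    filter_upwards [(continuous_const.prodMk continuous_id).continuousAt.eventually hev] with x' hx'
    rw [e]
    exact congrArg Prod.fst hx'
  have d₂ : ∀ x l, x ∈ (𝒰.κ l).source → ContMDiffAt (mI n) (mI n₂) ω r₂ x ∧ ∀ v : TangentSpace (mI n) x,
      (mfderiv (mI n) 𝓘(ℂ, Model n₁ × Model n₂) (𝒰.κ l) x v).2 = 0 → mfderiv (mI n) (mI n₂) r₂ x v = 0 := by
    intro x l hl
    obtain ⟨j, hj, e, -⟩ := h₂ (r₂ x)
    obtain ⟨F, G, -, hG, hev⟩ := hb.form (q := (x, x₀)) hl hi₀ hj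
    refine into_leaf (L := ContinuousLinearMap.snd ℂ (Model n₁) (Model n₂)) (F := G) k₂.continuousAt
      ((hc l).hol.contMDiffAt ((𝒰.κ l).open_source.mem_nhds hl)) hG ?_
    filter_upwards [(continuous_id.prodMk continuous_const).continuousAt.eventually hev] with x' hx'
    rw [e]
    exact congrArg Prod.snd hx'
  refine ⟨n₁, n₂, {y | b (x₀, y) = y}, {y | b (y, x₀) = y}, inferInstance, inferInstance, c₁, c₂, m₁, m₂,
    inferInstance, inferInstance, s₁, s₂, fun x => (r₁ x, r₂ x), fun y => b (y.2, y.1), fun x => ?_,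
    fun y => ?_, fun x => ?_, fun y => ?_, fun x v => ?_⟩
  · change b (b (x, x₀), b (x₀, x)) = x
    rw [hb.left, hb.right, hb.diag]
  · exact Prod.ext (Subtype.ext ((hb.right x₀ y.2 y.1).trans y.1.2))
      (Subtype.ext ((hb.left y.2 y.1 x₀).trans y.2.2))
  · obtain ⟨l, hl⟩ := 𝒰.cov x
    exact (d₁ x l hl).1.prodMk (d₂ x l hl).1
  · obtain ⟨j₁, hj₁, e₁, -⟩ := h₁ y.1
    obtain ⟨j₂, hj₂, e₂, -⟩ := h₂ y.2
    obtain ⟨k, hk⟩ := 𝒰.cov (b (y.2, y.1))
    obtain ⟨F, G, hF, hG, hev⟩ := hb.form (q := ((y.2 : X'), (y.1 : X'))) hj₂ hj₁ hk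
    have hs : Continuous fun y' : {y | b (x₀, y) = y} × {y | b (y, x₀) = y} => ((y'.2 : X'), (y'.1 : X')) :=
      (continuous_subtype_val.comp continuous_snd).prodMk (continuous_subtype_val.comp continuous_fst)
    have a₁ : ContMDiffAt ((mI n₁).prod (mI n₂)) (mI n₁) ω
        (fun y' : {y | b (x₀, y) = y} × {y | b (y, x₀) = y} => F (chartAt (Model n₁) y.1 y'.1)) y := by
      refine ContMDiffAt.comp y (g := F) ?_ (ContMDiffAt.comp y (g := chartAt (Model n₁) y.1)
        (contMDiffOn_chart.contMDiffAt (chart_source_mem_nhds _ _)) contMDiffAt_fst)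
      rw [e₁]
      exact hF.contDiffAt.contMDiffAt
    have a₂ : ContMDiffAt ((mI n₁).prod (mI n₂)) (mI n₂) ω
        (fun y' : {y | b (x₀, y) = y} × {y | b (y, x₀) = y} => G (chartAt (Model n₂) y.2 y'.2)) y := by
      refine ContMDiffAt.comp y (g := G) ?_ (ContMDiffAt.comp y (g := chartAt (Model n₂) y.2)
        (contMDiffOn_chart.contMDiffAt (chart_source_mem_nhds _ _)) contMDiffAt_snd)
      rw [e₂]
      exact hG.contDiffAt.contMDiffAt
    have a₃ : ∀ᶠ y' : {y | b (x₀, y) = y} × {y | b (y, x₀) = y} in 𝓝 y, 𝒰.κ k (b (y'.2, y'.1)) =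
        (F (chartAt (Model n₁) y.1 y'.1), G (chartAt (Model n₂) y.2 y'.2)) := by
      filter_upwards [hs.continuousAt.eventually hev] with y' hy'
      rw [e₁, e₂]
      exact hy'
    have a₄ : ContMDiffAt 𝓘(ℂ, Model n₁ × Model n₂) (mI n) ω (𝒰.κ k).symm
        (F (chartAt (Model n₁) y.1 y.1), G (chartAt (Model n₂) y.2 y.2)) :=
      (hc k).hol_symm.contMDiffAt ((𝒰.κ k).open_target.mem_nhds (a₃.self_of_nhds ▸ (𝒰.κ k).map_source hk))
    refine (ContMDiffAt.comp y a₄ (a₁.prodMk_space a₂)).congr_of_eventuallyEq ?_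
    filter_upwards [a₃, (hcont.comp hs).continuousAt.eventually ((𝒰.κ k).open_source.mem_nhds hk)] with y' h1 h2
    rw [Function.comp, ← h1]
    exact ((𝒰.κ k).left_inv h2).symm
  · obtain ⟨l, hl⟩ := 𝒰.cov x
    rw [mfderiv_prodMk ((d₁ x l hl).1.mdifferentiableAt (by simp)) ((d₂ x l hl).1.mdifferentiableAt (by simp))]
    exact ⟨fun h => (d₂ x l hl).2 v ((hc l).first x hl v h), fun h => (d₁ x l hl).2 v ((hc l).second x hl v h)⟩

end

end Crest.Agent.R266

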