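import Crest.Agent.R266.Defs

/-!
# Row 266: analytic maps into a space with an atlas
-/

set_option autoImplicit false
set_option linter.unusedSectionVars false
set_option linter.unusedVariables false

namespace Crest.Agent.R266

open Set Metric Filter Topology MeasureTheory Polynomial
open scoped ENNReal Classical

noncomputable section

variable {X Y Z E F G D D' : Type} [TopologicalSpace X] [TopologicalSpace Y] [TopologicalSpace Z]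
  [NormedAddCommGroup E] [NormedSpace ℂ E] [CompleteSpace E] [NormedAddCommGroup F] [NormedSpace ℂ F] [CompleteSpace F]
  [NormedAddCommGroup G] [NormedSpace ℂ G] [CompleteSpace G]
  [NormedAddCommGroup D] [NormedSpace ℂ D] [NormedAddCommGroup D'] [NormedSpace ℂ D']
  {𝒜 : Atl X E} {ℬ : Atl Y F} {𝒞 : Atl Z G}

namespace Atl

/-- one chart suffices: `κ j ∘ f =ᶠ (κ j ∘ (κ i).symm) ∘ (κ i ∘ f)` -/
theorem An_of {f : D → X} {p : D} (i : 𝒜.ι) (hc : ContinuousAt f p) (hi : f p ∈ (𝒜.κ i).source)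
    (h : AnalyticAt ℂ (𝒜.κ i ∘ f) p) : 𝒜.An f p := by
  refine ⟨hc, fun j hj => ?_⟩
  have h1 : AnalyticAt ℂ ((𝒜.κ j ∘ (𝒜.κ i).symm) ∘ (𝒜.κ i ∘ f)) p :=
    AnalyticAt.comp (g := 𝒜.κ j ∘ (𝒜.κ i).symm) (f := 𝒜.κ i ∘ f) (𝒜.an i j _ hi hj) h
  refine h1.congr ?_
  filter_upwards [hc.eventually ((𝒜.κ i).open_source.mem_nhds hi)] with q hq
  simp only [Function.comp, (𝒜.κ i).left_inv hq]

theorem An_symm {H : D → E} {p : D} (i : 𝒜.ι) (hH : AnalyticAt ℂ H p) (ht : H p ∈ (𝒜.κ i).target) :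
    𝒜.An (fun q => (𝒜.κ i).symm (H q)) p := by
  refine An_of i (((𝒜.κ i).continuousAt_symm ht).comp hH.continuousAt) ((𝒜.κ i).map_target ht) ?_
  refine hH.congr ?_
  filter_upwards [hH.continuousAt.eventually ((𝒜.κ i).open_target.mem_nhds ht)] with q hq
  simp only [Function.comp, (𝒜.κ i).right_inv hq]

theorem An_const (x : X) (p : D) : 𝒜.An (fun _ => x) p := by
  exact ⟨continuousAt_const, fun i _ => analyticAt_const⟩

theorem An.congr {f g : D → X} {p : D} (h : 𝒜.An f p) (e : f =ᶠ[𝓝 p] g) : 𝒜.An g p := by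
  refine ⟨h.1.congr e, fun i hi => ?_⟩
  rw [← e.self_of_nhds] at hi
  exact (h.2 i hi).congr (e.fun_comp _)

theorem An.eventually {f : D → X} {p : D} (h : 𝒜.An f p) : ∀ᶠ q in 𝓝 p, 𝒜.An f q := by
  obtain ⟨i, hi⟩ := 𝒜.cov (f p)
  have h1 := h.1.eventually ((𝒜.κ i).open_source.mem_nhds hi)
  filter_upwards [h1.eventually_nhds, (h.2 i hi).eventually_analyticAt] with q hq hq'
  refine (An_symm i hq' ((𝒜.κ i).map_source hq.self_of_nhds)).congr ?_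
  filter_upwards [hq] with r hr
  exact (𝒜.κ i).left_inv hr

theorem An.comp {f : D → X} {g : D' → D} {q : D'} (h : 𝒜.An f (g q)) (hg : AnalyticAt ℂ g q) :
    𝒜.An (fun x => f (g x)) q := by
  exact ⟨h.1.comp hg.continuousAt, fun i hi => (h.2 i hi).comp hg⟩

theorem An.prodMk {f : D → X} {g : D → Y} {p : D} (hf : 𝒜.An f p) (hg : ℬ.An g p) :
    (𝒜.prod ℬ).An (fun q => (f q, g q)) p := by
  exact ⟨hf.1.prodMk hg.1, fun i hi => (hf.2 i.1 hi.1).prod (hg.2 i.2 hi.2)⟩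

theorem An.evEq_of_closure [T2Space X] {f g : D → X} {p : D} (hf : 𝒜.An f p) (hg : 𝒜.An g p)
    (hp : p ∈ closure {q | f =ᶠ[𝓝 q] g}) : f =ᶠ[𝓝 p] g := by
  have hfr : ∃ᶠ q in 𝓝 p, f =ᶠ[𝓝 q] g := mem_closure_iff_frequently.1 hp
  have e0 : f p = g p := tendsto_nhds_unique_of_frequently_eq hf.1 hg.1 (hfr.mono fun q hq => hq.self_of_nhds)
  obtain ⟨i, hi⟩ := 𝒜.cov (f p)
  have hi' : g p ∈ (𝒜.κ i).source := e0 ▸ hi
  obtain ⟨r, hr, hb⟩ := Metric.eventually_nhds_iff_ball.1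
    ((hf.2 i hi).eventually_analyticAt.and ((hg.2 i hi').eventually_analyticAt.and
      ((hf.1.eventually ((𝒜.κ i).open_source.mem_nhds hi)).and
        (hg.1.eventually ((𝒜.κ i).open_source.mem_nhds hi')))))
  obtain ⟨q, hq, hqb⟩ := (hfr.and_eventually (ball_mem_nhds p hr)).exists
  have h1 : EqOn (𝒜.κ i ∘ f) (𝒜.κ i ∘ g) (ball p r) :=
    AnalyticOnNhd.eqOn_of_preconnected_of_eventuallyEq (fun z hz => (hb z hz).1) (fun z hz => (hb z hz).2.1)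
      (convex_ball p r).isPreconnected hqb (hq.fun_comp _)
  filter_upwards [ball_mem_nhds p hr] with z hz
  exact (𝒜.κ i).injOn (hb z hz).2.2.1 (hb z hz).2.2.2 (h1 hz)

/-- **Identity theorem.**  `{p | f =ᶠ[𝓝 p] g}` is open; at a point `p ∈ U` of its closure `f p = g p` (`T2`), and in a
chart at `f p` use `AnalyticOnNhd.eqOn_of_preconnected_of_eventuallyEq` on a small ball.
(`IsPreconnected.subset_of_closure_inter_subset`) -/
theorem An.evEq [T2Space X] {f g : D → X} {U : Set D} (hU : IsPreconnected U) (hf : ∀ p ∈ U, 𝒜.An f p)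
    (hg : ∀ p ∈ U, 𝒜.An g p) {p₀ : D} (h₀ : p₀ ∈ U) (e : f =ᶠ[𝓝 p₀] g) : ∀ p ∈ U, f =ᶠ[𝓝 p] g := by
  have ho : IsOpen {p | f =ᶠ[𝓝 p] g} := isOpen_setOfPred_eventually_nhds
  refine hU.subset_of_closure_inter_subset ho ⟨p₀, h₀, e⟩ ?_
  rintro p ⟨hp, hpU⟩
  exact An.evEq_of_closure (hf p hpU) (hg p hpU) hp

theorem MAn_of {f : X → Y} {x : X} (i : 𝒜.ι) (hi : x ∈ (𝒜.κ i).source)
    (h : ℬ.An (f ∘ (𝒜.κ i).symm) (𝒜.κ i x)) : 𝒜.MAn ℬ f x := by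
  intro j hj
  have h1 : ℬ.An (fun y => (f ∘ (𝒜.κ i).symm) ((𝒜.κ i ∘ (𝒜.κ j).symm) y)) (𝒜.κ j x) := by
    refine An.comp ?_ (𝒜.an j i x hj hi)
    simpa only [Function.comp, (𝒜.κ j).left_inv hj] using h
  refine h1.congr ?_
  have h2 : ∀ᶠ y in 𝓝 (𝒜.κ j x), (𝒜.κ j).symm y ∈ (𝒜.κ i).source := by
    refine ((𝒜.κ j).continuousAt_symm ((𝒜.κ j).map_source hj)).eventually ?_
    rw [(𝒜.κ j).left_inv hj]
    exact (𝒜.κ i).open_source.mem_nhds hi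
  filter_upwards [h2] with y hy
  simp only [Function.comp, (𝒜.κ i).left_inv hy]

theorem MAn.continuousAt {f : X → Y} {x : X} (h : 𝒜.MAn ℬ f x) : ContinuousAt f x := by
  obtain ⟨i, hi⟩ := 𝒜.cov x
  refine ((h i hi).1.comp ((𝒜.κ i).continuousAt hi)).congr ?_
  filter_upwards [(𝒜.κ i).open_source.mem_nhds hi] with y hy
  simp only [Function.comp, (𝒜.κ i).left_inv hy]

theorem MAn.congr {f g : X → Y} {x : X} (h : 𝒜.MAn ℬ f x) (e : f =ᶠ[𝓝 x] g) : 𝒜.MAn ℬ g x := by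
  intro i hi
  refine (h i hi).congr ?_
  have h1 : Tendsto (𝒜.κ i).symm (𝓝 (𝒜.κ i x)) (𝓝 x) := (𝒜.κ i).tendsto_symm hi
  exact h1.eventually e

theorem MAn.eventually {f : X → Y} {x : X} (h : 𝒜.MAn ℬ f x) : ∀ᶠ y in 𝓝 x, 𝒜.MAn ℬ f y := by
  obtain ⟨i, hi⟩ := 𝒜.cov x
  filter_upwards [(𝒜.κ i).open_source.mem_nhds hi, ((𝒜.κ i).continuousAt hi).eventually (h i hi).eventually]
    with y hy hy'
  exact MAn_of i hy hy'

theorem MAn.comp_An {f : X → Y} {g : D → X} {p : D} (hf : 𝒜.MAn ℬ f (g p)) (hg : 𝒜.An g p) :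
    ℬ.An (fun q => f (g q)) p := by
  obtain ⟨i, hi⟩ := 𝒜.cov (g p)
  refine (An.comp (f := f ∘ (𝒜.κ i).symm) (g := 𝒜.κ i ∘ g) (hf i hi) (hg.2 i hi)).congr ?_
  filter_upwards [hg.1.eventually ((𝒜.κ i).open_source.mem_nhds hi)] with q hq
  simp only [Function.comp, (𝒜.κ i).left_inv hq]

theorem MAn.comp {f : Y → Z} {g : X → Y} {x : X} (hf : ℬ.MAn 𝒞 f (g x)) (hg : 𝒜.MAn ℬ g x) :
    𝒜.MAn 𝒞 (fun y => f (g y)) x := by
  intro i hi
  refine MAn.comp_An (f := f) (g := g ∘ (𝒜.κ i).symm) ?_ (hg i hi)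
  simpa only [Function.comp, (𝒜.κ i).left_inv hi] using hf

theorem MAn_id (x : X) : 𝒜.MAn 𝒜 (fun y => y) x := by
  intro i hi
  exact An_symm i analyticAt_id ((𝒜.κ i).map_source hi)

theorem MAn_fst (x : X × Y) : (𝒜.prod ℬ).MAn 𝒜 (fun y => y.1) x := by
  intro i hi
  exact An_symm (H := fun y : E × F => y.1) i.1 analyticAt_fst ((𝒜.κ i.1).map_source hi.1)

theorem MAn_snd (x : X × Y) : (𝒜.prod ℬ).MAn ℬ (fun y => y.2) x := by
  intro i hi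
  exact An_symm (H := fun y : E × F => y.2) i.2 analyticAt_snd ((ℬ.κ i.2).map_source hi.2)

theorem MAn.prodMk {f : X → Y} {g : X → Z} {x : X} (hf : 𝒜.MAn ℬ f x) (hg : 𝒜.MAn 𝒞 g x) :
    𝒜.MAn (ℬ.prod 𝒞) (fun y => (f y, g y)) x := by
  intro i hi
  exact (hf i hi).prodMk (hg i hi)

/-- as `An.evEq`; at a point of the closure use `An.evEq` on a ball in a chart -/
theorem MAn.evEq [T2Space Y] {f g : X → Y} {U : Set X} (hU : IsPreconnected U) (hf : ∀ p ∈ U, 𝒜.MAn ℬ f p)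
    (hg : ∀ p ∈ U, 𝒜.MAn ℬ g p) {p₀ : X} (h₀ : p₀ ∈ U) (e : f =ᶠ[𝓝 p₀] g) : ∀ p ∈ U, f =ᶠ[𝓝 p] g := by
  have ho : IsOpen {p | f =ᶠ[𝓝 p] g} := isOpen_setOfPred_eventually_nhds
  refine hU.subset_of_closure_inter_subset ho ⟨p₀, h₀, e⟩ ?_
  rintro p ⟨hp, hpU⟩
  obtain ⟨i, hi⟩ := 𝒜.cov p
  have h1 : f ∘ (𝒜.κ i).symm =ᶠ[𝓝 (𝒜.κ i p)] g ∘ (𝒜.κ i).symm := by
    refine An.evEq_of_closure (hf p hpU i hi) (hg p hpU i hi) ?_
    have hp' : ∃ᶠ q in 𝓝 p, f =ᶠ[𝓝 q] g := mem_closure_iff_frequently.1 hp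
    refine mem_closure_iff_frequently.2 (((𝒜.κ i).continuousAt hi).tendsto.frequently ?_)
    refine (hp'.and_eventually ((𝒜.κ i).open_source.mem_nhds hi)).mono fun q hq => ?_
    exact ((𝒜.κ i).tendsto_symm hq.2).eventually hq.1
  filter_upwards [((𝒜.κ i).continuousAt hi).eventually h1, (𝒜.κ i).open_source.mem_nhds hi] with q hq hq'
  simpa only [Function.comp, (𝒜.κ i).left_inv hq'] using hq

/-! ### Jacobians -/

theorem An.fderiv_chart {f : D → X} {p : D} (h : 𝒜.An f p) {i j : 𝒜.ι} (hi : f p ∈ (𝒜.κ i).source)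
    (hj : f p ∈ (𝒜.κ j).source) (v : D) :
    fderiv ℂ (𝒜.κ j ∘ f) p v = 𝒜.J i j (f p) (fderiv ℂ (𝒜.κ i ∘ f) p v) := by
  have e : 𝒜.κ j ∘ f =ᶠ[𝓝 p] (𝒜.κ j ∘ (𝒜.κ i).symm) ∘ (𝒜.κ i ∘ f) := by
    filter_upwards [h.1.eventually ((𝒜.κ i).open_source.mem_nhds hi)] with q hq
    simp only [Function.comp, (𝒜.κ i).left_inv hq]
  rw [e.fderiv_eq, fderiv_comp p (g := 𝒜.κ j ∘ (𝒜.κ i).symm) (f := 𝒜.κ i ∘ f)
    (𝒜.an i j _ hi hj).differentiableAt (h.2 i hi).differentiableAt]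
  rfl

theorem An.deriv_chart {f : ℂ → X} {p : ℂ} (h : 𝒜.An f p) {i j : 𝒜.ι} (hi : f p ∈ (𝒜.κ i).source)
    (hj : f p ∈ (𝒜.κ j).source) : deriv (𝒜.κ j ∘ f) p = 𝒜.J i j (f p) (deriv (𝒜.κ i ∘ f) p) := by
  exact h.fderiv_chart hi hj 1

theorem J_self {i : 𝒜.ι} {x : X} (hi : x ∈ (𝒜.κ i).source) (v : E) : 𝒜.J i i x v = v := by
  have e : 𝒜.κ i ∘ (𝒜.κ i).symm =ᶠ[𝓝 (𝒜.κ i x)] id := by
    filter_upwards [(𝒜.κ i).open_target.mem_nhds ((𝒜.κ i).map_source hi)] with y hy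
    exact (𝒜.κ i).right_inv hy
  simp [Atl.J, e.fderiv_eq]

theorem J_comp {i j k : 𝒜.ι} {x : X} (hi : x ∈ (𝒜.κ i).source) (hj : x ∈ (𝒜.κ j).source)
    (hk : x ∈ (𝒜.κ k).source) (v : E) : 𝒜.J j k x (𝒜.J i j x v) = 𝒜.J i k x v := by
  have h : 𝒜.An (𝒜.κ i).symm (𝒜.κ i x) := An_symm i analyticAt_id ((𝒜.κ i).map_source hi)
  have h1 := h.fderiv_chart (i := j) (j := k) (by rwa [(𝒜.κ i).left_inv hi]) (by rwa [(𝒜.κ i).left_inv hi]) v
  rw [(𝒜.κ i).left_inv hi] at h1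
  exact h1.symm

theorem J_inj {i j : 𝒜.ι} {x : X} (hi : x ∈ (𝒜.κ i).source) (hj : x ∈ (𝒜.κ j).source) {v : E}
    (h : 𝒜.J i j x v = 0) : v = 0 := by
  rw [← J_self hi v, ← J_comp hi hj hi, h, map_zero]

end Atl

end

end Crest.Agent.R266

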