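import Crest.Agent.R266.Sard

/-!
# Row 266: analytic sets with non-null image have local sections
-/

set_option autoImplicit false
set_option linter.unusedSectionVars false
set_option linter.unusedVariables false

namespace Crest.Agent.R266

open Set Metric Filter Topology MeasureTheory Polynomial
open scoped ENNReal Classical

noncomputable section

section
variable {E : Type} [NormedAddCommGroup E] [NormedSpace ℂ E] [FiniteDimensional ℂ E] [CompleteSpace E]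

/-- The zero set of `h ≢ 0` is covered by countably many smooth hypersurfaces.  With a basis `b` of `E` let `g w`
(`w : List (Fin _)`) be the iterated directional derivatives of `h`.  If at `x` all `g w x = 0` then `h = 0` near `x`
(e.g. all `iteratedFDeriv` vanish; or restrict to lines), hence on `U`.  Take a shortest `w` with `g w x ≠ 0`. -/
theorem hyper_cover {U : Set E} (hU : IsOpen U) (hc : IsPreconnected U) {h : E → ℂ} (hh : AnalyticOnNhd ℂ h U)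
    {x₀ : E} (hx₀ : x₀ ∈ U) (h0 : h x₀ ≠ 0) : ∃ g : ℕ → E → ℂ, (∀ k, AnalyticOnNhd ℂ (g k) U) ∧
      ∀ x ∈ U, h x = 0 → ∃ k, g k x = 0 ∧ fderiv ℂ (g k) x ≠ 0 := by
  have : ProperSpace E := FiniteDimensional.proper ℂ E
  have : Nonempty E := ⟨0⟩
  let u := TopologicalSpace.denseSeq E
  let G : E → ℕ → E → ℂ := fun v k => (fun (f : E → ℂ) x => fderiv ℂ f x v)^[k] h
  have Gs : ∀ v k, G v (k + 1) = fun x => fderiv ℂ (G v k) x v := fun v k =>
    Function.iterate_succ_apply' _ _ _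
  have GA : ∀ v k, AnalyticOnNhd ℂ (G v k) U := by
    intro v k
    induction k with
    | zero => exact hh
    | succ k ih =>
      rw [Gs]
      exact fun x hx => ((ContinuousLinearMap.apply ℂ ℂ v).analyticAt _).comp (ih.fderiv x hx)
  refine ⟨fun n => G (u n.unpair.1) n.unpair.2, fun n => GA _ _, fun x hx hx0 => ?_⟩
  by_contra hcon
  have h1 : ∀ i k, G (u i) k x = 0 := by
    intro i k
    induction k with
    | zero => exact hx0
    | succ k ih =>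
      have : fderiv ℂ (G (u i) k) x = 0 := by
        by_contra hne
        exact hcon ⟨Nat.pair i k, by simpa using ih, by simpa using hne⟩
      rw [Gs]
      simp [this]
  obtain ⟨r, hr, hB⟩ := Metric.isOpen_iff.1 hU x hx
  have h2 : ∀ i, u i ∈ ball (0 : E) r → h (x + u i) = 0 := by
    intro i hi
    set v := u i
    have hl : ∀ t : ℂ, HasDerivAt (fun t : ℂ => x + t • v) v t := fun t => by
      simpa using ((hasDerivAt_id t).smul_const v).const_add x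
    have hla : ∀ t : ℂ, AnalyticAt ℂ (fun t : ℂ => x + t • v) t := fun t => by fun_prop
    let S : Set ℂ := (fun t : ℂ => t • v) ⁻¹' ball 0 r
    have hS : ∀ t ∈ S, x + t • v ∈ U := fun t ht => hB (by simpa [S] using ht)
    have hSo : IsOpen S := isOpen_ball.preimage (by fun_prop)
    have hSc : Convex ℝ S := (convex_ball (0 : E) r).linear_preimage
      ((LinearMap.toSpanSingleton ℂ E v).restrictScalars ℝ)
    have h0S : (0 : ℂ) ∈ S := by simpa [S] using hr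
    have hφ : AnalyticOnNhd ℂ (fun t : ℂ => h (x + t • v)) S := fun t ht =>
      (hh _ (hS t ht)).comp_of_eq (hla t) rfl
    have hd : ∀ k, ∀ t ∈ S, iteratedDeriv k (fun t : ℂ => h (x + t • v)) t = G v k (x + t • v) := by
      intro k
      induction k with
      | zero => intro t _; rfl
      | succ k ih =>
        intro t ht
        rw [iteratedDeriv_succ, Gs,
          Filter.EventuallyEq.deriv_eq ((hSo.eventually_mem ht).mono ih)]
        exact ((GA v k _ (hS t ht)).differentiableAt.hasFDerivAt.comp_hasDerivAt t (hl t)).deriv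
    have hz : ∀ᶠ t in 𝓝 (0 : ℂ), h (x + t • v) = 0 := by
      rw [← analyticOrderAt_eq_top, ENat.eq_top_iff_forall_ge]
      intro n
      rw [natCast_le_analyticOrderAt_iff_iteratedDeriv_eq_zero (hφ 0 h0S)]
      intro k _
      rw [hd k 0 h0S]
      simpa using h1 i k
    simpa using hφ.eqOn_zero_of_preconnected_of_eventuallyEq_zero hSc.isPreconnected h0S hz
      (show (1 : ℂ) ∈ S by simpa [S] using hi)
  have h3 : h =ᶠ[𝓝 x] 0 := by
    filter_upwards [ball_mem_nhds x hr] with y hy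
    by_contra hne
    have hev : ∀ᶠ w in 𝓝 (y - x), w ∈ ball (0 : E) r ∧ h (x + w) ≠ 0 := by
      refine (isOpen_ball.eventually_mem (by simpa [dist_eq_norm] using hy)).and ?_
      have : ContinuousAt (fun w => h (x + w)) (y - x) :=
        (hh y (hB hy)).continuousAt.comp_of_eq (by fun_prop) (by simp)
      exact this.eventually_ne (by simpa using hne)
    obtain ⟨w, hw, i, rfl⟩ := mem_closure_iff_nhds.1 (TopologicalSpace.denseRange_denseSeq E (y - x)) _ hev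
    exact hw.2 (h2 i hw.1)
  exact h0 (hh.eqOn_zero_of_preconnected_of_eventuallyEq_zero hc hx h3 hx₀)

/-- implicit function theorem: a smooth hypersurface is parametrised by the kernel of the derivative
(inverse function theorem for `x ↦ (g x, proj (x - c))`) -/
theorem hyper_param {g : E → ℂ} {c : E} (hg : AnalyticAt ℂ g c) (h0 : g c = 0) (hd : fderiv ℂ g c ≠ 0) :
    ∃ (K : Submodule ℂ E) (ψ : K → E), Module.finrank ℂ K + 1 = Module.finrank ℂ E ∧ AnalyticAt ℂ ψ 0 ∧ ψ 0 = c ∧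
      ∀ V ∈ 𝓝 (0 : K), ∀ᶠ x in 𝓝 c, g x = 0 → x ∈ ψ '' V := by
  set L := fderiv ℂ g c with hL
  obtain ⟨v, hv⟩ : ∃ v, L v ≠ 0 := by
    by_contra hcon
    exact hd (ContinuousLinearMap.ext fun v => by simpa using fun h => not_exists.1 hcon v h)
  have hR : Function.RightInverse (ContinuousLinearMap.toSpanSingleton ℂ ((L v)⁻¹ • v)) L := fun t => by
    simp [hv]
  let p := L.projKerOfRightInverse _ hR
  have hΦ : ContDiffAt ℂ ⊤ (fun x => (g x, p (x - c))) c :=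
    (hg.prod ((p.analyticAt _).comp_of_eq (analyticAt_id.sub analyticAt_const) rfl)).contDiffAt
  have hΦ' : HasFDerivAt (fun x => (g x, p (x - c)))
      (ContinuousLinearEquiv.equivOfRightInverse L _ hR : E →L[ℂ] ℂ × L.ker) c :=
    hg.differentiableAt.hasFDerivAt.prodMk (p.hasFDerivAt.comp c ((hasFDerivAt_id c).sub_const c))
  have e0 : (g c, p (c - c)) = (0, 0) := by simp [h0]
  have hi := (hΦ.to_localInverse hΦ' (by simp)).analyticAt
  have hi0 := hΦ.localInverse_apply_image hΦ' (by simp)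
  have hi1 := (hΦ.toOpenPartialHomeomorph _ hΦ' (by simp)).eventually_left_inverse
    (hΦ.mem_toOpenPartialHomeomorph_source hΦ' (by simp))
  simp only [e0] at hi hi0
  refine ⟨L.ker, fun k => hΦ.localInverse hΦ' (by simp) (0, k), ?_,
    hi.comp_of_eq (analyticAt_const.prod analyticAt_id) rfl, hi0, fun V hV => ?_⟩
  · rw [(ContinuousLinearEquiv.equivOfRightInverse L _ hR).toLinearEquiv.finrank_eq,
      Module.finrank_prod, Module.finrank_self, add_comm]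
  · have hc : ContinuousAt (fun x => p (x - c)) c := by fun_prop
    filter_upwards [hi1, hc.eventually (by simpa using hV : ∀ᶠ k in 𝓝 (p (c - c)), k ∈ V)]
      with x h1 h2 h3
    refine ⟨p (x - c), h2, ?_⟩
    rw [← h3]
    exact h1

end

variable {F : Type} [NormedAddCommGroup F] [NormedSpace ℂ F] [FiniteDimensional ℂ F] [CompleteSpace F]
  [MeasurableSpace F] [BorelSpace F] {μ : Measure F} [μ.IsAddHaarMeasure]

theorem sub_aux_pt {E : Type} [NormedAddCommGroup E] [NormedSpace ℂ E] [FiniteDimensional ℂ E]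
    [CompleteSpace E] {Z : Set E} {e : E → F} (hμ : μ (e '' Z) ≠ 0) :
    ∃ c ∈ Z, ∀ W ∈ 𝓝[Z] c, μ (e '' W) ≠ 0 := by
  by_contra hcon
  refine hμ (image_null_of_local fun c hc => ?_)
  by_contra h
  exact hcon ⟨c, hc, fun W hW h0 => h ⟨W, hW, h0⟩⟩

/-- step (A): the set is contained in a hypersurface -/
theorem sub_aux_A {E : Type} [NormedAddCommGroup E] [NormedSpace ℂ E] [FiniteDimensional ℂ E] [CompleteSpace E]
    (ih : ∀ (K : Type) [NormedAddCommGroup K] [NormedSpace ℂ K] [FiniteDimensional ℂ K] [CompleteSpace K],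
      Module.finrank ℂ K < Module.finrank ℂ E → ∀ (U : Set K) (J : Type) (h : J → K → ℂ) (e : K → F), IsOpen U →
      (∀ j, AnalyticOnNhd ℂ (h j) U) → AnalyticOnNhd ℂ e U → μ (e '' {c | c ∈ U ∧ ∀ j, h j c = 0}) ≠ 0 →
      ∃ (t₀ : F) (σ : F → K), AnalyticAt ℂ σ t₀ ∧ ∀ᶠ t in 𝓝 t₀, (σ t ∈ U ∧ ∀ j, h j (σ t) = 0) ∧ e (σ t) = t)
    {U : Set E} {J : Type} {h : J → E → ℂ} {e : E → F} (hU : IsOpen U) (hc : IsPreconnected U)
    (hh : ∀ j, AnalyticOnNhd ℂ (h j) U) (he : AnalyticOnNhd ℂ e U) {g : E → ℂ} (hg : AnalyticOnNhd ℂ g U)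
    {x₀ : E} (hx₀ : x₀ ∈ U) (h0 : g x₀ ≠ 0)
    (hμ : μ (e '' {c | (c ∈ U ∧ ∀ j, h j c = 0) ∧ g c = 0}) ≠ 0) :
    ∃ (t₀ : F) (σ : F → E), AnalyticAt ℂ σ t₀ ∧ ∀ᶠ t in 𝓝 t₀, (σ t ∈ U ∧ ∀ j, h j (σ t) = 0) ∧ e (σ t) = t := by
  obtain ⟨G, hG, hcov⟩ := hyper_cover hU hc hg hx₀ h0
  have hk : ∃ k, μ (e '' {c | (c ∈ U ∧ ∀ j, h j c = 0) ∧ G k c = 0 ∧ fderiv ℂ (G k) c ≠ 0}) ≠ 0 := by
    by_contra hcon
    simp only [not_exists, not_not] at hcon
    refine hμ (measure_mono_null ?_ (measure_iUnion_null hcon))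
    rintro _ ⟨c, hc, rfl⟩
    obtain ⟨k, hk⟩ := hcov c hc.1.1 hc.2
    exact mem_iUnion.2 ⟨k, c, ⟨hc.1, hk⟩, rfl⟩
  obtain ⟨k, hk⟩ := hk
  obtain ⟨c, hcZ, hW⟩ := sub_aux_pt hk
  obtain ⟨K, ψ, hK, hψ, hψ0, hV⟩ := hyper_param (hG k c hcZ.1.1) hcZ.2.1 hcZ.2.2
  have h1 : ∀ᶠ y in 𝓝 (0 : K), AnalyticAt ℂ ψ y ∧ ψ y ∈ U :=
    hψ.eventually_analyticAt.and (hψ.continuousAt.eventually (hU.mem_nhds (hψ0 ▸ hcZ.1.1)))
  obtain ⟨V, hV1, hV2, hV3⟩ := _root_.eventually_nhds_iff.1 h1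
  have h2 := hW _ (inter_mem_nhdsWithin _ (hV V (hV2.mem_nhds hV3)))
  obtain ⟨t₀, σ, hσ, hev⟩ := ih K (by omega) V J (fun j => h j ∘ ψ) (e ∘ ψ) hV2
    (fun j y hy => (hh j _ (hV1 y hy).2).comp (hV1 y hy).1)
    (fun y hy => (he _ (hV1 y hy).2).comp (hV1 y hy).1)
    (fun h3 => h2 (measure_mono_null (by
      rintro _ ⟨x, ⟨hx1, hx2⟩, rfl⟩
      obtain ⟨y, hy, rfl⟩ := hx2 hx1.2.1
      exact ⟨y, ⟨hy, hx1.1.2⟩, rfl⟩) h3))
  refine ⟨t₀, ψ ∘ σ, (hV1 _ hev.self_of_nhds.1.1).1.comp hσ, ?_⟩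
  filter_upwards [hev] with t ht
  exact ⟨⟨(hV1 _ ht.1.1).2, ht.1.2⟩, ht.2⟩

/-- Induction on the dimension.  By `image_null_of_local` we may assume that `U` is a ball.
(A) If `Z ⊆ {h = 0}` for some analytic `h ≢ 0` on `U`: `hyper_cover`, `image_null_of_local`, `hyper_param`, induction hypothesis
for the family `h j ∘ ψ` and `e ∘ ψ` (impossible in dimension `0`).  (B) Otherwise `Z = U`.  If `De` is onto somewhere:
`exists_section`.  If not, take `c` of maximal rank and `m` from `exists_minor`; `e '' {m ≠ 0}` is null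
(`const_rank_null`), so (A) applies to `{m = 0}`. -/
theorem sub_aux (k : ℕ) : ∀ (E : Type) [NormedAddCommGroup E] [NormedSpace ℂ E] [FiniteDimensional ℂ E]
    [CompleteSpace E], Module.finrank ℂ E = k → ∀ (U : Set E) (J : Type) (h : J → E → ℂ) (e : E → F), IsOpen U →
      (∀ j, AnalyticOnNhd ℂ (h j) U) → AnalyticOnNhd ℂ e U → μ (e '' {c | c ∈ U ∧ ∀ j, h j c = 0}) ≠ 0 →
      ∃ (t₀ : F) (σ : F → E), AnalyticAt ℂ σ t₀ ∧ ∀ᶠ t in 𝓝 t₀, (σ t ∈ U ∧ ∀ j, h j (σ t) = 0) ∧ e (σ t) = t := by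
  induction k using Nat.strong_induction_on with
  | _ k ih =>
  intro E _ _ _ _ hE U J h e hU hh he hμ
  have ih' := fun (K : Type) [NormedAddCommGroup K] [NormedSpace ℂ K] [FiniteDimensional ℂ K]
    [CompleteSpace K] (hK : Module.finrank ℂ K < Module.finrank ℂ E) => ih _ (hE ▸ hK) K rfl
  obtain ⟨c, hc, hW⟩ := sub_aux_pt hμ
  obtain ⟨r, hr, hB⟩ := Metric.isOpen_iff.1 hU c hc.1
  have hμB : μ (e '' {x | x ∈ ball c r ∧ ∀ j, h j x = 0}) ≠ 0 := fun h0 =>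
    hW _ (inter_mem_nhdsWithin _ (ball_mem_nhds c hr))
      (measure_mono_null (image_mono fun x hx => by exact ⟨hx.2, hx.1.2⟩) h0)
  have hh' : ∀ j, AnalyticOnNhd ℂ (h j) (ball c r) := fun j => (hh j).mono hB
  have he' : AnalyticOnNhd ℂ e (ball c r) := he.mono hB
  have hconn : IsPreconnected (ball c r) := (convex_ball c r).isPreconnected
  suffices H : ∃ (t₀ : F) (σ : F → E), AnalyticAt ℂ σ t₀ ∧
      ∀ᶠ t in 𝓝 t₀, (σ t ∈ ball c r ∧ ∀ j, h j (σ t) = 0) ∧ e (σ t) = t by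
    obtain ⟨t₀, σ, h1, h2⟩ := H
    exact ⟨t₀, σ, h1, h2.mono fun t ht => ⟨⟨hB ht.1.1, ht.1.2⟩, ht.2⟩⟩
  by_cases hA : ∃ j, ∃ x ∈ ball c r, h j x ≠ 0
  · obtain ⟨j, x, hx, hj⟩ := hA
    exact sub_aux_A ih' isOpen_ball hconn hh' he' (hh' j) hx hj fun h0 =>
      hμB (measure_mono_null (image_mono fun y hy => by exact ⟨hy, hy.2 j⟩) h0)
  have hz : ∀ j, ∀ x ∈ ball c r, h j x = 0 := fun j x hx => by
    by_contra h0
    exact hA ⟨j, x, hx, h0⟩
  by_cases hS : ∃ x ∈ ball c r, Function.Surjective (fderiv ℂ e x)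
  · obtain ⟨x, hx, hs⟩ := hS
    obtain ⟨σ, h1, h2, h3⟩ := exists_section (he' x hx) hs
    refine ⟨e x, σ, h1, ?_⟩
    filter_upwards [h3, h1.continuousAt.eventually (isOpen_ball.mem_nhds (h2.symm ▸ hx))] with t ht ht'
    exact ⟨⟨ht', fun j => hz j _ ht'⟩, ht⟩
  have hbd : BddAbove ((fun x => Module.finrank ℂ (LinearMap.range (fderiv ℂ e x : E →ₗ[ℂ] F))) '' ball c r) :=
    ⟨Module.finrank ℂ F, by rintro _ ⟨x, -, rfl⟩; exact Submodule.finrank_le _⟩
  obtain ⟨c', hc', hmax⟩ := Nat.sSup_mem ((nonempty_ball.2 hr).image _) hbd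
  have hle : ∀ x ∈ ball c r, Module.finrank ℂ (LinearMap.range (fderiv ℂ e x : E →ₗ[ℂ] F)) ≤
      Module.finrank ℂ (LinearMap.range (fderiv ℂ e c' : E →ₗ[ℂ] F)) := fun x hx =>
    (le_csSup hbd ⟨x, hx, rfl⟩).trans hmax.ge
  obtain ⟨m, hm, hm0, hm1⟩ := exists_minor he' c'
  have hnull : μ (e '' {x | x ∈ ball c r ∧ m x ≠ 0}) = 0 := by
    refine image_null_of_local fun x hx => ?_
    obtain ⟨W, hW1, hW2⟩ := const_rank_null (μ := μ) (he' x hx.1) (fun hs => hS ⟨x, hx.1, hs⟩) (by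
      filter_upwards [isOpen_ball.mem_nhds hx.1] with y hy using (hle y hy).trans (hm1 x hx.2))
    exact ⟨W, mem_nhdsWithin_of_mem_nhds hW1, hW2⟩
  refine sub_aux_A ih' isOpen_ball hconn hh' he' hm hc' hm0 fun h0 => hμB ?_
  refine measure_mono_null ?_ (measure_union_null h0 hnull)
  rintro _ ⟨x, hx, rfl⟩
  by_cases hmx : m x = 0
  · exact Or.inl ⟨x, ⟨hx, hmx⟩, rfl⟩
  · exact Or.inr ⟨x, ⟨hx.1, hmx⟩, rfl⟩

theorem sub {E : Type} [NormedAddCommGroup E] [NormedSpace ℂ E] [FiniteDimensional ℂ E] [CompleteSpace E]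
    {Z : Set E} (hZ : LocAn Z) {e : E → F}
    (he : ∀ c ∈ Z, ∃ e' : E → F, AnalyticAt ℂ e' c ∧ ∀ᶠ x in 𝓝[Z] c, e x = e' x) (hμ : μ (e '' Z) ≠ 0) :
    ∃ (t₀ : F) (σ : F → E), AnalyticAt ℂ σ t₀ ∧ ∀ᶠ t in 𝓝 t₀, σ t ∈ Z ∧ e (σ t) = t := by
  obtain ⟨c, hc, hW⟩ := sub_aux_pt hμ
  obtain ⟨J, h, U, hU, hcU, hh, hZU⟩ := hZ c hc
  obtain ⟨e', he', hee⟩ := he c hc
  have h1 : ∀ᶠ x in 𝓝 c, x ∈ U ∧ AnalyticAt ℂ e' x ∧ (x ∈ Z → e x = e' x) :=
    (hU.eventually_mem hcU).and (he'.eventually_analyticAt.and (eventually_nhdsWithin_iff.1 hee))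
  obtain ⟨V, hV1, hV2, hV3⟩ := _root_.eventually_nhds_iff.1 h1
  obtain ⟨t₀, σ, hσ, hev⟩ := sub_aux (μ := μ) _ E rfl V J h e' hV2
    (fun j => (hh j).mono fun x hx => (hV1 x hx).1) (fun x hx => (hV1 x hx).2.1)
    (fun h0 => hW _ (inter_mem_nhdsWithin _ (hV2.mem_nhds hV3)) (measure_mono_null (by
      rintro _ ⟨x, ⟨hx1, hx2⟩, rfl⟩
      exact ⟨x, ⟨hx2, (hZU x (hV1 x hx2).1).1 hx1⟩, ((hV1 x hx2).2.2 hx1).symm⟩) h0))
  refine ⟨t₀, σ, hσ, hev.mono fun t ht => ?_⟩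
  have h2 : σ t ∈ Z := (hZU _ (hV1 _ ht.1.1).1).2 ht.1.2
  exact ⟨h2, ((hV1 _ ht.1.1).2.2 h2).trans ht.2⟩

end

end Crest.Agent.R266

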