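import Crest.Agent.R266.Defs

/-!
# Row 266: monodromy theorem
-/

set_option autoImplicit false
set_option linter.unusedSectionVars false
set_option linter.unusedVariables false

namespace Crest.Agent.R266

open Set Metric Filter Topology MeasureTheory Polynomial
open scoped ENNReal Classical

noncomputable section

section monodromy
open CategoryTheory TopologicalSpace Opposite

/-- functions which agree near every point with a good function -/
def monodromy_pred {Y T : Type} [TopologicalSpace Y] (Good : (Y → T) → Y → Prop) :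
    TopCat.PrelocalPredicate (X := TopCat.of Y) fun _ => T where
  pred {U} f := ∀ y ∈ U, ∃ β, Good β y ∧ ∀ᶠ z in 𝓝 y, ∀ hz : z ∈ U, f ⟨z, hz⟩ = β z
  res i _ h y hy := (h y (i.le hy)).imp fun _ hβ => ⟨hβ.1, hβ.2.mono fun _ hz hz' => hz (i.le hz')⟩

theorem monodromy_germ {Y T : Type} [TopologicalSpace Y] {Good : (Y → T) → Y → Prop} {U V : Opens (TopCat.of Y)} {y : Y}
    (hU : y ∈ U) (hV : y ∈ V) (s : (TopCat.subpresheafToTypes (monodromy_pred Good)).obj (op U))
    (t : (TopCat.subpresheafToTypes (monodromy_pred Good)).obj (op V)) :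
    (TopCat.subpresheafToTypes (monodromy_pred Good)).germ U y hU s =
      (TopCat.subpresheafToTypes (monodromy_pred Good)).germ V y hV t ↔
      ∀ᶠ z in 𝓝 y, ∀ (h : z ∈ U) (h' : z ∈ V), s.1 ⟨z, h⟩ = t.1 ⟨z, h'⟩ := by
  constructor
  · intro h
    obtain ⟨W, hW, i, j, e⟩ := TopCat.Presheaf.germ_eq
      (TopCat.subpresheafToTypes (monodromy_pred Good)) y hU hV s t h
    filter_upwards [W.isOpen.mem_nhds hW] with z hz _ _
    exact congrFun (congrArg Subtype.val e) ⟨z, hz⟩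
  · intro h
    obtain ⟨W, h1, h2, h3⟩ := eventually_nhds_iff.1 h
    refine TopCat.Presheaf.germ_ext _ (⟨W, h2⟩ ⊓ (U ⊓ V)) ⟨h3, hU, hV⟩
      (homOfLE (inf_le_right.trans inf_le_left)) (homOfLE (inf_le_right.trans inf_le_right)) ?_
    exact Subtype.ext (funext fun z => h1 z z.2.1 z.2.2.1 z.2.2.2)

theorem monodromy_cov {Y T : Type} [TopologicalSpace Y] [LocallyPathConnectedSpace Y]
    {Good : (Y → T) → Y → Prop} (hc : ∀ β β' y, Good β y → β =ᶠ[𝓝 y] β' → Good β' y)
    (he : ∀ y₀, ∃ N ∈ 𝓝 y₀, ∀ y ∈ N, ∀ β, Good β y → ∃ β', β' =ᶠ[𝓝 y] β ∧ ∀ y' ∈ N, Good β' y')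
    (hu : ∀ (U : Set Y) (β β' : Y → T), IsPreconnected U → (∀ y ∈ U, Good β y) → (∀ y ∈ U, Good β' y) →
      ∀ y ∈ U, β =ᶠ[𝓝 y] β' → ∀ y' ∈ U, β =ᶠ[𝓝 y'] β') (β₀ : Y → T) :
    IsCoveringMap (TopCat.Presheaf.EtaleSpace.base (F := TopCat.subpresheafToTypes (monodromy_pred Good))) := by
  refine TopCat.Presheaf.EtaleSpace.isCoveringMap_base fun x => ?_
  obtain ⟨N, hN, h⟩ := he x
  have hx : x ∈ interior N := mem_interior_iff_mem_nhds.2 hN
  let U : Opens (TopCat.of Y) := ⟨pathComponentIn (interior N) x, isOpen_interior.pathComponentIn x⟩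
  have hUN : ∀ z ∈ U, z ∈ N := fun z hz => interior_subset (pathComponentIn_subset hz)
  refine ⟨U, mem_pathComponentIn_self hx, fun y hy => ⟨fun s t hst => ?_, fun g => ?_⟩⟩
  · have ex : ∀ s : (TopCat.subpresheafToTypes (monodromy_pred Good)).obj (op U), ∀ z ∈ U,
        Good (fun z => if h : z ∈ U then s.1 ⟨z, h⟩ else β₀ z) z := fun s z hz => by
      obtain ⟨β, h1, h2⟩ := s.2 z hz
      refine hc _ _ z h1 ?_
      filter_upwards [h2, U.isOpen.mem_nhds hz] with w hw (hw' : w ∈ U)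
      rw [dif_pos hw', hw hw']
    have key := hu U _ _ (isPathConnected_pathComponentIn hx).isConnected.isPreconnected (ex s) (ex t) y hy (by
      filter_upwards [(monodromy_germ hy hy s t).1 hst, U.isOpen.mem_nhds hy] with w hw (hw' : w ∈ U)
      rw [dif_pos hw', dif_pos hw', hw hw' hw'])
    refine Subtype.ext (funext fun z => ?_)
    have := (key z z.2).eq_of_nhds
    simpa only [dif_pos z.2] using this
  · obtain ⟨V, hV, s, rfl⟩ := TopCat.Presheaf.exists_germ_eq
      (TopCat.subpresheafToTypes (monodromy_pred Good)) (x := y) g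
    obtain ⟨β, h1, h2⟩ := s.2 y hV
    obtain ⟨β', h3, h4⟩ := h y (hUN y hy) β h1
    refine ⟨⟨fun z => β' z, fun z hz => ⟨β', h4 z (hUN z hz), Eventually.of_forall fun _ _ => rfl⟩⟩, ?_⟩
    refine (monodromy_germ hy hV _ s).2 ?_
    filter_upwards [h2, h3] with w hw hw' _ k
    rw [hw k, ← hw']

end monodromy

open TopologicalSpace in
/-- Étalé space `𝔈 = {(y, germ of β at y) | Good β y}` (e.g. a subtype of `Σ y, (𝓝 y).Germ T`) with the topology generated
by the sets `{(y, β) | y ∈ U}`, `U` open, `β` good on `U`.  The projection is a covering map: over a path connected open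
`N' ⊆ N` the sheets are the good functions on `N'` modulo equality on `N'` (`IsOpen.trivializationDiscrete`,
`IsCoveringMap.mk'`/`IsEvenlyCovered`), or it is a separated local homeomorphism with path lifting.  Lift the identity with
`IsCoveringMap.existsUnique_continuousMap_lifts`; the value of the germ defines `β`. -/
theorem monodromy {Y T : Type} [TopologicalSpace Y] [SimplyConnectedSpace Y] [LocallyPathConnectedSpace Y]
    (Good : (Y → T) → Y → Prop) (hc : ∀ β β' y, Good β y → β =ᶠ[𝓝 y] β' → Good β' y)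
    (he : ∀ y₀, ∃ N ∈ 𝓝 y₀, ∀ y ∈ N, ∀ β, Good β y → ∃ β', β' =ᶠ[𝓝 y] β ∧ ∀ y' ∈ N, Good β' y')
    (hu : ∀ (U : Set Y) (β β' : Y → T), IsPreconnected U → (∀ y ∈ U, Good β y) → (∀ y ∈ U, Good β' y) →
      ∀ y ∈ U, β =ᶠ[𝓝 y] β' → ∀ y' ∈ U, β =ᶠ[𝓝 y'] β')
    {y₀ : Y} {β₀ : Y → T} (h₀ : Good β₀ y₀) : ∃ β, (∀ y, Good β y) ∧ β =ᶠ[𝓝 y₀] β₀ := by
  have h1 : ∀ᶠ y in 𝓝 y₀, Good β₀ y := by
    obtain ⟨N, hN, h⟩ := he y₀
    obtain ⟨β', h3, h4⟩ := h y₀ (mem_of_mem_nhds hN) β₀ h₀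
    filter_upwards [hN, h3.eventuallyEq_nhds] with y hy hy' using hc _ _ y (h4 y hy) hy'
  obtain ⟨W, w1, w2, w3⟩ := eventually_nhds_iff.1 h1
  let U₀ : Opens (TopCat.of Y) := ⟨W, w2⟩
  let s₀ : (TopCat.subpresheafToTypes (monodromy_pred Good)).obj (Opposite.op U₀) :=
    ⟨fun z => β₀ z, fun z hz => ⟨β₀, w1 z hz, Eventually.of_forall fun _ _ => rfl⟩⟩
  obtain ⟨F, ⟨F0, F1⟩, -⟩ := (monodromy_cov hc he hu β₀).existsUnique_continuousMap_lifts (A := Y)
    (ContinuousMap.id Y) y₀ ⟨y₀, (TopCat.subpresheafToTypes (monodromy_pred Good)).germ U₀ y₀ w3 s₀⟩ rfl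
  have Fb : ∀ y, (F y).base = y := congrFun F1
  have val : ∀ g : (TopCat.subpresheafToTypes (monodromy_pred Good)).EtaleSpace, ∃ v : T,
      ∀ (U : Opens (TopCat.of Y)) (hU : g.base ∈ U) (s : (TopCat.subpresheafToTypes (monodromy_pred Good)).obj
        (Opposite.op U)), g.germ = (TopCat.subpresheafToTypes (monodromy_pred Good)).germ U g.base hU s →
        v = s.1 ⟨g.base, hU⟩ := fun g => by
    obtain ⟨V, hV, t, ht⟩ := TopCat.Presheaf.exists_germ_eq _ g.germ
    exact ⟨t.1 ⟨_, hV⟩, fun U hU s hs => ((monodromy_germ hV hU t s).1 (ht.trans hs)).self_of_nhds hV hU⟩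
  choose v hv using val
  have loc : ∀ (y : Y) (U : Opens (TopCat.of Y)) (s : (TopCat.subpresheafToTypes (monodromy_pred Good)).obj
      (Opposite.op U)) (β : Y → T), (∀ᶠ z in 𝓝 y, ∀ hz : z ∈ U, s.1 ⟨z, hz⟩ = β z) →
      (∀ᶠ a in 𝓝 y, ∃ ha : (F a).base ∈ U,
        (F a).germ = (TopCat.subpresheafToTypes (monodromy_pred Good)).germ U (F a).base ha s) →
      (fun a => v (F a)) =ᶠ[𝓝 y] β := fun y U s β k1 k2 => by
    filter_upwards [k1, k2] with a a1 ⟨a2, a3⟩
    rw [hv _ U a2 s a3, ← a1 (Fb a ▸ a2)]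
    exact congrArg s.1 (Subtype.ext (Fb a))
  refine ⟨fun a => v (F a), fun y => ?_, loc y₀ U₀ s₀ β₀ (Eventually.of_forall fun _ _ => rfl) ?_⟩
  · obtain ⟨U, hU, s, hs⟩ := TopCat.Presheaf.EtaleSpace.exists_section_of_tendsto (F.continuous.tendsto y)
    obtain ⟨β, b1, b2⟩ := s.2 y (Fb y ▸ hU)
    exact hc _ _ y b1 (loc y U s β b2 hs).symm
  · refine (F.continuous.tendsto y₀).eventually (p := fun g => ∃ ha : g.base ∈ U₀,
      g.germ = (TopCat.subpresheafToTypes (monodromy_pred Good)).germ U₀ g.base ha s₀) ?_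
    rw [F0]
    exact TopCat.Presheaf.EtaleSpace.eventually_nhds (F := TopCat.subpresheafToTypes (monodromy_pred Good))
      ⟨y₀, _⟩ (U := U₀) w3 s₀ rfl

theorem simplyConnected_prod {Y Z : Type} [TopologicalSpace Y] [TopologicalSpace Z] [SimplyConnectedSpace Y]
    [SimplyConnectedSpace Z] : SimplyConnectedSpace (Y × Z) := by
  refine simply_connected_iff_paths_homotopic.2 ⟨inferInstance, fun x y => ⟨fun p q => ?_⟩⟩
  rw [← Path.Homotopic.prod_projLeft_projRight (a₁ := x.1) (b₁ := x.2) (a₂ := y.1) (b₂ := y.2) p,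
    ← Path.Homotopic.prod_projLeft_projRight (a₁ := x.1) (b₁ := x.2) (a₂ := y.1) (b₂ := y.2) q]
  exact congrArg₂ Path.Homotopic.prod (Subsingleton.elim _ _) (Subsingleton.elim _ _)

/-- `simply_connected_iff_loops_nullhomotopic`, `Path.map`, `Path.Homotopic.map` -/
theorem simplyConnected_retract {Y Z : Type} [TopologicalSpace Y] [TopologicalSpace Z] [SimplyConnectedSpace Y]
    {i : Z → Y} {r : Y → Z} (hi : Continuous i) (hr : Continuous r) (h : ∀ z, r (i z) = z) :
    SimplyConnectedSpace Z := by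
  refine simply_connected_iff_paths_homotopic'.2 ⟨Function.Surjective.pathConnectedSpace (fun z => ⟨_, h z⟩) hr,
    fun {x y} p q => ?_⟩
  have e : ∀ p : Path x y, (((p.map hi).map hr).cast (h x).symm (h y).symm) = p := fun p => Path.ext (funext fun t => h _)
  rw [← e p, ← e q]
  exact ((SimplyConnectedSpace.paths_homotopic (p.map hi) (q.map hi)).map ⟨r, hr⟩).pathCast _ _

end

end Crest.Agent.R266

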