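import Crest.Agent.R266.Gd
import Crest.Agent.R266.Mndr

/-!
# Row 266: the rectangular band
-/

set_option autoImplicit false
set_option linter.unusedSectionVars false
set_option linter.unusedVariables false

namespace Crest.Agent.R266

open Set Metric Filter Topology MeasureTheory Polynomial
open scoped ENNReal Classical

noncomputable section

namespace UPA
variable {X A B D₁ D₂ : Type} [TopologicalSpace X] [T2Space X]
  [NormedAddCommGroup A] [NormedSpace ℂ A] [NormedSpace ℝ A] [IsScalarTower ℝ ℂ A] [FiniteDimensional ℂ A]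
  [NormedAddCommGroup B] [NormedSpace ℂ B] [NormedSpace ℝ B] [IsScalarTower ℝ ℂ B] [FiniteDimensional ℂ B]
  [CompleteSpace A] [CompleteSpace B]
  [NormedAddCommGroup D₁] [NormedSpace ℂ D₁] [NormedSpace ℝ D₁] [IsScalarTower ℝ ℂ D₁] [FiniteDimensional ℂ D₁]
  [NormedAddCommGroup D₂] [NormedSpace ℂ D₂] [NormedSpace ℝ D₂] [IsScalarTower ℝ ℂ D₂] [FiniteDimensional ℂ D₂]
  {𝒰 : UPA X A B}

/-- `monodromy` on `X × X` (`Gd.congr`, `gd_extend`, `MAn.evEq`, `gd_init`); the three identities hold near the base point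
and extend by `MAn.evEq` on `X` and `(X × X) × X`. -/
theorem exists_band [SimplyConnectedSpace X] [LocallyPathConnectedSpace X] (𝒰 : UPA X A B) :
    ∃ b : X × X → X, 𝒰.Band b := by
  have : SimplyConnectedSpace (X × X) := simplyConnected_prod
  obtain ⟨x₀⟩ : Nonempty X := inferInstance
  obtain ⟨i, hi⟩ := 𝒰.cov x₀
  have man : ∀ {β : X × X → X} {q}, 𝒰.Gd β q → (𝒰.toAtl.prod 𝒰.toAtl).MAn 𝒰.toAtl β q := by
    rintro β q ⟨i, j, Ψ, V₁, V₂, hi, hj, hL, -⟩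
    exact hL.man hi hj
  obtain ⟨b, hb, e⟩ := monodromy (𝒰.Gd) (fun β β' y h e => h.congr e) gd_extend
    (fun U β β' hU h h' y hy e => Atl.MAn.evEq hU (fun p hp => man (h p hp)) (fun p hp => man (h' p hp)) hy e)
    (gd_init hi)
  have hm := fun q => man (hb q)
  have b0 : b (x₀, x₀) = x₀ := e.self_of_nhds.trans ((𝒰.κ i).left_inv hi)
  have hs : ∀ᶠ q in 𝓝 (x₀, x₀), 𝒰.κ i (b q) = ((𝒰.κ i q.2).1, (𝒰.κ i q.1).2) := by
    filter_upwards [e, prod_mem_nhds ((𝒰.κ i).open_source.mem_nhds hi) ((𝒰.κ i).open_source.mem_nhds hi)] with q h1 h2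
    rw [h1, (𝒰.κ i).right_inv (𝒰.mix_mem h2.2 h2.1)]
  have tb : Tendsto b (𝓝 (x₀, x₀)) (𝓝 x₀) := by
    have := (hm (x₀, x₀)).continuousAt
    rwa [ContinuousAt, b0] at this
  let 𝒜 := 𝒰.toAtl
  have p1 : ∀ y : (X × X) × X, ((𝒜.prod 𝒜).prod 𝒜).MAn 𝒜 (fun y => y.1.1) y := fun y =>
    (Atl.MAn_fst y.1).comp (Atl.MAn_fst y)
  have p2 : ∀ y : (X × X) × X, ((𝒜.prod 𝒜).prod 𝒜).MAn 𝒜 (fun y => y.1.2) y := fun y =>
    (Atl.MAn_snd y.1).comp (Atl.MAn_fst y)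
  have p3 : ∀ y : (X × X) × X, ((𝒜.prod 𝒜).prod 𝒜).MAn 𝒜 (fun y => y.2) y := fun y => Atl.MAn_snd y
  have p13 : ∀ y : (X × X) × X, ((𝒜.prod 𝒜).prod 𝒜).MAn 𝒜 (fun y => b (y.1.1, y.2)) y := fun y =>
    (hm _).comp ((p1 y).prodMk (p3 y))
  have t1 : Tendsto (fun y : (X × X) × X => y.1) (𝓝 ((x₀, x₀), x₀)) (𝓝 (x₀, x₀)) := continuousAt_fst
  have t11 : Tendsto (fun y : (X × X) × X => y.1.1) (𝓝 ((x₀, x₀), x₀)) (𝓝 x₀) := (p1 _).continuousAt
  have t3 : Tendsto (fun y : (X × X) × X => y.2) (𝓝 ((x₀, x₀), x₀)) (𝓝 x₀) := continuousAt_snd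
  have t23 : Tendsto (fun y : (X × X) × X => (y.1.2, y.2)) (𝓝 ((x₀, x₀), x₀)) (𝓝 (x₀, x₀)) :=
    ((p2 _).prodMk (p3 _)).continuousAt
  have t13 := t11.prodMk_nhds t3
  refine ⟨b, fun q i j hi hj => ?_, fun x => ?_, fun a d c => ?_, fun a d c => ?_⟩
  · obtain ⟨Ψ, -, -, h, -⟩ := (hb q).chart hi hj
    exact ⟨Ψ, h⟩
  · refine (Atl.MAn.evEq (𝒜 := 𝒜) (ℬ := 𝒜) (f := fun x => b (x, x)) (g := fun x => x) isPreconnected_univ
      (fun p _ => (hm _).comp ((Atl.MAn_id p).prodMk (Atl.MAn_id p))) (fun p _ => Atl.MAn_id p) (mem_univ x₀) ?_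
      x (mem_univ _)).self_of_nhds
    filter_upwards [(tendsto_id.prodMk_nhds tendsto_id).eventually e, (𝒰.κ i).open_source.mem_nhds hi] with y h1 h2
    exact h1.trans ((𝒰.κ i).left_inv h2)
  · refine (Atl.MAn.evEq (f := fun y : (X × X) × X => b (b y.1, y.2)) isPreconnected_univ
      (fun y _ => (hm _).comp (((hm _).comp (Atl.MAn_fst y)).prodMk (p3 y))) (fun y _ => p13 y)
      (mem_univ ((x₀, x₀), x₀)) ?_ ((a, d), c) (mem_univ _)).self_of_nhds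
    filter_upwards [((tb.comp t1).prodMk_nhds t3).eventually e, t13.eventually e, t1.eventually hs] with y h1 h2 h3
    simp only [Function.comp] at h1
    rw [h1, h2, h3]
  · refine (Atl.MAn.evEq (f := fun y : (X × X) × X => b (y.1.1, b (y.1.2, y.2))) isPreconnected_univ
      (fun y _ => (hm _).comp ((p1 y).prodMk ((hm _).comp ((p2 y).prodMk (p3 y))))) (fun y _ => p13 y)
      (mem_univ ((x₀, x₀), x₀)) ?_ ((a, d), c) (mem_univ _)).self_of_nhds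
    filter_upwards [(t11.prodMk_nhds (tb.comp t23)).eventually e, t13.eventually e, t23.eventually hs] with y h1 h2 h3
    simp only [Function.comp] at h1
    rw [h1, h2, h3]

theorem Band.continuous {b : X × X → X} (hb : 𝒰.Band b) : Continuous b := by
  refine continuous_iff_continuousAt.2 fun q => ?_
  obtain ⟨i, hi⟩ := 𝒰.cov q.1
  obtain ⟨j, hj⟩ := 𝒰.cov q.2
  obtain ⟨Ψ, h⟩ := hb.loc q i j hi hj
  exact (h.man hi hj).continuousAt

/-- local form of `b` -/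
theorem Band.form {b : X × X → X} (hb : 𝒰.Band b) {q : X × X} {i j k : 𝒰.ι} (hi : q.1 ∈ (𝒰.κ i).source)
    (hj : q.2 ∈ (𝒰.κ j).source) (hk : b q ∈ (𝒰.κ k).source) :
    ∃ (F : A → A) (G : B → B), AnalyticAt ℂ F (𝒰.κ j q.2).1 ∧ AnalyticAt ℂ G (𝒰.κ i q.1).2 ∧
      ∀ᶠ x in 𝓝 q, 𝒰.κ k (b x) = (F (𝒰.κ j x.2).1, G (𝒰.κ i x.1).2) := by
  obtain ⟨Ψ, hR, e⟩ := hb.loc q i j hi hj
  obtain ⟨F, G, hF, hG, -, -, e1⟩ := hR.chart (i := k) (by rw [e.self_of_nhds] at hk; exact hk)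
  have hc : ContinuousAt (fun x : X × X => ((𝒰.κ j x.2).1, (𝒰.κ i x.1).2)) q :=
    (((𝒰.κ j).continuousAt hj).comp continuousAt_snd).fst.prodMk (((𝒰.κ i).continuousAt hi).comp continuousAt_fst).snd
  refine ⟨F, G, hF, hG, ?_⟩
  filter_upwards [e, hc.eventually e1] with x h1 h2
  rw [h1]
  exact h2

/-- `loc` at `(y, y)`, `Rect.chart`, and `diag` force `F = id`, `G = id` near the point -/
theorem Band.near_diag {b : X × X → X} (hb : 𝒰.Band b) {y : X} {j : 𝒰.ι} (hj : y ∈ (𝒰.κ j).source) :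
    ∀ᶠ q in 𝓝 (y, y), b q = (𝒰.κ j).symm ((𝒰.κ j q.2).1, (𝒰.κ j q.1).2) := by
  have hk : b (y, y) ∈ (𝒰.κ j).source := by rw [hb.diag]; exact hj
  obtain ⟨F, G, -, -, e⟩ := hb.form (q := (y, y)) hj hj hk
  have h1 : ∀ᶠ x in 𝓝 y, F (𝒰.κ j x).1 = (𝒰.κ j x).1 ∧ G (𝒰.κ j x).2 = (𝒰.κ j x).2 := by
    filter_upwards [(tendsto_id.prodMk_nhds tendsto_id).eventually e] with x hx
    simp only [id, hb.diag] at hx
    exact ⟨(congrArg Prod.fst hx).symm, (congrArg Prod.snd hx).symm⟩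
  filter_upwards [e, (continuousAt_fst (p := (y, y))).eventually h1, (continuousAt_snd (p := (y, y))).eventually h1,
    hb.continuous.continuousAt.eventually ((𝒰.κ j).open_source.mem_nhds hk)] with q h2 h3 h4 h5
  rw [← h4.1, ← h3.2, ← h2, (𝒰.κ j).left_inv h5]

/-- `→`: `form` at `(x₀, y)`; `←`: `b (x₀, x) = b (b (x₀, y), x) = b (y, x) = x` by `near_diag` -/
theorem Band.plaque₁ {b : X × X → X} (hb : 𝒰.Band b) {x₀ y : X} (hy : b (x₀, y) = y) {j : 𝒰.ι}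
    (hj : y ∈ (𝒰.κ j).source) : ∀ᶠ x in 𝓝 y, b (x₀, x) = x ↔ (𝒰.κ j x).2 = (𝒰.κ j y).2 := by
  obtain ⟨i, hi⟩ := 𝒰.cov x₀
  obtain ⟨F, G, -, -, e⟩ := hb.form (q := (x₀, y)) hi hj (by rw [hy]; exact hj)
  have e0 := e.self_of_nhds
  rw [hy] at e0
  filter_upwards [(tendsto_const_nhds.prodMk_nhds tendsto_id).eventually e,
    (tendsto_const_nhds.prodMk_nhds tendsto_id).eventually (hb.near_diag hj), (𝒰.κ j).open_source.mem_nhds hj]
    with x h1 h2 h3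
  simp only [id] at h1 h2
  refine ⟨fun h => ?_, fun h => ?_⟩
  · rw [h] at h1
    rw [h1, e0]
  · rw [← hb.left x₀ y x, hy, h2, ← h]
    exact (𝒰.κ j).left_inv h3

theorem Band.plaque₂ {b : X × X → X} (hb : 𝒰.Band b) {x₀ y : X} (hy : b (y, x₀) = y) {j : 𝒰.ι}
    (hj : y ∈ (𝒰.κ j).source) : ∀ᶠ x in 𝓝 y, b (x, x₀) = x ↔ (𝒰.κ j x).1 = (𝒰.κ j y).1 := by
  obtain ⟨i, hi⟩ := 𝒰.cov x₀
  obtain ⟨F, G, -, -, e⟩ := hb.form (q := (y, x₀)) hj hi (by rw [hy]; exact hj)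
  have e0 := e.self_of_nhds
  rw [hy] at e0
  filter_upwards [(tendsto_id.prodMk_nhds tendsto_const_nhds).eventually e,
    (tendsto_id.prodMk_nhds tendsto_const_nhds).eventually (hb.near_diag hj), (𝒰.κ j).open_source.mem_nhds hj]
    with x h1 h2 h3
  simp only [id] at h1 h2
  refine ⟨fun h => ?_, fun h => ?_⟩
  · rw [h] at h1
    rw [h1, e0]
  · rw [← hb.right x y x₀, hy, h2, ← h]
    exact (𝒰.κ j).left_inv h3

end UPA

end

end Crest.Agent.R266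

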