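import Crest.Agent.R266.Atl

/-!
# Row 266: pull-back of Kähler metrics
-/

set_option autoImplicit false
set_option linter.unusedSectionVars false
set_option linter.unusedVariables false

namespace Crest.Agent.R266

open Set Metric Filter Topology MeasureTheory Polynomial
open scoped ENNReal Classical

noncomputable section

section
variable {E D : Type} [NormedAddCommGroup E] [NormedSpace ℝ E] [NormedSpace ℂ E] [IsScalarTower ℝ ℂ E]
  [CompleteSpace E] [NormedAddCommGroup D] [NormedSpace ℝ D] [NormedSpace ℂ D] [IsScalarTower ℝ ℂ D]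

omit [CompleteSpace E] in
@[simp] theorem pl_apply (g : E →L[ℝ] E →L[ℝ] ℝ) (L : D →L[ℂ] E) (u v : D) : pl g L u v = g (L u) (L v) := by
  simp [pl]

omit [CompleteSpace E] in
theorem Kah.congr {G G' : E → E →L[ℝ] E →L[ℝ] ℝ} {y : E} (h : Kah G y) (e : G =ᶠ[𝓝 y] G') : Kah G' y := by
  refine ⟨h.smooth.congr_of_eventuallyEq e.symm, fun u v => ?_, fun u v => ?_, fun u v w => ?_⟩
  · rw [← e.self_of_nhds]; exact h.sym u v
  · rw [← e.self_of_nhds]; exact h.herm u v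
  · have key : ∀ a b : E, fderiv ℝ (fun z => G' z a b) y = fderiv ℝ (fun z => G z a b) y := fun a b =>
      EventuallyEq.fderiv_eq (e.mono fun z hz => by simp only [hz])
    rw [key, key, key]
    exact h.closed u v w

omit [CompleteSpace E] in
theorem Kah.smul_smul {G : E → E →L[ℝ] E →L[ℝ] ℝ} {y : E} (h : Kah G y) (a : ℂ) (u : E) :
    G y (a • u) (a • u) = ‖a‖ ^ 2 * G y u u := by
  have e : a • u = a.re • u + a.im • (Complex.I • u) := by
    conv_lhs => rw [← Complex.re_add_im a]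
    rw [add_smul, mul_smul]
    exact congrArg₂ (· + ·) (algebraMap_smul ℂ a.re u) (algebraMap_smul ℂ a.im _)
  have h1 : G y u (Complex.I • u) = - G y (Complex.I • u) u := by
    rw [← h.herm u, _root_.smul_smul, Complex.I_mul_I]
    simp
  rw [e, Complex.sq_norm, Complex.normSq_apply]
  simp only [map_add, map_smul, add_apply, smul_apply, smul_eq_mul, h.herm, h1]
  ring

theorem contDiff_flip {D E : Type} [NormedAddCommGroup E] [NormedSpace ℝ E] [NormedAddCommGroup D] [NormedSpace ℝ D] :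
    ContDiff ℝ 1 (fun g : D →L[ℝ] E →L[ℝ] ℝ => g.flip) := by
  have := LinearIsometryEquiv.contDiff (𝕜 := ℝ) (n := 1) (E := D →L[ℝ] E →L[ℝ] ℝ) (F := E →L[ℝ] D →L[ℝ] ℝ)
    (ContinuousLinearMap.flipₗᵢ ℝ D E ℝ)
  exact this

/-- `∂ᵤ [G (f z) (I Df v) (Df w)] = (DG [Df u]) (I Df v) (Df w) + G (I D²f(u,v)) (Df w) + G (I Df v) (D²f(u,w))`.
The first terms give `closed` at `f x`; the others cancel because `D²f` is symmetric and `G (I a) b = - G (I b) a`. -/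
theorem pull_kah {G : E → E →L[ℝ] E →L[ℝ] ℝ} {f : D → E} {x : D} (hG : Kah G (f x)) (hf : AnalyticAt ℂ f x) :
    Kah (fun z => pl (G (f z)) (fderiv ℂ f z)) x := by
  have hf1 : ContDiffAt ℝ 1 f x := (hf.contDiffAt (n := 1)).restrict_scalars ℝ
  have hf2 : ContDiffAt ℝ 1 (fderiv ℂ f) x := (hf.fderiv.contDiffAt (n := 1)).restrict_scalars ℝ
  have hf3 : ContDiffAt ℝ 1 (fun z => (fderiv ℂ f z).restrictScalars ℝ) x :=
    (ContinuousLinearMap.restrictScalarsL ℂ D E ℝ ℝ).contDiff.contDiffAt.comp x hf2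
  have hGf : ContDiffAt ℝ 1 (fun z => G (f z)) x := hG.smooth.comp x hf1
  refine ⟨?_, fun u v => ?_, fun u v => ?_, fun u v w => ?_⟩
  · have h1 : ContDiffAt ℝ 1 (fun z => ((G (f z)).comp ((fderiv ℂ f z).restrictScalars ℝ)).flip) x :=
      (contDiff_flip (D := D) (E := E)).contDiffAt.comp x (hGf.clm_comp hf3)
    exact (contDiff_flip (D := D) (E := D)).contDiffAt.comp x (h1.clm_comp hf3)
  · simp only [pl_apply]; exact hG.sym _ _
  · simp only [pl_apply, map_smul]; exact hG.herm _ _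
  · have hGd : DifferentiableAt ℝ G (f x) := hG.smooth.differentiableAt one_ne_zero
    have hd : HasFDerivAt f ((fderiv ℂ f x).restrictScalars ℝ) x := hf.differentiableAt.hasFDerivAt.restrictScalars ℝ
    have hdd : ∀ a : D, HasFDerivAt (fun z => fderiv ℂ f z a)
        (((fderiv ℂ (fderiv ℂ f) x).flip a).restrictScalars ℝ) x := fun a => by
      have := (hf.fderiv.differentiableAt.hasFDerivAt.clm_apply (hasFDerivAt_const a x)).restrictScalars ℝ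
      simpa using this
    have key : ∀ a b c : D, fderiv ℝ (fun z => pl (G (f z)) (fderiv ℂ f z) a b) x c =
        fderiv ℝ G (f x) (fderiv ℂ f x c) (fderiv ℂ f x a) (fderiv ℂ f x b) +
          G (f x) (fderiv ℂ (fderiv ℂ f) x c a) (fderiv ℂ f x b) +
          G (f x) (fderiv ℂ f x a) (fderiv ℂ (fderiv ℂ f) x c b) := fun a b c => by
      have h1 : HasFDerivAt (fun z => G (f z)) _ x :=
        HasFDerivAt.comp (G := E →L[ℝ] E →L[ℝ] ℝ) x hGd.hasFDerivAt hd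
      have h2 := h1.clm_apply (hdd a)
      have := (h2.clm_apply (hdd b)).fderiv
      simp only [pl_apply]
      rw [this]
      simp
      ring
    have key2 : ∀ a b c : E, fderiv ℝ (fun z => G z a b) (f x) c = fderiv ℝ G (f x) c a b := fun a b c => by
      have := ((hGd.hasFDerivAt.clm_apply (hasFDerivAt_const a _)).clm_apply (hasFDerivAt_const b _)).fderiv
      rw [this]
      simp
    have hs : ∀ a b : D, fderiv ℂ (fderiv ℂ f) x a b = fderiv ℂ (fderiv ℂ f) x b a :=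
      (hf.contDiffAt (n := ⊤)).isSymmSndFDerivAt_of_omega
    have ha : ∀ a b : E, G (f x) (Complex.I • a) b = - G (f x) (Complex.I • b) a := fun a b => by
      rw [← hG.herm, smul_smul, Complex.I_mul_I, hG.sym]
      simp
    have h0 := hG.closed (fderiv ℂ f x u) (fderiv ℂ f x v) (fderiv ℂ f x w)
    rw [key2, key2, key2] at h0
    rw [key, key, key]
    simp only [map_smul]
    rw [hs v u, hs w u, hs w v, ha (fderiv ℂ f x v) (fderiv ℂ (fderiv ℂ f) x u w)]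
    linarith [ha (fderiv ℂ f x u) (fderiv ℂ (fderiv ℂ f) x v w)]

end

namespace UPA
variable {X A B D : Type} [TopologicalSpace X]
  [NormedAddCommGroup A] [NormedSpace ℂ A] [NormedSpace ℝ A] [IsScalarTower ℝ ℂ A] [CompleteSpace A]
  [NormedAddCommGroup B] [NormedSpace ℂ B] [NormedSpace ℝ B] [IsScalarTower ℝ ℂ B] [CompleteSpace B]
  [NormedAddCommGroup D] [NormedSpace ℝ D] [NormedSpace ℂ D] [IsScalarTower ℝ ℂ D] (𝒰 : UPA X A B)

theorem ch_mem (x : X) : x ∈ (𝒰.κ (𝒰.ch x)).source ∧ 𝒰.κ (𝒰.ch x) x ∈ ball (0 : A × B) 1 :=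
  (𝒰.cov1 x).choose_spec

variable {𝒰}

/-- `cmpG`, `An.fderiv_chart` -/
theorem pb_eq {Φ : D → X} {x : D} (h : 𝒰.An Φ x) {i : 𝒰.ι} (hi : Φ x ∈ (𝒰.κ i).source) :
    𝒰.pb Φ x = pl (𝒰.G i (𝒰.κ i (Φ x))) (fderiv ℂ (𝒰.κ i ∘ Φ) x) := by
  ext u v
  simp only [pb, pl_apply]
  rw [h.fderiv_chart hi (𝒰.ch_mem _).1, h.fderiv_chart hi (𝒰.ch_mem _).1 v]
  exact 𝒰.cmpG _ _ _ hi (𝒰.ch_mem _).1 _ _

theorem pb_kah {Φ : D → X} {x : D} (h : 𝒰.An Φ x) : Kah (𝒰.pb Φ) x := by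
  have hi := (𝒰.ch_mem (Φ x)).1
  refine (pull_kah (f := 𝒰.κ (𝒰.ch (Φ x)) ∘ Φ) (𝒰.kah _ _ ((𝒰.κ _).map_source hi)) (h.2 _ hi)).congr ?_
  filter_upwards [h.eventually, h.1.eventually ((𝒰.κ _).open_source.mem_nhds hi)] with z hz hz'
  exact (pb_eq hz hz').symm

theorem pb_nonneg (Φ : D → X) (x u : D) : 0 ≤ 𝒰.pb Φ x u u := by
  simp only [pb, pl_apply]
  exact le_trans (mul_nonneg 𝒰.m_pos.le (sq_nonneg _)) (𝒰.bd _ _ ((𝒰.κ _).map_source (𝒰.ch_mem _).1) _).1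

theorem en_nonneg (γ : ℂ → X) (v : ℂ) : 0 ≤ 𝒰.en γ v := by
  exact le_trans (mul_nonneg 𝒰.m_pos.le (sq_nonneg _)) (𝒰.bd _ _ ((𝒰.κ _).map_source (𝒰.ch_mem _).1) _).1

theorem en_eq {γ : ℂ → X} {v : ℂ} (h : 𝒰.An γ v) {i : 𝒰.ι} (hi : γ v ∈ (𝒰.κ i).source) :
    𝒰.en γ v = 𝒰.G i (𝒰.κ i (γ v)) (deriv (𝒰.κ i ∘ γ) v) (deriv (𝒰.κ i ∘ γ) v) := by
  rw [en, h.deriv_chart hi (𝒰.ch_mem _).1]
  exact 𝒰.cmpG _ _ _ hi (𝒰.ch_mem _).1 _ _

theorem en_bd {γ : ℂ → X} {v : ℂ} (h : 𝒰.An γ v) {i : 𝒰.ι} (hi : γ v ∈ (𝒰.κ i).source) :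
    𝒰.m * ‖deriv (𝒰.κ i ∘ γ) v‖ ^ 2 ≤ 𝒰.en γ v ∧ 𝒰.en γ v ≤ 𝒰.M * ‖deriv (𝒰.κ i ∘ γ) v‖ ^ 2 := by
  rw [en_eq h hi]
  exact 𝒰.bd _ _ ((𝒰.κ _).map_source hi) _

theorem en_congr {γ γ' : ℂ → X} {v : ℂ} (e : γ =ᶠ[𝓝 v] γ') : 𝒰.en γ v = 𝒰.en γ' v := by
  rw [en, en, ← e.self_of_nhds, (e.fun_comp _).deriv_eq]

theorem en_comp {Φ : D → X} {c : ℂ → D} {v : ℂ} (h : 𝒰.An Φ (c v)) (hc : DifferentiableAt ℂ c v) :
    𝒰.en (fun t => Φ (c t)) v = 𝒰.pb Φ (c v) (deriv c v) (deriv c v) := by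
  have hi := (𝒰.ch_mem (Φ (c v))).1
  have h1 : deriv (𝒰.κ (𝒰.ch (Φ (c v))) ∘ fun t => Φ (c t)) v =
      fderiv ℂ (𝒰.κ (𝒰.ch (Φ (c v))) ∘ Φ) (c v) (deriv c v) :=
    ((h.2 _ hi).differentiableAt.hasFDerivAt.comp_hasDerivAt v hc.hasDerivAt).deriv
  simp only [en, pb, pl_apply, h1]

/-- `G (a • u) (a • u) = ‖a‖² G u u` from `herm`, `sym` -/
theorem en_reparam {γ : ℂ → X} {c : ℂ → ℂ} {v : ℂ} (h : 𝒰.An γ (c v)) (hc : DifferentiableAt ℂ c v) :
    𝒰.en (fun t => γ (c t)) v = ‖deriv c v‖ ^ 2 * 𝒰.en γ (c v) := by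
  have hi := (𝒰.ch_mem (γ (c v))).1
  have h1 : deriv (𝒰.κ (𝒰.ch (γ (c v))) ∘ fun t => γ (c t)) v =
      deriv c v • deriv (𝒰.κ (𝒰.ch (γ (c v))) ∘ γ) (c v) :=
    ((h.2 _ hi).differentiableAt.hasDerivAt.scomp v hc.hasDerivAt).deriv
  simp only [en, h1]
  exact (𝒰.kah _ _ ((𝒰.κ _).map_source hi)).smul_smul _ _

theorem en_continuousAt {γ : ℂ → X} {v : ℂ} (h : 𝒰.An γ v) : ContinuousAt (𝒰.en γ) v := by
  have h1 : ContinuousAt (fun t => 𝒰.pb γ t 1 1) v :=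
    ((pb_kah h).smooth.continuousAt.clm_apply continuousAt_const).clm_apply continuousAt_const
  refine h1.congr ?_
  filter_upwards [h.eventually] with t ht
  simpa using (en_comp (c := fun s => s) (v := t) ht differentiableAt_id).symm

/-- energy of the diagonal discs -/
theorem en_diag {Φ : ℂ × ℂ → X} {v u : ℂ} (h : 𝒰.An Φ (v, v + u)) :
    𝒰.en (fun t => Φ (t, t + u)) v = 𝒰.pb Φ (v, v + u) (1, 1) (1, 1) := by
  have h1 : HasDerivAt (fun t : ℂ => (t, t + u)) (1, 1) v := (hasDerivAt_id v).prodMk ((hasDerivAt_id v).add_const u)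
  rw [en_comp (c := fun t => (t, t + u)) h h1.differentiableAt, h1.deriv]

theorem en_diag_continuousAt {Φ : ℂ × ℂ → X} {v u : ℂ} (h : 𝒰.An Φ (v, v + u)) :
    ContinuousAt (fun x : ℂ × ℂ => 𝒰.en (fun t => Φ (t, t + x.2)) x.1) (v, u) := by
  have hc : ContinuousAt (fun x : ℂ × ℂ => (x.1, x.1 + x.2)) (v, u) := by fun_prop
  have h0 : ContinuousAt (fun x : ℂ × ℂ => 𝒰.pb Φ (x.1, x.1 + x.2)) (v, u) :=
    ContinuousAt.comp (g := 𝒰.pb Φ) (pb_kah h).smooth.continuousAt hc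
  have h1 : ContinuousAt (fun x : ℂ × ℂ => 𝒰.pb Φ (x.1, x.1 + x.2) (1, 1) (1, 1)) (v, u) :=
    (h0.clm_apply continuousAt_const).clm_apply continuousAt_const
  refine h1.congr ?_
  filter_upwards [hc.eventually h.eventually] with x hx
  exact (en_diag hx).symm

end UPA

end

end Crest.Agent.R266

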