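import Crest.Agent.R266.VField
import Crest.Agent.R266.Pull

/-!
# Row 266: the atlases of the statements
-/

set_option autoImplicit false
set_option linter.unusedSectionVars false
set_option linter.unusedVariables false

namespace Crest.Agent.R266

open Set Metric Filter Topology MeasureTheory Polynomial
open scoped ENNReal Classical

noncomputable section

open Crest.AlgGeometry.HolSplit
open scoped Manifold ContDiff

variable {n : ℕ} {X : Type} [TopologicalSpace X] [ChartedSpace (Model n) X] [IsManifold (mI n) ω X]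

theorem bAtl_an {V : Type} [NormedAddCommGroup V] [NormedSpace ℂ V] {f : X → V} {x p : X}
    (hp : p ∈ (chartAt (Model n) x).source) (hf : ContMDiffAt (mI n) 𝓘(ℂ, V) ω f p) :
    AnalyticAt ℂ (f ∘ (chartAt (Model n) x).symm) (chartAt (Model n) x p) := by
  refine (contMDiffAt_iff_contDiffAt.1 (ContMDiffAt.comp (I' := mI n) _ ?_ (contMDiffAt_symm_of_mem_maximalAtlas
    (IsManifold.chart_mem_maximalAtlas x) ((chartAt (Model n) x).map_source hp)))).analyticAt
  rwa [(chartAt (Model n) x).left_inv hp]

/-- restricted preferred charts -/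
def bAtl (n : ℕ) {X : Type} [TopologicalSpace X] [ChartedSpace (Model n) X] [IsManifold (mI n) ω X] (O : X → Set X)
    (hO : ∀ x, IsOpen (O x)) (hx : ∀ x, x ∈ O x) : Atl X (Model n) where
  ι := X
  κ := fun x => (chartAt (Model n) x).restrOpen (O x) (hO x)
  cov := fun x => ⟨x, mem_chart_source _ x, hx x⟩
  an := fun i j x hi hj =>
    bAtl_an (f := chartAt (Model n) j) hi.1 (contMDiffAt_of_mem_maximalAtlas (IsManifold.chart_mem_maximalAtlas j) hj.1)

/-- the projection in the chart at `x` -/
def bP (S : Splitting n X) (x : X) (y : Model n) : Model n →L[ℂ] Model n :=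
  (mfderiv (mI n) (mI n) (chartAt (Model n) x) ((chartAt (Model n) x).symm y) : Model n →L[ℂ] Model n).comp
    ((S.proj ((chartAt (Model n) x).symm y) : Model n →L[ℂ] Model n).comp
      (mfderiv (mI n) (mI n) (chartAt (Model n) x).symm y : Model n →L[ℂ] Model n))

theorem bSA_proj (S : Splitting n X) {x p : X} (hp : p ∈ (chartAt (Model n) x).source) (v : TangentSpace (mI n) p) :
    bP S x (chartAt (Model n) x p) (mfderiv (mI n) (mI n) (chartAt (Model n) x) p v) =
      mfderiv (mI n) (mI n) (chartAt (Model n) x) p (S.proj p v) := by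
  have key : ∀ q, q = p → ∀ w : Model n, (mfderiv (mI n) (mI n) (chartAt (Model n) x) q (S.proj q w) : Model n) =
      mfderiv (mI n) (mI n) (chartAt (Model n) x) p (S.proj p w) := by rintro _ rfl _; rfl
  exact (key _ ((chartAt (Model n) x).left_inv hp) _).trans
    (congrArg (fun w : Model n => (mfderiv (mI n) (mI n) (chartAt (Model n) x) p (S.proj p w) : Model n))
      (mfderiv_chart_symm_chart hp v))

theorem bSA_surj {x p : X} (hp : p ∈ (chartAt (Model n) x).source) (v : Model n) :
    ∃ w : TangentSpace (mI n) p, (mfderiv (mI n) (mI n) (chartAt (Model n) x) p w : Model n) = v :=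
  ⟨_, mfderiv_chart_chart_symm hp v⟩

theorem bSA_an (S : Splitting n X) {x p : X} (hp : p ∈ (chartAt (Model n) x).source) :
    AnalyticAt ℂ (bP S x) (chartAt (Model n) x p) := by
  refine ContDiffAt.analyticAt (contDiffOn_clm_apply.2 (fun a y hy => ?_) |>.contDiffAt
    ((chartAt (Model n) x).open_target.mem_nhds ((chartAt (Model n) x).map_source hp)))
  have ho := (chartAt (Model n) x).open_source
  have h := vfc_analyticAt ho (S.holomorphic _ ho _ (cvf_hol ho subset_rfl (v := fun _ => a)
    fun _ _ => analyticAt_const)) ((chartAt (Model n) x).map_target hy) ((chartAt (Model n) x).map_target hy)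
  rw [(chartAt (Model n) x).right_inv hy] at h
  refine h.contDiffAt.contDiffWithinAt.congr_of_mem (fun z hz => ?_) hy
  have key : ∀ z', z' = z → (mfderiv (mI n) (mI n) (chartAt (Model n) x).symm z a : Model n) =
      mfderiv (mI n) (mI n) (chartAt (Model n) x).symm z' a := by rintro _ rfl; rfl
  exact congrArg (fun w : Model n => (mfderiv (mI n) (mI n) (chartAt (Model n) x) ((chartAt (Model n) x).symm z)
    (S.proj _ w) : Model n)) (key _ ((chartAt (Model n) x).right_inv hz))

/-- `anP`: `bP S x · a = vfc x (fun p => S.proj p (cvf x (fun _ => a) p))` on the target; `contDiffAt_clm_apply_iff`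
with `n = ω` -/
def bSA (S : Splitting n X) (O : X → Set X) (hO : ∀ x, IsOpen (O x)) (hx : ∀ x, x ∈ O x) : SA X (Model n) where
  toAtl := bAtl n O hO hx
  P := fun (x : X) => bP S x
  anP := fun (i : X) y hy => by
    have h := bSA_an S ((chartAt (Model n) i).map_target hy.1)
    rwa [(chartAt (Model n) i).right_inv hy.1] at h
  idem := fun (i : X) y hy v => by
    have hp := (chartAt (Model n) i).map_target hy.1
    obtain ⟨w, rfl⟩ := bSA_surj hp v
    have h := bSA_proj S hp
    rw [(chartAt (Model n) i).right_inv hy.1] at h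
    exact ((congrArg (bP S i y) (h w)).trans (h _)).trans ((congrArg _ (S.idem _ w)).trans (h w).symm)
  cmpP := fun (i j : X) x hi hj v => by
    obtain ⟨w, rfl⟩ := bSA_surj hi.1 v
    exact ((congrArg (bP S j _) (fderiv_chart_change hi.1 hj.1 w)).trans (bSA_proj S hj.1 w)).trans
      ((congrArg _ (bSA_proj S hi.1 w)).trans (fderiv_chart_change hi.1 hj.1 _)).symm

theorem bSA_brid (S : Splitting n X) (O : X → Set X) (hO : ∀ x, IsOpen (O x)) (hx : ∀ x, x ∈ O x) :
    Brid S (bSA S O hO hx) := by
  exact ⟨fun i => ⟨i, inter_subset_left, rfl, rfl⟩, fun x => ⟨x, ⟨mem_chart_source _ x, hx x⟩, rfl, rfl⟩,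
    fun i x hi v => bSA_proj S hi.1 v⟩

/-- the coefficient field of the metric in the chart at `x` -/
def exists_KA_G (K : KahlerMetric n X) (x : X) (y : Model n) : Model n →L[ℝ] Model n →L[ℝ] ℝ :=
  pullbackForm (K.g ((chartAt (Model n) x).symm y))
    ((mfderiv 𝓘(ℂ, Model n) (mI n) (chartAt (Model n) x).symm y : Model n →L[ℂ] Model n).restrictScalars ℝ)

theorem exists_KA_G_apply (K : KahlerMetric n X) (x : X) (y u v : Model n) :
    exists_KA_G K x y u v = K.g ((chartAt (Model n) x).symm y)
      ((mfderiv (mI n) (mI n) (chartAt (Model n) x).symm y : Model n →L[ℂ] Model n) u)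
      ((mfderiv (mI n) (mI n) (chartAt (Model n) x).symm y : Model n →L[ℂ] Model n) v) := rfl

theorem exists_KA_G_chart (K : KahlerMetric n X) {x p : X} (hp : p ∈ (chartAt (Model n) x).source)
    (u v : TangentSpace (mI n) p) :
    exists_KA_G K x (chartAt (Model n) x p) (mfderiv (mI n) (mI n) (chartAt (Model n) x) p u)
      (mfderiv (mI n) (mI n) (chartAt (Model n) x) p v) = K.g p u v := by
  rw [exists_KA_G_apply]
  have h1 := mfderiv_chart_symm_chart hp u
  have h2 := mfderiv_chart_symm_chart hp v
  have h3 := (chartAt (Model n) x).left_inv hp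
  have h : ∀ (q : X) (a b : Model n), q = p → a = u → b = v → K.g q a b = K.g p u v := by
    rintro _ _ _ rfl rfl rfl; rfl
  exact h _ _ _ h3 h1 h2

theorem exists_KA_kah (K : KahlerMetric n X) (x : X) {y : Model n} (hy : y ∈ (chartAt (Model n) x).target) :
    Kah (exists_KA_G K x) y where
  smooth := ((K.smooth x).contDiffAt ((chartAt (Model n) x).open_target.mem_nhds hy)).of_le (by simp)
  sym := fun u v => by rw [exists_KA_G_apply, exists_KA_G_apply, K.symm]
  herm := fun u v => by
    rw [exists_KA_G_apply, exists_KA_G_apply]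
    have h : ∀ L : Model n →L[ℂ] Model n, ∀ p : X,
        K.g p (L (Complex.I • u)) (L (Complex.I • v)) = K.g p (L u) (L v) := fun L p => by
      rw [L.map_smul, L.map_smul, K.herm]
    exact h _ _
  closed := fun u v w => K.closed x y hy u v w

/-- `G x y = pullbackForm (K.g ((chartAt x).symm y)) (mfderiv (chartAt x).symm y)`, `O = univ` -/
theorem exists_KA (S : Splitting n X) (K : KahlerMetric n X) : ∃ 𝒦 : KA X (Model n), Brid S 𝒦.toSA := by
  refine ⟨{ toSA := bSA S (fun _ => univ) (fun _ => isOpen_univ) (fun _ => mem_univ _)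
            G := fun (x : X) => exists_KA_G K x
            kah := ?_
            pos := ?_
            cmpG := ?_ }, bSA_brid S _ _ _⟩
  · intro (x : X) y hy
    exact exists_KA_kah K x hy.1
  · intro (x : X) y hy u hu
    have hy' : y ∈ (chartAt (Model n) x).target := hy.1
    obtain ⟨p, hp, rfl⟩ : ∃ p ∈ (chartAt (Model n) x).source, chartAt (Model n) x p = y :=
      ⟨_, (chartAt (Model n) x).map_target hy', (chartAt (Model n) x).right_inv hy'⟩
    rw [exists_KA_G_apply]
    refine K.pos _ _ fun h => hu ?_
    have h1 := mfderiv_chart_chart_symm hp u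
    rw [← h1]
    have h2 : (mfderiv (mI n) (mI n) (chartAt (Model n) x).symm (chartAt (Model n) x p) u : Model n) = 0 := h
    rw [h2]
    exact map_zero (mfderiv (mI n) (mI n) (chartAt (Model n) x) p : Model n →L[ℂ] Model n)
  · intro (x : X) (x' : X) p hp hp' u v
    have hq : p ∈ (chartAt (Model n) x).source := hp.1
    have hq' : p ∈ (chartAt (Model n) x').source := hp'.1
    obtain ⟨a, rfl⟩ : ∃ a : TangentSpace (mI n) p, (mfderiv (mI n) (mI n) (chartAt (Model n) x) p a : Model n) = u :=
      ⟨_, mfderiv_chart_chart_symm hq u⟩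
    obtain ⟨b, rfl⟩ : ∃ b : TangentSpace (mI n) p, (mfderiv (mI n) (mI n) (chartAt (Model n) x) p b : Model n) = v :=
      ⟨_, mfderiv_chart_chart_symm hq v⟩
    have e1 := fderiv_chart_change hq hq' a
    have e2 := fderiv_chart_change hq hq' b
    have e3 := exists_KA_G_chart K hq a b
    have e4 := exists_KA_G_chart K hq' a b
    refine Eq.trans ?_ (e4.trans e3.symm)
    exact congr (congrArg (fun q => (exists_KA_G K x' (chartAt (Model n) x' p) q : Model n → ℝ)) e1) e2


/-- `O = nbhd`, `ξ x = coords x ∘ (chartAt x).symm` -/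
theorem exists_PA (S : Splitting n X) {N : ℕ} (e : ProjEmbedding n X N) :
    ∃ 𝒬 : PA X (Model n) N, Brid S 𝒬.toSA := by
  have hol : ∀ i p, p ∈ e.nbhd i → ContMDiffAt (mI n) 𝓘(ℂ, VV N) ω (e.coords i) p := fun i p hp =>
    (e.holomorphic i).contMDiffAt ((e.isOpen_nbhd i).mem_nhds hp)
  have li : ∀ (i : X) {p}, p ∈ (chartAt (Model n) i).source →
      (e.coords i ∘ (chartAt (Model n) i).symm) (chartAt (Model n) i p) = e.coords i p := fun i p hp =>
    congrArg (e.coords i) ((chartAt (Model n) i).left_inv hp)
  refine ⟨⟨bSA S e.nbhd e.isOpen_nbhd e.mem_nbhd, fun (i : X) => e.coords i ∘ (chartAt (Model n) i).symm,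
    fun (i : X) y hy => ?_, fun (i : X) y hy => e.ne_zero i _ hy.2, fun (i j : X) x hi hj => ?_,
    fun (i j : X) x y hi hj h => e.injective i j x y hi.2 hj.2 ?_, fun (i : X) y hy v h => ?_⟩, bSA_brid S _ _ _⟩
  · have h := bAtl_an ((chartAt (Model n) i).map_target hy.1) (hol i _ hy.2)
    rwa [(chartAt (Model n) i).right_inv hy.1] at h
  · exact (e.compatible i j x ⟨hi.2, hj.2⟩).imp fun c hc => (li j hj.1).trans (hc.trans (congrArg _ (li i hi.1).symm))
  · exact h.imp fun c hc => (li j hj.1).symm.trans (hc.trans (congrArg _ (li i hi.1)))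
  · have hc := mfderiv_comp (I := mI n) (I' := mI n) (I'' := 𝓘(ℂ, VV N)) y ((hol i _ hy.2).mdifferentiableAt (by simp))
      ((contMDiffAt_symm_of_mem_maximalAtlas (IsManifold.chart_mem_maximalAtlas (n := ω) i) hy.1).mdifferentiableAt
        (by simp))
    rw [mfderiv_eq_fderiv] at hc
    have h0 := e.immersive i _ hy.2 (mfderiv (mI n) (mI n) (chartAt (Model n) i).symm y v)
      (h.imp fun c hc' => (DFunLike.congr_fun hc v).symm.trans hc')
    have h1 := mfderiv_chart_chart_symm ((chartAt (Model n) i).map_target hy.1) v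
    have key : ∀ z', z' = y → (mfderiv (mI n) (mI n) (chartAt (Model n) i).symm z' v : Model n) = 0 := by
      rintro _ rfl; exact h0
    exact h1.symm.trans ((congrArg _ (key _ ((chartAt (Model n) i).right_inv hy.1))).trans (map_zero _))

end

end Crest.Agent.R266

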