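import Crest.Agent.R266.Atl

/-!
# Row 266: covariance of the projection field
-/

set_option autoImplicit false
set_option linter.unusedSectionVars false
set_option linter.unusedVariables false

namespace Crest.Agent.R266

open Set Metric Filter Topology MeasureTheory Polynomial
open scoped ENNReal Classical

noncomputable section

section calc0
variable {E T : Type} [NormedAddCommGroup E] [NormedSpace ℂ E] [CompleteSpace E]
  [NormedAddCommGroup T] [NormedSpace ℂ T]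

theorem cov_clm_an {F : Type} [NormedAddCommGroup F] [NormedSpace ℂ F] {L : T → F →L[ℂ] E} {f : T → F} {x : T}
    (hL : AnalyticAt ℂ L x) (hf : AnalyticAt ℂ f x) : AnalyticAt ℂ (fun y => L y (f y)) x :=
  ((ContinuousLinearMap.id ℂ (F →L[ℂ] E)).analyticAt_bilinear (L x, f x)).comp₂ hL hf

theorem th_analyticAt {P : E → E →L[ℂ] E} {y : E} (hP : AnalyticAt ℂ P y) (a b : E) :
    AnalyticAt ℂ (fun z => th P z a b) y :=
  cov_clm_an (analyticAt_const.sub hP)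
    ((cov_clm_an (cov_clm_an hP.fderiv (cov_clm_an hP analyticAt_const)) (cov_clm_an hP analyticAt_const)).sub
      (cov_clm_an (cov_clm_an hP.fderiv (cov_clm_an hP analyticAt_const)) (cov_clm_an hP analyticAt_const)))

/-- Differentiate `P y (v y) = v y`: `Dv c = DP c (v y) + P (Dv c)`; `(1 - P y) (P y _) = 0`. -/
theorem bracket_th {P : E → E →L[ℂ] E} {v w : E → E} {y : E} (hP : DifferentiableAt ℂ P y)
    (hi : ∀ a, P y (P y a) = P y a) (hv : DifferentiableAt ℂ v y) (hw : DifferentiableAt ℂ w y)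
    (ev : ∀ᶠ z in 𝓝 y, P z (v z) = v z) (ew : ∀ᶠ z in 𝓝 y, P z (w z) = w z) :
    (1 - P y) (VectorField.lieBracket ℂ v w y) = th P y (v y) (w y) := by
  have key : ∀ {v : E → E}, DifferentiableAt ℂ v y → (∀ᶠ z in 𝓝 y, P z (v z) = v z) → ∀ c,
      fderiv ℂ v y c = P y (fderiv ℂ v y c) + fderiv ℂ P y c (v y) := fun {v} hv ev c => by
    have h1 : fderiv ℂ (fun z => P z (v z)) y = fderiv ℂ v y := EventuallyEq.fderiv_eq ev
    rw [fderiv_clm_apply hP hv] at h1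
    simpa using (DFunLike.congr_fun h1 c).symm
  rw [th, ev.self_of_nhds, ew.self_of_nhds, VectorField.lieBracket_eq]
  simp only
  rw [key hv ev, key hw ew]
  simp only [sub_apply, one_apply_eq_self, map_sub, map_add, hi]
  abel

/-- An integral submanifold through the point.  Differentiate `P (β t) (Dβ t v) = Dβ t v` in the direction `u`, apply
`1 - P`, and use the symmetry of the second derivative (`ContDiffAt.isSymmSndFDerivAt_of_omega`). -/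
theorem th_zero_of_slice {P : E → E →L[ℂ] E} {β : T → E} {t : T} (hβ : AnalyticAt ℂ β t)
    (hP : DifferentiableAt ℂ P (β t)) (hi : ∀ a, P (β t) (P (β t) a) = P (β t) a)
    (h : ∀ᶠ s in 𝓝 t, ∀ v, P (β s) (fderiv ℂ β s v) = fderiv ℂ β s v)
    (hr : ∀ a, ∃ v, fderiv ℂ β t v = P (β t) a) (a b : E) : th P (β t) a b = 0 := by
  have key : ∀ u v, fderiv ℂ P (β t) (fderiv ℂ β t u) (fderiv ℂ β t v) =
      fderiv ℂ (fderiv ℂ β) t u v - P (β t) (fderiv ℂ (fderiv ℂ β) t u v) := fun u v => by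
    have h0 := hβ.fderiv.differentiableAt.hasFDerivAt.clm_apply (hasFDerivAt_const v t)
    have h1 : HasFDerivAt (fun s => P (β s)) _ t := hP.hasFDerivAt.comp t hβ.differentiableAt.hasFDerivAt
    have h2 := (h1.clm_apply h0).unique (h0.congr_of_eventuallyEq (h.mono fun s hs => hs v))
    have h3 := DFunLike.congr_fun h2 u
    simp at h3
    exact eq_sub_of_add_eq' h3
  obtain ⟨u, hu⟩ := hr a
  obtain ⟨v, hv⟩ := hr b
  have hs : fderiv ℂ (fderiv ℂ β) t u v = fderiv ℂ (fderiv ℂ β) t v u :=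
    (hβ.contDiffAt (n := ⊤)).isSymmSndFDerivAt_of_omega u v
  rw [th, ← hu, ← hv, key, key, hs]
  simp

/-- differentiate `Q (ψ y) (Dψ y g) = Dψ y (P y g)` in the direction `s` -/
theorem dP_cov0 {E' : Type} [NormedAddCommGroup E'] [NormedSpace ℂ E'] [CompleteSpace E'] {P : E → E →L[ℂ] E}
    {Q : E' → E' →L[ℂ] E'} {ψ : E → E'} {y : E} (hψ : AnalyticAt ℂ ψ y) (hP : DifferentiableAt ℂ P y)
    (hQ : DifferentiableAt ℂ Q (ψ y))
    (h : ∀ᶠ z in 𝓝 y, ∀ v, Q (ψ z) (fderiv ℂ ψ z v) = fderiv ℂ ψ z (P z v)) (s g : E) :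
    fderiv ℂ Q (ψ y) (fderiv ℂ ψ y s) (fderiv ℂ ψ y g) =
      fderiv ℂ (fderiv ℂ ψ) y s (P y g) + fderiv ℂ ψ y (fderiv ℂ P y s g) - Q (ψ y) (fderiv ℂ (fderiv ℂ ψ) y s g) := by
  have h0 := hψ.fderiv.differentiableAt.hasFDerivAt
  have h1 : HasFDerivAt (fun z => Q (ψ z)) _ y := hQ.hasFDerivAt.comp y hψ.differentiableAt.hasFDerivAt
  have h2 := (h1.clm_apply (h0.clm_apply (hasFDerivAt_const g y))).unique
    ((h0.clm_apply (hP.hasFDerivAt.clm_apply (hasFDerivAt_const g y))).congr_of_eventuallyEq (h.mono fun z hz => hz g))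
  have h3 := DFunLike.congr_fun h2 s
  simp at h3
  rw [add_comm (fderiv ℂ (fderiv ℂ ψ) y s (P y g)), ← h3]
  abel

/-- `finrank (range L) = finrank T - finrank (ker L) ≥ finrank T - finrank (ker Q') = finrank (range Q')` -/
theorem range_of_rank [FiniteDimensional ℂ E] [FiniteDimensional ℂ T] {L : T →L[ℂ] E} {Q : E →L[ℂ] E}
    {Q' : T →L[ℂ] T} (hL : ∀ v, Q (L v) = L v) (hk : ∀ v, L v = 0 → Q' v = 0)
    (hr : Module.finrank ℂ (LinearMap.range (Q' : T →ₗ[ℂ] T)) = Module.finrank ℂ (LinearMap.range (Q : E →ₗ[ℂ] E)))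
    (a : E) : ∃ v, L v = Q a := by
  have h1 : LinearMap.range (L : T →ₗ[ℂ] E) ≤ LinearMap.range (Q : E →ₗ[ℂ] E) := by
    rintro _ ⟨v, rfl⟩; exact ⟨L v, hL v⟩
  have h2 : LinearMap.ker (L : T →ₗ[ℂ] E) ≤ LinearMap.ker (Q' : T →ₗ[ℂ] T) := fun v hv => hk v hv
  have h3 := LinearMap.finrank_range_add_finrank_ker (L : T →ₗ[ℂ] E)
  have h4 := LinearMap.finrank_range_add_finrank_ker (Q' : T →ₗ[ℂ] T)
  have h5 := Submodule.finrank_mono h2
  have h6 := Submodule.eq_of_le_of_finrank_le h1 (by omega)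
  have h7 : Q a ∈ LinearMap.range (L : T →ₗ[ℂ] E) := h6 ▸ ⟨a, rfl⟩
  exact h7

end calc0

variable {X E : Type} [TopologicalSpace X] [NormedAddCommGroup E] [NormedSpace ℂ E] [FiniteDimensional ℂ E]
  [CompleteSpace E] {𝒮 : SA X E}

namespace SA

theorem cmp_ev {i j : 𝒮.ι} {x : X} (hi : x ∈ (𝒮.κ i).source) (hj : x ∈ (𝒮.κ j).source) :
    ∀ᶠ y in 𝓝 (𝒮.κ i x), ∀ v, 𝒮.P j ((𝒮.κ j ∘ (𝒮.κ i).symm) y) (fderiv ℂ (𝒮.κ j ∘ (𝒮.κ i).symm) y v) =
      fderiv ℂ (𝒮.κ j ∘ (𝒮.κ i).symm) y (𝒮.P i y v) := by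
  filter_upwards [(𝒮.κ i).open_target.mem_nhds ((𝒮.κ i).map_source hi),
    ((𝒮.κ i).tendsto_symm hi).eventually ((𝒮.κ j).open_source.mem_nhds hj)] with y h1 h2 v
  have := 𝒮.cmpP i j _ ((𝒮.κ i).map_target h1) h2 v
  simp only [Atl.J, (𝒮.κ i).right_inv h1] at this
  exact this

/-- `dP_cov0`, `cmpP`, symmetry of the second derivative -/
theorem th_cov {i j : 𝒮.ι} {x : X} (hi : x ∈ (𝒮.κ i).source) (hj : x ∈ (𝒮.κ j).source) (a b : E) :
    th (𝒮.P j) (𝒮.κ j x) (𝒮.toAtl.J i j x a) (𝒮.toAtl.J i j x b) =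
      𝒮.toAtl.J i j x (th (𝒮.P i) (𝒮.κ i x) a b) := by
  have e0 : (𝒮.κ j ∘ (𝒮.κ i).symm) (𝒮.κ i x) = 𝒮.κ j x := by simp [(𝒮.κ i).left_inv hi]
  have key := dP_cov0 (𝒮.an i j x hi hj) (𝒮.anP i _ ((𝒮.κ i).map_source hi)).differentiableAt
    (e0 ▸ (𝒮.anP j _ ((𝒮.κ j).map_source hj)).differentiableAt) (cmp_ev hi hj)
  rw [e0] at key
  have hs := ((𝒮.an i j x hi hj).contDiffAt (n := ⊤)).isSymmSndFDerivAt_of_omega
  have hc := 𝒮.cmpP i j x hi hj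
  have hid := 𝒮.idem i _ ((𝒮.κ i).map_source hi)
  simp only [th, hc]
  simp only [Atl.J] at hc ⊢
  rw [key, key, hid, hid, hs (𝒮.P i (𝒮.κ i x) a)]
  simp [hc]

/-- it suffices to check one chart at every point (`J i j x` is onto: `J_comp`, `J_self`) -/
theorem int_of_forall (h : ∀ x, ∃ i, x ∈ (𝒮.κ i).source ∧ ∀ a b, th (𝒮.P i) (𝒮.κ i x) a b = 0) : 𝒮.Int := by
  intro j y hy a b
  obtain ⟨i, hi, h0⟩ := h ((𝒮.κ j).symm y)
  have hj := (𝒮.κ j).map_target hy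
  have := th_cov hi hj (𝒮.toAtl.J j i ((𝒮.κ j).symm y) a) (𝒮.toAtl.J j i ((𝒮.κ j).symm y) b)
  rwa [Atl.J_comp hj hi hj, Atl.J_comp hj hi hj, Atl.J_self hj, Atl.J_self hj, h0, map_zero, (𝒮.κ j).right_inv hy] at this

/-- `Z = {x | ∀ i, x ∈ source i → ∀ a b, th (P i) (κ i x) a b = 0}`; the interior of `Z` is closed by the identity
theorem for `y ↦ th (P i) y a b` on a ball in the target. -/
theorem int_of_open [PreconnectedSpace X] {i : 𝒮.ι} {y₀ : E} (hy : y₀ ∈ (𝒮.κ i).target)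
    (h : ∀ᶠ y in 𝓝 y₀, ∀ a b, th (𝒮.P i) y a b = 0) : 𝒮.Int := by
  let Z : Set X := {x | ∀ k, x ∈ (𝒮.κ k).source → ∀ a b, th (𝒮.P k) (𝒮.κ k x) a b = 0}
  have hZ : ∀ x k, x ∈ (𝒮.κ k).source → (∀ a b, th (𝒮.P k) (𝒮.κ k x) a b = 0) → x ∈ Z := fun x k hk h0 j hj a b => by
    have := th_cov hk hj (𝒮.toAtl.J j k x a) (𝒮.toAtl.J j k x b)
    rwa [Atl.J_comp hj hk hj, Atl.J_comp hj hk hj, Atl.J_self hj, Atl.J_self hj, h0, map_zero] at this
  have hZ' : ∀ x k, x ∈ (𝒮.κ k).source → (∀ᶠ y in 𝓝 (𝒮.κ k x), ∀ a b, th (𝒮.P k) y a b = 0) → x ∈ interior Z :=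
    fun x k hk h0 => mem_interior_iff_mem_nhds.2 (by
      filter_upwards [((𝒮.κ k).continuousAt hk).eventually h0, (𝒮.κ k).open_source.mem_nhds hk] with x' h1 h2
      exact hZ x' k h2 h1)
  have h1 : univ ⊆ interior Z := by
    refine isPreconnected_univ.subset_of_closure_inter_subset isOpen_interior
      ⟨(𝒮.κ i).symm y₀, mem_univ _, hZ' _ i ((𝒮.κ i).map_target hy) (by rwa [(𝒮.κ i).right_inv hy])⟩ ?_
    rintro x ⟨hx, -⟩
    obtain ⟨k, hk⟩ := 𝒮.cov x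
    refine hZ' x k hk ?_
    obtain ⟨r, hr, hb⟩ := Metric.isOpen_iff.1 (𝒮.κ k).open_target _ ((𝒮.κ k).map_source hk)
    obtain ⟨x', h1, h2, h3⟩ := ((mem_closure_iff_frequently.1 hx).and_eventually
      ((((𝒮.κ k).continuousAt hk).eventually (ball_mem_nhds _ hr)).and ((𝒮.κ k).open_source.mem_nhds hk))).exists
    filter_upwards [ball_mem_nhds _ hr] with y hy a b
    have ha : AnalyticOnNhd ℂ (fun y => th (𝒮.P k) y a b) (ball (𝒮.κ k x) r) := fun y hy =>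
      th_analyticAt (𝒮.anP k y (hb hy)) a b
    refine ha.eqOn_zero_of_preconnected_of_eventuallyEq_zero (convex_ball _ _).isPreconnected h2 ?_ hy
    filter_upwards [((𝒮.κ k).tendsto_symm h3).eventually (mem_interior_iff_mem_nhds.1 h1),
      (𝒮.κ k).open_target.mem_nhds ((𝒮.κ k).map_source h3)] with y' h4 h5
    have := h4 k ((𝒮.κ k).map_target h5) a b
    rwa [(𝒮.κ k).right_inv h5] at this
  refine int_of_forall fun x => ?_
  obtain ⟨k, hk⟩ := 𝒮.cov x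
  exact ⟨k, hk, interior_subset (h1 (mem_univ x)) k hk⟩

/-- rank = trace for idempotents (`LinearMap.IsProj.trace`), the trace is continuous and invariant under `J` -/
theorem rank_const [PreconnectedSpace X] {i j : 𝒮.ι} {x x' : X} (hi : x ∈ (𝒮.κ i).source)
    (hj : x' ∈ (𝒮.κ j).source) :
    Module.finrank ℂ (LinearMap.range (𝒮.P i (𝒮.κ i x) : E →ₗ[ℂ] E)) =
      Module.finrank ℂ (LinearMap.range (𝒮.P j (𝒮.κ j x') : E →ₗ[ℂ] E)) := by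
  have htr : ∀ k x, x ∈ (𝒮.κ k).source → LinearMap.trace ℂ E (𝒮.P k (𝒮.κ k x) : E →ₗ[ℂ] E) =
      Module.finrank ℂ (LinearMap.range (𝒮.P k (𝒮.κ k x) : E →ₗ[ℂ] E)) := fun k x hk =>
    LinearMap.IsProj.trace ⟨fun v => ⟨v, rfl⟩, by
      rintro _ ⟨v, rfl⟩; exact 𝒮.idem k _ ((𝒮.κ k).map_source hk) v⟩
  have hch : ∀ k l x, x ∈ (𝒮.κ k).source → x ∈ (𝒮.κ l).source →
      LinearMap.trace ℂ E (𝒮.P l (𝒮.κ l x) : E →ₗ[ℂ] E) = LinearMap.trace ℂ E (𝒮.P k (𝒮.κ k x) : E →ₗ[ℂ] E) := by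
    intro k l x hk hl
    have e1 : (𝒮.P l (𝒮.κ l x) : E →ₗ[ℂ] E) = (𝒮.toAtl.J k l x : E →ₗ[ℂ] E) ∘ₗ
        ((𝒮.P k (𝒮.κ k x) : E →ₗ[ℂ] E) ∘ₗ (𝒮.toAtl.J l k x : E →ₗ[ℂ] E)) := by
      ext v
      simp [← 𝒮.cmpP k l x hk hl, Atl.J_comp hl hk hl, Atl.J_self hl]
    rw [e1, LinearMap.trace_comp_comm']
    congr 1
    ext v
    simp [Atl.J_comp hk hl hk, Atl.J_self hk]
  choose c hc using 𝒮.cov
  let ρ : X → ℕ := fun x => Module.finrank ℂ (LinearMap.range (𝒮.P (c x) (𝒮.κ (c x) x) : E →ₗ[ℂ] E))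
  have hρ : ∀ k x, x ∈ (𝒮.κ k).source → (ρ x : ℂ) = LinearMap.trace ℂ E (𝒮.P k (𝒮.κ k x) : E →ₗ[ℂ] E) :=
    fun k x hk => by rw [← hch k (c x) x hk (hc x), htr _ _ (hc x)]
  have hl : IsLocallyConstant ρ := by
    refine (IsLocallyConstant.iff_eventually_eq _).2 fun x => ?_
    let T : (E →L[ℂ] E) →ₗ[ℂ] ℂ := LinearMap.trace ℂ E ∘ₗ ContinuousLinearMap.coeLM ℂ
    have h1 : ContinuousAt (fun x' => T (𝒮.P (c x) (𝒮.κ (c x) x'))) x :=
      T.continuous_of_finiteDimensional.continuousAt.comp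
        ((𝒮.anP _ _ ((𝒮.κ _).map_source (hc x))).continuousAt.comp ((𝒮.κ _).continuousAt (hc x)))
    filter_upwards [h1.eventually (ball_mem_nhds _ one_pos), (𝒮.κ (c x)).open_source.mem_nhds (hc x)] with y h2 h3
    have h4 : dist (ρ y : ℂ) (ρ x : ℂ) < 1 := by rw [hρ _ y h3, hρ _ x (hc x)]; exact h2
    rw [dist_eq_norm, ← Int.cast_natCast, ← Int.cast_natCast (ρ x), ← Int.cast_sub, Complex.norm_intCast] at h4
    have h5 : |(ρ y : ℤ) - ρ x| < 1 := by exact_mod_cast h4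
    have := Int.abs_lt_one_iff.1 h5
    omega
  have h2 := hl.apply_eq_of_preconnectedSpace x x'
  have h3 : (ρ x : ℂ) = ρ x' := by rw [h2]
  rw [hρ i x hi, hρ j x' hj, htr i x hi, htr j x' hj] at h3
  exact_mod_cast h3

theorem Tan_of {γ : ℂ → X} {z : ℂ} (hγ : 𝒮.An γ z) (i : 𝒮.ι) (hi : γ z ∈ (𝒮.κ i).source)
    (h : 𝒮.P i (𝒮.κ i (γ z)) (deriv (𝒮.κ i ∘ γ) z) = deriv (𝒮.κ i ∘ γ) z) : 𝒮.Tan γ z := by
  intro j hj
  rw [hγ.deriv_chart hi hj, 𝒮.cmpP i j _ hi hj, h]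

theorem Tan.congr {γ γ' : ℂ → X} {z : ℂ} (h : 𝒮.Tan γ z) (e : γ =ᶠ[𝓝 z] γ') : 𝒮.Tan γ' z := by
  intro i hi
  rw [← e.self_of_nhds] at hi ⊢
  rw [← (e.fun_comp _).deriv_eq]
  exact h i hi

/-- reparametrisation -/
theorem Tan.comp {γ : ℂ → X} {g : ℂ → ℂ} {z : ℂ} (hγ : 𝒮.An γ (g z)) (h : 𝒮.Tan γ (g z))
    (hg : DifferentiableAt ℂ g z) : 𝒮.Tan (fun t => γ (g t)) z := by
  intro i hi
  have h1 : deriv (𝒮.κ i ∘ fun t => γ (g t)) z = deriv g z • deriv (𝒮.κ i ∘ γ) (g z) :=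
    ((hγ.2 i hi).differentiableAt.hasDerivAt.scomp z hg.hasDerivAt).deriv
  rw [h1, map_smul, h i hi]

/-- identity theorem for tangency: `{z | ∀ᶠ t in 𝓝 z, Tan γ t}` is clopen -/
theorem Tan.of_frequently {γ : ℂ → X} (hγ : ∀ z, 𝒮.An γ z) {z₀ : ℂ} (h : ∃ᶠ z in 𝓝[≠] z₀, 𝒮.Tan γ z) (z : ℂ) :
    𝒮.Tan γ z := by
  have key : ∀ z, (∃ᶠ t in 𝓝[≠] z, 𝒮.Tan γ t) → ∀ᶠ t in 𝓝 z, 𝒮.Tan γ t := fun z hz => by
    obtain ⟨i, hi⟩ := 𝒮.cov (γ z)
    have h1 := (hγ z).1.eventually ((𝒮.κ i).open_source.mem_nhds hi)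
    have h2 := (hγ z).2 i hi
    have h3 : AnalyticAt ℂ (fun t => 𝒮.P i (𝒮.κ i (γ t)) (deriv (𝒮.κ i ∘ γ) t) - deriv (𝒮.κ i ∘ γ) t) z :=
      (cov_clm_an ((𝒮.anP i _ ((𝒮.κ i).map_source hi)).comp (f := 𝒮.κ i ∘ γ) h2) h2.deriv).sub h2.deriv
    have h4 := h3.frequently_zero_iff_eventually_zero.1
      ((hz.and_eventually (h1.filter_mono nhdsWithin_le_nhds)).mono fun t ht => sub_eq_zero.2 (ht.1 i ht.2))
    filter_upwards [h1, h4] with t h5 h6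
    exact Tan_of (hγ t) i h5 (sub_eq_zero.1 h6)
  have h1 : univ ⊆ {z | ∀ᶠ t in 𝓝 z, 𝒮.Tan γ t} := by
    refine isPreconnected_univ.subset_of_closure_inter_subset isOpen_setOfPred_eventually_nhds
      ⟨z₀, mem_univ _, key z₀ h⟩ ?_
    rintro x ⟨hx, -⟩
    by_cases hx' : ∀ᶠ t in 𝓝 x, 𝒮.Tan γ t
    · exact hx'
    refine key x ?_
    have h2 : ∃ᶠ t in 𝓝 x, ∀ᶠ s in 𝓝 t, 𝒮.Tan γ s := mem_closure_iff_frequently.1 hx
    rw [frequently_nhdsWithin_iff]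
    exact h2.mono fun t ht => ⟨ht.self_of_nhds, fun e => hx' (by rw [mem_singleton_iff.1 e] at ht; exact ht)⟩
  exact (h1 (mem_univ z)).self_of_nhds

end SA

end

end Crest.Agent.R266

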