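import Crest.Agent.R266.VField
import Crest.Agent.R266.Cov

/-!
# Row 266: integrability and analyticity, chartwise
-/

set_option autoImplicit false
set_option linter.unusedSectionVars false
set_option linter.unusedVariables false

namespace Crest.Agent.R266

open Set Metric Filter Topology MeasureTheory Polynomial
open scoped ENNReal Classical

noncomputable section

open Crest.AlgGeometry.HolSplit
open scoped Manifold ContDiff

variable {n : ℕ} {X : Type} [TopologicalSpace X] [ChartedSpace (Model n) X] [IsManifold (mI n) ω X] {S : Splitting n X} {𝒮 : SA X (Model n)}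

/-- `Brid` for a bare projection field -/
structure BQ (Q : (x : X) → TangentSpace (mI n) x →L[ℂ] TangentSpace (mI n) x) (𝒯 : SA X (Model n)) : Prop where
  pref : ∀ x : X, ∃ i, x ∈ (𝒯.κ i).source ∧ ⇑(𝒯.κ i) = chartAt (Model n) x ∧
    ⇑(𝒯.κ i).symm = (chartAt (Model n) x).symm
  proj : ∀ i, ∀ x ∈ (𝒯.κ i).source, ∀ v : TangentSpace (mI n) x,
    𝒯.P i (𝒯.κ i x) (mfderiv (mI n) (mI n) (𝒯.κ i) x v) = mfderiv (mI n) (mI n) (𝒯.κ i) x (Q x v)

/-- closedness under brackets -/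
def QInt (Q : (x : X) → TangentSpace (mI n) x →L[ℂ] TangentSpace (mI n) x) : Prop :=
  ∀ (U : Set X), IsOpen U → ∀ (V W : (x : X) → TangentSpace (mI n) x),
    IsHolVectorFieldOn U V → IsHolVectorFieldOn U W →
    (∀ x ∈ U, Q x (V x) = V x) → (∀ x ∈ U, Q x (W x) = W x) →
      ∀ x ∈ U, Q x (VectorField.mlieBracket (mI n) V W x) = VectorField.mlieBracket (mI n) V W x

theorem Brid.bq (h : Brid S 𝒮) : BQ S.proj 𝒮 := ⟨h.pref, h.proj⟩

theorem Brid.bq' (h : Brid S 𝒮) : BQ (fun x => ContinuousLinearMap.id ℂ _ - S.proj x) 𝒮.swap :=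
  ⟨h.pref, fun i x hx v => by
    have h1 := h.proj i x hx v
    exact (congrArg (fun t : Model n => @HSub.hSub (Model n) (Model n) (Model n) _
      (mfderiv (mI n) (mI n) (𝒮.κ i) x v) t) h1).trans
      ((mfderiv (mI n) (mI n) (𝒮.κ i) x).map_sub v (S.proj x v)).symm⟩

section BQ
variable {Q : (x : X) → TangentSpace (mI n) x →L[ℂ] TangentSpace (mI n) x} {𝒯 : SA X (Model n)}

theorem BQ.ev (h : BQ Q 𝒯) {x : X} {i : 𝒯.ι} (hi : x ∈ (𝒯.κ i).source) (e : ⇑(𝒯.κ i) = chartAt (Model n) x)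
    (e' : ⇑(𝒯.κ i).symm = (chartAt (Model n) x).symm) {U : Set X} (hU : IsOpen U) (hx : x ∈ U)
    {V : (x : X) → TangentSpace (mI n) x} (eV : ∀ x ∈ U, Q x (V x) = V x) :
    ∀ᶠ z in 𝓝 (𝒯.κ i x), 𝒯.P i z (vfc x V z) = vfc x V z := by
  have h1 := (𝒯.κ i).open_target.mem_nhds ((𝒯.κ i).map_source hi)
  have h2 := ((𝒯.κ i).continuousAt_symm ((𝒯.κ i).map_source hi)).eventually
    (hU.mem_nhds (by rwa [(𝒯.κ i).left_inv hi]))
  filter_upwards [h1, h2] with z hz hz'
  have h3 := h.proj i _ ((𝒯.κ i).map_target hz) (V _)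
  rw [eV _ hz', (𝒯.κ i).right_inv hz] at h3
  unfold vfc
  rw [← e', ← e]
  exact h3

theorem BQ.key (h : BQ Q 𝒯) {x : X} {i : 𝒯.ι} (hi : x ∈ (𝒯.κ i).source) (e : ⇑(𝒯.κ i) = chartAt (Model n) x)
    (e' : ⇑(𝒯.κ i).symm = (chartAt (Model n) x).symm) {U : Set X} (hU : IsOpen U) (hx : x ∈ U)
    {V W : (x : X) → TangentSpace (mI n) x} (hV : IsHolVectorFieldOn U V) (hW : IsHolVectorFieldOn U W)
    (eV : ∀ x ∈ U, Q x (V x) = V x) (eW : ∀ x ∈ U, Q x (W x) = W x) :
    Q x (VectorField.mlieBracket (mI n) V W x) = VectorField.mlieBracket (mI n) V W x ↔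
      th (𝒯.P i) (𝒯.κ i x) (vfc x V (𝒯.κ i x)) (vfc x W (𝒯.κ i x)) = 0 := by
  have ht := (𝒯.κ i).map_source hi
  have aV := vfc_analyticAt hU hV (mem_chart_source (Model n) x) hx
  have aW := vfc_analyticAt hU hW (mem_chart_source (Model n) x) hx
  have h2 := mlieBracket_eq x V W
  have h3 := h.proj i x hi (VectorField.mlieBracket (mI n) V W x)
  have h4 : ∀ v : TangentSpace (mI n) x, (mfderiv (mI n) (mI n) (𝒯.κ i) x v : Model n) = v := fun v => by
    rw [e]; exact mfderiv_chart_self x v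
  rw [← e] at aV aW h2
  rw [← bracket_th (𝒯.anP i _ ht).differentiableAt (𝒯.idem i _ ht) aV.differentiableAt aW.differentiableAt
    (h.ev hi e e' hU hx eV) (h.ev hi e e' hU hx eW), ← h2]
  have h5 : 𝒯.P i (𝒯.κ i x) (VectorField.mlieBracket (mI n) V W x) = Q x (VectorField.mlieBracket (mI n) V W x) :=
    ((congrArg _ (h4 _).symm).trans h3).trans (h4 _)
  refine Iff.trans ?_ (sub_eq_zero (a := (VectorField.mlieBracket (mI n) V W x : Model n))
    (b := 𝒯.P i (𝒯.κ i x) (VectorField.mlieBracket (mI n) V W x))).symm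
  rw [h5]
  exact eq_comm

theorem BQ.of_int (h : BQ Q 𝒯) (hi : 𝒯.Int) : QInt Q := by
  intro U hU V W hV hW eV eW x hx
  obtain ⟨i, hx', e, e'⟩ := h.pref x
  exact (h.key hx' e e' hU hx hV hW eV eW).2 (hi i _ ((𝒯.κ i).map_source hx') _ _)

theorem BQ.int_of (h : BQ Q 𝒯) (hq : QInt Q) : 𝒯.Int := by
  refine SA.int_of_forall fun x => ?_
  obtain ⟨i, hx, e, e'⟩ := h.pref x
  refine ⟨i, hx, fun a b => ?_⟩
  have hU : IsOpen ((𝒯.κ i).source ∩ (chartAt (Model n) x).source) :=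
    (𝒯.κ i).open_source.inter (chartAt (Model n) x).open_source
  have hxU : x ∈ (𝒯.κ i).source ∩ (chartAt (Model n) x).source := ⟨hx, mem_chart_source _ x⟩
  have hol : ∀ a, IsHolVectorFieldOn ((𝒯.κ i).source ∩ (chartAt (Model n) x).source)
      (cvf x fun y => 𝒯.P i y a) := fun a =>
    cvf_hol hU inter_subset_right fun p hp => by
      rw [← e]
      exact cov_clm_an (𝒯.anP i _ ((𝒯.κ i).map_source hp.1)) analyticAt_const
  have val : ∀ a, ∀ p ∈ (chartAt (Model n) x).source,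
      (mfderiv (mI n) (mI n) (chartAt (Model n) x) p (cvf x (fun y => 𝒯.P i y a) p) : Model n) =
        𝒯.P i (chartAt (Model n) x p) a := fun a p hp => mfderiv_chart_chart_symm hp _
  have fix : ∀ a, ∀ p ∈ (𝒯.κ i).source ∩ (chartAt (Model n) x).source,
      Q p (cvf x (fun y => 𝒯.P i y a) p) = cvf x (fun y => 𝒯.P i y a) p := fun a p hp => by
    have h1 := h.proj i p hp.1 (cvf x (fun y => 𝒯.P i y a) p)
    have h2 := 𝒯.idem i _ ((𝒯.κ i).map_source hp.1) a
    rw [e] at h1 h2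
    have h3 : (mfderiv (mI n) (mI n) (chartAt (Model n) x) p (Q p (cvf x (fun y => 𝒯.P i y a) p)) : Model n) =
        𝒯.P i (chartAt (Model n) x p) a := (h1.symm.trans (congrArg _ (val a p hp.2))).trans h2
    exact (mfderiv_chart_symm_chart hp.2 _).symm.trans (congrArg _ h3)
  have h1 := (h.key hx e e' hU hxU (hol a) (hol b) (fix a) (fix b)).1
    (hq _ hU _ _ (hol a) (hol b) (fix a) (fix b) x hxU)
  have h2 : ∀ a, vfc x (cvf x fun y => 𝒯.P i y a) (𝒯.κ i x) = 𝒯.P i (𝒯.κ i x) a := fun a => by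
    unfold vfc
    rw [e, (chartAt (Model n) x).left_inv (mem_chart_source _ x)]
    exact val a x (mem_chart_source _ x)
  rw [h2, h2] at h1
  simpa only [th, 𝒯.idem i _ ((𝒯.κ i).map_source hx)] using h1

end BQ

/-- `mlieBracket_eq`, `bracket_th` in the preferred chart -/
theorem Brid.first_of_int (h : Brid S 𝒮) (hi : 𝒮.Int) : S.FirstIntegrable := by
  exact h.bq.of_int hi

theorem Brid.second_of_int (h : Brid S 𝒮) (hi : 𝒮.swap.Int) : S.SecondIntegrable := by
  intro U hU V W hV hW eV eW x hx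
  have := h.bq'.of_int hi U hU V W hV hW (fun x hx => by simp [eV x hx]) (fun x hx => by simp [eW x hx]) x hx
  simpa using this

/-- `SA.int_of_forall`; the fields `cvf x (fun y => P i y (P i y₀ a))` on `source i` -/
theorem Brid.int_of_first (h : Brid S 𝒮) (hi : S.FirstIntegrable) : 𝒮.Int := by
  exact h.bq.int_of hi

theorem Brid.int_of_second (h : Brid S 𝒮) (hi : S.SecondIntegrable) : 𝒮.swap.Int := by
  refine h.bq'.int_of fun U hU V W hV hW eV eW x hx => ?_
  have := hi U hU V W hV hW (fun x hx => by simpa using eV x hx) (fun x hx => by simpa using eW x hx) x hx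
  simp [this]

theorem Brid.an_of_contMDiffAt (h : Brid S 𝒮) {g : ℂ → X} {z : ℂ} (hg : ContMDiffAt 𝓘(ℂ, ℂ) (mI n) ω g z) :
    𝒮.An g z := by
  obtain ⟨i, hi, e, -⟩ := h.pref (g z)
  refine Atl.An_of i hg.continuousAt hi ?_
  have h1 : ContMDiffAt (mI n) (mI n) ω (chartAt (Model n) (g z)) (g z) :=
    contMDiffOn_chart.contMDiffAt (chart_source_mem_nhds _ _)
  rw [e]
  exact (contMDiffAt_iff_contDiffAt.1 (h1.comp z hg)).analyticAt

/-- an analytic subset is closed -/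
theorem exists_box (hrc : IsRationallyConnected n X) : ∃ U V : Set X, IsOpen U ∧ IsOpen V ∧ U.Nonempty ∧ V.Nonempty ∧
    ∀ x ∈ U, ∀ y ∈ V, OnRationalCurve (n := n) x y := by
  obtain ⟨A, hA, hne, h⟩ := hrc
  obtain ⟨p, hp⟩ := (ne_univ_iff_exists_notMem A).1 hne
  obtain ⟨O, k, f, hO, hpO, hf, e⟩ := hA p
  obtain ⟨i, hi⟩ : ∃ i, f i p ≠ 0 := by
    by_contra h0
    push Not at h0
    have : p ∈ A ∩ O := e ▸ ⟨hpO, h0⟩
    exact hp this.1
  have h1 : ∀ᶠ q in 𝓝 p, q ∉ A := by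
    filter_upwards [hO.mem_nhds hpO,
      ((hf i).continuousOn.continuousAt (hO.mem_nhds hpO)).eventually_ne hi] with q h1 h2 h3
    have : q ∈ A ∩ O := ⟨h3, h1⟩
    rw [e] at this
    exact h2 (this.2 i)
  obtain ⟨U, V, hU, hpU, hV, hpV, hs⟩ := mem_nhds_prod_iff'.1 h1
  exact ⟨U, V, hU, hV, ⟨_, hpU⟩, ⟨_, hpV⟩, fun x hx y hy => h x y (hs (mk_mem_prod hx hy))⟩

end

end Crest.Agent.R266

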