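import Crest.Agent.R266.VField
import Crest.Agent.R266.Atl

/-!
# Row 266: lifted product charts are compatible
-/

set_option autoImplicit false
set_option linter.unusedSectionVars false
set_option linter.unusedVariables false

namespace Crest.Agent.R266

open Set Metric Filter Topology MeasureTheory Polynomial
open scoped ENNReal Classical

noncomputable section

open Crest.AlgGeometry.HolSplit
open scoped Manifold ContDiff

variable {n : ℕ} {X : Type} [TopologicalSpace X] [ChartedSpace (Model n) X] [IsManifold (mI n) ω X] {S : Splitting n X} {𝒮 : SA X (Model n)}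
  {X' : Type} [TopologicalSpace X'] [ChartedSpace (Model n) X'] [IsManifold (mI n) ω X']
  {A B : Type} [NormedAddCommGroup A] [NormedSpace ℂ A] [NormedAddCommGroup B] [NormedSpace ℂ B]
  [CompleteSpace A] [CompleteSpace B]

theorem contMDiffAt_sheet_chart {x p : X} (hp : p ∈ (chartAt (Model n) x).source) :
    ContMDiffAt (mI n) (mI n) ω (chartAt (Model n) x) p :=
  (contMDiffOn_chart (I := mI n) (n := ω) (x := x)).contMDiffAt
    ((chartAt (Model n) x).open_source.mem_nhds hp)

theorem contMDiffAt_sheet_symm {x : X} {y : Model n} (hy : y ∈ (chartAt (Model n) x).target) :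
    ContMDiffAt (mI n) (mI n) ω (chartAt (Model n) x).symm y :=
  (contMDiffOn_chart_symm (I := mI n) (n := ω) (x := x)).contMDiffAt
    ((chartAt (Model n) x).open_target.mem_nhds hy)

/-- Inverse function theorem: in charts `φ = chartAt (π p) ∘ π ∘ (chartAt p).symm` is an open partial homeomorphism,
analytic with invertible derivative (`OpenPartialHomeomorph.contDiffAt_symm` / `analyticAt_symm`). -/
theorem contMDiffAt_sheet {π : X' → X} (hπ : ContMDiff (mI n) (mI n) ω π)
    (hd : ∀ p : X', Function.Bijective (mfderiv (mI n) (mI n) π p)) {e : OpenPartialHomeomorph X' X} (he : ⇑e = π)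
    {p : X'} (hp : p ∈ e.source) : ContMDiffAt (mI n) (mI n) ω e.symm (π p) := by
  subst he
  set c' := chartAt (Model n) p with hc'
  set c := chartAt (Model n) (e p) with hc
  have hp' : p ∈ c'.source := mem_chart_source _ p
  have hq : e p ∈ c.source := mem_chart_source _ (e p)
  let φ : OpenPartialHomeomorph (Model n) (Model n) := c'.symm.trans (e.trans c)
  have hφ : ⇑φ = c ∘ e ∘ c'.symm := rfl
  have hφs : ⇑φ.symm = c' ∘ e.symm ∘ c.symm := rfl
  have hs : c' p ∈ φ.source := by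
    refine ⟨c'.map_source hp', ?_⟩
    change c'.symm (c' p) ∈ (e.trans c).source
    rw [c'.left_inv hp']
    exact ⟨hp, hq⟩
  have hv : φ (c' p) = c (e p) := by
    rw [hφ]
    simp only [Function.comp_apply, c'.left_inv hp']
  have ht : c (e p) ∈ φ.target := hv ▸ φ.map_source hs
  have hw : φ.symm (c (e p)) = c' p := by rw [← hv, φ.left_inv hs]
  have h1 : ContDiffAt ℂ ω φ (c' p) := by
    rw [← contMDiffAt_iff_contDiffAt, hφ]
    refine ContMDiffAt.comp (I' := mI n) _ ?_ (ContMDiffAt.comp (I' := mI n) _ (hπ _)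
      (contMDiffAt_sheet_symm (c'.map_source hp')))
    refine contMDiffAt_sheet_chart ?_
    simp only [Function.comp_apply, c'.left_inv hp']
    exact hq
  let L : Model n →L[ℂ] Model n := mfderiv (mI n) (mI n) e p
  have hL : Function.Bijective L := hd p
  let L' : Model n ≃L[ℂ] Model n := (LinearEquiv.ofBijective (L : Model n →ₗ[ℂ] Model n) hL).toContinuousLinearEquiv
  have hL' : (L' : Model n →L[ℂ] Model n) = L := by
    ext1 v
    rfl
  have h2 : HasFDerivAt φ (L' : Model n →L[ℂ] Model n) (c' p) := by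
    rw [hL']
    have := ((hπ p).mdifferentiableAt (by simp)).hasMFDerivAt.2
    simp only [mfld_simps, hasFDerivWithinAt_univ] at this
    exact this
  have h3 : ContDiffAt ℂ ω φ.symm (c (e p)) :=
    φ.contDiffAt_symm ht (hw ▸ h2) (hw ▸ h1)
  have h4 : ContMDiffAt (mI n) (mI n) ω (c'.symm ∘ φ.symm ∘ c) (e p) := by
    refine ContMDiffAt.comp (I' := mI n) _ ?_ (ContMDiffAt.comp (I' := mI n) _
      (contMDiffAt_iff_contDiffAt.2 h3) (contMDiffAt_sheet_chart hq))
    refine contMDiffAt_sheet_symm ?_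
    simp only [Function.comp_apply, hw]
    exact c'.map_source hp'
  refine h4.congr_of_eventuallyEq ?_
  have hc1 : ContinuousAt e.symm (e p) := e.continuousAt_symm (e.map_source hp)
  have hc2 : ∀ᶠ y in 𝓝 (e p), e.symm y ∈ c'.source :=
    hc1.preimage_mem_nhds (c'.open_source.mem_nhds (by rwa [e.left_inv hp]))
  filter_upwards [hc2, c.open_source.mem_nhds hq] with y hy1 hy2
  simp only [hφs, Function.comp_apply, c.left_inv hy2, c'.left_inv hy1]

/-- an adapted chart is compatible on `X` itself: near `x`, `κ = (κ ∘ (𝒮.κ k).symm) ∘ 𝒮.κ k` -/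
theorem Brid.adapted (h : Brid S 𝒮) {κ : OpenPartialHomeomorph X (A × B)} (hκ : 𝒮.Adapted κ) {x : X}
    (hx : x ∈ κ.source) : ContMDiffAt (mI n) 𝓘(ℂ, A × B) ω κ x ∧ ContMDiffAt 𝓘(ℂ, A × B) (mI n) ω κ.symm (κ x) ∧
      ∀ v : TangentSpace (mI n) x, (mfderiv (mI n) 𝓘(ℂ, A × B) κ x (S.proj x v) : A × B) =
        ((mfderiv (mI n) 𝓘(ℂ, A × B) κ x v : A × B).1, 0) := by
  obtain ⟨k, hk, e1, e2⟩ := h.pref x
  obtain ⟨a1, a2, a3⟩ := hκ k x hx hk
  have hxs : x ∈ (chartAt (Model n) x).source := mem_chart_source _ x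
  have hk1 : ContMDiffAt (mI n) (mI n) ω (𝒮.κ k) x := by
    rw [e1]
    exact contMDiffAt_sheet_chart hxs
  have hk2 : ContMDiffAt (mI n) (mI n) ω (𝒮.κ k).symm (𝒮.κ k x) := by
    rw [e1, e2]
    exact contMDiffAt_sheet_symm ((chartAt (Model n) x).map_source hxs)
  have b1 : ContMDiffAt (mI n) 𝓘(ℂ, A × B) ω (κ ∘ (𝒮.κ k).symm) (𝒮.κ k x) :=
    contMDiffAt_iff_contDiffAt.2 a1.contDiffAt
  have b2 : ContMDiffAt 𝓘(ℂ, A × B) (mI n) ω (𝒮.κ k ∘ κ.symm) (κ x) :=
    contMDiffAt_iff_contDiffAt.2 a2.contDiffAt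
  have ev1 : (κ : X → A × B) =ᶠ[𝓝 x] (κ ∘ (𝒮.κ k).symm) ∘ 𝒮.κ k := by
    filter_upwards [(𝒮.κ k).open_source.mem_nhds hk] with y hy
    simp only [Function.comp_apply, (𝒮.κ k).left_inv hy]
  refine ⟨(b1.comp x hk1).congr_of_eventuallyEq ev1, ?_, ?_⟩
  · have : ContMDiffAt 𝓘(ℂ, A × B) (mI n) ω ((𝒮.κ k).symm ∘ (𝒮.κ k ∘ κ.symm)) (κ x) := by
      refine ContMDiffAt.comp (I' := mI n) _ ?_ b2
      simp only [Function.comp_apply, κ.left_inv hx]
      exact hk2
    refine this.congr_of_eventuallyEq ?_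
    have hc : ∀ᶠ y in 𝓝 (κ x), κ.symm y ∈ (𝒮.κ k).source :=
      (κ.continuousAt_symm (κ.map_source hx)).preimage_mem_nhds
        ((𝒮.κ k).open_source.mem_nhds (by rwa [κ.left_inv hx]))
    filter_upwards [hc] with y hy
    simp only [Function.comp_apply, (𝒮.κ k).left_inv hy]
  · have key : ∀ v : TangentSpace (mI n) x, (mfderiv (mI n) 𝓘(ℂ, A × B) κ x v : A × B) =
        fderiv ℂ (κ ∘ (𝒮.κ k).symm) (𝒮.κ k x) (mfderiv (mI n) (mI n) (𝒮.κ k) x v) := by
      intro v
      rw [ev1.mfderiv_eq, mfderiv_comp x (b1.mdifferentiableAt (by simp)) (hk1.mdifferentiableAt (by simp)),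
        mfderiv_eq_fderiv]
      rfl
    intro v
    rw [key, key, ← h.proj k x hk v]
    exact a3 _

theorem Brid.compat (h : Brid S 𝒮) {κ : OpenPartialHomeomorph X (A × B)} (hκ : 𝒮.Adapted κ) {π : X' → X}
    (hπ : ContMDiff (mI n) (mI n) ω π) (hd : ∀ p : X', Function.Bijective (mfderiv (mI n) (mI n) π p))
    {e : OpenPartialHomeomorph X' X} (he : ⇑e = π) : Compat S π (e.trans κ) := by
  have hc : ⇑(e.trans κ) = κ ∘ π := by rw [← he]; rfl
  have hs : ∀ p ∈ (e.trans κ).source, p ∈ e.source ∧ π p ∈ κ.source := fun p hp =>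
    ⟨hp.1, he ▸ hp.2⟩
  have key : ∀ p ∈ (e.trans κ).source, ∀ v : TangentSpace (mI n) p,
      (mfderiv (mI n) 𝓘(ℂ, A × B) (e.trans κ) p v : A × B) =
        mfderiv (mI n) 𝓘(ℂ, A × B) κ (π p) (mfderiv (mI n) (mI n) π p v) := by
    intro p hp v
    rw [hc, mfderiv_comp p ((h.adapted hκ (hs p hp).2).1.mdifferentiableAt (by simp))
      ((hπ p).mdifferentiableAt (by simp))]
    rfl
  refine ⟨fun p hp => ?_, fun y hy => ?_, fun p hp v hv => ?_, fun p hp v hv => ?_⟩
  · rw [hc]
    exact ((h.adapted hκ (hs p hp).2).1.comp p (hπ p)).contMDiffWithinAt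
  · obtain ⟨p, hp, rfl⟩ : ∃ p ∈ (e.trans κ).source, y = κ (π p) :=
      ⟨_, (e.trans κ).map_target hy, by
        have := (e.trans κ).right_inv hy
        rw [hc] at this
        exact this.symm⟩
    have h1 := (h.adapted hκ (hs p hp).2).2.1
    have h2 := contMDiffAt_sheet hπ hd he (hs p hp).1
    have : ContMDiffAt 𝓘(ℂ, A × B) (mI n) ω (e.symm ∘ κ.symm) (κ (π p)) := by
      refine ContMDiffAt.comp (I' := mI n) _ ?_ h1
      rw [κ.left_inv (hs p hp).2]
      exact h2
    exact this.contMDiffWithinAt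
  · have := (h.adapted hκ (hs p hp).2).2.2 (mfderiv (mI n) (mI n) π p v)
    rw [hv] at this
    rw [key p hp v]
    exact congrArg Prod.snd this
  · have := (h.adapted hκ (hs p hp).2).2.2 (mfderiv (mI n) (mI n) π p v)
    rw [hv, map_zero] at this
    rw [key p hp v]
    exact (congrArg Prod.fst this).symm

end

end Crest.Agent.R266

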