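import Crest.Agent.R266.Defs

/-!
# Row 266: finite speed of propagation (real analysis)
-/

set_option autoImplicit false
set_option linter.unusedSectionVars false
set_option linter.unusedVariables false

namespace Crest.Agent.R266

open Set Metric Filter Topology MeasureTheory Polynomial
open scoped ENNReal Classical

noncomputable section

theorem cone_mono_int {f : ℂ → ℝ} {c : ℂ} {R : ℝ} (hf : Continuous f) (h0 : ∀ v, R < ‖v - c‖ → f v = 0) :
    Integrable f := by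
  refine hf.integrable_of_hasCompactSupport
    (HasCompactSupport.intro (isCompact_closedBall c R) fun v hv => h0 v ?_)
  simpa [dist_eq_norm] using hv

theorem cone_mono_div {Q : ℂ × ℝ → ℝ} {c : ℂ} {R t : ℝ} (w : ℂ) (hQ : ∀ v, ContDiffAt ℝ 1 Q (v, t))
    (h0 : ∀ v, R < ‖v - c‖ → Q =ᶠ[𝓝 (v, t)] 0) :
    Integrable (fun v => fderiv ℝ Q (v, t) (w, 0)) ∧ ∫ v, fderiv ℝ Q (v, t) (w, 0) = 0 := by
  have hc : Continuous fun v : ℂ => (v, t) := by fun_prop
  have h1 : Integrable (fun v => fderiv ℝ Q (v, t) (w, 0)) := by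
    refine cone_mono_int (c := c) (R := R) (continuous_iff_continuousAt.2 fun v => ?_) fun v hv => ?_
    · exact (((hQ v).continuousAt_fderiv one_ne_zero).comp_of_eq hc.continuousAt rfl).clm_apply
        continuousAt_const
    · rw [(h0 v hv).fderiv_eq]; simp
  have h2 : Integrable (fun v => Q (v, t)) :=
    cone_mono_int (c := c) (R := R) (continuous_iff_continuousAt.2 fun v =>
      (hQ v).continuousAt.comp_of_eq hc.continuousAt rfl) fun v hv => (h0 v hv).eq_of_nhds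
  refine ⟨h1, ?_⟩
  have := integral_bilinear_hasLineDerivAt_right_eq_neg_left_of_integrable (μ := (volume : Measure ℂ))
    (f := fun _ : ℂ => (1 : ℝ)) (f' := fun _ => 0) (g := fun v => Q (v, t))
    (g' := fun v => fderiv ℝ Q (v, t) (w, 0)) (v := w) (B := ContinuousLinearMap.mul ℝ ℝ)
    (by simp) (by simpa using h1) (by simpa using h2)
    (fun x _ => (hasFDerivAt_const (1 : ℝ) x).hasLineDerivAt w)
    (fun x _ => by
      have := (((hQ x).differentiableAt one_ne_zero).hasFDerivAt.comp x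
        (hasFDerivAt_prodMk_left (𝕜 := ℝ) x t)).hasLineDerivAt w
      exact this)
  simpa using this

theorem cone_mono_core {P Q₁ Q₂ : ℂ × ℝ → ℝ} {c : ℂ} {R t₀ t₁ : ℝ} (ht : t₀ ≤ t₁)
    (hP : ∀ x : ℂ × ℝ, x.2 ∈ Icc t₀ t₁ → ContDiffAt ℝ 1 P x)
    (hQ₁ : ∀ x : ℂ × ℝ, x.2 ∈ Icc t₀ t₁ → ContDiffAt ℝ 1 Q₁ x)
    (hQ₂ : ∀ x : ℂ × ℝ, x.2 ∈ Icc t₀ t₁ → ContDiffAt ℝ 1 Q₂ x)
    (hs : ∀ x : ℂ × ℝ, x.2 ∈ Icc t₀ t₁ → R < ‖x.1 - c‖ → P x = 0 ∧ Q₁ =ᶠ[𝓝 x] 0 ∧ Q₂ =ᶠ[𝓝 x] 0)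
    (hle : ∀ x : ℂ × ℝ, x.2 ∈ Icc t₀ t₁ →
      fderiv ℝ P x (0, 1) ≤ fderiv ℝ Q₁ x (1, 0) + fderiv ℝ Q₂ x (Complex.I, 0)) :
    Integrable (fun v => P (v, t₀)) ∧ Integrable (fun v => P (v, t₁)) ∧
      ∫ v, P (v, t₁) ≤ ∫ v, P (v, t₀) := by
  have hint : ∀ t ∈ Icc t₀ t₁, Integrable (fun v => P (v, t)) := fun t ht =>
    cone_mono_int (c := c) (R := R) (continuous_iff_continuousAt.2 fun v =>
      (hP (v, t) ht).continuousAt.comp_of_eq (f := fun v : ℂ => (v, t)) (by fun_prop) rfl)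
      fun v hv => (hs (v, t) ht hv).1
  have h0 := hint t₀ (left_mem_Icc.2 ht)
  have h1 := hint t₁ (right_mem_Icc.2 ht)
  refine ⟨h0, h1, ?_⟩
  set D : ℂ × ℝ → ℝ := fun x => fderiv ℝ Q₁ x (1, 0) + fderiv ℝ Q₂ x (Complex.I, 0) with hD
  have hDc : ∀ x : ℂ × ℝ, x.2 ∈ Icc t₀ t₁ → ContinuousAt D x := fun x hx =>
    (((hQ₁ x hx).continuousAt_fderiv one_ne_zero).clm_apply continuousAt_const).add
      (((hQ₂ x hx).continuousAt_fderiv one_ne_zero).clm_apply continuousAt_const)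
  have hstep : ∀ v, P (v, t₁) - P (v, t₀) ≤ ∫ t in Icc t₀ t₁, D (v, t) := by
    intro v
    have hc : Continuous fun t : ℝ => (v, t) := by fun_prop
    rw [integral_Icc_eq_integral_Ioc, ← intervalIntegral.integral_of_le ht]
    refine intervalIntegral.sub_le_integral_of_hasDeriv_right_of_le (g := fun t => P (v, t))
      (g' := fun t => fderiv ℝ P (v, t) (0, 1)) ht (fun t ht => ?_) (fun t ht => ?_) ?_ fun t ht => ?_
    · exact ((hP (v, t) ht).continuousAt.comp_of_eq hc.continuousAt rfl).continuousWithinAt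
    · exact (((hP (v, t) (Ioo_subset_Icc_self ht)).differentiableAt one_ne_zero).hasFDerivAt.comp t
        (hasFDerivAt_prodMk_right v t)).hasDerivAt.hasDerivWithinAt
    · exact ContinuousOn.integrableOn_Icc fun t ht =>
        ((hDc (v, t) ht).comp_of_eq hc.continuousAt rfl).continuousWithinAt
    · exact hle (v, t) (Ioo_subset_Icc_self ht)
  have hDi : Integrable D ((volume : Measure ℂ).prod (volume.restrict (Icc t₀ t₁))) := by
    rw [← Measure.restrict_univ (μ := (volume : Measure ℂ)), Measure.prod_restrict]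
    have hK : IntegrableOn D (closedBall c R ×ˢ Icc t₀ t₁) ((volume : Measure ℂ).prod volume) :=
      ContinuousOn.integrableOn_compact ((isCompact_closedBall c R).prod isCompact_Icc)
        fun x hx => (hDc x hx.2).continuousWithinAt
    refine hK.of_forall_sdiff_eq_zero (MeasurableSet.univ.prod measurableSet_Icc) fun x hx => ?_
    have hx1 : R < ‖x.1 - c‖ := by
      by_contra h
      exact hx.2 ⟨by simpa [dist_eq_norm] using h, hx.1.2⟩
    obtain ⟨-, h2, h3⟩ := hs x hx.1.2 hx1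
    simp only [hD]
    rw [h2.fderiv_eq, h3.fderiv_eq]; simp
  have h2 : ∫ v, (P (v, t₁) - P (v, t₀)) ≤ ∫ v, ∫ t in Icc t₀ t₁, D (v, t) :=
    integral_mono (h1.sub h0) hDi.integral_prod_left hstep
  rw [integral_sub h1 h0, integral_integral_swap (f := fun v t => D (v, t)) hDi,
    setIntegral_eq_zero_of_forall_eq_zero] at h2
  · linarith
  · intro t ht
    obtain ⟨a1, a2⟩ := cone_mono_div (c := c) (R := R) 1 (fun v => hQ₁ (v, t) ht)
      fun v hv => (hs (v, t) ht hv).2.1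
    obtain ⟨b1, b2⟩ := cone_mono_div (c := c) (R := R) Complex.I (fun v => hQ₂ (v, t) ht)
      fun v hv => (hs (v, t) ht hv).2.2
    simp only [hD]
    rw [integral_add a1 b1, a2, b2, add_zero]

/-- the argument of the cut-off and its derivative -/
theorem cone_mono_arg (c : ℂ) (R L t₀ δ : ℝ) (x : ℂ × ℝ) :
    ∃ A : ℂ × ℝ →L[ℝ] ℝ,
      HasFDerivAt (fun x : ℂ × ℝ => ((R - 2 * L * (x.2 - t₀)) ^ 2 - ‖x.1 - c‖ ^ 2) / δ) A x ∧
      A (0, 1) = -(4 * L * (R - 2 * L * (x.2 - t₀))) / δ ∧ A (1, 0) = -(2 * (x.1 - c).re) / δ ∧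
      A (Complex.I, 0) = -(2 * (x.1 - c).im) / δ := by
  have h1 := (((hasFDerivAt_snd (𝕜 := ℝ) (p := x)).sub_const t₀).const_mul (2 * L)).const_sub R
  have h2 := (hasFDerivAt_fst (𝕜 := ℝ) (p := x)).sub_const c
  refine ⟨_, ((h1.pow 2).sub h2.norm_sq).mul_const δ⁻¹, ?_, ?_, ?_⟩
  · simp; ring
  · simp; ring
  · simp; ring

/-- Let `r < R' - 2L(t₁ - t₀)`, `R' < R`, `ρ t = R' - 2L (t - t₀)`, `χ (v, t) = β (ρ t ^ 2 - ‖v - c‖ ^ 2)` with `β` smooth,
monotone, `0 ≤ β ≤ 1`, `β = 0` on `(-∞, 0]`, `β = 1` on `[ρ t₁ ^ 2 - r ^ 2, ∞)` (`Real.smoothTransition`).  The products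
`χ p`, `χ q₁`, `χ q₂` are `C¹` at every point of the slab `t₀ ≤ t ≤ t₁` with support in `closedBall c R'`, and
`∂ₜ (χ p) ≤ ∂₁ (χ q₁) + ∂₂ (χ q₂)` pointwise.  FTC in `t`, Fubini, and `∫ ∂ⱼ (χ qⱼ) = 0`
(`integral_fderiv_eq_zero`-type lemma, e.g. from `integral_bilinear_hasLineDerivAt_right_eq_neg_left_of_integrable`)
give `∫ χ p (·, t₁) ≤ ∫ χ p (·, t₀)`. -/
theorem cone_mono {p q₁ q₂ : ℂ × ℝ → ℝ} {c : ℂ} {R r L t₀ t₁ : ℝ} (hL : 0 ≤ L) (ht : t₀ ≤ t₁) (hr : 0 ≤ r)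
    (hR : r < R - 2 * L * (t₁ - t₀))
    (h : ∀ x : ℂ × ℝ, x.2 ∈ Icc t₀ t₁ → ‖x.1 - c‖ < R - 2 * L * (x.2 - t₀) →
      ContDiffAt ℝ 1 p x ∧ ContDiffAt ℝ 1 q₁ x ∧ ContDiffAt ℝ 1 q₂ x ∧ 0 ≤ p x ∧ |q₁ x| ≤ L * p x ∧
        |q₂ x| ≤ L * p x ∧ fderiv ℝ p x (0, 1) = fderiv ℝ q₁ x (1, 0) + fderiv ℝ q₂ x (Complex.I, 0)) :
    ∫⁻ v in ball c r, ENNReal.ofReal (p (v, t₁)) ≤ ∫⁻ v in ball c R, ENNReal.ofReal (p (v, t₀)) := by
  obtain ⟨R', hR1, hR2⟩ : ∃ R', r < R' - 2 * L * (t₁ - t₀) ∧ R' < R :=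
    ⟨(r + 2 * L * (t₁ - t₀) + R) / 2, by linarith, by linarith⟩
  set δ := (R' - 2 * L * (t₁ - t₀)) ^ 2 - r ^ 2 with hδ
  have hδ0 : 0 < δ := by rw [hδ]; nlinarith
  set a : ℂ × ℝ → ℝ := fun x => ((R' - 2 * L * (x.2 - t₀)) ^ 2 - ‖x.1 - c‖ ^ 2) / δ with ha
  have hac : ContDiff ℝ 1 a := by
    have : ContDiff ℝ 1 fun x : ℂ × ℝ => ‖x.1 - c‖ ^ 2 := (contDiff_fst.sub contDiff_const).norm_sq ℝ
    simp only [ha]
    fun_prop
  set χ : ℂ × ℝ → ℝ := fun x => Real.smoothTransition (a x) with hχ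
  have hχc : ContDiff ℝ 1 χ := Real.smoothTransition.contDiff.comp hac
  have hρ : ∀ x : ℂ × ℝ, x.2 ∈ Icc t₀ t₁ → 0 < R' - 2 * L * (x.2 - t₀) ∧ R' - 2 * L * (x.2 - t₀) ≤ R' := by
    intro x hx
    have := mul_le_mul_of_nonneg_left hx.1 hL
    have := mul_le_mul_of_nonneg_left hx.2 hL
    constructor <;> linarith
  have hz : ∀ x : ℂ × ℝ, x.2 ∈ Icc t₀ t₁ → R' - 2 * L * (x.2 - t₀) < ‖x.1 - c‖ → ∀ g : ℂ × ℝ → ℝ,
      (fun y => χ y * g y) =ᶠ[𝓝 x] 0 := by
    intro x hx h1 g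
    have h2 : a x < 0 := div_neg_of_neg_of_pos (by have := (hρ x hx).1; nlinarith) hδ0
    filter_upwards [hac.continuous.continuousAt.eventually (gt_mem_nhds h2)] with y hy
    simp only [hχ, Real.smoothTransition.zero_of_nonpos hy.le, zero_mul, Pi.zero_apply]
  have hcd : ∀ g : ℂ × ℝ → ℝ, (∀ x : ℂ × ℝ, x.2 ∈ Icc t₀ t₁ → ‖x.1 - c‖ < R - 2 * L * (x.2 - t₀) →
      ContDiffAt ℝ 1 g x) → ∀ x : ℂ × ℝ, x.2 ∈ Icc t₀ t₁ → ContDiffAt ℝ 1 (fun y => χ y * g y) x := by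
    intro g hg x hx
    by_cases h1 : ‖x.1 - c‖ < R - 2 * L * (x.2 - t₀)
    · exact hχc.contDiffAt.mul (hg x hx h1)
    · exact contDiffAt_const.congr_of_eventuallyEq (hz x hx (by linarith) g)
  obtain ⟨i0, i1, hle⟩ := cone_mono_core (P := fun y => χ y * p y) (Q₁ := fun y => χ y * q₁ y)
    (Q₂ := fun y => χ y * q₂ y) (c := c) (R := R') ht (hcd p fun x hx h1 => (h x hx h1).1)
    (hcd q₁ fun x hx h1 => (h x hx h1).2.1) (hcd q₂ fun x hx h1 => (h x hx h1).2.2.1)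
    (fun x hx h1 => by
      have h2 := hz x hx ((hρ x hx).2.trans_lt h1)
      exact ⟨(h2 p).eq_of_nhds, h2 q₁, h2 q₂⟩)
    (fun x hx => by
      by_cases h1 : R' - 2 * L * (x.2 - t₀) < ‖x.1 - c‖
      · have h2 := hz x hx h1
        rw [(h2 p).fderiv_eq, (h2 q₁).fderiv_eq, (h2 q₂).fderiv_eq]; simp
      · rw [not_lt] at h1
        obtain ⟨hp, hq₁, hq₂, hp0, b1, b2, e⟩ := h x hx (by linarith)
        obtain ⟨A, hA, A0, A1, A2⟩ := cone_mono_arg c R' L t₀ δ x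
        have hβ := (Real.smoothTransition.contDiff (n := 1)).differentiable one_ne_zero (a x)
        have hχd : HasFDerivAt χ (deriv Real.smoothTransition (a x) • A) x :=
          hβ.hasDerivAt.comp_hasFDerivAt x hA
        have hb : 0 ≤ deriv Real.smoothTransition (a x) := Real.smoothTransition.monotone.deriv_nonneg
        have hm : ∀ g : ℂ × ℝ → ℝ, ContDiffAt ℝ 1 g x → ∀ w, fderiv ℝ (fun y => χ y * g y) x w =
            χ x * fderiv ℝ g x w + g x * (deriv Real.smoothTransition (a x) * A w) := by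
          intro g hg w
          have := (hχd.mul (hg.differentiableAt one_ne_zero).hasFDerivAt).fderiv
          exact (congrArg (fun B : ℂ × ℝ →L[ℝ] ℝ => B w) this).trans (by simp)
        rw [hm p hp, hm q₁ hq₁, hm q₂ hq₂, e, A0, A1, A2]
        have c1 : q₁ x * (x.1 - c).re ≤ L * p x * (R' - 2 * L * (x.2 - t₀)) := by
          refine (le_abs_self _).trans ?_
          rw [abs_mul]
          exact mul_le_mul b1 ((Complex.abs_re_le_norm _).trans h1) (abs_nonneg _) (by positivity)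
        have c2 : q₂ x * (x.1 - c).im ≤ L * p x * (R' - 2 * L * (x.2 - t₀)) := by
          refine (le_abs_self _).trans ?_
          rw [abs_mul]
          exact mul_le_mul b2 ((Complex.abs_im_le_norm _).trans h1) (abs_nonneg _) (by positivity)
        have c3 : 0 ≤ deriv Real.smoothTransition (a x) / δ * 2 *
            (2 * (L * p x * (R' - 2 * L * (x.2 - t₀))) - q₁ x * (x.1 - c).re - q₂ x * (x.1 - c).im) :=
          mul_nonneg (by positivity) (by linarith)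
        refine le_of_sub_nonneg (c3.trans_eq ?_)
        ring)
  have hnn : ∀ t ∈ Icc t₀ t₁, ∀ v, 0 ≤ χ (v, t) * p (v, t) := by
    intro t ht v
    by_cases h1 : ‖v - c‖ < R - 2 * L * (t - t₀)
    · exact mul_nonneg (Real.smoothTransition.nonneg _) (h (v, t) ht h1).2.2.2.1
    · exact (hz (v, t) ht (by simp only; linarith) p).eq_of_nhds.ge
  calc ∫⁻ v in ball c r, ENNReal.ofReal (p (v, t₁))
      = ∫⁻ v in ball c r, ENNReal.ofReal (χ (v, t₁) * p (v, t₁)) := by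
        refine setLIntegral_congr_fun measurableSet_ball fun v hv => ?_
        rw [mem_ball, dist_eq_norm] at hv
        have : 1 ≤ a (v, t₁) := by
          simp only [ha]
          rw [one_le_div hδ0, hδ]
          have := norm_nonneg (v - c)
          nlinarith
        simp only [hχ, Real.smoothTransition.one_of_one_le this, one_mul]
    _ ≤ ∫⁻ v, ENNReal.ofReal (χ (v, t₁) * p (v, t₁)) := setLIntegral_le_lintegral _ _
    _ = ENNReal.ofReal (∫ v, χ (v, t₁) * p (v, t₁)) :=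
        (ofReal_integral_eq_lintegral_ofReal i1 (ae_of_all _ (hnn t₁ (right_mem_Icc.2 ht)))).symm
    _ ≤ ENNReal.ofReal (∫ v, χ (v, t₀) * p (v, t₀)) := ENNReal.ofReal_le_ofReal hle
    _ = ∫⁻ v, ENNReal.ofReal (χ (v, t₀) * p (v, t₀)) :=
        ofReal_integral_eq_lintegral_ofReal i0 (ae_of_all _ (hnn t₀ (left_mem_Icc.2 ht)))
    _ ≤ ∫⁻ v in ball c R, ENNReal.ofReal (p (v, t₀)) := by
        rw [← lintegral_indicator measurableSet_ball]
        refine lintegral_mono fun v => ?_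
        by_cases hv : v ∈ ball c R
        · rw [indicator_of_mem hv]
          rw [mem_ball, dist_eq_norm] at hv
          exact ENNReal.ofReal_le_ofReal (mul_le_of_le_one_left
            (h (v, t₀) (left_mem_Icc.2 ht) (by simpa using hv)).2.2.2.1 (Real.smoothTransition.le_one _))
        · rw [mem_ball, dist_eq_norm, not_lt] at hv
          have := (hz (v, t₀) (left_mem_Icc.2 ht) (by simp only; linarith) p).eq_of_nhds
          simp only [Pi.zero_apply] at this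
          rw [this]; simp

end

end Crest.Agent.R266

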