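import Crest.Agent.R266.Defs

/-!
# Row 266: one complex variable
-/

set_option autoImplicit false
set_option linter.unusedSectionVars false
set_option linter.unusedVariables false

namespace Crest.Agent.R266

open Set Metric Filter Topology MeasureTheory Polynomial
open scoped ENNReal Classical

noncomputable section

variable {F : Type} [NormedAddCommGroup F] [NormedSpace ℂ F] [CompleteSpace F]

theorem degree_sum_fin_lt' {n : ℕ} (c : Fin n → ℂ) : (∑ i : Fin n, monomial i (c i)).degree < n := by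
  simpa only [C_mul_X_pow_eq_monomial] using degree_sum_fin_lt c

/-- An entire function with a pole of order `≤ d` at infinity.  Induction on `d` (`dslope f 0`), Liouville
(`Differentiable.apply_eq_of_tendsto_cocompact`) for `d = 0`. -/
theorem exists_coeff (d : ℕ) {f k : ℂ → F} (hf : Differentiable ℂ f) (hk : AnalyticAt ℂ k 0)
    (h : ∀ᶠ ζ in 𝓝[≠] (0 : ℂ), f ζ⁻¹ = ζ⁻¹ ^ d • k ζ) :
    ∃ c : Fin (d + 1) → F, (∀ z, ev c z = f z) ∧ c (Fin.last d) = k 0 := by
  induction d generalizing f k with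
  | zero =>
    have h1 : Tendsto f (cocompact ℂ) (𝓝 (k 0)) := by
      rw [← Metric.cobounded_eq_cocompact]
      refine ((hk.continuousAt.tendsto.mono_left nhdsWithin_le_nhds).comp (tendsto_inv₀_cobounded' (α := ℂ))).congr' ?_
      filter_upwards [(tendsto_inv₀_cobounded' (α := ℂ)).eventually h] with z hz
      simpa using hz.symm
    exact ⟨fun _ => k 0, fun z => by simp [ev, hf.apply_eq_of_tendsto_cocompact z h1], rfl⟩
  | succ d ih =>
    have hg : Differentiable ℂ (dslope f 0) :=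
      differentiableOn_univ.1 ((Complex.differentiableOn_dslope univ_mem).2 hf.differentiableOn)
    obtain ⟨c, hc, hl⟩ := ih (k := fun ζ => k ζ - ζ ^ (d + 1) • f 0) hg
      (hk.sub ((analyticAt_id.pow _).smul analyticAt_const)) (by
        filter_upwards [h, self_mem_nhdsWithin] with ζ h1 h2
        have h2 : ζ ≠ 0 := h2
        rw [dslope_of_ne _ (inv_ne_zero h2), slope_def_module, h1, sub_zero, inv_inv, smul_sub, smul_sub, smul_smul,
          smul_smul]
        simp only [inv_pow]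
        congr 2 <;> (field_simp; ring))
    refine ⟨Fin.cons (f 0) c, fun z => ?_, by simpa [← Fin.succ_last] using hl⟩
    have h1 := sub_smul_dslope f 0 z
    rw [← hc z, sub_zero, ev, Finset.smul_sum] at h1
    rw [ev, Fin.sum_univ_succ]
    simp only [Fin.val_zero, pow_zero, Fin.cons_zero, one_smul, Fin.val_succ, Fin.cons_succ, pow_succ', mul_smul]
    rw [h1]
    abel

/-- If `j ≤ D` use `exists_coeff (D - j)`; if `D < j` then `f → 0` at infinity, so `f = 0`. -/
theorem growth (D j : ℕ) {f k : ℂ → ℂ} (hf : Differentiable ℂ f) (hk : AnalyticAt ℂ k 0)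
    (h : ∀ᶠ ζ in 𝓝[≠] (0 : ℂ), ζ ^ D * f ζ⁻¹ = ζ ^ j * k ζ) :
    ∃ p ∈ Polynomial.degreeLT ℂ (D + 1 - j), ∀ z, f z = p.eval z := by
  rcases le_or_gt j D with hj | hj
  · obtain ⟨c, hc, -⟩ := exists_coeff (D - j) hf hk (by
      filter_upwards [h, self_mem_nhdsWithin] with ζ h1 h2
      have h2 : ζ ≠ 0 := h2
      obtain ⟨e, rfl⟩ := Nat.exists_eq_add_of_le hj
      rw [pow_add, mul_assoc] at h1
      rw [← mul_left_cancel₀ (pow_ne_zero j h2) h1, Nat.add_sub_cancel_left, smul_eq_mul, inv_pow,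
        inv_mul_cancel_left₀ (pow_ne_zero _ h2)])
    refine ⟨∑ i : Fin (D - j + 1), monomial i (c i), ?_, fun z => ?_⟩
    · rw [show D + 1 - j = D - j + 1 by omega]
      exact mem_degreeLT.2 (degree_sum_fin_lt' c)
    · rw [← hc z, ev, eval_finsetSum]
      simp [mul_comm]
  · obtain ⟨c, hc, hl⟩ := exists_coeff 0 (k := fun ζ => ζ ^ (j - D) * k ζ) hf ((analyticAt_id.pow _).mul hk) (by
      filter_upwards [h, self_mem_nhdsWithin] with ζ h1 h2
      have h2 : ζ ≠ 0 := h2
      obtain ⟨e, rfl⟩ := Nat.exists_eq_add_of_le hj.le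
      rw [pow_add, mul_assoc] at h1
      rw [mul_left_cancel₀ (pow_ne_zero D h2) h1, Nat.add_sub_cancel_left]
      simp)
    refine ⟨0, Submodule.zero_mem _, fun z => ?_⟩
    have h0 : c 0 = 0 := by
      have : j - D ≠ 0 := by omega
      simpa [this] using hl
    rw [← hc z]
    simp [ev, h0]

/-- A polynomial of degree `≤ d` vanishing to order `d + 1` is zero (apply linear functionals, or induct on `d`). -/
theorem ev_eq_zero_of_order {d : ℕ} (c : Fin (d + 1) → F) {a : ℂ} {G : ℂ → F} (hG : AnalyticAt ℂ G a)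
    (h : ∀ᶠ z in 𝓝 a, ev c z = (z - a) ^ (d + 1) • G z) : ∀ z, ev c z = 0 := by
  intro z
  refine SeparatingDual.eq_zero_of_forall_dual_eq_zero (R := ℂ) fun φ => ?_
  let p : ℂ[X] := ∑ i : Fin (d + 1), monomial i (φ (c i))
  have hp : ∀ t, p.eval t = φ (ev c t) := fun t => by
    simp [p, ev, eval_finsetSum, mul_comm]
  rw [← hp]
  by_cases h0 : p = 0
  · simp [h0]
  exfalso
  obtain ⟨q, hq, hqa⟩ := exists_eq_pow_rootMultiplicity_mul_and_not_dvd p h0 a
  have hm : p.rootMultiplicity a ≤ d := by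
    have h1 := natDegree_le_of_dvd (pow_rootMultiplicity_dvd p a) h0
    rw [natDegree_pow, natDegree_X_sub_C, mul_one] at h1
    have h2 : p.natDegree < d + 1 := (natDegree_lt_iff_degree_lt h0).2 (degree_sum_fin_lt' _)
    omega
  generalize p.rootMultiplicity a = m at hq hm
  obtain ⟨e, he⟩ := Nat.exists_eq_add_of_le hm
  apply hqa
  rw [dvd_iff_isRoot]
  have h1 : ∀ᶠ t in 𝓝[≠] a, q.eval t = (t - a) ^ (e + 1) * φ (G t) := by
    filter_upwards [mem_nhdsWithin_of_mem_nhds h, self_mem_nhdsWithin] with t h1 h2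
    have h3 := hp t
    rw [h1, hq, map_smul, he, add_assoc, pow_add, smul_eq_mul, mul_assoc] at h3
    simp only [eval_mul, eval_pow, eval_sub, eval_X, eval_C] at h3
    exact mul_left_cancel₀ (pow_ne_zero _ (sub_ne_zero.2 h2)) h3
  have h2 : ContinuousAt (fun t => (t - a) ^ (e + 1) * φ (G t)) a :=
    ContinuousAt.mul (by fun_prop) (φ.continuous.continuousAt.comp hG.continuousAt)
  have h3 := tendsto_nhds_unique_of_eventuallyEq (q.continuous.continuousAt.tendsto.mono_left nhdsWithin_le_nhds)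
    (h2.tendsto.mono_left nhdsWithin_le_nhds) h1
  simpa using h3

theorem ev_analytic {d : ℕ} (x : (Fin (d + 1) → F) × ℂ) :
    AnalyticAt ℂ (fun y : (Fin (d + 1) → F) × ℂ => ev y.1 y.2) x := by
  refine Finset.analyticAt_fun_sum _ fun j _ => (analyticAt_snd.pow _).smul ?_
  exact ((ContinuousLinearMap.proj j : (Fin (d + 1) → F) →L[ℂ] F).analyticAt _).comp analyticAt_fst

theorem evi_analytic {d : ℕ} (x : (Fin (d + 1) → F) × ℂ) :
    AnalyticAt ℂ (fun y : (Fin (d + 1) → F) × ℂ => evi y.1 y.2) x := by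
  refine Finset.analyticAt_fun_sum _ fun j _ => (analyticAt_snd.pow _).smul ?_
  exact ((ContinuousLinearMap.proj j : (Fin (d + 1) → F) →L[ℂ] F).analyticAt _).comp analyticAt_fst

theorem evi_zero {d : ℕ} (c : Fin (d + 1) → F) : evi c 0 = c (Fin.last d) := by
  rw [evi, Fin.sum_univ_castSucc, Finset.sum_eq_zero fun j _ => ?_]
  · simp
  · have : d - j ≠ 0 := by have := j.2; omega
    simp [this]

theorem evi_eq {d : ℕ} (c : Fin (d + 1) → F) {z : ℂ} (hz : z ≠ 0) : evi c z = z ^ d • ev c z⁻¹ := by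
  rw [evi, ev, Finset.smul_sum]
  refine Finset.sum_congr rfl fun j _ => ?_
  rw [smul_smul, pow_sub₀ _ hz (Nat.le_of_lt_succ j.2), inv_pow]

theorem ev_rev {d : ℕ} (c : Fin (d + 1) → F) (z : ℂ) : ev (fun j => c (Fin.rev j)) z = evi c z := by
  rw [evi, ev, ← Equiv.sum_comp Fin.revPerm]
  refine Finset.sum_congr rfl fun j _ => ?_
  simp

theorem ev_zero {d : ℕ} (c : Fin (d + 1) → F) : ev c 0 = c 0 := by
  simp [ev, Fin.sum_univ_succ]

/-- affine reparametrisation (e.g. from `exists_coeff` with `k ζ = evi`-like expression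
`∑ j, ζ ^ (d - j) * (α * ζ + β) ^ j • c j`) -/
theorem exists_affine {d : ℕ} (c : Fin (d + 1) → F) (α β : ℂ) :
    ∃ c' : Fin (d + 1) → F, (∀ z, ev c' z = ev c (α + β * z)) ∧ c' (Fin.last d) = β ^ d • c (Fin.last d) := by
  obtain ⟨c', h1, h2⟩ := exists_coeff d (f := fun z => ev c (α + β * z))
    (k := fun ζ => ∑ j : Fin (d + 1), (ζ ^ (d - (j : ℕ)) * (α * ζ + β) ^ (j : ℕ)) • c j)
    (fun z => ((ev_analytic (c, α + β * z)).comp (f := fun z => (c, α + β * z)) (by fun_prop)).differentiableAt)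
    (Finset.analyticAt_fun_sum _ fun j _ => AnalyticAt.smul (by fun_prop) analyticAt_const) (by
      filter_upwards [self_mem_nhdsWithin] with ζ h
      have h : ζ ≠ 0 := h
      rw [ev, Finset.smul_sum]
      refine Finset.sum_congr rfl fun j _ => ?_
      rw [smul_smul, pow_sub₀ _ h (Nat.le_of_lt_succ j.2), show α + β * ζ⁻¹ = (α * ζ + β) * ζ⁻¹ by field_simp, mul_pow]
      simp only [inv_pow]
      congr 1
      field_simp)
  refine ⟨c', h1, h2.trans ?_⟩
  rw [Fin.sum_univ_castSucc, Finset.sum_eq_zero fun j _ => ?_]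
  · simp
  · have : d - j ≠ 0 := by have := j.2; omega
    simp [this]

end

end Crest.Agent.R266

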