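import Crest.Agent.R266.Retr
import Crest.Agent.R266.SCV1
import Crest.Agent.R266.Cov

/-!
# Row 266: rational curves as polynomial vectors
-/

set_option autoImplicit false
set_option linter.unusedSectionVars false
set_option linter.unusedVariables false

namespace Crest.Agent.R266

open Set Metric Filter Topology MeasureTheory Polynomial
open scoped ENNReal Classical

noncomputable section

theorem ev_an {F : Type} [NormedAddCommGroup F] [NormedSpace ℂ F] [CompleteSpace F] {d : ℕ} (c : Fin (d + 1) → F)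
    (z : ℂ) : AnalyticAt ℂ (ev c) z :=
  (ev_analytic (c, z)).comp (f := fun z => (c, z)) (analyticAt_const.prod analyticAt_id)

theorem evi_an {F : Type} [NormedAddCommGroup F] [NormedSpace ℂ F] [CompleteSpace F] {d : ℕ} (c : Fin (d + 1) → F)
    (z : ℂ) : AnalyticAt ℂ (evi c) z :=
  (evi_analytic (c, z)).comp (f := fun z => (c, z)) (analyticAt_const.prod analyticAt_id)

namespace PA
variable {X E D : Type} {N : ℕ} [TopologicalSpace X] [T2Space X] [CompactSpace X] [Nonempty X]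
  [NormedAddCommGroup E] [NormedSpace ℂ E] [FiniteDimensional ℂ E] [CompleteSpace E]
  [NormedAddCommGroup D] [NormedSpace ℂ D] {𝒬 : PA X E N}

theorem Crv.an {d : ℕ} {c : Fin (d + 1) → VV N} (h : 𝒬.Crv c) (z : ℂ) : 𝒬.An (fun t => 𝒬.pt (ev c t)) z := by
  exact An_pt (ev_an c z) (Eventually.of_forall h.1)

theorem Crv.evi_mem {d : ℕ} {c : Fin (d + 1) → VV N} (h : 𝒬.Crv c) (z : ℂ) : evi c z ∈ 𝒬.cone := by
  rcases eq_or_ne z 0 with rfl | hz
  · rw [evi_zero]; exact h.2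
  · rw [evi_eq c hz]; exact (cone_smul (h.1 _) (pow_ne_zero _ hz)).1

theorem Crv.an_evi {d : ℕ} {c : Fin (d + 1) → VV N} (h : 𝒬.Crv c) (z : ℂ) : 𝒬.An (fun t => 𝒬.pt (evi c t)) z := by
  exact An_pt (evi_an c z) (Eventually.of_forall h.evi_mem)

theorem Crv.pt_evi {d : ℕ} {c : Fin (d + 1) → VV N} (h : 𝒬.Crv c) {z : ℂ} (hz : z ≠ 0) :
    𝒬.pt (evi c z) = 𝒬.pt (ev c z⁻¹) := by
  rw [evi_eq c hz]; exact (cone_smul (h.1 _) (pow_ne_zero _ hz)).2

theorem Crv.rev {d : ℕ} {c : Fin (d + 1) → VV N} (h : 𝒬.Crv c) : 𝒬.Crv (fun j => c (Fin.rev j)) := by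
  refine ⟨fun z => by rw [ev_rev]; exact h.evi_mem z, ?_⟩
  have := h.1 0
  rw [ev_zero] at this
  simpa using this

theorem Crv.affine {d : ℕ} {c : Fin (d + 1) → VV N} (h : 𝒬.Crv c) (α : ℂ) {β : ℂ} (hβ : β ≠ 0) :
    ∃ c' : Fin (d + 1) → VV N, 𝒬.Crv c' ∧ (∀ z, ev c' z = ev c (α + β * z)) ∧
      𝒬.pt (c' (Fin.last d)) = 𝒬.pt (c (Fin.last d)) := by
  obtain ⟨c', h1, h2⟩ := exists_affine c α β
  have h3 := cone_smul h.2 (pow_ne_zero d hβ)
  exact ⟨c', ⟨fun z => h1 z ▸ h.1 _, h2 ▸ h3.1⟩, h1, h2 ▸ h3.2⟩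

theorem TCrv.affine {d : ℕ} {c : Fin (d + 1) → VV N} (h : 𝒬.TCrv c) (α : ℂ) {β : ℂ} (hβ : β ≠ 0) :
    ∃ c' : Fin (d + 1) → VV N, 𝒬.TCrv c' ∧ ∀ z, ev c' z = ev c (α + β * z) := by
  obtain ⟨c', h1, h2, -⟩ := h.1.affine α hβ
  refine ⟨c', ⟨h1, fun z => ?_⟩, h2⟩
  simp only [h2]
  exact SA.Tan.comp (γ := fun t => 𝒬.pt (ev c t)) (g := fun z => α + β * z) (h.1.an _) (h.2 _) (by fun_prop)

/-- `cone_ident`; `c last = evi c 0` is a limit of points of the cone (`evi_eq`, `cone_closed`) -/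
theorem crv_of_germ {d : ℕ} {c : Fin (d + 1) → VV N} (h0 : ∀ z, ev c z ≠ 0) (hl : c (Fin.last d) ≠ 0) {z₀ : ℂ}
    (h : ∃ᶠ z in 𝓝[≠] z₀, ev c z ∈ 𝒬.cone) : 𝒬.Crv c := by
  have h1 := cone_ident (ev_an c) h0 h
  refine ⟨h1, cone_closed hl ?_⟩
  rw [← evi_zero c]
  refine mem_closure_of_tendsto ((evi_an c 0).continuousAt.tendsto.mono_left (nhdsWithin_le_nhds (s := {0}ᶜ))) ?_
  filter_upwards [self_mem_nhdsWithin] with z hz
  rw [evi_eq c hz]
  exact (cone_smul (h1 _) (pow_ne_zero _ hz)).1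

/-- Remove the common zeros: strong induction on `∑ natDegree`; if all `F k` vanish at `a` divide by `X - C a`.
Without common zero take `d = sup natDegree`, `c j k = (F k).coeff j`. -/
theorem reduce0 (F : Fin (N + 1) → ℂ[X]) (hF : F ≠ 0) : ∃ (d : ℕ) (c : Fin (d + 1) → VV N) (g : ℂ[X]),
    (∀ z, ev c z ≠ 0) ∧ c (Fin.last d) ≠ 0 ∧ g ≠ 0 ∧ ∀ z, (fun k => (F k).eval z) = g.eval z • ev c z := by
  induction hn : ∑ k, (F k).natDegree using Nat.strong_induction_on generalizing F with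
  | _ n ih =>
  by_cases hz : ∃ a, ∀ k, (F k).eval a = 0
  · obtain ⟨a, ha⟩ := hz
    choose F' hF' using fun k => dvd_iff_isRoot.2 (ha k)
    obtain ⟨k₀, hk₀⟩ := Function.ne_iff.1 hF
    have hk₀ : F k₀ ≠ 0 := hk₀
    have hk₀' : F' k₀ ≠ 0 := fun h => hk₀ (by rw [hF' k₀, h, mul_zero])
    have hle : ∀ k, (F' k).natDegree ≤ (F k).natDegree := fun k => by
      rcases eq_or_ne (F' k) 0 with h | h
      · simp [h]
      · rw [hF' k, natDegree_mul (X_sub_C_ne_zero a) h]; omega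
    obtain ⟨d, c, g, h1, h2, h3, h4⟩ := ih _ (hn ▸ Finset.sum_lt_sum (fun k _ => hle k) ⟨k₀, Finset.mem_univ _, by
      rw [hF' k₀, natDegree_mul (X_sub_C_ne_zero a) hk₀', natDegree_X_sub_C]; omega⟩) F'
      (Function.ne_iff.2 ⟨k₀, hk₀'⟩) rfl
    refine ⟨d, c, (X - C a) * g, h1, h2, mul_ne_zero (X_sub_C_ne_zero a) h3, fun z => ?_⟩
    rw [eval_mul, mul_smul, ← h4 z]
    ext k
    rw [hF' k, eval_mul, Pi.smul_apply, smul_eq_mul]
  · obtain ⟨k₀, -, hk₀⟩ := Finset.exists_max_image Finset.univ (fun k => (F k).degree) Finset.univ_nonempty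
    have hne : F k₀ ≠ 0 := fun h => hF (funext fun k => by
      have := hk₀ k (Finset.mem_univ _)
      rw [h, degree_zero, le_bot_iff, degree_eq_bot] at this
      exact this)
    have he : ∀ z, (fun k => (F k).eval z) = ev (d := (F k₀).natDegree) (fun j k => (F k).coeff j) z := fun z => by
      ext k
      rw [ev, Finset.sum_apply, eval_eq_sum_range' (Nat.lt_succ_of_le (natDegree_le_natDegree (hk₀ k (Finset.mem_univ _)))),
        Finset.sum_range]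
      simp [mul_comm]
    refine ⟨(F k₀).natDegree, fun j k => (F k).coeff j, 1, fun z h => hz ⟨z, fun k => ?_⟩, fun h => ?_, one_ne_zero,
      fun z => by simpa using he z⟩
    · exact congrFun ((he z).trans h) k
    · exact hne (leadingCoeff_eq_zero.1 (congrFun h k₀))

/-- `reduce0`, `crv_of_germ`, `SA.Tan.of_frequently` -/
theorem reduce (F : Fin (N + 1) → ℂ[X]) {z₀ : ℂ} (h : ∀ᶠ z in 𝓝 z₀, (fun k => (F k).eval z) ∈ 𝒬.cone)
    (ht : ∀ᶠ z in 𝓝 z₀, 𝒬.Tan (fun t => 𝒬.pt (fun k => (F k).eval t)) z) :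
    ∃ (d : ℕ) (c : Fin (d + 1) → VV N), 𝒬.TCrv c ∧
      ∀ z, (fun k => (F k).eval z) ≠ 0 → 𝒬.pt (ev c z) = 𝒬.pt (fun k => (F k).eval z) := by
  have hF : F ≠ 0 := fun h0 => (ov_pt h.self_of_nhds).ne_zero (by ext k; simp [h0])
  obtain ⟨d, c, g, h1, h2, h3, h4⟩ := reduce0 F hF
  have h5 : ∀ z, (fun k => (F k).eval z) ≠ 0 → g.eval z ≠ 0 := fun z hz h0 => hz (by rw [h4, h0, zero_smul])
  have h6 : ∀ᶠ z in 𝓝 z₀, ev c z ∈ 𝒬.cone := h.mono fun z hz => by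
    have h7 := h5 z (ov_pt hz).ne_zero
    have := (cone_smul hz (inv_ne_zero h7)).1
    rwa [h4, smul_smul, inv_mul_cancel₀ h7, one_smul] at this
  have hc : 𝒬.Crv c := crv_of_germ h1 h2 ((h6.filter_mono (nhdsWithin_le_nhds (s := {z₀}ᶜ))).frequently)
  have h7 : ∀ z, (fun k => (F k).eval z) ≠ 0 → 𝒬.pt (ev c z) = 𝒬.pt (fun k => (F k).eval z) := fun z hz => by
    rw [h4]; exact (cone_smul (hc.1 z) (h5 z hz)).2.symm
  refine ⟨d, c, ⟨hc, SA.Tan.of_frequently hc.an (z₀ := z₀) (Eventually.frequently ?_)⟩, h7⟩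
  filter_upwards [mem_nhdsWithin_of_mem_nhds ht, mem_nhdsWithin_of_mem_nhds h.eventually_nhds] with z h8 h9
  exact h8.congr (Eventually.mono h9 fun t ht => (h7 t (ov_pt ht).ne_zero).symm)

/-- two points of a curve can be moved to `0` and `1` (equal points: a constant curve; infinity: translate, `rev`) -/
theorem Crv.two_points {d : ℕ} {c : Fin (d + 1) → VV N} (h : 𝒬.Crv c) {x y : X}
    (hx : x ∈ range (fun z => 𝒬.pt (ev c z)) ∪ {𝒬.pt (c (Fin.last d))})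
    (hy : y ∈ range (fun z => 𝒬.pt (ev c z)) ∪ {𝒬.pt (c (Fin.last d))}) :
    ∃ (d' : ℕ) (c' : Fin (d' + 1) → VV N), 𝒬.Crv c' ∧ 𝒬.pt (ev c' 0) = x ∧ 𝒬.pt (ev c' 1) = y := by
  have fin : ∀ {c : Fin (d + 1) → VV N}, 𝒬.Crv c → ∀ p q, ∃ (d' : ℕ) (c' : Fin (d' + 1) → VV N), 𝒬.Crv c' ∧
      𝒬.pt (ev c' 0) = 𝒬.pt (ev c p) ∧ 𝒬.pt (ev c' 1) = 𝒬.pt (ev c q) := by
    intro c h p q
    rcases eq_or_ne q p with rfl | hpq
    · have e : ∀ z, ev (d := 0) (fun _ => ev c q) z = ev c q := fun z => by simp [ev]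
      exact ⟨0, fun _ => ev c q, ⟨fun z => (e z).symm ▸ h.1 q, h.1 q⟩, by rw [e], by rw [e]⟩
    · obtain ⟨c', h1, h2, -⟩ := h.affine p (sub_ne_zero.2 hpq)
      exact ⟨d, c', h1, by simp [h2], by simp [h2]⟩
  have inf : ∀ q, ∃ c' : Fin (d + 1) → VV N, 𝒬.Crv c' ∧ 𝒬.pt (ev c' 0) = 𝒬.pt (c (Fin.last d)) ∧
      𝒬.pt (ev c' 1) = 𝒬.pt (ev c q) := by
    intro q
    obtain ⟨c', h1, h2, h3⟩ := h.affine (q - 1) one_ne_zero
    exact ⟨_, h1.rev, by rw [ev_rev, evi_zero, h3], by rw [ev_rev, h1.pt_evi one_ne_zero, h2]; simp⟩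
  rcases hx with ⟨p, rfl⟩ | rfl <;> rcases hy with ⟨q, rfl⟩ | rfl
  · exact fin h p q
  · obtain ⟨c', h1, h2, h3⟩ := inf p
    simpa only [h2, h3] using fin h1 1 0
  · obtain ⟨c', h1, h2, h3⟩ := inf q
    exact ⟨d, c', h1, h2, h3⟩
  · obtain ⟨c', h1, h2, h3⟩ := inf 0
    simpa only [h2] using fin h1 0 0

end PA

end

end Crest.Agent.R266

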