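import Crest.Agent.R266.Van

/-!
# Row 266: formal solutions of the rectangle equation
-/

set_option autoImplicit false
set_option linter.unusedSectionVars false
set_option linter.unusedVariables false

namespace Crest.Agent.R266

open Set Metric Filter Topology MeasureTheory Polynomial
open scoped ENNReal Classical

noncomputable section

variable {E E' : Type} [NormedAddCommGroup E] [NormedSpace ℂ E] [CompleteSpace E]
  [NormedAddCommGroup E'] [NormedSpace ℂ E'] [CompleteSpace E'] {P : E → E →L[ℂ] E} {f : ℂ → E} {j : ℕ} {z₀ : ℂ}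
  {φ ψ : ℂ × ℂ → E}

theorem res_analyticAt {x : ℂ × ℂ} (hφ : AnalyticAt ℂ φ x) (hP : AnalyticAt ℂ P (φ x)) : AnalyticAt ℂ (Res P φ) x :=
  (van_clm_an hφ.fderiv analyticAt_const).sub
    (van_clm_an (analyticAt_const.sub (hP.comp hφ)) (van_clm_an hφ.fderiv analyticAt_const))

theorem Sol.mono {k : ℕ} (h : Sol P f j φ z₀) (hk : k ≤ j) : Sol P f k φ z₀ := by
  exact ⟨h.an, h.init, h.res.mono hk⟩

theorem Sol.eventually (h : Sol P f j φ z₀) : ∀ᶠ z in 𝓝 z₀, Sol P f j φ z := by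
  have hc : Tendsto (fun z : ℂ => (z, (0 : ℂ))) (𝓝 z₀) (𝓝 (z₀, 0)) :=
    (by fun_prop : ContinuousAt (fun z : ℂ => (z, (0 : ℂ))) z₀)
  filter_upwards [hc.eventually h.an.eventually_analyticAt, h.init.eventually_nhds, h.res.eventually] with z h1 h2 h3
  exact ⟨h1, h2, h3⟩

theorem Sol.congr {f' : ℂ → E} (h : Sol P f j φ z₀) (e : f =ᶠ[𝓝 z₀] f') : Sol P f' j φ z₀ := by
  exact ⟨h.an, (h.init.and e).mono fun z hz => hz.1.trans hz.2, h.res⟩

/-- `Van.comp_sub`, `Van.dz`, `Van.clm`, `Van.apply` -/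
theorem res_sub (hψ : AnalyticAt ℂ ψ (z₀, 0)) (hP : AnalyticAt ℂ P (ψ (z₀, 0))) (e : φ (z₀, 0) = ψ (z₀, 0))
    (h : Van j (fun x => φ x - ψ x) z₀) :
    Van j (fun x => Res P φ x - Res P ψ x - fderiv ℂ (fun y => φ y - ψ y) x (0, 1)) z₀ := by
  have hφ : AnalyticAt ℂ φ (z₀, 0) := (h.analyticAt.add hψ).congr (Eventually.of_forall fun x => by simp)
  have hPφ : AnalyticAt ℂ (fun x => 1 - P (φ x)) (z₀, 0) := analyticAt_const.sub (hP.comp_of_eq hφ e)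
  have h1 := (h.dz.clm hPφ).neg
  have h2 := (h.comp_sub hψ e hP).apply (van_clm_an hψ.fderiv (analyticAt_const (v := ((1 : ℂ), (0 : ℂ)))))
  refine (h1.add h2).congr ?_
  filter_upwards [hφ.eventually_analyticAt, hψ.eventually_analyticAt] with x h3 h4
  rw [fderiv_fun_sub h3.differentiableAt h4.differentiableAt]
  simp only [Res, sub_apply, map_sub, one_apply_eq_self]
  abel

/-- `φ₀ (z, u) = f z`; if `Res φ = u^j G` put `φ' = φ - (u^(j+1) / (j+1)) • G (z, 0)` -/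
theorem exists_sol (hf : AnalyticAt ℂ f z₀) (hP : AnalyticAt ℂ P (f z₀)) (j : ℕ) : ∃ φ, Sol P f j φ z₀ := by
  induction j with
  | zero =>
    have h1 : AnalyticAt ℂ (fun x : ℂ × ℂ => f x.1) (z₀, 0) := hf.comp_of_eq analyticAt_fst rfl
    exact ⟨fun x => f x.1, h1, Eventually.of_forall fun _ => rfl, van_zero (res_analyticAt h1 hP)⟩
  | succ j ih =>
    obtain ⟨φ, ha, hi, G, hG, e⟩ := ih
    have h0 : AnalyticAt ℂ (fun x : ℂ × ℂ => G (x.1, 0)) (z₀, 0) :=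
      hG.comp_of_eq (analyticAt_fst.prod analyticAt_const) rfl
    have h1 : AnalyticAt ℂ (fun x : ℂ × ℂ => -((j : ℂ) + 1)⁻¹ • G (x.1, 0)) (z₀, 0) := analyticAt_const.smul h0
    have e0 : φ (z₀, 0) = f z₀ := hi.self_of_nhds
    have e1 : (fun x : ℂ × ℂ => φ x + x.2 ^ (j + 1) • (-((j : ℂ) + 1)⁻¹ • G (x.1, 0)) - φ x) =
        fun x : ℂ × ℂ => x.2 ^ (j + 1) • (-((j : ℂ) + 1)⁻¹ • G (x.1, 0)) := by
      ext x; simp only [add_sub_cancel_left]
    have hv : Van (j + 1) (fun x : ℂ × ℂ => φ x + x.2 ^ (j + 1) • (-((j : ℂ) + 1)⁻¹ • G (x.1, 0)) - φ x) z₀ :=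
      ⟨_, h1, by rw [e1]⟩
    refine ⟨fun x => φ x + x.2 ^ (j + 1) • (-((j : ℂ) + 1)⁻¹ • G (x.1, 0)),
      ha.add ((analyticAt_snd.pow _).smul h1), hi.mono fun z hz => by simpa using hz, ?_⟩
    have h2 := res_sub (P := P) ha (e0 ▸ hP) (by simp) hv
    have h3 : Van (j + 1) (fun x : ℂ × ℂ => x.2 ^ j • (G x - G (x.1, 0))) z₀ :=
      van_succ (hG.sub h0) EventuallyEq.rfl (Eventually.of_forall fun z => by simp)
    have h4 : Van (j + 1) (fun x : ℂ × ℂ => x.2 ^ (j + 1) •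
        fderiv ℂ (fun x : ℂ × ℂ => -((j : ℂ) + 1)⁻¹ • G (x.1, 0)) x (0, 1)) z₀ :=
      ⟨_, van_clm_an h1.fderiv analyticAt_const, EventuallyEq.rfl⟩
    refine ((h2.add h3).add h4).congr ?_
    filter_upwards [e, h1.eventually_analyticAt] with x h5 h6
    have hj : (j : ℂ) + 1 ≠ 0 := by exact_mod_cast Nat.succ_ne_zero j
    rw [e1, van_fderiv h6.differentiableAt, h5, smul_smul]
    push_cast
    rw [show ((j : ℂ) + 1) * x.2 ^ j * 1 * -((j : ℂ) + 1)⁻¹ = - x.2 ^ j by field_simp, smul_sub, neg_smul]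
    abel

/-- induction with `Van.succ_of_du` -/
theorem sol_unique (hP : AnalyticAt ℂ P (f z₀)) (h : Sol P f j φ z₀) (h' : Sol P f j ψ z₀) :
    Van (j + 1) (fun x => φ x - ψ x) z₀ := by
  have e0 : ψ (z₀, 0) = f z₀ := h'.init.self_of_nhds
  have e1 : φ (z₀, 0) = ψ (z₀, 0) := h.init.self_of_nhds.trans e0.symm
  have key : ∀ k, k ≤ j → Van (k + 1) (fun x => φ x - ψ x) z₀ := by
    intro k
    induction k with
    | zero =>
      intro _
      refine van_succ (h.an.sub h'.an) (Eventually.of_forall fun x => by simp) ?_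
      filter_upwards [h.init, h'.init] with z h1 h2
      simp [h1, h2]
    | succ k ih =>
      intro hk
      have h1 := ih (Nat.le_of_succ_le hk)
      refine h1.succ_of_du ?_
      refine (((h.res.mono hk).sub (h'.res.mono hk)).sub (res_sub h'.an (e0 ▸ hP) e1 h1)).congr
        (Eventually.of_forall fun x => ?_)
      simp
  exact key j le_rfl

/-- `Res Q (T ∘ φ) = DT (φ) (Res P φ)` -/
theorem Sol.chart {Q : E' → E' →L[ℂ] E'} {T : E → E'} (h : Sol P f j φ z₀) (hT : AnalyticAt ℂ T (f z₀))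
    (hc : ∀ᶠ y in 𝓝 (f z₀), ∀ v, Q (T y) (fderiv ℂ T y v) = fderiv ℂ T y (P y v)) :
    Sol Q (fun z => T (f z)) j (fun x => T (φ x)) z₀ := by
  have e0 : φ (z₀, 0) = f z₀ := h.init.self_of_nhds
  have ht : Tendsto φ (𝓝 (z₀, 0)) (𝓝 (f z₀)) := e0 ▸ h.an.continuousAt
  refine ⟨hT.comp_of_eq h.an e0, h.init.mono fun z hz => by simp only [hz], ?_⟩
  refine (h.res.clm (hT.fderiv.comp_of_eq h.an e0)).congr ?_
  filter_upwards [h.an.eventually_analyticAt, ht.eventually hT.eventually_analyticAt, ht.eventually hc] with x h1 h2 h3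
  have h4 : fderiv ℂ (fun x => T (φ x)) x = (fderiv ℂ T (φ x)).comp (fderiv ℂ φ x) :=
    fderiv_comp x h2.differentiableAt h1.differentiableAt
  simp [Res, h4, h3]

/-- With `w = z + u`, `R = Res P φ (inv2 x)`, `p = P (φ (inv2 x))`:
`Res P (φ ∘ inv2) x = - w⁻¹ ^ 2 • p R - z⁻¹ ^ 2 • (1 - p) R`. -/
theorem Sol.inv (hz : z₀ ≠ 0) (h : Sol P f j φ z₀⁻¹) (hP : AnalyticAt ℂ P (f z₀⁻¹))
    (hi : ∀ᶠ y in 𝓝 (f z₀⁻¹), ∀ v, P y (P y v) = P y v) :
    Sol P (fun z => f z⁻¹) j (fun x => φ (inv2 x)) z₀ := by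
  have e0 : inv2 (z₀, 0) = (z₀⁻¹, 0) := by simp [inv2]
  have hi2 := inv2_analyticAt hz
  have ht : Tendsto inv2 (𝓝 (z₀, 0)) (𝓝 (z₀⁻¹, 0)) := e0 ▸ hi2.continuousAt
  have e1 : φ (z₀⁻¹, 0) = f z₀⁻¹ := h.init.self_of_nhds
  have ha : AnalyticAt ℂ (fun x => φ (inv2 x)) (z₀, 0) := h.an.comp_of_eq hi2 e0
  have ht' : Tendsto (fun x => φ (inv2 x)) (𝓝 (z₀, 0)) (𝓝 (f z₀⁻¹)) := by
    have := ha.continuousAt
    rwa [ContinuousAt, e0, e1] at this
  have hp : AnalyticAt ℂ (fun x => P (φ (inv2 x))) (z₀, 0) := hP.comp_of_eq ha (by rw [e0, e1])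
  refine ⟨ha, ?_, ?_⟩
  · filter_upwards [(continuousAt_inv₀ hz).eventually h.init] with z h1
    simpa [inv2] using h1
  have hR := h.res.comp_inv2 hz
  have hw : (z₀, (0 : ℂ)).1 + (z₀, (0 : ℂ)).2 ≠ 0 := by simpa using hz
  have h1 := (hR.clm hp).smul (a := fun x => -((x.1 + x.2)⁻¹ ^ 2))
    (((analyticAt_fst.add analyticAt_snd).inv hw).pow 2).neg
  have h2 := (hR.clm (L := fun x => 1 - P (φ (inv2 x))) (analyticAt_const.sub hp)).smul (a := fun x => -(x.1⁻¹ ^ 2))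
    ((analyticAt_fst.inv hz).pow 2).neg
  refine (h1.add h2).congr ?_
  filter_upwards [ht.eventually h.an.eventually_analyticAt, ht'.eventually hi, continuousAt_fst.eventually_ne hz,
    (continuousAt_fst.add continuousAt_snd).eventually_ne hw] with x h3 h4 h5 h6
  have h6' : x.1 + x.2 ≠ 0 := h6
  have d1 : HasFDerivAt (fun y : ℂ × ℂ => y.1⁻¹) _ x := (hasDerivAt_inv h5).comp_hasFDerivAt x (hasFDerivAt_fst (𝕜 := ℂ))
  have d2 : HasFDerivAt (fun y : ℂ × ℂ => (y.1 + y.2)⁻¹) _ x :=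
    (hasDerivAt_inv h6').comp_hasFDerivAt x ((hasFDerivAt_fst (𝕜 := ℂ)).add hasFDerivAt_snd)
  have d3 : HasFDerivAt inv2 _ x := d1.prodMk (d2.sub d1)
  have d4 : HasFDerivAt (fun y => φ (inv2 y)) _ x := h3.differentiableAt.hasFDerivAt.comp x d3
  have k1 : fderiv ℂ (fun y => φ (inv2 y)) x (0, 1) = -((x.1 + x.2)⁻¹ ^ 2) • fderiv ℂ φ (inv2 x) (0, 1) := by
    rw [d4.fderiv, ← map_smul]
    simp
  have k2 : fderiv ℂ (fun y => φ (inv2 y)) x (1, 0) = -(x.1⁻¹ ^ 2) • fderiv ℂ φ (inv2 x) (1, 0) +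
      (x.1⁻¹ ^ 2 - (x.1 + x.2)⁻¹ ^ 2) • fderiv ℂ φ (inv2 x) (0, 1) := by
    rw [d4.fderiv, ← map_smul, ← map_smul, ← map_add]
    simp [add_comm, sub_eq_add_neg]
  simp only [Res, k1, k2, sub_apply, one_apply_eq_self, map_sub, map_add, map_smul, h4]
  module

/-- an exact solution is a rectangle: `∂_z Φ = P ∂₁φ`, `∂_w Φ = (1 - P) ∂₁φ` -/
theorem tan_of_res {x : ℂ × ℂ} (hφ : DifferentiableAt ℂ φ x) (hi : ∀ v, P (φ x) (P (φ x) v) = P (φ x) v)
    (h : Res P φ x = 0) :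
    P (φ x) (deriv (fun t => φ (t, x.1 + x.2 - t)) x.1) = deriv (fun t => φ (t, x.1 + x.2 - t)) x.1 ∧
    (1 - P (φ x)) (deriv (fun t => φ (x.1, t - x.1)) (x.1 + x.2)) = deriv (fun t => φ (x.1, t - x.1)) (x.1 + x.2) := by
  have h0 : fderiv ℂ φ x (0, 1) = fderiv ℂ φ x (1, 0) - P (φ x) (fderiv ℂ φ x (1, 0)) := by
    simpa [Res, sub_eq_zero] using h
  have d1 : HasDerivAt (fun t : ℂ => (t, x.1 + x.2 - t)) (1, -1) x.1 :=
    (hasDerivAt_id _).prodMk ((hasDerivAt_id _).const_sub _)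
  have d2 : HasDerivAt (fun t : ℂ => (x.1, t - x.1)) (0, 1) (x.1 + x.2) :=
    (hasDerivAt_const _ _).prodMk ((hasDerivAt_id _).sub_const _)
  have k1 : deriv (fun t => φ (t, x.1 + x.2 - t)) x.1 = fderiv ℂ φ x (1, -1) :=
    (hφ.hasFDerivAt.comp_hasDerivAt_of_eq x.1 d1 (by simp)).deriv
  have k2 : deriv (fun t => φ (x.1, t - x.1)) (x.1 + x.2) = fderiv ℂ φ x (0, 1) :=
    (hφ.hasFDerivAt.comp_hasDerivAt_of_eq _ d2 (by simp)).deriv
  have k3 : fderiv ℂ φ x (1, -1) = P (φ x) (fderiv ℂ φ x (1, 0)) := by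
    rw [show ((1 : ℂ), (-1 : ℂ)) = (1, 0) - (0, 1) by simp, map_sub, h0]
    simp
  rw [k1, k2, k3, h0]
  simp [hi]

end

end Crest.Agent.R266

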