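import Crest.Agent.R266.Filt
import Crest.Agent.R266.Sol
import Crest.Agent.R266.Crv

/-!
# Row 266: the dimension count
-/

set_option autoImplicit false
set_option linter.unusedSectionVars false
set_option linter.unusedVariables false

namespace Crest.Agent.R266

open Set Metric Filter Topology MeasureTheory Polynomial
open scoped ENNReal Classical

noncomputable section

namespace PA
variable {X E D : Type} {N : ℕ} [TopologicalSpace X] [T2Space X] [CompactSpace X] [Nonempty X]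
  [NormedAddCommGroup E] [NormedSpace ℂ E] [FiniteDimensional ℂ E] [CompleteSpace E]
  [NormedAddCommGroup D] [NormedSpace ℂ D] {𝒬 : PA X E N}

/-- One chart and one formal solution suffice.  For another chart `i'` and solution `φ'`: `Sol.chart` (`SA.cmp_ev`) makes
`(κ i' ∘ (κ i).symm) ∘ φ` a solution in the chart `i'`, `sol_unique`, `Van.comp_sub`, `cmp_an`.  The second part says
that the leading coefficients differ by the transition function. -/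
theorem rep_change {γ : ℂ → X} {p q : ℂ × ℂ → ℂ} {k l : Fin (N + 1)} {j : ℕ} {z₀ : ℂ} (hγ : 𝒬.An γ z₀)
    (hp : AnalyticAt ℂ p (z₀, 0)) (hq : AnalyticAt ℂ q (z₀, 0)) {i i' : 𝒬.ι} (hi : γ z₀ ∈ (𝒬.κ i).source)
    (hi' : γ z₀ ∈ (𝒬.κ i').source) {φ φ' : ℂ × ℂ → E} (hφ : Sol (𝒬.P i) (𝒬.κ i ∘ γ) j φ z₀)
    (hφ' : Sol (𝒬.P i') (𝒬.κ i' ∘ γ) j φ' z₀) {G : ℂ × ℂ → ℂ} (hG : AnalyticAt ℂ G (z₀, 0))
    (e : (fun x => p x * 𝒬.ξ i (φ x) k - q x * 𝒬.ξ i (φ x) l) =ᶠ[𝓝 (z₀, 0)] fun x => x.2 ^ j • G x) {c : ℂ}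
    (hc : 𝒬.ξ i' (𝒬.κ i' (γ z₀)) = c • 𝒬.ξ i (𝒬.κ i (γ z₀))) :
    ∃ G' : ℂ × ℂ → ℂ, AnalyticAt ℂ G' (z₀, 0) ∧
      ((fun x => p x * 𝒬.ξ i' (φ' x) k - q x * 𝒬.ξ i' (φ' x) l) =ᶠ[𝓝 (z₀, 0)] fun x => x.2 ^ j • G' x) ∧
      G' (z₀, 0) = c * G (z₀, 0) := by
  have h0 : φ (z₀, 0) = 𝒬.κ i (γ z₀) := hφ.init.self_of_nhds
  have h0' : φ' (z₀, 0) = 𝒬.κ i' (γ z₀) := hφ'.init.self_of_nhds
  have e0 : (𝒬.κ i' ∘ (𝒬.κ i).symm) (𝒬.κ i (γ z₀)) = 𝒬.κ i' (γ z₀) := by simp [(𝒬.κ i).left_inv hi]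
  have h1 : Sol (𝒬.P i') (𝒬.κ i' ∘ γ) j (fun x => (𝒬.κ i' ∘ (𝒬.κ i).symm) (φ x)) z₀ :=
    (hφ.chart (𝒬.an i i' _ hi hi') (SA.cmp_ev hi hi')).congr (by
      filter_upwards [hγ.1.eventually ((𝒬.κ i).open_source.mem_nhds hi)] with z hz
      simp [(𝒬.κ i).left_inv hz])
  have ht := (𝒬.κ i').map_source hi'
  obtain ⟨K, hK, h2⟩ := (sol_unique (𝒬.anP i' _ ht) hφ' h1).comp_sub h1.an (by rw [h0, h0', e0])
    (K := 𝒬.ξ i') (by rw [h0, e0]; exact 𝒬.anξ i' _ ht)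
  obtain ⟨lam, h3, -, h4⟩ := cmp_an hi hi'
  have h5 : lam (𝒬.κ i (γ z₀)) = c := by
    have := h4.self_of_nhds
    rw [e0, hc] at this
    exact smul_left_injective ℂ (𝒬.ne i _ ((𝒬.κ i).map_source hi)) this.symm
  rw [← h0] at h3 h4 h5
  have hK' (k) := analyticAt_pi_iff.1 hK k
  refine ⟨fun x => lam (φ x) * G x + x.2 * (p x * K x k - q x * K x l), ((h3.comp hφ.an).mul hG).add
    (analyticAt_snd.mul ((hp.mul (hK' k)).sub (hq.mul (hK' l)))), ?_, by simp [h5]⟩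
  filter_upwards [e, h2, hφ.an.continuousAt.eventually h4] with x a1 a2 a3
  rw [a3, sub_eq_iff_eq_add] at a2
  simp only [a2, Pi.add_apply, Pi.smul_apply, smul_eq_mul] at a1 ⊢
  linear_combination lam (φ x) * a1

theorem exists_lead_deriv (j : ℕ) {g : ℂ → ℂ} (hg : AnalyticAt ℂ g 0) :
    iteratedDeriv j (fun u => u ^ j * g u) 0 = j.factorial * g 0 := by
  induction j generalizing g with
  | zero => simp
  | succ j ih =>
    have e : deriv (fun u => u ^ (j + 1) * g u) =ᶠ[𝓝 0] fun u => u ^ j * ((j + 1) * g u + u * deriv g u) := by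
      filter_upwards [hg.eventually_analyticAt] with u hu
      rw [((hasDerivAt_pow (j + 1) u).fun_mul hu.differentiableAt.hasDerivAt).deriv]
      simp only [Nat.add_sub_cancel]
      push_cast
      ring
    rw [iteratedDeriv_succ', e.iteratedDeriv_eq, ih (g := fun u => (j + 1) * g u + u * deriv g u)
      ((analyticAt_const.mul hg).add (analyticAt_id.mul hg.deriv)), Nat.factorial_succ]
    push_cast
    ring

/-- The leading coefficient as a linear map.  For each `z` choose a chart `i z`, a solution `φ z` of order `j` and `μ z` with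
`ev c z = μ z • ξ (..)`; `Λ (a, b) z = μ z * (j!)⁻¹ * iteratedDeriv j (fun u => bi a (z,u) * ξ_k (φ z (z,u)) - …) 0` is linear
in `(a, b)` (`iteratedDeriv_add` for `ContDiffAt`), and equals `μ z * G (z, 0)` if the function is `u^j G`; `rep_change`. -/
theorem exists_lead {d m : ℕ} {c : Fin (d + 1) → VV N} (hc : 𝒬.Crv c) (k l : Fin (N + 1)) (j : ℕ) :
    ∃ Λ : ((Fin (m + 1) × Fin (m + 1) → ℂ) × (Fin (m + 1) × Fin (m + 1) → ℂ)) →ₗ[ℂ] (ℂ → ℂ),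
      ∀ w z i, 𝒬.pt (ev c z) ∈ (𝒬.κ i).source → ∀ φ, Sol (𝒬.P i) (𝒬.κ i ∘ fun t => 𝒬.pt (ev c t)) j φ z →
        ∀ G : ℂ × ℂ → ℂ, AnalyticAt ℂ G (z, 0) →
        ((fun x => bi w.1 x * 𝒬.ξ i (φ x) k - bi w.2 x * 𝒬.ξ i (φ x) l) =ᶠ[𝓝 (z, 0)] fun x => x.2 ^ j • G x) →
        ∀ μ : ℂ, ev c z = μ • 𝒬.ξ i (𝒬.κ i (𝒬.pt (ev c z))) → Λ w z = μ * G (z, 0) := by
  choose I hI using fun z => 𝒬.cov (𝒬.pt (ev c z))
  choose Φ hΦ using fun z => exists_sol (P := 𝒬.P (I z)) ((hc.an z).2 _ (hI z))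
    (𝒬.anP _ _ ((𝒬.κ _).map_source (hI z))) j
  choose M hM0 hM using fun z => (ov_pt (hc.1 z)).chart (hI z)
  have hl (z : ℂ) : AnalyticAt ℂ (fun u : ℂ => (z, u)) 0 := analyticAt_const.prod analyticAt_id
  let H := fun (w : (Fin (m + 1) × Fin (m + 1) → ℂ) × (Fin (m + 1) × Fin (m + 1) → ℂ)) (z u : ℂ) =>
    bi w.1 (z, u) * 𝒬.ξ (I z) (Φ z (z, u)) k - bi w.2 (z, u) * 𝒬.ξ (I z) (Φ z (z, u)) l
  have hH (w z) : ContDiffAt ℂ j (H w z) 0 := by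
    have h1 : AnalyticAt ℂ (fun u : ℂ => 𝒬.ξ (I z) (Φ z (z, u))) 0 := by
      refine AnalyticAt.comp_of_eq (𝒬.anξ _ _ ((𝒬.κ _).map_source (hI z))) ((hΦ z).an.comp_of_eq (hl z) rfl) ?_
      exact (hΦ z).init.self_of_nhds
    exact ((((bi_analyticAt _ _).comp (hl z)).mul (analyticAt_pi_iff.1 h1 k)).sub
      (((bi_analyticAt _ _).comp (hl z)).mul (analyticAt_pi_iff.1 h1 l))).contDiffAt
  refine ⟨⟨⟨fun w z => M z * ((j.factorial : ℂ)⁻¹ * iteratedDeriv j (H w z) 0), fun v w => funext fun z => ?_⟩,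
    fun a w => funext fun z => ?_⟩, fun w z i hi φ hφ G hG e μ hμ => ?_⟩
  · have : H (v + w) z = H v z + H w z := funext fun u => by
      simp only [H, Prod.fst_add, Prod.snd_add, bi_add, Pi.add_apply]
      ring
    simp only [this, iteratedDeriv_add (hH v z) (hH w z), Pi.add_apply, mul_add]
  · have : H (a • w) z = a • H w z := funext fun u => by
      simp only [H, Prod.smul_fst, Prod.smul_snd, bi_smul, Pi.smul_apply, smul_eq_mul]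
      ring
    simp only [this, iteratedDeriv_const_smul_field, Pi.smul_apply, smul_eq_mul, RingHom.id_apply]
    ring
  · obtain ⟨G', h1, h2, h3⟩ := rep_change (hc.an z) (bi_analyticAt w.1 _) (bi_analyticAt w.2 _) hi (hI z) hφ (hΦ z) hG e
      (c := (M z)⁻¹ * μ) (by rw [mul_smul, ← hμ, eq_inv_smul_iff₀ (hM0 z), ← hM])
    have h4 : H w z =ᶠ[𝓝 0] fun u => u ^ j * G' (z, u) := (hl z).continuousAt.eventually h2
    change M z * (_ * iteratedDeriv j (H w z) 0) = _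
    rw [h4.iteratedDeriv_eq, exists_lead_deriv j (g := fun u => G' (z, u)) (h1.comp_of_eq (hl z) rfl), h3,
      inv_mul_cancel_left₀ (Nat.cast_ne_zero.2 j.factorial_ne_zero), mul_assoc, mul_inv_cancel_left₀ (hM0 z)]

theorem lead_poly_ne {z : ℂ} (hz : z ≠ 0) : ∀ᶠ x : ℂ × ℂ in 𝓝 (z, 0), x.1 ≠ 0 ∧ x.1 + x.2 ≠ 0 :=
  (continuous_fst.continuousAt.eventually_ne hz).and
    ((continuous_fst.add continuous_snd).continuousAt.eventually_ne (by simpa using hz))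

/-- Growth.  `L` is entire (near `z₀`, `L z = μ z * G (z, 0)`: `exists_sol`, `Sol.eventually`, `exists_mu`).  At infinity:
a solution `ψ` for `pt ∘ evi c` at `0`; `H∞ x = bi a' x * ξ_k (ψ x) - bi b' x * ξ_l (ψ x)` (`a'` reversed, `bi_inv`) is
`Van j` at every small `ζ ≠ 0` (`Sol.inv`, `Van.comp_inv2`), so at `0` (`Van.of_punctured`): `H∞ = u^j G∞`, and
`ζ^(2m+d) L ζ⁻¹ = (-1)^j ζ^(2j) μ∞ ζ * G∞ (ζ, 0)` (`quot_unique`).  Conclude with `growth`. -/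
theorem lead_poly {d m : ℕ} {c : Fin (d + 1) → VV N} (hc : 𝒬.Crv c) {k l : Fin (N + 1)} {j : ℕ}
    {a b : Fin (m + 1) × Fin (m + 1) → ℂ} (hw : ∀ z, 𝒬.Rep (fun t => 𝒬.pt (ev c t)) (bi a) (bi b) k l j z) {L : ℂ → ℂ}
    (hL : ∀ z i, 𝒬.pt (ev c z) ∈ (𝒬.κ i).source → ∀ φ, Sol (𝒬.P i) (𝒬.κ i ∘ fun t => 𝒬.pt (ev c t)) j φ z →
      ∀ G : ℂ × ℂ → ℂ, AnalyticAt ℂ G (z, 0) →
      ((fun x => bi a x * 𝒬.ξ i (φ x) k - bi b x * 𝒬.ξ i (φ x) l) =ᶠ[𝓝 (z, 0)] fun x => x.2 ^ j • G x) →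
      ∀ μ : ℂ, ev c z = μ • 𝒬.ξ i (𝒬.κ i (𝒬.pt (ev c z))) → L z = μ * G (z, 0)) :
    ∃ p ∈ Polynomial.degreeLT ℂ (2 * (m + d) + 1 - 2 * j), ∀ z, L z = p.eval z := by
  have t0 : ∀ z₀ : ℂ, Tendsto (fun z : ℂ => (z, (0 : ℂ))) (𝓝 z₀) (𝓝 (z₀, 0)) := fun z₀ =>
    (continuous_id.prodMk continuous_const).tendsto z₀
  have a0 : ∀ z₀ : ℂ, AnalyticAt ℂ (fun z : ℂ => (z, (0 : ℂ))) z₀ := fun z₀ =>
    analyticAt_id.prod analyticAt_const
  have hent : Differentiable ℂ L := by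
    intro z₀
    obtain ⟨i, hi⟩ := 𝒬.cov (𝒬.pt (ev c z₀))
    obtain ⟨φ, hφ⟩ := exists_sol ((hc.an z₀).2 i hi) (𝒬.anP i _ ((𝒬.κ i).map_source hi)) j
    obtain ⟨G, hG, e⟩ := hw z₀ i hi φ hφ
    obtain ⟨μ, hμ, -, hμe⟩ := exists_mu (ev_an c z₀) (Eventually.of_forall hc.1) hi
    have : L =ᶠ[𝓝 z₀] fun z => μ z * G (z, 0) := by
      filter_upwards [(hc.an z₀).1.eventually ((𝒬.κ i).open_source.mem_nhds hi), hφ.eventually,
        (t0 z₀).eventually hG.eventually_analyticAt, (t0 z₀).eventually e.eventually_nhds, hμe]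
        with z h1 h2 h3 h4 h5
      exact hL z i h1 φ h2 G h3 h4 _ h5
    exact ((hμ.mul (hG.comp_of_eq (a0 z₀) rfl)).congr this.symm).differentiableAt
  obtain ⟨i, hi⟩ := 𝒬.cov (𝒬.pt (evi c 0))
  obtain ⟨ψ, hψ⟩ := exists_sol ((hc.an_evi 0).2 i hi) (𝒬.anP i _ ((𝒬.κ i).map_source hi)) j
  obtain ⟨μ, hμ, -, hμe⟩ := exists_mu (evi_an c 0) (Eventually.of_forall hc.evi_mem) hi
  set H : ℂ × ℂ → ℂ := fun x => bi (fun s => a (Fin.rev s.1, Fin.rev s.2)) x * 𝒬.ξ i (ψ x) k -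
    bi (fun s => b (Fin.rev s.1, Fin.rev s.2)) x * 𝒬.ξ i (ψ x) l with hH
  set K : ℂ × ℂ → ℂ := fun x => bi a x * 𝒬.ξ i (ψ (inv2 x)) k - bi b x * 𝒬.ξ i (ψ (inv2 x)) l with hK
  have hHK : ∀ x : ℂ × ℂ, x.1 ≠ 0 → x.1 + x.2 ≠ 0 → H x = (x.1 ^ m * (x.1 + x.2) ^ m) • K (inv2 x) := by
    intro x h1 h2
    simp only [hH, hK, bi_inv _ h1 h2, inv2_inv2, smul_eq_mul]
    ring
  have hξ : AnalyticAt ℂ (fun x => 𝒬.ξ i (ψ x)) (0, 0) :=
    (𝒬.anξ i _ ((𝒬.κ i).map_source hi)).comp_of_eq hψ.an hψ.init.self_of_nhds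
  have hHa : AnalyticAt ℂ H (0, 0) :=
    ((bi_analyticAt _ _).mul (analyticAt_pi_iff.1 hξ k)).sub
      ((bi_analyticAt _ _).mul (analyticAt_pi_iff.1 hξ l))
  have hsol : ∀ᶠ ζ in 𝓝[≠] (0 : ℂ), 𝒬.pt (ev c ζ⁻¹) ∈ (𝒬.κ i).source ∧
      Sol (𝒬.P i) (𝒬.κ i ∘ fun t => 𝒬.pt (ev c t)) j (fun x => ψ (inv2 x)) ζ⁻¹ := by
    filter_upwards [self_mem_nhdsWithin, mem_nhdsWithin_of_mem_nhds
      ((hc.an_evi 0).1.eventually ((𝒬.κ i).open_source.mem_nhds hi)),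
      mem_nhdsWithin_of_mem_nhds hψ.eventually] with ζ h0 h1 h2
    have hz : ζ ≠ 0 := h0
    have h1' : 𝒬.pt (evi c ζ) ∈ (𝒬.κ i).source := h1
    have h2' : Sol (𝒬.P i) (𝒬.κ i ∘ fun t => 𝒬.pt (evi c t)) j ψ ζ⁻¹⁻¹ := by rw [inv_inv]; exact h2
    have ht : (𝒬.κ i ∘ fun t => 𝒬.pt (evi c t)) ζ⁻¹⁻¹ ∈ (𝒬.κ i).target := by
      rw [inv_inv]; exact (𝒬.κ i).map_source h1'
    refine ⟨hc.pt_evi hz ▸ h1', (Sol.inv (inv_ne_zero hz) h2' (𝒬.anP i _ ht) ?_).congr ?_⟩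
    · filter_upwards [(𝒬.κ i).open_target.mem_nhds ht] with y hy using 𝒬.idem i y hy
    · filter_upwards [isOpen_ne.mem_nhds (inv_ne_zero hz)] with t ht
      simp only [Function.comp_apply, hc.pt_evi (inv_ne_zero ht), inv_inv]
  have hm : ∀ z : ℂ, AnalyticAt ℂ (fun x : ℂ × ℂ => x.1 ^ m * (x.1 + x.2) ^ m) (z, 0) := fun z =>
    (analyticAt_fst.pow m).mul ((analyticAt_fst.add analyticAt_snd).pow m)
  obtain ⟨G, hG, e⟩ : Van j H 0 := by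
    refine Van.of_punctured hHa ?_
    filter_upwards [self_mem_nhdsWithin, hsol] with ζ h0 h1
    have hz : ζ ≠ 0 := h0
    have h2 : Van j K ζ⁻¹ := hw _ i h1.1 _ h1.2
    refine ((h2.comp_inv2 hz).smul (hm ζ)).congr ?_
    filter_upwards [lead_poly_ne hz] with x hx using (hHK x hx.1 hx.2).symm
  refine growth (2 * (m + d)) (2 * j) (k := fun ζ => ζ ^ d * (-1) ^ j * μ ζ * G (ζ, 0)) hent
    ((((analyticAt_id.pow d).mul analyticAt_const).mul hμ).mul (hG.comp_of_eq (a0 0) rfl)) ?_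
  filter_upwards [self_mem_nhdsWithin, hsol, mem_nhdsWithin_of_mem_nhds hμe,
    mem_nhdsWithin_of_mem_nhds ((t0 0).eventually hG.eventually_analyticAt),
    mem_nhdsWithin_of_mem_nhds ((t0 0).eventually e.eventually_nhds)] with ζ h0 h1 h2 h3 h4
  have hz : ζ ≠ 0 := h0
  have hz' : ζ⁻¹ ≠ 0 := inv_ne_zero hz
  have e0 : inv2 (ζ⁻¹, 0) = (ζ, 0) := by simp [inv2]
  have hi2 := inv2_analyticAt hz'
  have h5 := hL ζ⁻¹ i h1.1 _ h1.2
    (fun x => x.1 ^ m * (x.1 + x.2) ^ m * (-(x.1 * (x.1 + x.2))⁻¹) ^ j * G (inv2 x))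
    (((hm _).mul (((analyticAt_fst.mul (analyticAt_fst.add analyticAt_snd)).inv
      (by simpa using hz)).neg.pow j)).mul (AnalyticAt.comp_of_eq h3 hi2 e0)) ?_ (ζ⁻¹ ^ d * μ ζ) ?_
  · rw [h5, e0]
    simp only [add_zero]
    have e1 : (-(ζ⁻¹ * ζ⁻¹)⁻¹) ^ j = (-1) ^ j * ζ ^ (2 * j) := by
      rw [pow_mul, ← mul_pow]; congr 1; field_simp
    have e2 : ζ ^ (2 * (m + d)) = ζ ^ m * ζ ^ m * ζ ^ d * ζ ^ d := by ring
    rw [e1, e2, inv_pow, inv_pow]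
    field_simp
  · have h6 : ∀ᶠ x in 𝓝 (ζ⁻¹, (0 : ℂ)), H (inv2 x) = (inv2 x).2 ^ j • G (inv2 x) :=
      (e0 ▸ hi2.continuousAt.tendsto).eventually h4
    filter_upwards [h6, lead_poly_ne hz'] with x h7 hx
    have e1 : (inv2 x).1 = x.1⁻¹ := rfl
    have e2 : (inv2 x).1 + (inv2 x).2 = (x.1 + x.2)⁻¹ := by simp [inv2]
    have e3 : (inv2 x).2 = x.2 * (-(x.1 * (x.1 + x.2))⁻¹) := by
      have := hx.1; have := hx.2
      simp only [inv2]; field_simp; ring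
    rw [hHK _ (e1 ▸ inv_ne_zero hx.1) (e2 ▸ inv_ne_zero hx.2), e2, e1, e3, inv2_inv2, inv_pow, inv_pow,
      mul_pow, smul_eq_mul, smul_eq_mul] at h7
    have p1 := pow_ne_zero m hx.1
    have p2 := pow_ne_zero m hx.2
    show K x = _
    rw [smul_eq_mul]
    calc K x = x.1 ^ m * (x.1 + x.2) ^ m * ((x.1 ^ m)⁻¹ * ((x.1 + x.2) ^ m)⁻¹ * K x) := by field_simp
      _ = _ := by rw [h7]; ring
  · have h2' : evi c ζ = μ ζ • 𝒬.ξ i (𝒬.κ i (𝒬.pt (evi c ζ))) := h2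
    rw [← hc.pt_evi hz, mul_smul, ← h2', evi_eq c hz, smul_smul, ← mul_pow, inv_mul_cancel₀ hz, one_pow,
      one_smul]

theorem exists_pair_an {γ : ℂ → X} {p q : ℂ × ℂ → ℂ} {k l : Fin (N + 1)} {j : ℕ} {z₀ : ℂ}
    (hp : AnalyticAt ℂ p (z₀, 0)) (hq : AnalyticAt ℂ q (z₀, 0)) {i : 𝒬.ι} (hi : γ z₀ ∈ (𝒬.κ i).source)
    {φ : ℂ × ℂ → E} (hφ : Sol (𝒬.P i) (𝒬.κ i ∘ γ) j φ z₀) :
    AnalyticAt ℂ (fun x => p x * 𝒬.ξ i (φ x) k - q x * 𝒬.ξ i (φ x) l) (z₀, 0) := by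
  have h := analyticAt_pi_iff.1 ((𝒬.anξ i _ ((𝒬.κ i).map_source hi)).comp_of_eq hφ.an hφ.init.self_of_nhds)
  exact (hp.mul (h k)).sub (hq.mul (h l))

theorem exists_pair_one {γ : ℂ → X} {p q : ℂ × ℂ → ℂ} {k l : Fin (N + 1)} {j : ℕ} {z₀ : ℂ} (hγ : 𝒬.An γ z₀)
    (hp : AnalyticAt ℂ p (z₀, 0)) (hq : AnalyticAt ℂ q (z₀, 0)) {i : 𝒬.ι} (hi : γ z₀ ∈ (𝒬.κ i).source)
    {φ : ℂ × ℂ → E} (hφ : Sol (𝒬.P i) (𝒬.κ i ∘ γ) j φ z₀)
    (h : Van j (fun x => p x * 𝒬.ξ i (φ x) k - q x * 𝒬.ξ i (φ x) l) z₀) : 𝒬.Rep γ p q k l j z₀ := by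
  intro i' hi' φ' hφ'
  obtain ⟨G, hG, e⟩ := h
  obtain ⟨c, hc⟩ := 𝒬.cmpξ i i' _ hi hi'
  obtain ⟨G', h1, h2, -⟩ := rep_change hγ hp hq hi hi' hφ hφ' hG e hc
  exact ⟨G', h1, h2⟩

/-- `filtration` with `m = 3d`, `s = m + d`, `V j = {w | ∀ z, Rep f (bi w.1) (bi w.2) k l j z}`;
`(4d+1)² < 2 (3d+1)²`; `van_succ`; `bi_poly`. -/
theorem exists_pair {d : ℕ} {c : Fin (d + 1) → VV N} (hc : 𝒬.Crv c) (k l : Fin (N + 1)) :
    ∃ p q : (Polynomial (Polynomial ℂ)), (p ≠ 0 ∨ q ≠ 0) ∧ ∀ j z, 𝒬.Rep (fun t => 𝒬.pt (ev c t)) (fun x => p.evalEval x.1 x.2)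
      (fun x => q.evalEval x.1 x.2) k l j z := by
  let V : ℕ → Submodule ℂ ((Fin (3 * d + 1) × Fin (3 * d + 1) → ℂ) × (Fin (3 * d + 1) × Fin (3 * d + 1) → ℂ)) := fun j =>
    { carrier := {w | ∀ z, 𝒬.Rep (fun t => 𝒬.pt (ev c t)) (bi w.1) (bi w.2) k l j z}
      zero_mem' := fun z i hi φ hφ => ⟨0, analyticAt_const, Eventually.of_forall fun x => by simp [bi]⟩
      add_mem' := fun {a b} ha hb z i hi φ hφ => ((ha z i hi φ hφ).add (hb z i hi φ hφ)).congr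
        (Eventually.of_forall fun x => by simp only [Prod.fst_add, Prod.snd_add, bi_add]; ring)
      smul_mem' := fun t a ha z i hi φ hφ => ((ha z i hi φ hφ).smul (a := fun _ => t) analyticAt_const).congr
        (Eventually.of_forall fun x => by simp only [Prod.smul_fst, Prod.smul_snd, bi_smul, smul_eq_mul]; ring) }
  obtain ⟨w, hw0, hw⟩ := filtration V (3 * d + d)
    (eq_top_iff.2 fun w _ z i hi φ hφ => van_zero (exists_pair_an (bi_analyticAt _ _) (bi_analyticAt _ _) hi hφ))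
    (fun j w hw z => by
      obtain ⟨i, hi⟩ := 𝒬.cov (𝒬.pt (ev c z))
      obtain ⟨φ, hφ⟩ := exists_sol ((hc.an z).2 i hi) (𝒬.anP i _ ((𝒬.κ i).map_source hi)) (j + 1)
      exact exists_pair_one (hc.an z) (bi_analyticAt _ _) (bi_analyticAt _ _) hi (hφ.mono j.le_succ)
        ((hw z i hi φ hφ).mono j.le_succ))
    (fun j => by
      obtain ⟨Λ, hΛ⟩ := exists_lead (m := 3 * d) hc k l j
      refine ⟨Λ, fun w hw => lead_poly hc hw (hΛ w), fun w hw h0 z i hi φ hφ => ?_⟩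
      obtain ⟨G, hG, e⟩ := hw z i hi φ (hφ.mono j.le_succ)
      have ht : Tendsto (fun t : ℂ => (t, (0 : ℂ))) (𝓝 z) (𝓝 (z, 0)) := Continuous.tendsto' (by fun_prop) _ _ rfl
      refine van_succ hG e ?_
      filter_upwards [(hc.an z).1.eventually ((𝒬.κ i).open_source.mem_nhds hi), (hφ.mono j.le_succ).eventually,
        ht.eventually hG.eventually_analyticAt, ht.eventually e.eventually_nhds] with t h1 h2 h3 h4
      obtain ⟨μ, hμ, e'⟩ := (ov_pt (hc.1 t)).chart h1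
      have := hΛ w t i h1 φ h2 G h3 h4 μ e'
      rw [h0] at this
      exact (mul_eq_zero.1 this.symm).resolve_left hμ)
    (by simp only [Module.finrank_prod, Module.finrank_fintype_fun_eq_card, Fintype.card_prod, Fintype.card_fin]
        nlinarith)
  obtain ⟨p, hp, hp0⟩ := bi_poly w.1
  obtain ⟨q, hq, hq0⟩ := bi_poly w.2
  refine ⟨p, q, not_and_or.1 fun h => hw0 (Prod.ext (hp0 h.1) (hq0 h.2)), fun j z => ?_⟩
  simp only [hp, hq]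
  exact hw j z

/-- If `p.coeff 0 = 0` then order `1` gives `(q.coeff 0).eval z * ev c z l = 0` for all `z`, so `q.coeff 0 = 0`; divide both
by the outer variable (`divX`; a solution of order `j + 1`, `Van.cancel`, `sol_unique`, `Van.comp_sub`).  Induction on
`natDegree p + natDegree q`. -/
theorem min_pair {d : ℕ} {c : Fin (d + 1) → VV N} (hc : 𝒬.Crv c) (k : Fin (N + 1)) {l : Fin (N + 1)}
    (hl : ev c 0 l ≠ 0) : ∃ p q : (Polynomial (Polynomial ℂ)), p.coeff 0 ≠ 0 ∧ ∀ j z, 𝒬.Rep (fun t => 𝒬.pt (ev c t))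
      (fun x => p.evalEval x.1 x.2) (fun x => q.evalEval x.1 x.2) k l j z := by
  obtain ⟨p, q, h0, h⟩ := exists_pair hc k l
  induction hn : p.natDegree + q.natDegree using Nat.strong_induction_on generalizing p q with
  | _ n ih =>
  by_cases hp : p.coeff 0 ≠ 0
  · exact ⟨p, q, hp, h⟩
  rw [not_not] at hp
  have e0 : ∀ (r : ℂ[X][X]) (z : ℂ), r.evalEval z 0 = (r.coeff 0).eval z := fun r z => by
    rw [evalEval, coeff_zero_eq_eval_zero, C_0]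
  have hq : q.coeff 0 = 0 := by
    refine eq_zero_of_infinite_isRoot _ (infinite_of_mem_nhds (0 : ℂ) ?_)
    filter_upwards [((continuous_apply l).continuousAt.comp (ev_an c 0).continuousAt).eventually_ne hl] with z hz
    obtain ⟨i, hi⟩ := 𝒬.cov (𝒬.pt (ev c z))
    obtain ⟨φ, hφ⟩ := exists_sol ((hc.an z).2 i hi) (𝒬.anP i _ ((𝒬.κ i).map_source hi)) 1
    obtain ⟨μ, -, e⟩ := (ov_pt (hc.1 z)).chart hi
    have h1 := (Van.init (j := 0) (h 1 z i hi φ hφ)).self_of_nhds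
    simp only [e0, hp, eval_zero, zero_mul, zero_sub, neg_eq_zero, hφ.init.self_of_nhds] at h1
    refine (mul_eq_zero.1 h1).resolve_right fun h2 => hz ?_
    rw [Function.comp, e, Pi.smul_apply, show 𝒬.ξ i (𝒬.κ i (𝒬.pt (ev c z))) l = 0 from h2, smul_zero]
  have e1 : ∀ r : ℂ[X][X], r.coeff 0 = 0 → r.divX * Polynomial.X = r := fun r hr => by
    simpa [hr] using r.divX_mul_X_add
  have e2 : ∀ r : ℂ[X][X], r.coeff 0 = 0 → r ≠ 0 → r.divX ≠ 0 ∧ r.divX.natDegree < r.natDegree := fun r hr hr0 => by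
    have : r.divX ≠ 0 := fun h => hr0 (by rw [← e1 r hr, h, zero_mul])
    exact ⟨this, (Nat.lt_add_one _).trans_eq (by rw [← natDegree_mul_X this, e1 r hr])⟩
  refine ih _ ?_ p.divX q.divX (h0.imp (fun h => (e2 p hp h).1) fun h => (e2 q hq h).1) (fun j z => ?_) rfl
  · have a1 := p.natDegree_divX_le
    have a2 := q.natDegree_divX_le
    rcases h0 with h0 | h0
    · linarith [(e2 p hp h0).2]
    · linarith [(e2 q hq h0).2]
  obtain ⟨i, hi⟩ := 𝒬.cov (𝒬.pt (ev c z))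
  obtain ⟨φ, hφ⟩ := exists_sol ((hc.an z).2 i hi) (𝒬.anP i _ ((𝒬.κ i).map_source hi)) (j + 1)
  refine exists_pair_one (hc.an z) (evalEval_analyticAt _ _) (evalEval_analyticAt _ _) hi (hφ.mono j.le_succ)
    (Van.cancel (exists_pair_an (evalEval_analyticAt _ _) (evalEval_analyticAt _ _) hi hφ)
      ((h (j + 1) z i hi φ hφ).congr (Eventually.of_forall fun x => ?_)))
  conv_lhs => rw [← e1 p hp, ← e1 q hq]
  simp only [evalEval_mul, evalEval_X, smul_eq_mul]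
  ring

end PA

end

end Crest.Agent.R266

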