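import Crest.Agent.R266.Defs

/-!
# Row 266: the exhaustion of a product of unit balls
-/

set_option autoImplicit false
set_option linter.unusedSectionVars false
set_option linter.unusedVariables false

namespace Crest.Agent.R266

open Set Metric Filter Topology MeasureTheory Polynomial
open scoped ENNReal Classical

noncomputable section

variable {D₁ D₂ : Type} [NormedAddCommGroup D₁] [NormedSpace ℂ D₁] [NormedSpace ℝ D₁] [IsScalarTower ℝ ℂ D₁]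
  [NormedAddCommGroup D₂] [NormedSpace ℂ D₂] [NormedSpace ℝ D₂] [IsScalarTower ℝ ℂ D₂]

/-- `crossW s`, `0 < s ≤ 1`, increases from the origin to the product of the unit balls -/
def crossW (D₁ D₂ : Type) [NormedAddCommGroup D₁] [NormedAddCommGroup D₂] (s : ℝ) : Set (D₁ × D₂) :=
  {p | ‖p.1‖ < 1 ∧ ‖p.2‖ < 1 ∧ 1 - s < (1 - ‖p.1‖ ^ 2) * (1 - ‖p.2‖ ^ 2)}

theorem crossW_quad {A₁ A₂ B₁ B₂ σ a b : ℝ} (h1 : 0 < A₁) (h2 : 0 < A₂) (h3 : 0 < B₁) (h4 : 0 < B₂) (h5 : σ < A₁ * B₁)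
    (h6 : σ < A₂ * B₂) (ha : 0 ≤ a) (hb : 0 ≤ b) (hab : a + b = 1) : σ < (a * A₁ + b * A₂) * (a * B₁ + b * B₂) := by
  have h7 : 2 * σ < A₁ * B₂ + A₂ * B₁ := by
    have p : 0 < A₁ * B₂ + A₂ * B₁ := by positivity
    rcases le_or_gt σ 0 with h | h
    · linarith
    · refine lt_of_pow_lt_pow_left₀ 2 p.le ?_
      nlinarith [sq_nonneg (A₁ * B₂ - A₂ * B₁), mul_lt_mul'' h5 h6 h.le h.le]
  have h8 : 0 < a ^ 2 * (A₁ * B₁ - σ) + b ^ 2 * (A₂ * B₂ - σ) := by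
    have c1 := sub_pos.2 h5
    have c2 := sub_pos.2 h6
    rcases ha.eq_or_lt with rfl | ha'
    · have : b = 1 := by linarith
      subst this
      simpa using c2
    · positivity
  have h9 : σ = σ * (a + b) ^ 2 := by rw [hab]; ring
  nlinarith [mul_nonneg (mul_nonneg ha hb) (sub_pos.2 h7).le]

theorem crossW_sq {x y : D₁} {a b : ℝ} (hx : ‖x‖ < 1) (hy : ‖y‖ < 1) (ha : 0 ≤ a) (hb : 0 ≤ b) (hab : a + b = 1) :
    ‖a • x + b • y‖ < 1 ∧ a * (1 - ‖x‖ ^ 2) + b * (1 - ‖y‖ ^ 2) ≤ 1 - ‖a • x + b • y‖ ^ 2 := by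
  refine ⟨mem_ball_zero_iff.1 (convex_ball (0 : D₁) 1 (mem_ball_zero_iff.2 hx) (mem_ball_zero_iff.2 hy) ha hb hab), ?_⟩
  have h1 : ‖a • x + b • y‖ ≤ a * ‖x‖ + b * ‖y‖ := by
    simpa [norm_smul, abs_of_nonneg ha, abs_of_nonneg hb] using norm_add_le (a • x) (b • y)
  have h2 := pow_le_pow_left₀ (norm_nonneg _) h1 2
  obtain rfl : b = 1 - a := by linarith
  nlinarith [mul_nonneg (mul_nonneg ha hb) (sq_nonneg (‖x‖ - ‖y‖))]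

theorem crossW_incr {a b s δ : ℝ} (a0 : 0 ≤ a) (b0 : 0 ≤ b) (a1 : a < 1) (b1 : b < 1) (s0 : 0 < s) (s1 : s < 1)
    (d0 : 0 < δ) (d1 : δ ≤ 1 / 2) (h3 : 1 - (s + δ * s * (1 - s) / 2) < (1 - a) * (1 - b))
    (h4 : (1 - a) * (1 - b) ≤ 1 - s) : 1 - s < (1 - (1 - δ) ^ 2 * a) * (1 - (1 - δ) ^ 2 * b) := by
  have e1 : δ * s * (1 - s) / 2 ≤ (1 - s) / 2 := by
    nlinarith [mul_le_one₀ (d1.trans (by norm_num : (1:ℝ)/2 ≤ 1)) s0.le s1.le]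
  have k1 : (1 - s) / 2 ≤ 1 - a := by nlinarith
  have k2 : (1 - s) / 2 ≤ 1 - b := by nlinarith
  have k3 : s ≤ a + b := by nlinarith [mul_nonneg a0 b0]
  have k4 : s * (1 - s) / 2 ≤ a * (1 - b) + b * (1 - a) := by
    nlinarith [mul_le_mul_of_nonneg_left k2 a0, mul_le_mul_of_nonneg_left k1 b0]
  have k5 : 1 - a + δ * a ≤ 1 - (1 - δ) ^ 2 * a := by nlinarith [mul_nonneg (mul_nonneg d0.le a0) (by linarith : 0 ≤ 1 - δ)]
  have k6 : 1 - b + δ * b ≤ 1 - (1 - δ) ^ 2 * b := by nlinarith [mul_nonneg (mul_nonneg d0.le b0) (by linarith : 0 ≤ 1 - δ)]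
  have k7 := mul_nonneg d0.le a0
  have k8 := mul_nonneg d0.le b0
  refine lt_of_lt_of_le ?_ (mul_le_mul k5 k6 (by linarith) (by linarith))
  nlinarith [mul_le_mul_of_nonneg_left k4 d0.le, mul_nonneg k7 k8]

set_option maxHeartbeats 800000 in
theorem crossW_ineq {a b x y u v : ℝ} (a0 : 0 < a) (b0 : 0 < b) (a1 : a < 1) (b1 : b < 1) (hx : |x| ≤ u) (hy : |y| ≤ v)
    (h : 2 * a * (1 - b) * x + 2 * b * (1 - a) * y + 12 / ((1 - a) * (1 - b)) * (u ^ 2 + v ^ 2) < 0) :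
    a * (1 + 2 * x + u ^ 2) < 1 ∧ b * (1 + 2 * y + v ^ 2) < 1 ∧
      (1 - a) * (1 - b) < (1 - a * (1 + 2 * x + u ^ 2)) * (1 - b * (1 + 2 * y + v ^ 2)) := by
  have A0 := sub_pos.2 a1
  have B0 := sub_pos.2 b1
  have u0 := (abs_nonneg x).trans hx
  have v0 := (abs_nonneg y).trans hy
  obtain ⟨x1, x2⟩ := abs_le.1 hx
  obtain ⟨y1, y2⟩ := abs_le.1 hy
  have c0 : 0 < (1 - a) * (1 - b) := mul_pos A0 B0
  have c1 : (1 - a) * (1 - b) ≤ 1 - a := by nlinarith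
  have c2 : (1 - a) * (1 - b) ≤ 1 - b := by nlinarith
  have α1 : 2 * a * (1 - b) ≤ 2 := by nlinarith
  have β1 : 2 * b * (1 - a) ≤ 2 := by nlinarith
  have α0 : 0 ≤ 2 * a * (1 - b) := by positivity
  have β0 : 0 ≤ 2 * b * (1 - a) := by positivity
  have m1 : 12 ≤ 12 / ((1 - a) * (1 - b)) := by rw [le_div_iff₀ c0]; nlinarith
  have m2 : 12 / ((1 - a) * (1 - b)) * (u ^ 2 + v ^ 2) < 2 * (u + v) := by
    nlinarith [mul_le_mul_of_nonneg_left x1 α0, mul_le_mul_of_nonneg_left y1 β0]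
  have m3 : u + v < (1 - a) * (1 - b) / 3 := by
    rw [div_mul_eq_mul_div, div_lt_iff₀ c0] at m2
    by_contra hh
    push Not at hh
    nlinarith [sq_nonneg (u - v), mul_le_mul_of_nonneg_left hh (add_nonneg u0 v0)]
  have u1 : u ≤ 1 := by nlinarith
  have v1 : v ≤ 1 := by nlinarith
  have p1 : |a * (2 * x + u ^ 2)| ≤ 3 * u := by
    rw [abs_mul, abs_of_pos a0]
    have : |2 * x + u ^ 2| ≤ 3 * u := abs_le.2 ⟨by nlinarith, by nlinarith⟩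
    nlinarith [abs_nonneg (2 * x + u ^ 2)]
  have p2 : |b * (2 * y + v ^ 2)| ≤ 3 * v := by
    rw [abs_mul, abs_of_pos b0]
    have : |2 * y + v ^ 2| ≤ 3 * v := abs_le.2 ⟨by nlinarith, by nlinarith⟩
    nlinarith [abs_nonneg (2 * y + v ^ 2)]
  have p3 : -(9 * (u * v)) ≤ a * (2 * x + u ^ 2) * (b * (2 * y + v ^ 2)) := by
    have := mul_le_mul p1 p2 (abs_nonneg _) (by positivity)
    rw [← abs_mul] at this
    linarith [(abs_le.1 this).1]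
  have p4 := mul_le_mul_of_nonneg_right m1 (add_nonneg (sq_nonneg u) (sq_nonneg v))
  have p5 : a * (1 - b) * u ^ 2 ≤ u ^ 2 := mul_le_of_le_one_left (sq_nonneg u) (by linarith)
  have p6 : b * (1 - a) * v ^ 2 ≤ v ^ 2 := mul_le_of_le_one_left (sq_nonneg v) (by linarith)
  refine ⟨by linarith [(abs_le.1 p1).2], by linarith [(abs_le.1 p2).2], ?_⟩
  linarith [sq_nonneg (u - v), sq_nonneg u, sq_nonneg v]

theorem crossW_axis0 {s : ℝ} (hs : 0 < s) {z : D₁} (h₁ : ‖z‖ < 1) (h : 1 - s ≤ 1 - ‖z‖ ^ 2) :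
    ∃ᶠ z' in 𝓝 z, ‖z'‖ < 1 ∧ 1 - s < 1 - ‖z'‖ ^ 2 := by
  have t : Tendsto (fun θ : ℝ => θ • z) (𝓝[<] 1) (𝓝 z) :=
    tendsto_nhdsWithin_of_tendsto_nhds (by simpa using (tendsto_id (x := 𝓝 (1 : ℝ))).smul_const z)
  refine t.frequently (Eventually.frequently ?_)
  filter_upwards [Ioo_mem_nhdsLT (zero_lt_one' ℝ)] with θ hθ
  rw [norm_smul, Real.norm_of_nonneg hθ.1.le, mul_pow]
  have h2 : θ ^ 2 < 1 := by nlinarith [hθ.1, hθ.2]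
  refine ⟨by nlinarith [norm_nonneg z, hθ.1, hθ.2], ?_⟩
  rcases (sq_nonneg ‖z‖).eq_or_lt with h3 | h3
  · rw [← h3]; linarith
  · nlinarith

/-- `z ↦ 1 - ‖z‖²` is concave and `{(x, y) | 0 < x, 0 < y, σ < x y}` is convex and upward closed -/
theorem crossW_convex (s : ℝ) : Convex ℝ (crossW D₁ D₂ s) := by
  intro p hp q hq a b ha hb hab
  obtain ⟨h1, h2⟩ := crossW_sq hp.1 hq.1 ha hb hab
  obtain ⟨h3, h4⟩ := crossW_sq hp.2.1 hq.2.1 ha hb hab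
  have pos : ∀ {t : ℝ}, 0 ≤ t → t < 1 → 0 < 1 - t ^ 2 := fun h1 h2 => by nlinarith
  refine ⟨h1, h3, (crossW_quad (pos (norm_nonneg _) hp.1) (pos (norm_nonneg _) hq.1) (pos (norm_nonneg _) hp.2.1)
    (pos (norm_nonneg _) hq.2.1) hp.2.2 hq.2.2 ha hb hab).trans_le ?_⟩
  exact mul_le_mul h2 h4 (add_nonneg (mul_nonneg ha (pos (norm_nonneg _) hp.2.1).le)
    (mul_nonneg hb (pos (norm_nonneg _) hq.2.1).le)) (pos (norm_nonneg _) h1).le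

theorem crossW_open (s : ℝ) : IsOpen (crossW D₁ D₂ s) := by
  exact (isOpen_lt (f := fun p : D₁ × D₂ => ‖p.1‖) (by fun_prop) continuous_const).inter
    ((isOpen_lt (f := fun p : D₁ × D₂ => ‖p.2‖) (by fun_prop) continuous_const).inter
    (isOpen_lt (f := fun _ => 1 - s) (g := fun p : D₁ × D₂ => (1 - ‖p.1‖ ^ 2) * (1 - ‖p.2‖ ^ 2)) continuous_const (by fun_prop)))

theorem crossW_one : crossW D₁ D₂ 1 = ball 0 1 ×ˢ ball 0 1 := by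
  ext p
  simp only [crossW, mem_ofPred_eq, mem_prod, mem_ball_zero_iff, sub_self]
  refine ⟨fun h => ⟨h.1, h.2.1⟩, fun h => ⟨h.1, h.2, mul_pos ?_ ?_⟩⟩
  · nlinarith [norm_nonneg p.1]
  · nlinarith [norm_nonneg p.2]

theorem crossW_small {N : Set (D₁ × D₂)} (hN : N ∈ 𝓝 0) : ∃ s ∈ Ioc (0 : ℝ) 1, crossW D₁ D₂ s ⊆ N := by
  obtain ⟨r, hr, hb⟩ := Metric.mem_nhds_iff.1 hN
  refine ⟨min 1 (r ^ 2), ⟨lt_min one_pos (by positivity), min_le_left _ _⟩, fun p hp => hb ?_⟩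
  obtain ⟨h1, h2, h3⟩ := hp
  have h4 := min_le_right 1 (r ^ 2)
  have a1 : 0 ≤ ‖p.1‖ ^ 2 := sq_nonneg _
  have a2 : 0 ≤ ‖p.2‖ ^ 2 := sq_nonneg _
  have a3 : ‖p.1‖ ^ 2 < 1 := by nlinarith [norm_nonneg p.1]
  have a4 : ‖p.2‖ ^ 2 < 1 := by nlinarith [norm_nonneg p.2]
  rw [mem_ball_zero_iff, Prod.norm_def, max_lt_iff]
  exact ⟨lt_of_pow_lt_pow_left₀ 2 hr.le (by nlinarith), lt_of_pow_lt_pow_left₀ 2 hr.le (by nlinarith)⟩

/-- scale `p ↦ (1 - δ) • p`: the product increases by a definite amount when it is `≤ 1 - s < 1` -/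
theorem crossW_thick {s ε : ℝ} (hs : s ∈ Ioo (0 : ℝ) 1) (hε : 0 < ε) :
    ∃ s' ∈ Ioc s 1, crossW D₁ D₂ s' ⊆ thickening ε (crossW D₁ D₂ s) := by
  obtain ⟨hs0, hs1⟩ := hs
  set δ := min ε (1 / 2) with hδ
  have d0 : 0 < δ := lt_min hε (by norm_num)
  have d1 : δ ≤ 1 / 2 := min_le_right _ _
  have d2 : δ ≤ ε := min_le_left _ _
  have e0 : 0 < δ * s * (1 - s) / 2 := by have := sub_pos.2 hs1; positivity
  have e1 : δ * s * (1 - s) / 2 ≤ (1 - s) / 2 := by nlinarith [mul_le_one₀ (d1.trans (by norm_num : (1:ℝ)/2 ≤ 1)) hs0.le hs1.le]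
  refine ⟨s + δ * s * (1 - s) / 2, ⟨by linarith, by linarith⟩, fun p hp => ?_⟩
  by_cases hps : p ∈ crossW D₁ D₂ s
  · exact self_subset_thickening hε _ hps
  obtain ⟨h1, h2, h3⟩ := hp
  have h4 : (1 - ‖p.1‖ ^ 2) * (1 - ‖p.2‖ ^ 2) ≤ 1 - s := not_lt.1 fun h => hps ⟨h1, h2, h⟩
  have n1 : ‖((1 - δ) • p).1‖ = (1 - δ) * ‖p.1‖ := by
    rw [Prod.smul_fst, norm_smul, Real.norm_of_nonneg (by linarith)]
  have n2 : ‖((1 - δ) • p).2‖ = (1 - δ) * ‖p.2‖ := by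
    rw [Prod.smul_snd, norm_smul, Real.norm_of_nonneg (by linarith)]
  refine mem_thickening_iff.2 ⟨(1 - δ) • p, ⟨?_, ?_, ?_⟩, ?_⟩
  · rw [n1]; nlinarith [norm_nonneg p.1]
  · rw [n2]; nlinarith [norm_nonneg p.2]
  · rw [n1, n2, mul_pow, mul_pow]
    have a3 : ‖p.1‖ ^ 2 < 1 := by nlinarith [norm_nonneg p.1]
    have a4 : ‖p.2‖ ^ 2 < 1 := by nlinarith [norm_nonneg p.2]
    exact crossW_incr (sq_nonneg _) (sq_nonneg _) a3 a4 hs0 hs1 d0 d1 h3 h4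
  · rw [dist_eq_norm, show p - (1 - δ) • p = δ • p by rw [sub_smul, one_smul, sub_sub_cancel], norm_smul,
      Real.norm_of_nonneg d0.le]
    have : ‖p‖ < 1 := by rw [Prod.norm_def]; exact max_lt h1 h2
    nlinarith

theorem crossW_closure {s : ℝ} (hs : s < 1) {p : D₁ × D₂} (h : p ∈ closure (crossW D₁ D₂ s)) :
    ‖p.1‖ < 1 ∧ ‖p.2‖ < 1 ∧ 1 - s ≤ (1 - ‖p.1‖ ^ 2) * (1 - ‖p.2‖ ^ 2) := by
  have hc : IsClosed {p : D₁ × D₂ | ‖p.1‖ ≤ 1 ∧ ‖p.2‖ ≤ 1 ∧ 1 - s ≤ (1 - ‖p.1‖ ^ 2) * (1 - ‖p.2‖ ^ 2)} :=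
    (isClosed_le (f := fun p : D₁ × D₂ => ‖p.1‖) (by fun_prop) continuous_const).inter
      ((isClosed_le (f := fun p : D₁ × D₂ => ‖p.2‖) (by fun_prop) continuous_const).inter
      (isClosed_le (f := fun _ => 1 - s) (g := fun p : D₁ × D₂ => (1 - ‖p.1‖ ^ 2) * (1 - ‖p.2‖ ^ 2)) continuous_const (by fun_prop)))
  obtain ⟨h1, h2, h3⟩ := hc.closure_subset_iff.2 (fun p hp => ⟨hp.1.le, hp.2.1.le, hp.2.2.le⟩) h
  refine ⟨h1.lt_of_ne fun e => ?_, h2.lt_of_ne fun e => ?_, h3⟩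
  · rw [e] at h3; linarith
  · rw [e] at h3; linarith

/-- `a = ‖p.1‖²`, `b = ‖p.2‖²`, `α = 2a(1 - b)`, `β = 2b(1 - a)`; `‖p.1 + z • p.1‖² = a ‖1 + z‖²` -/
theorem crossW_parab {s : ℝ} {p : D₁ × D₂} (h₁ : ‖p.1‖ < 1) (h₂ : ‖p.2‖ < 1)
    (h : 1 - s ≤ (1 - ‖p.1‖ ^ 2) * (1 - ‖p.2‖ ^ 2)) (hp₁ : p.1 ≠ 0) (hp₂ : p.2 ≠ 0) :
    ∃ M > 0, ∃ α > 0, ∃ β > 0, ∀ z w : ℂ, (((α : ℝ) : ℂ) * z + ((β : ℝ) : ℂ) * w).re + M * (‖z‖ ^ 2 + ‖w‖ ^ 2) < 0 →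
      (p.1 + z • p.1, p.2 + w • p.2) ∈ crossW D₁ D₂ s := by
  have a0 : 0 < ‖p.1‖ ^ 2 := by have := norm_pos_iff.2 hp₁; positivity
  have b0 : 0 < ‖p.2‖ ^ 2 := by have := norm_pos_iff.2 hp₂; positivity
  have a1 : ‖p.1‖ ^ 2 < 1 := by nlinarith [norm_nonneg p.1]
  have b1 : ‖p.2‖ ^ 2 < 1 := by nlinarith [norm_nonneg p.2]
  have n1 : ∀ z : ℂ, ‖p.1 + z • p.1‖ ^ 2 = ‖p.1‖ ^ 2 * (1 + 2 * z.re + ‖z‖ ^ 2) := fun z => by
    rw [show p.1 + z • p.1 = (1 + z) • p.1 by rw [add_smul, one_smul], norm_smul, mul_pow, Complex.sq_norm,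
      Complex.sq_norm, Complex.normSq_apply, Complex.normSq_apply]
    simp; ring
  have n2 : ∀ z : ℂ, ‖p.2 + z • p.2‖ ^ 2 = ‖p.2‖ ^ 2 * (1 + 2 * z.re + ‖z‖ ^ 2) := fun z => by
    rw [show p.2 + z • p.2 = (1 + z) • p.2 by rw [add_smul, one_smul], norm_smul, mul_pow, Complex.sq_norm,
      Complex.sq_norm, Complex.normSq_apply, Complex.normSq_apply]
    simp; ring
  generalize ‖p.1‖ ^ 2 = a at *
  generalize ‖p.2‖ ^ 2 = b at *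
  have A0 := sub_pos.2 a1
  have B0 := sub_pos.2 b1
  refine ⟨12 / ((1 - a) * (1 - b)), by positivity, 2 * a * (1 - b), by positivity, 2 * b * (1 - a), by positivity,
    fun z w hzw => ?_⟩
  simp only [Complex.add_re, Complex.re_ofReal_mul] at hzw
  obtain ⟨k1, k2, k3⟩ := crossW_ineq a0 b0 a1 b1 (Complex.abs_re_le_norm z) (Complex.abs_re_le_norm w) hzw
  refine ⟨lt_of_pow_lt_pow_left₀ 2 zero_le_one ?_, lt_of_pow_lt_pow_left₀ 2 zero_le_one ?_, ?_⟩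
  · rw [n1]; linarith
  · rw [n2]; linarith
  · rw [n1, n2]; linarith

theorem crossW_axis₁ {s : ℝ} (hs : 0 < s) {z : D₁} (h₁ : ‖z‖ < 1) (h : 1 - s ≤ 1 - ‖z‖ ^ 2) :
    ∃ᶠ z' in 𝓝 z, (z', (0 : D₂)) ∈ crossW D₁ D₂ s := by
  refine (crossW_axis0 hs h₁ h).mono fun z' hz' => ⟨hz'.1, by simp, by simpa using hz'.2⟩

theorem crossW_axis₂ {s : ℝ} (hs : 0 < s) {w : D₂} (h₁ : ‖w‖ < 1) (h : 1 - s ≤ 1 - ‖w‖ ^ 2) :
    ∃ᶠ w' in 𝓝 w, ((0 : D₁), w') ∈ crossW D₁ D₂ s := by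
  refine (crossW_axis0 hs h₁ h).mono fun z' hz' => ⟨by simp, hz'.1, by simpa using hz'.2⟩

end

end Crest.Agent.R266

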