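import Crest.Agent.R266.Rect

/-!
# Row 266: gluing and exhaustion
-/

set_option autoImplicit false
set_option linter.unusedSectionVars false
set_option linter.unusedVariables false

namespace Crest.Agent.R266

open Set Metric Filter Topology MeasureTheory Polynomial
open scoped ENNReal Classical

noncomputable section

namespace UPA
variable {X A B D₁ D₂ : Type} [TopologicalSpace X] [T2Space X]
  [NormedAddCommGroup A] [NormedSpace ℂ A] [NormedSpace ℝ A] [IsScalarTower ℝ ℂ A] [FiniteDimensional ℂ A]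
  [NormedAddCommGroup B] [NormedSpace ℂ B] [NormedSpace ℝ B] [IsScalarTower ℝ ℂ B] [FiniteDimensional ℂ B]
  [CompleteSpace A] [CompleteSpace B]
  [NormedAddCommGroup D₁] [NormedSpace ℂ D₁] [NormedSpace ℝ D₁] [IsScalarTower ℝ ℂ D₁] [FiniteDimensional ℂ D₁]
  [NormedAddCommGroup D₂] [NormedSpace ℂ D₂] [NormedSpace ℝ D₂] [IsScalarTower ℝ ℂ D₂] [FiniteDimensional ℂ D₂]
  {𝒰 : UPA X A B}

/-- For `p ∈ closure Z` choose `Ψ p`, `r p > 0`, rectangle on `ball p (r p)`, `= Φ` on `ball p (r p) ∩ Z`.  If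
`ball p (r p / 2)` meets `ball q (r q / 2)`, `r q ≤ r p`, then `q ∈ ball p (r p)`, so the convex set
`ball p (r p) ∩ ball q (r q)` meets the open set `Z` and `Ψ p = Ψ q` on it (`An.evEq`).  Glue on `⋃ ball p (r p / 2)`;
`IsCompact.exists_thickening_subset_open` (`closure Z` is compact; `thickening_closure`). -/
theorem glue {Φ : D₁ × D₂ → X} {Z : Set (D₁ × D₂)} (ho : IsOpen Z) (hb : Bornology.IsBounded Z)
    (h : ∀ p ∈ closure Z, 𝒰.Ext Φ Z p) :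
    ∃ ε > 0, ∃ Φ' : D₁ × D₂ → X, (∀ p ∈ thickening ε Z, 𝒰.Rect Φ' p) ∧ EqOn Φ' Φ Z := by
  have h1 : ∀ p, ∃ (Ψ : D₁ × D₂ → X) (r : ℝ), 0 < r ∧ (p ∈ closure Z → ∀ x ∈ ball p r, 𝒰.Rect Ψ x ∧ (x ∈ Z → Ψ x = Φ x)) := by
    intro p
    by_cases hp : p ∈ closure Z
    · obtain ⟨Ψ, hΨ, e⟩ := h p hp
      obtain ⟨r, hr, hb⟩ := Metric.eventually_nhds_iff_ball.1 (hΨ.eventually.and (eventually_nhdsWithin_iff.1 e))
      exact ⟨Ψ, r, hr, fun _ => hb⟩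
    · exact ⟨Φ, 1, one_pos, fun h => absurd h hp⟩
  choose Ψ r hr hΨ using h1
  have k1 : ∀ p ∈ closure Z, ∀ q ∈ closure Z, r q ≤ r p → ∀ x ∈ ball p (r p / 2), x ∈ ball q (r q / 2) → Ψ p x = Ψ q x := by
    intro p hp q hq hpq x h1 h2
    have h3 : q ∈ ball p (r p) := by
      have := dist_triangle_left q p x
      rw [mem_ball] at h1 h2 ⊢
      linarith
    obtain ⟨y, h4, h5⟩ := mem_closure_iff_nhds.1 hq _ (inter_mem (isOpen_ball.mem_nhds h3) (ball_mem_nhds q (hr q)))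
    refine (Atl.An.evEq (𝒜 := 𝒰.toAtl) ((convex_ball p (r p)).inter (convex_ball q (r q))).isPreconnected
      (fun z hz => (hΨ p hp z hz.1).1.an) (fun z hz => (hΨ q hq z hz.2).1.an) h4 ?_ x
      ⟨ball_subset_ball (half_le_self (hr p).le) h1, ball_subset_ball (half_le_self (hr q).le) h2⟩).self_of_nhds
    filter_upwards [(isOpen_ball.inter isOpen_ball).mem_nhds h4, ho.mem_nhds h5] with z h6 h7
    rw [(hΨ p hp z h6.1).2 h7, (hΨ q hq z h6.2).2 h7]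
  have k2 : ∀ p ∈ closure Z, ∀ q ∈ closure Z, ∀ x ∈ ball p (r p / 2), x ∈ ball q (r q / 2) → Ψ p x = Ψ q x := by
    intro p hp q hq x h1 h2
    rcases le_total (r q) (r p) with h | h
    · exact k1 p hp q hq h x h1 h2
    · exact (k1 q hq p hp h x h2 h1).symm
  let Φ' : D₁ × D₂ → X := fun x => if h : ∃ p ∈ closure Z, x ∈ ball p (r p / 2) then Ψ h.choose x else Φ x
  have k3 : ∀ p ∈ closure Z, ∀ x ∈ ball p (r p / 2), Φ' x = Ψ p x := fun p hp x hx => by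
    have h0 : ∃ p ∈ closure Z, x ∈ ball p (r p / 2) := ⟨p, hp, hx⟩
    simp only [Φ', dif_pos h0]
    exact k2 _ h0.choose_spec.1 p hp x h0.choose_spec.2 hx
  have : ProperSpace (D₁ × D₂) := FiniteDimensional.proper ℂ _
  obtain ⟨ε, hε, hth⟩ := hb.isCompact_closure.exists_thickening_subset_open
    (isOpen_biUnion fun p (_ : p ∈ closure Z) => (isOpen_ball : IsOpen (ball p (r p / 2))))
    (fun p hp => mem_biUnion hp (mem_ball_self (half_pos (hr p))))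
  refine ⟨ε, hε, Φ', fun x hx => ?_, fun x hx => ?_⟩
  · obtain ⟨p, hp, hxp⟩ := mem_iUnion₂.1 (hth (thickening_subset_of_subset ε subset_closure hx))
    refine (hΨ p hp x (ball_subset_ball (half_le_self (hr p).le) hxp)).1.congr ?_
    filter_upwards [isOpen_ball.mem_nhds hxp] with y hy using (k3 p hp y hy).symm
  · rw [k3 x (subset_closure hx) x (mem_ball_self (half_pos (hr x)))]
    exact (hΨ x (subset_closure hx) x (mem_ball_self (hr x))).2 hx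

/-- `T = {s ∈ Icc s₀ s₁ | ∃ Φ, rectangle on W s, = Φ₀ on W s₀}` contains its supremum (the extensions are compatible
by `An.evEq` on the convex sets `W s`; use `hlim`), and the supremum is `s₁` by `glue` and `hth`. -/
theorem exhaust {W : ℝ → Set (D₁ × D₂)} {s₀ s₁ : ℝ} (hs : s₀ ≤ s₁) (hc : ∀ s ∈ Icc s₀ s₁, Convex ℝ (W s))
    (ho : ∀ s ∈ Icc s₀ s₁, IsOpen (W s)) (hb : ∀ s ∈ Icc s₀ s₁, Bornology.IsBounded (W s))
    (hm : MonotoneOn W (Icc s₀ s₁)) (hlim : ∀ s ∈ Ioc s₀ s₁, ∀ p ∈ W s, ∃ s' ∈ Ico s₀ s, p ∈ W s')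
    (hth : ∀ s ∈ Ico s₀ s₁, ∀ ε > 0, ∃ s' ∈ Ioc s s₁, W s' ⊆ thickening ε (W s)) (hne : (W s₀).Nonempty)
    {Φ₀ : D₁ × D₂ → X} (h₀ : ∀ p ∈ W s₀, 𝒰.Rect Φ₀ p)
    (hext : ∀ s ∈ Ico s₀ s₁, ∀ Φ : D₁ × D₂ → X, (∀ p ∈ W s, 𝒰.Rect Φ p) → EqOn Φ Φ₀ (W s₀) →
      ∀ p ∈ closure (W s), 𝒰.Ext Φ (W s) p) :
    ∃ Φ : D₁ × D₂ → X, (∀ p ∈ W s₁, 𝒰.Rect Φ p) ∧ EqOn Φ Φ₀ (W s₀) := by
  let T : Set ℝ := {s | s ∈ Icc s₀ s₁ ∧ ∃ Φ : D₁ × D₂ → X, (∀ p ∈ W s, 𝒰.Rect Φ p) ∧ EqOn Φ Φ₀ (W s₀)}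
  have hI : s₀ ∈ Icc s₀ s₁ := left_mem_Icc.2 hs
  have h0 : s₀ ∈ T := ⟨hI, Φ₀, h₀, eqOn_refl _ _⟩
  have hbd : BddAbove T := ⟨s₁, fun s h => h.1.2⟩
  have hS : sSup T ∈ Icc s₀ s₁ := ⟨le_csSup hbd h0, csSup_le ⟨_, h0⟩ fun s h => h.1.2⟩
  have uniq : ∀ s ∈ Icc s₀ s₁, ∀ Φ Φ' : D₁ × D₂ → X, (∀ p ∈ W s, 𝒰.Rect Φ p) → (∀ p ∈ W s, 𝒰.Rect Φ' p) →
      EqOn Φ Φ₀ (W s₀) → EqOn Φ' Φ₀ (W s₀) → EqOn Φ Φ' (W s) := by
    intro s hs Φ Φ' h1 h2 h3 h4 x hx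
    obtain ⟨y, hy⟩ := hne
    refine (Atl.An.evEq (𝒜 := 𝒰.toAtl) (hc s hs).isPreconnected (fun p hp => (h1 p hp).an) (fun p hp => (h2 p hp).an)
      (hm hI hs hs.1 hy) ?_ x hx).self_of_nhds
    filter_upwards [(ho s₀ hI).mem_nhds hy] with z hz using (h3 hz).trans (h4 hz).symm
  have hT : sSup T ∈ T := by
    rcases hS.1.eq_or_lt with h | h
    · exact h ▸ h0
    have h1 : ∀ s, ∃ Φ : D₁ × D₂ → X, s ∈ T → (∀ p ∈ W s, 𝒰.Rect Φ p) ∧ EqOn Φ Φ₀ (W s₀) := fun s => by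
      by_cases hs : s ∈ T
      · obtain ⟨Φ, hΦ⟩ := hs.2
        exact ⟨Φ, fun _ => hΦ⟩
      · exact ⟨Φ₀, fun h => absurd h hs⟩
    choose Ψ hΨ using h1
    have k1 : ∀ s ∈ T, ∀ s' ∈ T, s ≤ s' → EqOn (Ψ s) (Ψ s') (W s) := fun s hs s' hs' h =>
      uniq s hs.1 _ _ (hΨ s hs).1 (fun p hp => (hΨ s' hs').1 p (hm hs.1 hs'.1 h hp)) (hΨ s hs).2 (hΨ s' hs').2
    let Φ : D₁ × D₂ → X := fun x => if h : ∃ s ∈ T, x ∈ W s then Ψ h.choose x else Φ₀ x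
    have k2 : ∀ s ∈ T, EqOn Φ (Ψ s) (W s) := fun s hs x hx => by
      have h0 : ∃ s ∈ T, x ∈ W s := ⟨s, hs, hx⟩
      simp only [Φ, dif_pos h0]
      rcases le_total h0.choose s with h | h
      · exact k1 _ h0.choose_spec.1 s hs h h0.choose_spec.2
      · exact (k1 s hs _ h0.choose_spec.1 h hx).symm
    refine ⟨hS, Φ, fun p hp => ?_, (k2 s₀ h0).trans (hΨ s₀ h0).2⟩
    obtain ⟨s', hs', hp'⟩ := hlim _ ⟨h, hS.2⟩ p hp
    obtain ⟨s, hsT, hs''⟩ := exists_lt_of_lt_csSup ⟨_, h0⟩ hs'.2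
    have hp'' := hm ⟨hs'.1, hs'.2.le.trans hS.2⟩ hsT.1 hs''.le hp'
    refine ((hΨ s hsT).1 p hp'').congr ?_
    filter_upwards [(ho s hsT.1).mem_nhds hp''] with z hz using (k2 s hsT hz).symm
  rcases hS.2.eq_or_lt with h | h
  · exact (h ▸ hT).2
  exfalso
  obtain ⟨Φ, h1, h2⟩ := hT.2
  obtain ⟨ε, hε, Φ', h3, h4⟩ := glue (ho _ hS) (hb _ hS) (hext _ ⟨hS.1, h⟩ Φ h1 h2)
  obtain ⟨s', hs', h5⟩ := hth _ ⟨hS.1, h⟩ ε hε
  exact absurd (le_csSup hbd ⟨⟨hS.1.trans hs'.1.le, hs'.2⟩, Φ', fun p hp => h3 p (h5 hp),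
    (h4.mono (hm hI hS hS.1)).trans h2⟩) (not_le.2 hs'.1)

end UPA

end

end Crest.Agent.R266

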