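import Crest.Agent.R266.LocN
import Crest.Agent.R266.CrossW
import Crest.Agent.R266.Glue

/-!
# Row 266: completion of crosses
-/

set_option autoImplicit false
set_option linter.unusedSectionVars false
set_option linter.unusedVariables false

namespace Crest.Agent.R266

open Set Metric Filter Topology MeasureTheory Polynomial
open scoped ENNReal Classical

noncomputable section

namespace UPA
variable {X A B D₁ D₂ : Type} [TopologicalSpace X] [T2Space X]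
  [NormedAddCommGroup A] [NormedSpace ℂ A] [NormedSpace ℝ A] [IsScalarTower ℝ ℂ A] [FiniteDimensional ℂ A]
  [NormedAddCommGroup B] [NormedSpace ℂ B] [NormedSpace ℝ B] [IsScalarTower ℝ ℂ B] [FiniteDimensional ℂ B]
  [CompleteSpace A] [CompleteSpace B]
  [NormedAddCommGroup D₁] [NormedSpace ℂ D₁] [NormedSpace ℝ D₁] [IsScalarTower ℝ ℂ D₁] [FiniteDimensional ℂ D₁]
  [NormedAddCommGroup D₂] [NormedSpace ℂ D₂] [NormedSpace ℝ D₂] [IsScalarTower ℝ ℂ D₂] [FiniteDimensional ℂ D₂]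
  {𝒰 : UPA X A B}

/-- `cross_local`, `crossW_small`, `exhaust` on `[s₀, 1]`.  An extension `Φ` on `crossW s` restricts to `f`, `g` on the
axes (`An.evEq` on the convex slices); boundary points: `ext_axis₁`, `ext_axis₂`, `locN` with `crossW_parab`. -/
theorem cross_unit {f : D₁ → X} {g : D₂ → X} (hf : ∀ z ∈ ball (0 : D₁) 1, 𝒰.T₁ f z)
    (hg : ∀ w ∈ ball (0 : D₂) 1, 𝒰.T₂ g w) (e : f 0 = g 0) :
    ∃ Φ : D₁ × D₂ → X, (∀ p ∈ ball (0 : D₁) 1 ×ˢ ball (0 : D₂) 1, 𝒰.Rect Φ p) ∧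
      (∀ z ∈ ball (0 : D₁) 1, Φ (z, 0) = f z) ∧ ∀ w ∈ ball (0 : D₂) 1, Φ (0, w) = g w := by
  obtain ⟨Φ₀, h0, h1, h2⟩ := cross_local (hf 0 (mem_ball_self one_pos)) (hg 0 (mem_ball_self one_pos)) e
  obtain ⟨s₀, hs₀, hW⟩ := crossW_small (D₁ := D₁) (D₂ := D₂) h0.eventually
  have m0 : ∀ s, 0 < s → ((0, 0) : D₁ × D₂) ∈ crossW D₁ D₂ s := fun s hs => by simp [crossW, hs]
  have sub : ∀ s, crossW D₁ D₂ s ⊆ ball 0 1 ×ˢ ball 0 1 := fun s p hp =>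
    ⟨mem_ball_zero_iff.2 hp.1, mem_ball_zero_iff.2 hp.2.1⟩
  have ax : ∀ s, 0 < s → ∀ Φ : D₁ × D₂ → X, (∀ p ∈ crossW D₁ D₂ s, 𝒰.Rect Φ p) → EqOn Φ Φ₀ (crossW D₁ D₂ s₀) →
      (∀ z, (z, 0) ∈ crossW D₁ D₂ s → ∀ᶠ z' in 𝓝 z, Φ (z', 0) = f z') ∧
        ∀ w, (0, w) ∈ crossW D₁ D₂ s → ∀ᶠ w' in 𝓝 w, Φ (0, w') = g w' := by
    intro s hs Φ k1 k2
    have k3 : Φ =ᶠ[𝓝 (0, 0)] Φ₀ := k2.eventuallyEq_of_mem ((crossW_open s₀).mem_nhds (m0 s₀ hs₀.1))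
    refine ⟨fun z hz => ?_, fun w hw => ?_⟩
    · refine Atl.An.evEq (𝒜 := 𝒰.toAtl) (f := fun z => Φ (z, 0)) (U := LinearMap.inl ℝ D₁ D₂ ⁻¹' crossW D₁ D₂ s)
        ((crossW_convex s).linear_preimage _).isPreconnected (fun p hp => (k1 (p, 0) hp).t₁.an)
        (fun p hp => (hf p (sub s hp).1).an) (m0 s hs) ?_ z hz
      filter_upwards [(by fun_prop : ContinuousAt (fun z : D₁ => (z, (0 : D₂))) 0).eventually k3, h1] with y a1 a2
      exact a1.trans a2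
    · refine Atl.An.evEq (𝒜 := 𝒰.toAtl) (f := fun w => Φ (0, w)) (U := LinearMap.inr ℝ D₁ D₂ ⁻¹' crossW D₁ D₂ s)
        ((crossW_convex s).linear_preimage _).isPreconnected (fun p hp => (k1 (0, p) hp).t₂.an)
        (fun p hp => (hg p (sub s hp).2).an) (m0 s hs) ?_ w hw
      filter_upwards [(by fun_prop : ContinuousAt (fun w : D₂ => ((0 : D₁), w)) 0).eventually k3, h2] with y a1 a2
      exact a1.trans a2
  obtain ⟨Φ, k1, k2⟩ := exhaust (𝒰 := 𝒰) (W := crossW D₁ D₂) hs₀.2 (fun s _ => crossW_convex s) (fun s _ => crossW_open s)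
    (fun s _ => (isBounded_ball.prod isBounded_ball).subset (sub s))
    (fun s _ s' _ h p hp => ⟨hp.1, hp.2.1, by linarith [hp.2.2]⟩)
    (fun s hs p hp => by
      obtain ⟨s', a1, a2⟩ := exists_between
        (max_lt hs.1 (show 1 - (1 - ‖p.1‖ ^ 2) * (1 - ‖p.2‖ ^ 2) < s by linarith [hp.2.2]))
      exact ⟨s', ⟨(le_max_left _ _).trans a1.le, a2⟩, hp.1, hp.2.1, by linarith [(le_max_right _ _).trans_lt a1]⟩)
    (fun s hs ε hε => crossW_thick ⟨hs₀.1.trans_le hs.1, hs.2⟩ hε) ⟨_, m0 s₀ hs₀.1⟩ hW (by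
      rintro s hs Φ k1 k2 ⟨z, w⟩ hp
      have hs' := hs₀.1.trans_le hs.1
      obtain ⟨a1, a2, a3⟩ := crossW_closure hs.2 hp
      obtain ⟨b1, b2⟩ := ax s hs' Φ k1 k2
      rcases eq_or_ne w 0 with rfl | hw
      · exact ext_axis₁ (crossW_convex s) k1 (hf z (mem_ball_zero_iff.2 a1)).an
          ((crossW_axis₁ hs' a1 (by simpa using a3)).mono fun z' hz' => ⟨hz', b1 z' hz'⟩)
      rcases eq_or_ne z 0 with rfl | hz
      · exact ext_axis₂ (crossW_convex s) k1 (hg w (mem_ball_zero_iff.2 a2)).an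
          ((crossW_axis₂ hs' a2 (by simpa using a3)).mono fun z' hz' => ⟨hz', b2 z' hz'⟩)
      obtain ⟨M, hM, α, hα, β, hβ, h⟩ := crossW_parab a1 a2 a3 hz hw
      exact locN (crossW_convex s) k1 hα hβ hM h)
  obtain ⟨b1, b2⟩ := ax 1 one_pos Φ k1 k2
  rw [crossW_one] at k1 b1 b2
  exact ⟨Φ, k1, fun z hz => (b1 z ⟨hz, mem_ball_self one_pos⟩).self_of_nhds,
    fun w hw => (b2 w ⟨mem_ball_self one_pos, hw⟩).self_of_nhds⟩

theorem cross_mem {z₀ z : D₁} {r : ℝ} (hr : 0 < r) (hz : z ∈ ball (0 : D₁) 1) : z₀ + (r : ℂ) • z ∈ ball z₀ r := by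
  rw [mem_ball_iff_norm, add_sub_cancel_left, norm_smul, Complex.norm_real, Real.norm_of_nonneg hr.le]
  exact mul_lt_of_lt_one_right hr (mem_ball_zero_iff.1 hz)

theorem cross_mem' {z₀ z : D₁} {r : ℝ} (hr : 0 < r) (hz : z ∈ ball z₀ r) : (r : ℂ)⁻¹ • (z - z₀) ∈ ball (0 : D₁) 1 := by
  rw [mem_ball_zero_iff, norm_smul, norm_inv, Complex.norm_real, Real.norm_of_nonneg hr.le, inv_mul_lt_one₀ hr]
  exact mem_ball_iff_norm.1 hz

/-- affine rescaling, `Rect.comp` -/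
theorem cross {f : D₁ → X} {g : D₂ → X} {z₀ : D₁} {w₀ : D₂} {r₁ r₂ : ℝ} (h₁ : 0 < r₁) (h₂ : 0 < r₂)
    (hf : ∀ z ∈ ball z₀ r₁, 𝒰.T₁ f z) (hg : ∀ w ∈ ball w₀ r₂, 𝒰.T₂ g w) (e : f z₀ = g w₀) :
    ∃ Φ : D₁ × D₂ → X, (∀ p ∈ ball z₀ r₁ ×ˢ ball w₀ r₂, 𝒰.Rect Φ p) ∧
      (∀ z ∈ ball z₀ r₁, Φ (z, w₀) = f z) ∧ ∀ w ∈ ball w₀ r₂, Φ (z₀, w) = g w := by
  obtain ⟨Φ, k1, k2, k3⟩ := cross_unit (𝒰 := 𝒰) (f := fun z => f (z₀ + (r₁ : ℂ) • z)) (g := fun w => g (w₀ + (r₂ : ℂ) • w))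
    (fun z hz => by
      obtain ⟨i, F, b, a1, a2, a3⟩ := hf _ (cross_mem h₁ hz)
      have hc : AnalyticAt ℂ (fun z => z₀ + (r₁ : ℂ) • z) z := analyticAt_const.add (analyticAt_const.smul analyticAt_id)
      exact ⟨i, fun z => F (z₀ + (r₁ : ℂ) • z), b, a1.comp_of_eq hc rfl, a2, hc.continuousAt.eventually a3⟩)
    (fun z hz => by
      obtain ⟨i, b, F, a1, a2, a3⟩ := hg _ (cross_mem h₂ hz)
      have hc : AnalyticAt ℂ (fun z => w₀ + (r₂ : ℂ) • z) z := analyticAt_const.add (analyticAt_const.smul analyticAt_id)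
      exact ⟨i, b, fun z => F (w₀ + (r₂ : ℂ) • z), a1.comp_of_eq hc rfl, a2, hc.continuousAt.eventually a3⟩)
    (by simpa using e)
  have n1 : (r₁ : ℂ) ≠ 0 := Complex.ofReal_ne_zero.2 h₁.ne'
  have n2 : (r₂ : ℂ) ≠ 0 := Complex.ofReal_ne_zero.2 h₂.ne'
  refine ⟨fun x => Φ ((r₁ : ℂ)⁻¹ • (x.1 - z₀), (r₂ : ℂ)⁻¹ • (x.2 - w₀)), fun p hp =>
    Rect.comp (a := fun z => (r₁ : ℂ)⁻¹ • (z - z₀)) (b := fun w => (r₂ : ℂ)⁻¹ • (w - w₀))
      (k1 _ ⟨cross_mem' h₁ hp.1, cross_mem' h₂ hp.2⟩) (analyticAt_const.smul (analyticAt_id.sub analyticAt_const))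
      (analyticAt_const.smul (analyticAt_id.sub analyticAt_const)), fun z hz => ?_, fun w hw => ?_⟩
  · simp only [sub_self, smul_zero, k2 _ (cross_mem' h₁ hz), smul_inv_smul₀ n1, add_sub_cancel]
  · simp only [sub_self, smul_zero, k3 _ (cross_mem' h₂ hw), smul_inv_smul₀ n2, add_sub_cancel]

end UPA

end

end Crest.Agent.R266

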