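import Crest.Prelude.Def_TangentSplitting

/-!
# Row 266 (S0404, S0405): definitions.  FROZEN (owner helper99).

**S0405.**  `UPA` = atlas of product charts with uniformly bounded Kähler geometry.  A *rectangle map* (`Rect`) is a
map `Φ (z, w)` which in product charts has the form `(F z, G w)`.  Since `Φ^* ω` is closed, the area of the diagonal
disc `v ↦ Φ (v, v + u)` propagates with finite speed in `u` (`Mono`); small area puts a disc into one chart (`En`),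
finite area punctures are removable (`Rem`), so a rectangle map extends across every non-characteristic boundary
point (`Lens`), crosses can be completed (`Cross`), and by monodromy there is a rectangular band
`b : X × X → X`, `b (a, d) = (d₁, a₂)` (`Band`); its two retracts are the factors (`Asm`).

**S0404.**  `PA` = atlas with the projection field `P` and homogeneous coordinates `ξ`.  A rational curve has a formal
rectangle completion along the diagonal (`Van`), which is rational by a dimension count (`Count`, `Rat`); so almost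
all pairs of points of the curve are joined by an `E₁`-curve followed by an `E₂`-curve.  Analytic sets are countable
unions of analytic images of balls (`Balls`), so there is a family of such chains parametrised by its end points;
variations of an `E₁`-curve fixing a point stay in `E₁` (`Var`), so the middle point sweeps out leaves (`Fin4`).
-/

set_option autoImplicit false

namespace Crest.Agent.R266

open Set Metric Filter Topology MeasureTheory Polynomial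
open scoped ENNReal Classical

noncomputable section

/-! ## atlases, analytic maps -/

/-- an analytic atlas -/
structure Atl (X E : Type) [TopologicalSpace X] [NormedAddCommGroup E] [NormedSpace ℂ E] where
  ι : Type
  κ : ι → OpenPartialHomeomorph X E
  cov : ∀ x, ∃ i, x ∈ (κ i).source
  an : ∀ i j x, x ∈ (κ i).source → x ∈ (κ j).source → AnalyticAt ℂ (κ j ∘ (κ i).symm) (κ i x)

section Atl
variable {X E D : Type} [TopologicalSpace X] [NormedAddCommGroup E] [NormedSpace ℂ E]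
  [NormedAddCommGroup D] [NormedSpace ℂ D]

/-- the derivative of the change of charts from `i` to `j` at `x` -/
def Atl.J (𝒜 : Atl X E) (i j : 𝒜.ι) (x : X) : E →L[ℂ] E := fderiv ℂ (𝒜.κ j ∘ (𝒜.κ i).symm) (𝒜.κ i x)

/-- `f : D → X` is analytic at `p` -/
def Atl.An (𝒜 : Atl X E) (f : D → X) (p : D) : Prop :=
  ContinuousAt f p ∧ ∀ i, f p ∈ (𝒜.κ i).source → AnalyticAt ℂ (𝒜.κ i ∘ f) p

/-- `f : X → Y` is analytic at `x` -/
def Atl.MAn {Y F : Type} [TopologicalSpace Y] [NormedAddCommGroup F] [NormedSpace ℂ F]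
    (𝒜 : Atl X E) (ℬ : Atl Y F) (f : X → Y) (x : X) : Prop :=
  ∀ i, x ∈ (𝒜.κ i).source → ℬ.An (f ∘ (𝒜.κ i).symm) (𝒜.κ i x)

/-- product of two atlases -/
def Atl.prod {Y F : Type} [TopologicalSpace Y] [NormedAddCommGroup F] [NormedSpace ℂ F]
    (𝒜 : Atl X E) (ℬ : Atl Y F) : Atl (X × Y) (E × F) where
  ι := 𝒜.ι × ℬ.ι
  κ := fun p => (𝒜.κ p.1).prod (ℬ.κ p.2)
  cov := fun x => by
    obtain ⟨i, hi⟩ := 𝒜.cov x.1
    obtain ⟨j, hj⟩ := ℬ.cov x.2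
    exact ⟨(i, j), hi, hj⟩
  an := fun i j x hi hj =>
    ((𝒜.an i.1 j.1 x.1 hi.1 hj.1).comp_of_eq analyticAt_fst rfl).prod
      ((ℬ.an i.2 j.2 x.2 hi.2 hj.2).comp_of_eq analyticAt_snd rfl)

/-- the obstruction to the integrability of the image of the projection field `P` -/
def th (P : E → E →L[ℂ] E) (y a b : E) : E :=
  (1 - P y) (fderiv ℂ P y (P y a) (P y b) - fderiv ℂ P y (P y b) (P y a))

end Atl

/-- an atlas with a field of projections -/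
structure SA (X E : Type) [TopologicalSpace X] [NormedAddCommGroup E] [NormedSpace ℂ E] extends Atl X E where
  P : ι → E → E →L[ℂ] E
  anP : ∀ i, ∀ y ∈ (κ i).target, AnalyticAt ℂ (P i) y
  idem : ∀ i, ∀ y ∈ (κ i).target, ∀ v, P i y (P i y v) = P i y v
  cmpP : ∀ i j x, x ∈ (κ i).source → x ∈ (κ j).source → ∀ v,
    P j (κ j x) (toAtl.J i j x v) = toAtl.J i j x (P i (κ i x) v)

section SA
variable {X E : Type} [TopologicalSpace X] [NormedAddCommGroup E] [NormedSpace ℂ E]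

/-- the complementary projection -/
def SA.swap (𝒮 : SA X E) : SA X E where
  toAtl := 𝒮.toAtl
  P := fun i y => 1 - 𝒮.P i y
  anP := fun i y hy => analyticAt_const.sub (𝒮.anP i y hy)
  idem := fun i y hy v => by simp [𝒮.idem i y hy]
  cmpP := fun i j x hi hj v => by simp [𝒮.cmpP i j x hi hj]

/-- the image of `P` is integrable -/
def SA.Int (𝒮 : SA X E) : Prop := ∀ i, ∀ y ∈ (𝒮.κ i).target, ∀ a b, th (𝒮.P i) y a b = 0

/-- the curve `γ` is tangent to the image of `P` at `z` -/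
def SA.Tan (𝒮 : SA X E) (γ : ℂ → X) (z : ℂ) : Prop :=
  ∀ i, γ z ∈ (𝒮.κ i).source →
    𝒮.P i (𝒮.κ i (γ z)) (deriv (𝒮.κ i ∘ γ) z) = deriv (𝒮.κ i ∘ γ) z

/-- a chart in which the splitting is the product splitting -/
def SA.Adapted {A B : Type} [NormedAddCommGroup A] [NormedSpace ℂ A] [NormedAddCommGroup B] [NormedSpace ℂ B]
    (𝒮 : SA X E) (κ : OpenPartialHomeomorph X (A × B)) : Prop :=
  ∀ k x, x ∈ κ.source → x ∈ (𝒮.κ k).source →
    AnalyticAt ℂ (κ ∘ (𝒮.κ k).symm) (𝒮.κ k x) ∧ AnalyticAt ℂ (𝒮.κ k ∘ κ.symm) (κ x) ∧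
    ∀ v, fderiv ℂ (κ ∘ (𝒮.κ k).symm) (𝒮.κ k x) (𝒮.P k (𝒮.κ k x) v) =
      ((fderiv ℂ (κ ∘ (𝒮.κ k).symm) (𝒮.κ k x) v).1, 0)

/-- a holomorphic vector field along the curve `γ`, at `z` -/
def SA.Sec (𝒮 : SA X E) (γ : ℂ → X) (ν : 𝒮.ι → ℂ → E) (z : ℂ) : Prop :=
  (∀ i, γ z ∈ (𝒮.κ i).source → AnalyticAt ℂ (ν i) z) ∧
    ∀ i j, γ z ∈ (𝒮.κ i).source → γ z ∈ (𝒮.κ j).source → ν j z = 𝒮.toAtl.J i j (γ z) (ν i z)

/-- the connection along a curve tangent to the image of `P` -/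
def SA.nab (𝒮 : SA X E) (γ : ℂ → X) (ν : 𝒮.ι → ℂ → E) (i : 𝒮.ι) (z : ℂ) : E :=
  (1 - 𝒮.P i (𝒮.κ i (γ z)))
    (deriv (ν i) z - fderiv ℂ (𝒮.P i) (𝒮.κ i (γ z)) (ν i z) (deriv (𝒮.κ i ∘ γ) z))

end SA

/-! ## Kähler data -/

section Kahler
variable {E : Type} [NormedAddCommGroup E] [NormedSpace ℝ E]

variable [NormedSpace ℂ E]

/-- `G` is the coefficient field of a Kähler metric at `y` (positivity is separate) -/
structure Kah (G : E → E →L[ℝ] E →L[ℝ] ℝ) (y : E) : Prop where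
  smooth : ContDiffAt ℝ 1 G y
  sym : ∀ u v, G y u v = G y v u
  herm : ∀ u v, G y (Complex.I • u) (Complex.I • v) = G y u v
  closed : ∀ u v w : E, fderiv ℝ (fun z => G z (Complex.I • v) w) y u - fderiv ℝ (fun z => G z (Complex.I • u) w) y v +
    fderiv ℝ (fun z => G z (Complex.I • u) v) y w = 0

/-- pull-back of a real bilinear form by a complex linear map -/
def pl {D : Type} [NormedAddCommGroup D] [NormedSpace ℝ D] [NormedSpace ℂ D] [IsScalarTower ℝ ℂ D]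
    [IsScalarTower ℝ ℂ E] (g : E →L[ℝ] E →L[ℝ] ℝ) (L : D →L[ℂ] E) : D →L[ℝ] D →L[ℝ] ℝ :=
  g.bilinearComp (L.restrictScalars ℝ) (L.restrictScalars ℝ)

end Kahler

/-- an atlas with projections and a Kähler metric -/
structure KA (X E : Type) [TopologicalSpace X] [NormedAddCommGroup E] [NormedSpace ℂ E] [NormedSpace ℝ E]
    extends SA X E where
  G : ι → E → E →L[ℝ] E →L[ℝ] ℝ
  kah : ∀ i, ∀ y ∈ (κ i).target, Kah (G i) y
  pos : ∀ i, ∀ y ∈ (κ i).target, ∀ u, u ≠ 0 → 0 < G i y u u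
  cmpG : ∀ i j x, x ∈ (κ i).source → x ∈ (κ j).source → ∀ u v,
    G j (κ j x) (toAtl.J i j x u) (toAtl.J i j x v) = G i (κ i x) u v

/-- a uniform atlas of product charts with a Kähler metric -/
structure UPA (X A B : Type) [TopologicalSpace X] [NormedAddCommGroup A] [NormedSpace ℂ A] [NormedSpace ℝ A]
    [NormedAddCommGroup B] [NormedSpace ℂ B] [NormedSpace ℝ B] extends Atl X (A × B) where
  tgt : ∀ i, (κ i).target = ball 0 4
  cov1 : ∀ x, ∃ i, x ∈ (κ i).source ∧ κ i x ∈ ball (0 : A × B) 1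
  prod : ∀ i j x, x ∈ (κ i).source → x ∈ (κ j).source → ∃ (a : A → A) (b : B → B),
    AnalyticAt ℂ a (κ i x).1 ∧ AnalyticAt ℂ b (κ i x).2 ∧ (κ j ∘ (κ i).symm) =ᶠ[𝓝 (κ i x)] Prod.map a b
  G : ι → A × B → A × B →L[ℝ] A × B →L[ℝ] ℝ
  kah : ∀ i, ∀ y ∈ (κ i).target, Kah (G i) y
  cmpG : ∀ i j x, x ∈ (κ i).source → x ∈ (κ j).source → ∀ u v,
    G j (κ j x) (toAtl.J i j x u) (toAtl.J i j x v) = G i (κ i x) u v
  m : ℝ
  M : ℝ
  m_pos : 0 < m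
  m_le : m ≤ M
  bd : ∀ i, ∀ y ∈ (κ i).target, ∀ u, m * ‖u‖ ^ 2 ≤ G i y u u ∧ G i y u u ≤ M * ‖u‖ ^ 2

namespace UPA
variable {X A B D₁ D₂ : Type} [TopologicalSpace X] [NormedAddCommGroup A] [NormedSpace ℂ A] [NormedSpace ℝ A]
  [NormedAddCommGroup B] [NormedSpace ℂ B] [NormedSpace ℝ B]
  [NormedAddCommGroup D₁] [NormedSpace ℂ D₁] [NormedAddCommGroup D₂] [NormedSpace ℂ D₂] (𝒰 : UPA X A B)

/-- rectangle map at `p` -/
def Rect (Φ : D₁ × D₂ → X) (p : D₁ × D₂) : Prop :=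
  ∃ (i : 𝒰.ι) (F : D₁ → A) (G : D₂ → B), AnalyticAt ℂ F p.1 ∧ AnalyticAt ℂ G p.2 ∧
    (F p.1, G p.2) ∈ (𝒰.κ i).target ∧ Φ =ᶠ[𝓝 p] fun q => (𝒰.κ i).symm (F q.1, G q.2)

/-- analytic map into a leaf of the first foliation -/
def T₁ (f : D₁ → X) (z : D₁) : Prop :=
  ∃ (i : 𝒰.ι) (F : D₁ → A) (b : B), AnalyticAt ℂ F z ∧ (F z, b) ∈ (𝒰.κ i).target ∧
    f =ᶠ[𝓝 z] fun q => (𝒰.κ i).symm (F q, b)

/-- analytic map into a leaf of the second foliation -/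
def T₂ (g : D₂ → X) (w : D₂) : Prop :=
  ∃ (i : 𝒰.ι) (a : A) (G : D₂ → B), AnalyticAt ℂ G w ∧ (a, G w) ∈ (𝒰.κ i).target ∧
    g =ᶠ[𝓝 w] fun q => (𝒰.κ i).symm (a, G q)

/-- `Φ | Z` extends across `p` -/
def Ext (Φ : D₁ × D₂ → X) (Z : Set (D₁ × D₂)) (p : D₁ × D₂) : Prop :=
  ∃ Φ' : D₁ × D₂ → X, 𝒰.Rect Φ' p ∧ Φ' =ᶠ[𝓝[Z] p] Φ

/-- a chosen chart -/
def ch (x : X) : 𝒰.ι := (𝒰.cov1 x).choose

/-- energy (area) density of a curve -/
def en (γ : ℂ → X) (v : ℂ) : ℝ :=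
  𝒰.G (𝒰.ch (γ v)) (𝒰.κ (𝒰.ch (γ v)) (γ v)) (deriv (𝒰.κ (𝒰.ch (γ v)) ∘ γ) v) (deriv (𝒰.κ (𝒰.ch (γ v)) ∘ γ) v)

/-- pull-back of the metric -/
def pb {D : Type} [NormedAddCommGroup D] [NormedSpace ℝ D] [NormedSpace ℂ D] [IsScalarTower ℝ ℂ D]
    [IsScalarTower ℝ ℂ A] [IsScalarTower ℝ ℂ B] (Φ : D → X) (x : D) : D →L[ℝ] D →L[ℝ] ℝ :=
  pl (𝒰.G (𝒰.ch (Φ x)) (𝒰.κ (𝒰.ch (Φ x)) (Φ x))) (fderiv ℂ (𝒰.κ (𝒰.ch (Φ x)) ∘ Φ) x)

/-- area -/
def Ar (γ : ℂ → X) (S : Set ℂ) : ℝ≥0∞ := ∫⁻ v in S, ENNReal.ofReal (𝒰.en γ v)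

/-- one step of holonomy along the second foliation -/
def St₁ (V : Set A) (f f' : A → X) : Prop :=
  ∃ (Ψ : A × B → X) (w₀ w₁ : B) (r : ℝ), w₁ ∈ ball w₀ r ∧ (∀ p ∈ V ×ˢ ball w₀ r, 𝒰.Rect Ψ p) ∧
    (∀ z ∈ V, Ψ (z, w₀) = f z) ∧ ∀ z ∈ V, Ψ (z, w₁) = f' z

/-- one step of holonomy along the first foliation -/
def St₂ (V : Set B) (g g' : B → X) : Prop :=
  ∃ (Ψ : A × B → X) (z₀ z₁ : A) (r : ℝ), z₁ ∈ ball z₀ r ∧ (∀ p ∈ ball z₀ r ×ˢ V, 𝒰.Rect Ψ p) ∧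
    (∀ w ∈ V, Ψ (z₀, w) = g w) ∧ ∀ w ∈ V, Ψ (z₁, w) = g' w

/-- near `q`, `β (a, d) = Ψ (d₁, a₂)` in the charts `i`, `j` -/
def Loc (β : X × X → X) (q : X × X) (i j : 𝒰.ι) (Ψ : A × B → X) : Prop :=
  𝒰.Rect Ψ ((𝒰.κ j q.2).1, (𝒰.κ i q.1).2) ∧ β =ᶠ[𝓝 q] fun x => Ψ ((𝒰.κ j x.2).1, (𝒰.κ i x.1).2)

/-- good germs for the band -/
def Gd (β : X × X → X) (q : X × X) : Prop :=
  ∃ (i j : 𝒰.ι) (Ψ : A × B → X) (V₁ : Set A) (V₂ : Set B), q.1 ∈ (𝒰.κ i).source ∧ q.2 ∈ (𝒰.κ j).source ∧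
    𝒰.Loc β q i j Ψ ∧ V₁ ∈ 𝓝 (𝒰.κ j q.2).1 ∧ V₂ ∈ 𝓝 (𝒰.κ i q.1).2 ∧
    Relation.TransGen (𝒰.St₁ V₁) (fun z => (𝒰.κ j).symm (z, (𝒰.κ j q.2).2)) (fun z => Ψ (z, (𝒰.κ i q.1).2)) ∧
    Relation.TransGen (𝒰.St₂ V₂) (fun w => (𝒰.κ i).symm ((𝒰.κ i q.1).1, w)) (fun w => Ψ ((𝒰.κ j q.2).1, w))

/-- rectangular band -/
structure Band (b : X × X → X) : Prop where
  loc : ∀ (q : X × X) (i j : 𝒰.ι), q.1 ∈ (𝒰.κ i).source → q.2 ∈ (𝒰.κ j).source → ∃ Ψ, 𝒰.Loc b q i j Ψ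
  diag : ∀ x, b (x, x) = x
  left : ∀ a d e, b (b (a, d), e) = b (a, e)
  right : ∀ a d e, b (a, b (d, e)) = b (a, e)

end UPA

/-! ## projective data -/

/-- the ambient space of homogeneous coordinates -/
abbrev VV (N : ℕ) : Type := Fin (N + 1) → ℂ

/-- an atlas with projections and homogeneous coordinates -/
structure PA (X E : Type) (N : ℕ) [TopologicalSpace X] [NormedAddCommGroup E] [NormedSpace ℂ E]
    extends SA X E where
  ξ : ι → E → VV N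
  anξ : ∀ i, ∀ y ∈ (κ i).target, AnalyticAt ℂ (ξ i) y
  ne : ∀ i, ∀ y ∈ (κ i).target, ξ i y ≠ 0
  cmpξ : ∀ i j x, x ∈ (κ i).source → x ∈ (κ j).source → ∃ c : ℂ, ξ j (κ j x) = c • ξ i (κ i x)
  inj : ∀ i j x y, x ∈ (κ i).source → y ∈ (κ j).source → (∃ c : ℂ, ξ j (κ j y) = c • ξ i (κ i x)) → x = y
  imm : ∀ i, ∀ y ∈ (κ i).target, ∀ v, (∃ c : ℂ, fderiv ℂ (ξ i) y v = c • ξ i y) → v = 0

/-- `∑ c j z ^ j` -/
def ev {V : Type} [AddCommGroup V] [Module ℂ V] {d : ℕ} (c : Fin (d + 1) → V) (z : ℂ) : V :=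
  ∑ j : Fin (d + 1), z ^ (j : ℕ) • c j

/-- `∑ c j z ^ (d - j)`: the same curve in the chart at infinity -/
def evi {V : Type} [AddCommGroup V] [Module ℂ V] {d : ℕ} (c : Fin (d + 1) → V) (z : ℂ) : V :=
  ∑ j : Fin (d + 1), z ^ (d - (j : ℕ)) • c j

namespace PA
variable {X E : Type} {N : ℕ} [TopologicalSpace X] [NormedAddCommGroup E] [NormedSpace ℂ E] (𝒬 : PA X E N)

/-- the complementary projection -/
def swap : PA X E N := { 𝒬 with toSA := 𝒬.toSA.swap }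

/-- the vector `v` lies over the point `x` -/
def Ov (x : X) (v : VV N) : Prop :=
  ∃ i, x ∈ (𝒬.κ i).source ∧ ∃ c : ℂ, c ≠ 0 ∧ v = c • 𝒬.ξ i (𝒬.κ i x)

/-- the punctured cone over `X` -/
def cone : Set (VV N) := {v | ∃ x, 𝒬.Ov x v}

/-- the point under a vector of the cone -/
def pt [Nonempty X] (v : VV N) : X := if h : ∃ x, 𝒬.Ov x v then h.choose else Classical.arbitrary X

/-- a rational curve of degree `d` in `X` -/
def Crv {d : ℕ} (c : Fin (d + 1) → VV N) : Prop := (∀ z, ev c z ∈ 𝒬.cone) ∧ c (Fin.last d) ∈ 𝒬.cone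

/-- a rational curve tangent to the image of `P` -/
def TCrv [Nonempty X] {d : ℕ} (c : Fin (d + 1) → VV N) : Prop :=
  𝒬.Crv c ∧ ∀ z, 𝒬.Tan (fun t => 𝒬.pt (ev c t)) z

/-- an `E₁`-curve followed by an `E₂`-curve -/
def Chn [Nonempty X] {d e : ℕ} (c : (Fin (d + 1) → VV N) × (Fin (e + 1) → VV N)) : Prop :=
  𝒬.TCrv c.1 ∧ 𝒬.swap.TCrv c.2 ∧ 𝒬.pt (ev c.1 1) = 𝒬.pt (ev c.2 0)

/-- `x` and `y` are joined by such a chain -/
def Chain [Nonempty X] (x y : X) : Prop :=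
  ∃ (d e : ℕ) (c : (Fin (d + 1) → VV N) × (Fin (e + 1) → VV N)),
    𝒬.Chn c ∧ 𝒬.pt (ev c.1 0) = x ∧ 𝒬.pt (ev c.2 1) = y

/-- a global holomorphic vector field along a rational curve -/
def GSec [Nonempty X] {d : ℕ} (c : Fin (d + 1) → VV N) (ν : 𝒬.ι → ℂ → E) : Prop :=
  (∀ z, 𝒬.Sec (fun t => 𝒬.pt (ev c t)) ν z) ∧
    ∃ (i : 𝒬.ι) (ν' : ℂ → E), 𝒬.pt (c (Fin.last d)) ∈ (𝒬.κ i).source ∧ AnalyticAt ℂ ν' 0 ∧
      ∀ᶠ ζ in 𝓝[≠] (0 : ℂ), ν' ζ = ν i ζ⁻¹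

end PA

section Van
variable {E F : Type} [NormedAddCommGroup E] [NormedSpace ℂ E] [NormedAddCommGroup F] [NormedSpace ℂ F]

/-- `H (z, u)` is analytic and vanishes to order `j` along `u = 0` near `z₀` -/
def Van (j : ℕ) (H : ℂ × ℂ → F) (z₀ : ℂ) : Prop :=
  ∃ G : ℂ × ℂ → F, AnalyticAt ℂ G (z₀, 0) ∧ H =ᶠ[𝓝 (z₀, 0)] fun p => p.2 ^ j • G p

/-- the residual of the rectangle equation in the coordinates `(z, u)`, `w = z + u` -/
def Res (P : E → E →L[ℂ] E) (φ : ℂ × ℂ → E) (p : ℂ × ℂ) : E :=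
  fderiv ℂ φ p (0, 1) - (1 - P (φ p)) (fderiv ℂ φ p (1, 0))

/-- solution to order `j` with initial curve `f` -/
structure Sol (P : E → E →L[ℂ] E) (f : ℂ → E) (j : ℕ) (φ : ℂ × ℂ → E) (z₀ : ℂ) : Prop where
  an : AnalyticAt ℂ φ (z₀, 0)
  init : ∀ᶠ z in 𝓝 z₀, φ (z, 0) = f z
  res : Van j (Res P φ) z₀

/-- locally the common zero set of a family of analytic functions -/
def LocAn (Z : Set E) : Prop :=
  ∀ c₀ ∈ Z, ∃ (J : Type) (h : J → E → ℂ) (U : Set E), IsOpen U ∧ c₀ ∈ U ∧ (∀ j, AnalyticOnNhd ℂ (h j) U) ∧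
    ∀ c ∈ U, c ∈ Z ↔ ∀ j, h j c = 0

end Van

namespace PA
variable {X E : Type} {N : ℕ} [TopologicalSpace X] [NormedAddCommGroup E] [NormedSpace ℂ E] (𝒬 : PA X E N)

/-- `p ξ_k = q ξ_l` to order `j` on the formal completion of the curve `γ` at `z₀` -/
def Rep (γ : ℂ → X) (p q : ℂ × ℂ → ℂ) (k l : Fin (N + 1)) (j : ℕ) (z₀ : ℂ) : Prop :=
  ∀ i, γ z₀ ∈ (𝒬.κ i).source → ∀ φ, Sol (𝒬.P i) (𝒬.κ i ∘ γ) j φ z₀ →
    Van j (fun x => p x * 𝒬.ξ i (φ x) k - q x * 𝒬.ξ i (φ x) l) z₀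

end PA

/-- a polynomial of bidegree `(m, m)` in `(z, w)`, in the coordinates `(z, u)`, `w = z + u` -/
def bi {m : ℕ} (a : Fin (m + 1) × Fin (m + 1) → ℂ) (x : ℂ × ℂ) : ℂ :=
  ∑ s : Fin (m + 1) × Fin (m + 1), a s * (x.1 ^ (s.1 : ℕ) * (x.1 + x.2) ^ (s.2 : ℕ))

/-- the inversion `(z, w) ↦ (1/z, 1/w)` in the coordinates `(z, u)` -/
def inv2 (x : ℂ × ℂ) : ℂ × ℂ := (x.1⁻¹, (x.1 + x.2)⁻¹ - x.1⁻¹)

/-- value of a tuple of polynomials in `(z, u)` (`u` is the outer variable) -/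
def ev2 {N : ℕ} (G : Fin (N + 1) → ℂ[X][X]) (p : ℂ × ℂ) : VV N := fun k => (G k).evalEval p.1 p.2

/-! ## bridge to the statements -/

section Bridge
open Crest.AlgGeometry.HolSplit
open scoped Manifold ContDiff

variable {n : ℕ} {X : Type} [TopologicalSpace X] [ChartedSpace (Model n) X] [IsManifold (mI n) ω X]

/-- `𝒮` is made of restricted preferred charts and represents the splitting `S` -/
structure Brid (S : Splitting n X) (𝒮 : SA X (Model n)) : Prop where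
  chart : ∀ i, ∃ x : X, (𝒮.κ i).source ⊆ (chartAt (Model n) x).source ∧ ⇑(𝒮.κ i) = chartAt (Model n) x ∧
    ⇑(𝒮.κ i).symm = (chartAt (Model n) x).symm
  pref : ∀ x : X, ∃ i, x ∈ (𝒮.κ i).source ∧ ⇑(𝒮.κ i) = chartAt (Model n) x ∧
    ⇑(𝒮.κ i).symm = (chartAt (Model n) x).symm
  proj : ∀ i, ∀ x ∈ (𝒮.κ i).source, ∀ v : TangentSpace (mI n) x,
    𝒮.P i (𝒮.κ i x) (mfderiv (mI n) (mI n) (𝒮.κ i) x v) = mfderiv (mI n) (mI n) (𝒮.κ i) x (S.proj x v)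

/-- the product chart `κ` of the covering space is holomorphic and compatible with the lifted splitting -/
structure Compat (S : Splitting n X) {X' : Type} [TopologicalSpace X'] [ChartedSpace (Model n) X'] (π : X' → X)
    {A B : Type} [NormedAddCommGroup A] [NormedSpace ℂ A] [NormedAddCommGroup B] [NormedSpace ℂ B]
    (κ : OpenPartialHomeomorph X' (A × B)) : Prop where
  hol : ContMDiffOn (mI n) 𝓘(ℂ, A × B) ω κ κ.source
  hol_symm : ContMDiffOn 𝓘(ℂ, A × B) (mI n) ω κ.symm κ.target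
  first : ∀ p ∈ κ.source, ∀ v : TangentSpace (mI n) p,
    S.proj (π p) (mfderiv (mI n) (mI n) π p v) = mfderiv (mI n) (mI n) π p v →
      (mfderiv (mI n) 𝓘(ℂ, A × B) κ p v).2 = 0
  second : ∀ p ∈ κ.source, ∀ v : TangentSpace (mI n) p,
    S.proj (π p) (mfderiv (mI n) (mI n) π p v) = 0 → (mfderiv (mI n) 𝓘(ℂ, A × B) κ p v).1 = 0

end Bridge

end

end Crest.Agent.R266
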