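import Crest.Agent.R266.Defs

/-!
# Row 266: mean value inequality, three circles, decay
-/

set_option autoImplicit false
set_option linter.unusedSectionVars false
set_option linter.unusedVariables false

namespace Crest.Agent.R266

open Set Metric Filter Topology MeasureTheory Polynomial
open scoped ENNReal Classical

noncomputable section

variable {F : Type} [NormedAddCommGroup F] [NormedSpace ℂ F] [CompleteSpace F]

theorem mean_sq_circle {f : ℂ → F} {c : ℂ} {s ρ : ℝ} (hρ : 0 < ρ) (hs : ρ < s)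
    (hf : DifferentiableOn ℂ f (ball c s)) :
    ENNReal.ofReal (2 * Real.pi * ‖f c‖ ^ 2) ≤
      ∫⁻ θ in Ioo (-Real.pi) Real.pi, ENNReal.ofReal (‖f (circleMap c ρ θ)‖ ^ 2) := by
  have hπ := Real.pi_pos
  have hle : -Real.pi ≤ Real.pi := by linarith
  have hd : DiffContOnCl ℂ f (ball c |ρ|) := by
    rw [abs_of_pos hρ]
    refine DifferentiableOn.diffContOnCl (hf.mono ?_)
    rw [closure_ball c hρ.ne']
    exact closedBall_subset_ball hs
  have hc : Continuous fun θ : ℝ => f (circleMap c ρ θ) :=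
    hf.continuousOn.comp_continuous (continuous_circleMap c ρ) fun θ =>
      sphere_subset_closedBall.trans (closedBall_subset_ball hs) (circleMap_mem_sphere c hρ.le θ)
  have h1 := hd.circleAverage
  rw [Real.circleAverage_eq_integral_add (-Real.pi),
    intervalIntegral.integral_comp_add_right (fun θ => f (circleMap c ρ θ)), zero_add,
    show 2 * Real.pi + -Real.pi = Real.pi by ring] at h1
  have h2 : 2 * Real.pi * ‖f c‖ ≤ ∫ θ in (-Real.pi)..Real.pi, ‖f (circleMap c ρ θ)‖ := by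
    refine le_trans (le_of_eq ?_) (intervalIntegral.norm_integral_le_integral_norm hle)
    rw [← h1, norm_smul, Real.norm_of_nonneg (by positivity), ← mul_assoc,
      mul_inv_cancel₀ (by positivity), one_mul]
  have h3 : ∫ θ in (-Real.pi)..Real.pi, (2 * ‖f c‖ * ‖f (circleMap c ρ θ)‖ - ‖f c‖ ^ 2) ≤
      ∫ θ in (-Real.pi)..Real.pi, ‖f (circleMap c ρ θ)‖ ^ 2 :=
    intervalIntegral.integral_mono_on hle
      (((continuous_const.mul hc.norm).sub continuous_const).intervalIntegrable _ _)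
      ((hc.norm.pow 2).intervalIntegrable _ _) fun θ _ => by
        nlinarith [sq_nonneg (‖f (circleMap c ρ θ)‖ - ‖f c‖)]
  rw [intervalIntegral.integral_sub ((hc.norm.intervalIntegrable _ _).const_mul _)
    (continuous_const.intervalIntegrable _ _), intervalIntegral.integral_const_mul,
    intervalIntegral.integral_const, smul_eq_mul] at h3
  rw [← ofReal_integral_eq_lintegral_ofReal, ← integral_Ioc_eq_integral_Ioo,
    ← intervalIntegral.integral_of_le hle]
  · refine ENNReal.ofReal_le_ofReal ?_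
    nlinarith [mul_le_mul_of_nonneg_left h2 (norm_nonneg (f c))]
  · exact (hc.norm.pow 2).integrableOn_Icc.mono_set Ioo_subset_Icc_self
  · exact Eventually.of_forall fun θ => sq_nonneg _

/-- Sub-mean value inequality.  For `0 < ρ < s`: `f c` is the circle average, so
`2π ‖f c‖² ≤ ∫₀^{2π} ‖f (c + ρ e^{iθ})‖² dθ` (Cauchy–Schwarz / Jensen); integrate in polar coordinates
(`Complex.lintegral_comp_polarCoord_symm`). -/
theorem mean_sq {f : ℂ → F} {c : ℂ} {s : ℝ} (hs : 0 < s) (hf : DifferentiableOn ℂ f (ball c s)) :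
    ENNReal.ofReal (Real.pi * s ^ 2 * ‖f c‖ ^ 2) ≤ ∫⁻ v in ball c s, ENNReal.ofReal (‖f v‖ ^ 2) := by
  set g : ℂ → ℝ≥0∞ := fun v => ENNReal.ofReal (‖f v‖ ^ 2) with hg
  have hmap : ∀ p : ℝ × ℝ, c + Complex.polarCoord.symm p = circleMap c p.1 p.2 := fun p => by
    rw [Complex.polarCoord_symm_apply, circleMap, Complex.exp_mul_I]
    push_cast
    rfl
  have hcm : Continuous fun p : ℝ × ℝ => circleMap c p.1 p.2 := by
    unfold circleMap
    fun_prop
  have hmem : ∀ p ∈ Ioo (0 : ℝ) s ×ˢ Ioo (-Real.pi) Real.pi, circleMap c p.1 p.2 ∈ ball c s :=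
    fun p hp => sphere_subset_closedBall.trans (closedBall_subset_ball hp.1.2)
      (circleMap_mem_sphere c hp.1.1.le p.2)
  have hS : MeasurableSet (Ioo (0 : ℝ) s ×ˢ Ioo (-Real.pi) Real.pi) :=
    measurableSet_Ioo.prod measurableSet_Ioo
  have hco : ContinuousOn (fun p : ℝ × ℝ => ENNReal.ofReal p.1 * g (circleMap c p.1 p.2))
      (Ioo (0 : ℝ) s ×ˢ Ioo (-Real.pi) Real.pi) := by
    have h1 : ContinuousOn (fun p : ℝ × ℝ => ENNReal.ofReal (p.1 * ‖f (circleMap c p.1 p.2)‖ ^ 2))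
        (Ioo (0 : ℝ) s ×ˢ Ioo (-Real.pi) Real.pi) :=
      ENNReal.continuous_ofReal.comp_continuousOn (continuous_fst.continuousOn.mul
        ((hf.continuousOn.comp hcm.continuousOn hmem).norm.pow 2))
    exact h1.congr fun p hp => (ENNReal.ofReal_mul hp.1.1.le).symm
  calc ENNReal.ofReal (Real.pi * s ^ 2 * ‖f c‖ ^ 2)
      = ∫⁻ ρ in Ioo (0 : ℝ) s, ENNReal.ofReal (ρ * (2 * Real.pi * ‖f c‖ ^ 2)) := by
        rw [← ofReal_integral_eq_lintegral_ofReal, ← integral_Ioc_eq_integral_Ioo,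
          ← intervalIntegral.integral_of_le hs.le, intervalIntegral.integral_mul_const,
          integral_id]
        · congr 1
          ring
        · exact (Continuous.integrableOn_Icc (by fun_prop)).mono_set Ioo_subset_Icc_self
        · filter_upwards [ae_restrict_mem measurableSet_Ioo] with ρ hρ
          exact mul_nonneg hρ.1.le (by positivity)
    _ ≤ ∫⁻ ρ in Ioo (0 : ℝ) s, ∫⁻ θ in Ioo (-Real.pi) Real.pi,
          ENNReal.ofReal ρ * g (circleMap c ρ θ) := by
        refine setLIntegral_mono' measurableSet_Ioo fun ρ hρ => ?_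
        rw [lintegral_const_mul' _ _ ENNReal.ofReal_ne_top, ENNReal.ofReal_mul hρ.1.le]
        exact mul_le_mul_right (mean_sq_circle hρ.1 hρ.2 hf) _
    _ = ∫⁻ p in Ioo (0 : ℝ) s ×ˢ Ioo (-Real.pi) Real.pi,
          ENNReal.ofReal p.1 * g (circleMap c p.1 p.2) := by
        rw [Measure.volume_eq_prod, setLIntegral_prod _ (hco.aemeasurable hS)]
    _ ≤ ∫⁻ p in Complex.polarCoord.target,
          ENNReal.ofReal p.1 • (ball c s).indicator g (c + Complex.polarCoord.symm p) := by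
        rw [Complex.polarCoord_target]
        refine le_trans (setLIntegral_mono' hS fun p hp => le_of_eq ?_)
          (lintegral_mono_set (prod_mono Ioo_subset_Ioi_self Subset.rfl))
        rw [hmap, indicator_of_mem (hmem p hp), smul_eq_mul]
    _ = ∫⁻ v, (ball c s).indicator g (c + v) :=
        Complex.lintegral_comp_polarCoord_symm fun v => (ball c s).indicator g (c + v)
    _ = ∫⁻ v in ball c s, g v := by
        rw [lintegral_add_left_eq_self, lintegral_indicator measurableSet_ball]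

/-- Three circles for `z • h' z`, which has no constant Laurent term.  With `g = deriv h`, `ρ = ‖v‖`:
`∮_{ρτ} dslope g v = ∮_{ρ/τ} dslope g v` (`Complex.circleIntegral_eq_of_differentiable_on_annulus_off_countable`) gives
`2πi g v = ∮_{ρτ} g s/(s - v) - ∮_{ρ/τ} g s/(s - v)`; in the inner integral `v/(s - v) = -1 + s/(s - v)` and
`∮ g = 0` (`circleIntegral.integral_eq_zero_of_hasDerivWithinAt`); `circleIntegral.norm_integral_le_of_norm_le_const`. -/
theorem three_ann {h : ℂ → F} {v : ℂ} {τ K₁ K₂ : ℝ} (hτ : 1 < τ) (hv : v ≠ 0)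
    (hh : ∀ s : ℂ, ‖v‖ / τ ≤ ‖s‖ → ‖s‖ ≤ ‖v‖ * τ → AnalyticAt ℂ h s)
    (h₁ : ∀ s : ℂ, ‖s‖ = ‖v‖ * τ → ‖s‖ * ‖deriv h s‖ ≤ K₁) (h₂ : ∀ s : ℂ, ‖s‖ = ‖v‖ / τ → ‖s‖ * ‖deriv h s‖ ≤ K₂) :
    ‖v‖ * ‖deriv h v‖ ≤ (K₁ + K₂) / (τ - 1) := by
  have ρ0 : 0 < ‖v‖ := norm_pos_iff.2 hv
  have τ0 : 0 < τ := by linarith
  have r0 : 0 < ‖v‖ / τ := by positivity
  have r1 : ‖v‖ / τ < ‖v‖ := div_lt_self ρ0 hτ
  have r2 : ‖v‖ < ‖v‖ * τ := lt_mul_of_one_lt_right ρ0 hτ
  have hg : ∀ s : ℂ, ‖v‖ / τ ≤ ‖s‖ → ‖s‖ ≤ ‖v‖ * τ → AnalyticAt ℂ (deriv h) s := fun s a b => (hh s a b).deriv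
  set g := deriv h with hgd
  have e1 := Complex.circleIntegral_eq_of_differentiable_on_annulus_off_countable (c := 0) (f := dslope g v) r0
    (r1.trans r2).le (countable_singleton v) (fun s hs => by
      have a := hg s (by simpa using hs.2) (by simpa using hs.1)
      rcases eq_or_ne s v with rfl | hne
      · exact (continuousAt_dslope_same.2 a.differentiableAt).continuousWithinAt
      · exact ((continuousAt_dslope_of_ne hne).2 a.continuousAt).continuousWithinAt)
    fun s hs => (differentiableAt_dslope_of_ne hs.2).2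
      (hg s (le_of_lt (by simpa using hs.1.2)) (le_of_lt (by simpa using hs.1.1))).differentiableAt
  have ci : ∀ R, 0 ≤ R → R ≠ ‖v‖ → ContinuousOn (fun s : ℂ => (s - v)⁻¹) (sphere 0 R) := fun R _ hR =>
    (continuousOn_id.sub continuousOn_const).inv₀ fun s hs h0 => hR (by
      rw [← show s = v from sub_eq_zero.1 h0]; exact (mem_sphere_zero_iff_norm.1 hs).symm)
  have cg : ∀ R, ‖v‖ / τ ≤ R → R ≤ ‖v‖ * τ → ContinuousOn g (sphere 0 R) := fun R a b s hs => by
    rw [← mem_sphere_zero_iff_norm.1 hs] at a b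
    exact (hg s a b).continuousAt.continuousWithinAt
  have sp : ∀ R, ‖v‖ / τ ≤ R → R ≤ ‖v‖ * τ → R ≠ ‖v‖ → (∮ s in C(0, R), dslope g v s) =
      (∮ s in C(0, R), (s - v)⁻¹ • g s) - (∮ s in C(0, R), (s - v)⁻¹) • g v := fun R a b c => by
    have R0 := r0.le.trans a
    rw [← circleIntegral.integral_smul_const, ← circleIntegral.integral_sub
      (((ci R R0 c).fun_smul (cg R a b)).circleIntegrable R0)
      (((ci R R0 c).fun_smul continuousOn_const).circleIntegrable R0)]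
    refine circleIntegral.integral_congr R0 fun s hs => ?_
    rw [dslope_of_ne _ fun h0 => c (by rw [← h0]; exact (mem_sphere_zero_iff_norm.1 hs).symm), slope_def_module,
      smul_sub]
  have hne : ∀ s : ℂ, ‖s‖ ≤ ‖v‖ / τ → s - v ≠ 0 := fun s hs h0 => by
    rw [sub_eq_zero.1 h0] at hs; linarith
  rw [sp _ (r1.trans r2).le le_rfl r2.ne', sp _ le_rfl (r1.trans r2).le r1.ne,
    circleIntegral.integral_sub_inv_of_mem_ball (mem_ball_zero_iff.2 r2),
    Complex.circleIntegral_eq_zero_of_differentiable_on_off_countable (f := fun s => (s - v)⁻¹) r0.le countable_empty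
      ((continuousOn_id.sub continuousOn_const).inv₀ fun s hs => hne s (mem_closedBall_zero_iff.1 hs))
      (fun s hs => (differentiableAt_id.sub_const v).inv (hne s (mem_ball_zero_iff.1 hs.1).le)), zero_smul,
    sub_zero] at e1
  have e2 : (∮ s in C(0, ‖v‖ / τ), g s) = 0 :=
    circleIntegral.integral_eq_zero_of_hasDerivWithinAt (f := h) r0.le fun s hs => by
      have := mem_sphere_zero_iff_norm.1 hs
      exact (hh s this.ge (by linarith)).differentiableAt.hasDerivAt.hasDerivWithinAt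
  have e3 : v • (∮ s in C(0, ‖v‖ / τ), (s - v)⁻¹ • g s) = ∮ s in C(0, ‖v‖ / τ), (s - v)⁻¹ • s • g s := by
    have a := cg _ le_rfl (r1.trans r2).le
    rw [← circleIntegral.integral_smul, ← sub_zero (∮ s in C(0, ‖v‖ / τ), (s - v)⁻¹ • s • g s), ← e2,
      ← circleIntegral.integral_sub (((ci _ r0.le r1.ne).fun_smul (continuousOn_id' _ |>.fun_smul a)).circleIntegrable r0.le)
        (a.circleIntegrable r0.le)]
    refine circleIntegral.integral_congr r0.le fun s hs => ?_
    have := hne s (mem_sphere_zero_iff_norm.1 hs).le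
    simp only [smul_smul]
    rw [eq_sub_iff_add_eq, ← one_smul ℂ (g s), smul_smul, smul_smul, ← add_smul]
    congr 1
    field_simp
    ring
  have b1 := circleIntegral.norm_integral_le_of_norm_le_const (f := fun s => (s - v)⁻¹ • g s) (c := 0)
    (C := K₁ / (‖v‖ * τ) / (‖v‖ * τ - ‖v‖)) (ρ0.trans r2).le fun s hs => by
      have a := mem_sphere_zero_iff_norm.1 hs
      have b := h₁ s a
      rw [a, ← le_div_iff₀' (ρ0.trans r2)] at b
      rw [norm_smul, norm_inv, ← div_eq_inv_mul]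
      exact div_le_div₀ ((norm_nonneg _).trans b) b (by linarith) (a ▸ norm_sub_norm_le s v)
  have b2 := circleIntegral.norm_integral_le_of_norm_le_const (f := fun s => (s - v)⁻¹ • s • g s) (c := 0)
    (C := K₂ / (‖v‖ - ‖v‖ / τ)) r0.le fun s hs => by
      have a := mem_sphere_zero_iff_norm.1 hs
      have b := h₂ s a
      rw [norm_smul, norm_smul, norm_inv, ← div_eq_inv_mul, norm_sub_rev]
      exact div_le_div₀ (le_trans (by positivity) b) b (by linarith) (a ▸ norm_sub_norm_le v s)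
  have e4 : (2 * Real.pi * Complex.I : ℂ) • v • g v =
      v • (∮ s in C(0, ‖v‖ * τ), (s - v)⁻¹ • g s) - ∮ s in C(0, ‖v‖ / τ), (s - v)⁻¹ • s • g s := by
    rw [← e3, ← e1, smul_comm, smul_sub, sub_sub_cancel]
  have b3 := (congrArg norm e4).trans_le (norm_sub_le _ _)
  have hπ := Real.pi_pos
  rw [norm_smul, norm_smul, norm_smul, show ‖(2 * Real.pi * Complex.I : ℂ)‖ = 2 * Real.pi by
    simp [abs_of_pos hπ]] at b3
  have t1 : τ - 1 ≠ 0 := by linarith
  refine le_of_mul_le_mul_left (b3.trans ((add_le_add (mul_le_mul_of_nonneg_left b1 ρ0.le) b2).trans_eq ?_))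
    (by positivity)
  rw [show ‖v‖ * τ - ‖v‖ = ‖v‖ * (τ - 1) by ring, show ‖v‖ - ‖v‖ / τ = ‖v‖ / τ * (τ - 1) by field_simp]
  field_simp

/-- Let `w v = B * √(τ ‖v‖ / ρ)`, `S = sSup (N - w)` over the punctured disc.  If `‖v‖ ≥ ρ/τ` then `N v - w v ≤ 0`;
otherwise use `K₁ = S + √τ w v`, `K₂ = S + w v / √τ`: `N v - w v ≤ 2 θ S`.  Hence `S ≤ 0`. -/
theorem sup_decay {N : ℂ → ℝ} {ρ τ θ B : ℝ} (hρ : 0 < ρ) (hτ : 1 < τ) (hθ : 0 ≤ θ) (hθ1 : 2 * θ < 1)
    (hθ2 : θ * (√τ + 1 / √τ) ≤ 1) (hB0 : 0 ≤ B) (hB : ∀ v : ℂ, v ≠ 0 → ‖v‖ < ρ → N v ≤ B)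
    (h : ∀ v : ℂ, v ≠ 0 → ‖v‖ * τ < ρ → ∀ K₁ K₂ : ℝ, (∀ s : ℂ, ‖s‖ = ‖v‖ * τ → N s ≤ K₁) →
      (∀ s : ℂ, ‖s‖ = ‖v‖ / τ → N s ≤ K₂) → N v ≤ θ * (K₁ + K₂)) :
    ∀ v : ℂ, v ≠ 0 → ‖v‖ < ρ → N v ≤ B * √(τ * ‖v‖ / ρ) := by
  set w : ℂ → ℝ := fun v => B * √(τ * ‖v‖ / ρ) with hw
  have hτ0 : 0 < τ := by linarith
  have hw0 : ∀ v, 0 ≤ w v := fun v => mul_nonneg hB0 (Real.sqrt_nonneg _)
  set T : Set ℝ := insert 0 ((fun v => N v - w v) '' {v | v ≠ 0 ∧ ‖v‖ < ρ}) with hT
  have hbd : BddAbove T := by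
    refine ⟨B, ?_⟩
    rintro _ (rfl | ⟨v, hv, rfl⟩)
    · exact hB0
    · linarith [hB v hv.1 hv.2, hw0 v]
  have hS0 : 0 ≤ sSup T := le_csSup hbd (mem_insert _ _)
  have hS : ∀ v : ℂ, v ≠ 0 → ‖v‖ < ρ → N v - w v ≤ sSup T := fun v h1 h2 =>
    le_csSup hbd (mem_insert_of_mem _ ⟨v, ⟨h1, h2⟩, rfl⟩)
  have hsq : 0 < √τ := Real.sqrt_pos.2 hτ0
  have key : sSup T ≤ 2 * θ * sSup T := by
    have h2 : 0 ≤ 2 * θ * sSup T := by positivity
    refine csSup_le (insert_nonempty _ _) ?_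
    rintro _ (rfl | ⟨v, hv, rfl⟩)
    · exact h2
    have hv0 : 0 < ‖v‖ := norm_pos_iff.2 hv.1
    rcases le_or_gt ρ (‖v‖ * τ) with h3 | h3
    · have h4 : 1 ≤ √(τ * ‖v‖ / ρ) := by
        rw [Real.one_le_sqrt, le_div_iff₀ hρ]
        linarith
      have h5 : B ≤ w v := le_mul_of_one_le_right hB0 h4
      have h6 := hB v hv.1 hv.2
      change N v - w v ≤ _
      linarith
    · have h4 := h v hv.1 h3 (sSup T + √τ * w v) (sSup T + 1 / √τ * w v) (fun s hs => ?_)
        (fun s hs => ?_)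
      · have h5 := mul_le_mul_of_nonneg_right hθ2 (hw0 v)
        change N v - w v ≤ _
        nlinarith
      · have h5 := hS s (norm_pos_iff.1 (by rw [hs]; positivity)) (by rwa [hs])
        have h6 : w s = √τ * w v := by
          simp only [hw, hs]
          rw [show τ * (‖v‖ * τ) / ρ = τ * (τ * ‖v‖ / ρ) by ring, Real.sqrt_mul hτ0.le]
          ring
        linarith
      · have h7 : ‖v‖ / τ < ρ := (div_le_self hv0.le hτ.le).trans_lt hv.2
        have h5 := hS s (norm_pos_iff.1 (by rw [hs]; positivity)) (by rwa [hs])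
        have h6 : w s = 1 / √τ * w v := by
          simp only [hw, hs]
          rw [show τ * (‖v‖ / τ) / ρ = (τ * ‖v‖ / ρ) / τ by ring, Real.sqrt_div' _ hτ0.le]
          ring
        linarith
  intro v h1 h2
  have h3 := hS v h1 h2
  have h4 : sSup T ≤ 0 := by nlinarith
  change N v ≤ w v
  linarith

end

end Crest.Agent.R266

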