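import Crest.Agent.R266.Atl

/-!
# Row 266: rectangle maps
-/

set_option autoImplicit false
set_option linter.unusedSectionVars false
set_option linter.unusedVariables false

namespace Crest.Agent.R266

open Set Metric Filter Topology MeasureTheory Polynomial
open scoped ENNReal Classical

noncomputable section

namespace UPA
variable {X A B D₁ D₂ : Type} [TopologicalSpace X] [T2Space X]
  [NormedAddCommGroup A] [NormedSpace ℂ A] [NormedSpace ℝ A] [IsScalarTower ℝ ℂ A] [FiniteDimensional ℂ A]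
  [NormedAddCommGroup B] [NormedSpace ℂ B] [NormedSpace ℝ B] [IsScalarTower ℝ ℂ B] [FiniteDimensional ℂ B]
  [CompleteSpace A] [CompleteSpace B]
  [NormedAddCommGroup D₁] [NormedSpace ℂ D₁] [NormedSpace ℝ D₁] [IsScalarTower ℝ ℂ D₁] [FiniteDimensional ℂ D₁]
  [NormedAddCommGroup D₂] [NormedSpace ℂ D₂] [NormedSpace ℝ D₂] [IsScalarTower ℝ ℂ D₂] [FiniteDimensional ℂ D₂]
  {𝒰 : UPA X A B}

theorem Rect.an {Φ : D₁ × D₂ → X} {p : D₁ × D₂} (h : 𝒰.Rect Φ p) : 𝒰.An Φ p := by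
  obtain ⟨i, F, G, hF, hG, ht, e⟩ := h
  exact (Atl.An_symm (𝒜 := 𝒰.toAtl) (H := fun q : D₁ × D₂ => (F q.1, G q.2)) i
    ((hF.comp analyticAt_fst).prod (hG.comp analyticAt_snd)) ht).congr e.symm

theorem Rect.congr {Φ Ψ : D₁ × D₂ → X} {p : D₁ × D₂} (h : 𝒰.Rect Φ p) (e : Φ =ᶠ[𝓝 p] Ψ) : 𝒰.Rect Ψ p := by
  obtain ⟨i, F, G, hF, hG, ht, e'⟩ := h
  exact ⟨i, F, G, hF, hG, ht, e.symm.trans e'⟩

theorem Rect.eventually {Φ : D₁ × D₂ → X} {p : D₁ × D₂} (h : 𝒰.Rect Φ p) : ∀ᶠ q in 𝓝 p, 𝒰.Rect Φ q := by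
  obtain ⟨i, F, G, hF, hG, ht, e⟩ := h
  have hc : ContinuousAt (fun q : D₁ × D₂ => (F q.1, G q.2)) p :=
    ((hF.comp analyticAt_fst).prod (hG.comp analyticAt_snd)).continuousAt
  filter_upwards [continuousAt_fst.eventually hF.eventually_analyticAt,
    continuousAt_snd.eventually hG.eventually_analyticAt, hc.eventually ((𝒰.κ i).open_target.mem_nhds ht),
    e.eventually_nhds] with q h1 h2 h3 h4
  exact ⟨i, F, G, h1, h2, h3, h4⟩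

/-- any chart containing the value can be used (`𝒰.prod`) -/
theorem Rect.chart {Φ : D₁ × D₂ → X} {p : D₁ × D₂} (h : 𝒰.Rect Φ p) {i : 𝒰.ι} (hi : Φ p ∈ (𝒰.κ i).source) :
    ∃ (F : D₁ → A) (G : D₂ → B), AnalyticAt ℂ F p.1 ∧ AnalyticAt ℂ G p.2 ∧ (F p.1, G p.2) = 𝒰.κ i (Φ p) ∧
      (Φ =ᶠ[𝓝 p] fun q => (𝒰.κ i).symm (F q.1, G q.2)) ∧ (𝒰.κ i ∘ Φ =ᶠ[𝓝 p] fun q => (F q.1, G q.2)) := by
  have hc := h.an.1
  obtain ⟨j, F, G, hF, hG, ht, e⟩ := h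
  have e0 : Φ p = (𝒰.κ j).symm (F p.1, G p.2) := e.self_of_nhds
  have hj : Φ p ∈ (𝒰.κ j).source := by rw [e0]; exact (𝒰.κ j).map_target ht
  have e1 : 𝒰.κ j (Φ p) = (F p.1, G p.2) := by rw [e0, (𝒰.κ j).right_inv ht]
  obtain ⟨a, b, ha, hb, hab⟩ := 𝒰.prod j i _ hj hi
  rw [e1] at ha hb hab
  have hc' : ContinuousAt (fun q : D₁ × D₂ => (F q.1, G q.2)) p :=
    ((hF.comp analyticAt_fst).prod (hG.comp analyticAt_snd)).continuousAt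
  have e2 : 𝒰.κ i ∘ Φ =ᶠ[𝓝 p] fun q => ((a ∘ F) q.1, (b ∘ G) q.2) := by
    filter_upwards [e, hc'.eventually hab] with q h1 h2
    simpa [h1] using h2
  refine ⟨a ∘ F, b ∘ G, ha.comp_of_eq hF rfl, hb.comp_of_eq hG rfl, e2.self_of_nhds.symm, ?_, e2⟩
  filter_upwards [e2, hc.eventually ((𝒰.κ i).open_source.mem_nhds hi)] with q h1 h2
  rw [← h1]
  exact ((𝒰.κ i).left_inv h2).symm

theorem Rect.comp {D₃ D₄ : Type} [NormedAddCommGroup D₃] [NormedSpace ℂ D₃] [NormedAddCommGroup D₄]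
    [NormedSpace ℂ D₄] {Φ : D₁ × D₂ → X} {a : D₃ → D₁} {b : D₄ → D₂} {q : D₃ × D₄}
    (h : 𝒰.Rect Φ (a q.1, b q.2)) (ha : AnalyticAt ℂ a q.1) (hb : AnalyticAt ℂ b q.2) :
    𝒰.Rect (fun x : D₃ × D₄ => Φ (a x.1, b x.2)) q := by
  obtain ⟨i, F, G, hF, hG, ht, e⟩ := h
  have hc : ContinuousAt (fun x : D₃ × D₄ => (a x.1, b x.2)) q :=
    ((ha.comp analyticAt_fst).prod (hb.comp analyticAt_snd)).continuousAt
  exact ⟨i, F ∘ a, G ∘ b, hF.comp_of_eq ha rfl, hG.comp_of_eq hb rfl, ht, hc.eventually e⟩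

theorem rect_symm (i : 𝒰.ι) {p : A × B} (hp : p ∈ (𝒰.κ i).target) : 𝒰.Rect (𝒰.κ i).symm p := by
  exact ⟨i, id, id, analyticAt_id, analyticAt_id, hp, EventuallyEq.rfl⟩

/-- a rectangle map is determined by its diagonal -/
theorem Rect.diag_unique {Φ Ψ : ℂ × ℂ → X} {c u : ℂ} (hΦ : 𝒰.Rect Φ (c, c + u)) (hΨ : 𝒰.Rect Ψ (c, c + u))
    (h : ∀ᶠ v in 𝓝 c, Φ (v, v + u) = Ψ (v, v + u)) : Φ =ᶠ[𝓝 (c, c + u)] Ψ := by
  obtain ⟨i, hi⟩ := 𝒰.cov (Φ (c, c + u))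
  have hi' : Ψ (c, c + u) ∈ (𝒰.κ i).source := h.self_of_nhds ▸ hi
  obtain ⟨F, G, -, -, -, e, e'⟩ := hΦ.chart hi
  obtain ⟨F', G', -, -, -, f, f'⟩ := hΨ.chart hi'
  have hd : ContinuousAt (fun v : ℂ => (v, v + u)) c := by fun_prop
  have h1 : ∀ᶠ v in 𝓝 c, F v = F' v ∧ G (v + u) = G' (v + u) := by
    filter_upwards [h, hd.eventually e', hd.eventually f'] with v h1 h2 h3
    simp only [Function.comp] at h2 h3
    rw [h1, h3] at h2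
    exact ⟨(congrArg Prod.fst h2).symm, (congrArg Prod.snd h2).symm⟩
  have t1 : Tendsto (fun q : ℂ × ℂ => q.1) (𝓝 (c, c + u)) (𝓝 c) := continuousAt_fst
  have t2 : Tendsto (fun q : ℂ × ℂ => q.2 - u) (𝓝 (c, c + u)) (𝓝 c) := by
    have : ContinuousAt (fun q : ℂ × ℂ => q.2 - u) (c, c + u) := by fun_prop
    simpa [ContinuousAt] using this
  filter_upwards [e, f, t1.eventually h1, t2.eventually h1] with q h1 h2 h3 h4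
  rw [sub_add_cancel] at h4
  rw [h1, h2, h3.1, h4.2]

/-- a rectangle map is determined by its cross -/
theorem Rect.cross_unique {Φ Ψ : D₁ × D₂ → X} {p : D₁ × D₂} (hΦ : 𝒰.Rect Φ p) (hΨ : 𝒰.Rect Ψ p)
    (h₁ : ∀ᶠ z in 𝓝 p.1, Φ (z, p.2) = Ψ (z, p.2)) (h₂ : ∀ᶠ w in 𝓝 p.2, Φ (p.1, w) = Ψ (p.1, w)) :
    Φ =ᶠ[𝓝 p] Ψ := by
  obtain ⟨i, hi⟩ := 𝒰.cov (Φ p)
  have hi' : Ψ p ∈ (𝒰.κ i).source := by
    have : Φ p = Ψ p := h₁.self_of_nhds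
    exact this ▸ hi
  obtain ⟨F, G, -, -, -, e, e'⟩ := hΦ.chart hi
  obtain ⟨F', G', -, -, -, f, f'⟩ := hΨ.chart hi'
  have hd : Tendsto (fun z : D₁ => (z, p.2)) (𝓝 p.1) (𝓝 p) := (by fun_prop : ContinuousAt (fun z : D₁ => (z, p.2)) p.1)
  have hd' : Tendsto (fun w : D₂ => (p.1, w)) (𝓝 p.2) (𝓝 p) := (by fun_prop : ContinuousAt (fun w : D₂ => (p.1, w)) p.2)
  have h1 : ∀ᶠ z in 𝓝 p.1, F z = F' z := by
    filter_upwards [h₁, hd.eventually e', hd.eventually f'] with v h1 h2 h3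
    simp only [Function.comp] at h2 h3
    rw [h1, h3] at h2
    exact (congrArg Prod.fst h2).symm
  have h2 : ∀ᶠ w in 𝓝 p.2, G w = G' w := by
    filter_upwards [h₂, hd'.eventually e', hd'.eventually f'] with v h1 h2 h3
    simp only [Function.comp] at h2 h3
    rw [h1, h3] at h2
    exact (congrArg Prod.snd h2).symm
  filter_upwards [e, f, continuousAt_fst.eventually h1, continuousAt_snd.eventually h2] with q h1 h2 h3 h4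
  rw [h1, h2, h3, h4]

theorem Rect.t₁ {Φ : D₁ × D₂ → X} {p : D₁ × D₂} (h : 𝒰.Rect Φ p) : 𝒰.T₁ (fun z => Φ (z, p.2)) p.1 := by
  obtain ⟨i, F, G, hF, hG, ht, e⟩ := h
  have hd : Tendsto (fun z : D₁ => (z, p.2)) (𝓝 p.1) (𝓝 p) := (by fun_prop : ContinuousAt (fun z : D₁ => (z, p.2)) p.1)
  exact ⟨i, F, G p.2, hF, ht, hd.eventually e⟩

theorem Rect.t₂ {Φ : D₁ × D₂ → X} {p : D₁ × D₂} (h : 𝒰.Rect Φ p) : 𝒰.T₂ (fun w => Φ (p.1, w)) p.2 := by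
  obtain ⟨i, F, G, hF, hG, ht, e⟩ := h
  have hd' : Tendsto (fun w : D₂ => (p.1, w)) (𝓝 p.2) (𝓝 p) := (by fun_prop : ContinuousAt (fun w : D₂ => (p.1, w)) p.2)
  exact ⟨i, F p.1, G, hG, ht, hd'.eventually e⟩

theorem T₁.an {f : D₁ → X} {z : D₁} (h : 𝒰.T₁ f z) : 𝒰.An f z := by
  obtain ⟨i, F, b, hF, ht, e⟩ := h
  exact (Atl.An_symm (𝒜 := 𝒰.toAtl) (H := fun q : D₁ => (F q, b)) i (hF.prod analyticAt_const) ht).congr e.symm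

theorem T₂.an {g : D₂ → X} {w : D₂} (h : 𝒰.T₂ g w) : 𝒰.An g w := by
  obtain ⟨i, a, G, hG, ht, e⟩ := h
  exact (Atl.An_symm (𝒜 := 𝒰.toAtl) (H := fun q : D₂ => (a, G q)) i (analyticAt_const.prod hG) ht).congr e.symm

theorem T₁.congr {f f' : D₁ → X} {z : D₁} (h : 𝒰.T₁ f z) (e : f =ᶠ[𝓝 z] f') : 𝒰.T₁ f' z := by
  obtain ⟨i, F, b, hF, ht, e'⟩ := h
  exact ⟨i, F, b, hF, ht, e.symm.trans e'⟩

theorem T₂.congr {g g' : D₂ → X} {w : D₂} (h : 𝒰.T₂ g w) (e : g =ᶠ[𝓝 w] g') : 𝒰.T₂ g' w := by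
  obtain ⟨i, a, G, hG, ht, e'⟩ := h
  exact ⟨i, a, G, hG, ht, e.symm.trans e'⟩

theorem T₁.chart {f : D₁ → X} {z : D₁} (h : 𝒰.T₁ f z) {i : 𝒰.ι} (hi : f z ∈ (𝒰.κ i).source) :
    AnalyticAt ℂ (fun q => (𝒰.κ i (f q)).1) z ∧ ∀ᶠ q in 𝓝 z, (𝒰.κ i (f q)).2 = (𝒰.κ i (f z)).2 := by
  refine ⟨analyticAt_fst.comp (h.an.2 i hi), ?_⟩
  have hR : 𝒰.Rect (fun q : D₁ × ℂ => f q.1) (z, 0) := by
    obtain ⟨j, F, b, hF, ht, e⟩ := h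
    exact ⟨j, F, fun _ => b, hF, analyticAt_const, ht, (continuousAt_fst (p := (z, (0 : ℂ)))).eventually e⟩
  obtain ⟨F, G, -, -, e0, -, e⟩ := hR.chart hi
  have hd : Tendsto (fun q : D₁ => (q, (0 : ℂ))) (𝓝 z) (𝓝 (z, 0)) :=
    (by fun_prop : ContinuousAt (fun q : D₁ => (q, (0 : ℂ))) z)
  filter_upwards [hd.eventually e] with q hq
  exact (congrArg Prod.snd hq).trans (congrArg Prod.snd e0 :)

theorem T₂.chart {g : D₂ → X} {w : D₂} (h : 𝒰.T₂ g w) {i : 𝒰.ι} (hi : g w ∈ (𝒰.κ i).source) :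
    AnalyticAt ℂ (fun q => (𝒰.κ i (g q)).2) w ∧ ∀ᶠ q in 𝓝 w, (𝒰.κ i (g q)).1 = (𝒰.κ i (g w)).1 := by
  refine ⟨analyticAt_snd.comp (h.an.2 i hi), ?_⟩
  have hR : 𝒰.Rect (fun q : ℂ × D₂ => g q.2) (0, w) := by
    obtain ⟨j, a, G, hG, ht, e⟩ := h
    exact ⟨j, fun _ => a, G, analyticAt_const, hG, ht, (continuousAt_snd (p := ((0 : ℂ), w))).eventually e⟩
  obtain ⟨F, G, -, -, e0, -, e⟩ := hR.chart hi
  have hd : Tendsto (fun q : D₂ => ((0 : ℂ), q)) (𝓝 w) (𝓝 (0, w)) :=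
    (by fun_prop : ContinuousAt (fun q : D₂ => ((0 : ℂ), q)) w)
  filter_upwards [hd.eventually e] with q hq
  exact (congrArg Prod.fst hq).trans (congrArg Prod.fst e0 :)

/-- local completion of a cross -/
theorem cross_local {f : D₁ → X} {g : D₂ → X} {z : D₁} {w : D₂} (hf : 𝒰.T₁ f z) (hg : 𝒰.T₂ g w) (e : f z = g w) :
    ∃ Φ : D₁ × D₂ → X, 𝒰.Rect Φ (z, w) ∧ (∀ᶠ q in 𝓝 z, Φ (q, w) = f q) ∧ ∀ᶠ q in 𝓝 w, Φ (z, q) = g q := by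
  obtain ⟨i, hi⟩ := 𝒰.cov (f z)
  have hi' : g w ∈ (𝒰.κ i).source := e ▸ hi
  obtain ⟨h1, h2⟩ := hf.chart hi
  obtain ⟨h3, h4⟩ := hg.chart hi'
  refine ⟨fun q => (𝒰.κ i).symm ((𝒰.κ i (f q.1)).1, (𝒰.κ i (g q.2)).2),
    ⟨i, _, _, h1, h3, ?_, EventuallyEq.rfl⟩, ?_, ?_⟩
  · show ((𝒰.κ i (f z)).1, (𝒰.κ i (g w)).2) ∈ _
    rw [← e]
    exact (𝒰.κ i).map_source hi
  · filter_upwards [h2, hf.an.1.eventually ((𝒰.κ i).open_source.mem_nhds hi)] with q hq hq'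
    show (𝒰.κ i).symm ((𝒰.κ i (f q)).1, (𝒰.κ i (g w)).2) = f q
    rw [← e, ← hq]
    exact (𝒰.κ i).left_inv hq'
  · filter_upwards [h4, hg.an.1.eventually ((𝒰.κ i).open_source.mem_nhds hi')] with q hq hq'
    show (𝒰.κ i).symm ((𝒰.κ i (f z)).1, (𝒰.κ i (g q)).2) = g q
    rw [e, ← hq]
    exact (𝒰.κ i).left_inv hq'

theorem mix_mem (𝒰 : UPA X A B) {i : 𝒰.ι} {x y : X} (hx : x ∈ (𝒰.κ i).source) (hy : y ∈ (𝒰.κ i).source) :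
    ((𝒰.κ i x).1, (𝒰.κ i y).2) ∈ (𝒰.κ i).target := by
  have h1 := (𝒰.κ i).map_source hx
  have h2 := (𝒰.κ i).map_source hy
  rw [𝒰.tgt] at h1 h2 ⊢
  rw [show (0 : A × B) = (0, 0) from rfl, ← ball_prod_same] at h1 h2 ⊢
  exact ⟨h1.1, h2.2⟩

/-- completion of a disc contained in one chart (the target `ball 0 4` is a product, `ball_prod_same`):
`Ψ (z, w) = (κ i).symm ((κ i (γ z)).1, (κ i (γ (w - u))).2)` -/
theorem diag_complete {γ : ℂ → X} {c u : ℂ} {r : ℝ} {i : 𝒰.ι} (h : ∀ v ∈ ball c r, 𝒰.An γ v)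
    (hi : ∀ v ∈ ball c r, γ v ∈ (𝒰.κ i).source) :
    ∃ Ψ : ℂ × ℂ → X, (∀ p ∈ ball (c, c + u) r, 𝒰.Rect Ψ p) ∧ ∀ v ∈ ball c r, Ψ (v, v + u) = γ v := by
  refine ⟨fun q => (𝒰.κ i).symm ((𝒰.κ i (γ q.1)).1, (𝒰.κ i (γ (q.2 - u))).2), fun p hp => ?_, fun v hv => ?_⟩
  · rw [← ball_prod_same] at hp
    have h2 : p.2 - u ∈ ball c r := by
      have := hp.2
      rw [mem_ball, dist_eq_norm] at this ⊢
      convert this using 2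
      ring
    refine ⟨i, fun z => (𝒰.κ i (γ z)).1, fun w => (𝒰.κ i (γ (w - u))).2,
      analyticAt_fst.comp ((h _ hp.1).2 i (hi _ hp.1)), ?_, 𝒰.mix_mem (hi _ hp.1) (hi _ h2), EventuallyEq.rfl⟩
    exact analyticAt_snd.comp (((h _ h2).2 i (hi _ h2)).comp (f := fun w => w - u) (by fun_prop))
  · simp only [add_sub_cancel_right, Prod.mk.eta]
    exact (𝒰.κ i).left_inv (hi v hv)

/-- identity theorem on the convex set `Z ∩ N` -/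
theorem ext_of_convex {Φ Ψ : D₁ × D₂ → X} {Z N : Set (D₁ × D₂)} {p q : D₁ × D₂} (hZ : Convex ℝ Z)
    (hΦ : ∀ x ∈ Z, 𝒰.Rect Φ x) (hN : Convex ℝ N) (hp : N ∈ 𝓝 p) (hΨ : ∀ x ∈ N, 𝒰.Rect Ψ x) (hqZ : q ∈ Z)
    (hqN : q ∈ N) (e : Ψ =ᶠ[𝓝 q] Φ) : 𝒰.Ext Φ Z p := by
  have h1 := Atl.An.evEq (𝒜 := 𝒰.toAtl) (hZ.inter hN).isPreconnected (fun x hx => (hΨ x hx.2).an)
    (fun x hx => (hΦ x hx.1).an) ⟨hqZ, hqN⟩ e
  refine ⟨Ψ, hΨ p (mem_of_mem_nhds hp), ?_⟩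
  filter_upwards [self_mem_nhdsWithin, mem_nhdsWithin_of_mem_nhds hp] with x h2 h3
  exact (h1 x ⟨h2, h3⟩).self_of_nhds

theorem Rect.ext {Φ : D₁ × D₂ → X} {Z : Set (D₁ × D₂)} {p : D₁ × D₂} (h : 𝒰.Rect Φ p) : 𝒰.Ext Φ Z p :=
  ⟨Φ, h, EventuallyEq.rfl⟩

end UPA

end

end Crest.Agent.R266

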