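import Crest.Agent.R266.Pull
import Crest.Agent.R266.Rect
import Crest.Agent.R266.MeanSq

/-!
# Row 266: discs of small area
-/

set_option autoImplicit false
set_option linter.unusedSectionVars false
set_option linter.unusedVariables false

namespace Crest.Agent.R266

open Set Metric Filter Topology MeasureTheory Polynomial
open scoped ENNReal Classical

noncomputable section

namespace UPA
variable {X A B D₁ D₂ : Type} [TopologicalSpace X] [T2Space X]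
  [NormedAddCommGroup A] [NormedSpace ℂ A] [NormedSpace ℝ A] [IsScalarTower ℝ ℂ A] [FiniteDimensional ℂ A]
  [NormedAddCommGroup B] [NormedSpace ℂ B] [NormedSpace ℝ B] [IsScalarTower ℝ ℂ B] [FiniteDimensional ℂ B]
  [CompleteSpace A] [CompleteSpace B]
  [NormedAddCommGroup D₁] [NormedSpace ℂ D₁] [NormedSpace ℝ D₁] [IsScalarTower ℝ ℂ D₁] [FiniteDimensional ℂ D₁]
  [NormedAddCommGroup D₂] [NormedSpace ℂ D₂] [NormedSpace ℝ D₂] [IsScalarTower ℝ ℂ D₂] [FiniteDimensional ℂ D₂]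
  {𝒰 : UPA X A B}

/-- Continuity argument on `t ∈ [0, 1]` for `γ (a + t (b - a))` (`IsClosed.Icc_subset_of_forall_exists_gt` or a
supremum): while the curve stays in the chart, `‖(κ γ)'‖ ≤ K / √m` (`en_bd`), so it stays in the compact set
`(κ i).symm '' closedBall 0 (ρ + δ)`, which is closed in `X`. -/
theorem path_seg {γ : ℂ → X} {a b : ℂ} {K ρ δ : ℝ} {i : 𝒰.ι} (hK : 0 ≤ K) (h : ∀ v ∈ segment ℝ a b, 𝒰.An γ v)
    (he : ∀ v ∈ segment ℝ a b, 𝒰.en γ v ≤ K ^ 2) (hi : γ a ∈ (𝒰.κ i).source) (hρ : ‖𝒰.κ i (γ a)‖ ≤ ρ)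
    (hδ : K * ‖b - a‖ ≤ √𝒰.m * δ) (h4 : ρ + δ < 4) :
    γ b ∈ (𝒰.κ i).source ∧ ‖𝒰.κ i (γ b)‖ ≤ ρ + δ := by
  have m0 : 0 < √𝒰.m := Real.sqrt_pos.2 𝒰.m_pos
  have hseg : ∀ t ∈ Icc (0 : ℝ) 1, a + t * (b - a) ∈ segment ℝ a b := fun t ht => by
    rw [segment_eq_image']; exact ⟨t, ht, by simp⟩
  have key : ∀ t ∈ Icc (0 : ℝ) 1, (∀ r ∈ Icc 0 t, γ (a + r * (b - a)) ∈ (𝒰.κ i).source) →
      ‖𝒰.κ i (γ (a + t * (b - a)))‖ ≤ ρ + δ := fun t ht hs => by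
    have hI : ∀ r ∈ Icc 0 t, r ∈ Icc (0 : ℝ) 1 := fun r hr => ⟨hr.1, hr.2.trans ht.2⟩
    have h1 := norm_image_sub_le_of_norm_deriv_le_segment' (f := fun r : ℝ => 𝒰.κ i (γ (a + r * (b - a))))
      (f' := fun r => (b - a) • deriv (𝒰.κ i ∘ γ) (a + r * (b - a))) (C := δ) (a := 0) (b := t) (fun r hr => by
        have h2 : HasDerivAt (fun r : ℂ => a + r * (b - a)) (b - a) r := (hasDerivAt_mul_const _).const_add a
        have h3 := (((h _ (hseg r (hI r hr))).2 i (hs r hr)).differentiableAt.hasDerivAt.scomp (r : ℂ) h2).scomp r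
          (Complex.ofRealCLM.hasDerivAt (x := r))
        simpa [Function.comp_def] using h3.hasDerivWithinAt) (fun r hr => by
        have hr' := Ico_subset_Icc_self hr
        have h2 := (en_bd (h _ (hseg r (hI r hr'))) (hs r hr')).1.trans (he _ (hseg r (hI r hr')))
        have h3 : √𝒰.m * ‖deriv (𝒰.κ i ∘ γ) (a + r * (b - a))‖ ≤ K :=
          le_of_pow_le_pow_left₀ two_ne_zero hK (by rwa [mul_pow, Real.sq_sqrt 𝒰.m_pos.le])
        rw [norm_smul]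
        refine le_of_mul_le_mul_left ?_ m0
        nlinarith [mul_le_mul_of_nonneg_right h3 (norm_nonneg (b - a))]) t (right_mem_Icc.2 ht.1)
    have δ0 : 0 ≤ δ := nonneg_of_mul_nonneg_right ((mul_nonneg hK (norm_nonneg _)).trans hδ) m0
    simp only [Complex.ofReal_zero, zero_mul, add_zero, sub_zero] at h1
    nlinarith [norm_le_norm_add_norm_sub' (𝒰.κ i (γ (a + t * (b - a)))) (𝒰.κ i (γ a)), ht.2]
  have hsub : closedBall (0 : A × B) (ρ + δ) ⊆ (𝒰.κ i).target := by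
    rw [𝒰.tgt]; exact closedBall_subset_ball h4
  have : ProperSpace (A × B) := FiniteDimensional.proper ℂ _
  have hC : IsClosed ((𝒰.κ i).symm '' closedBall 0 (ρ + δ)) :=
    ((isCompact_closedBall _ _).image_of_continuousOn ((𝒰.κ i).continuousOn_symm.mono hsub)).isClosed
  have hC' : ∀ x, x ∈ (𝒰.κ i).symm '' closedBall 0 (ρ + δ) ↔ x ∈ (𝒰.κ i).source ∧ ‖𝒰.κ i x‖ ≤ ρ + δ := fun x => by
    refine ⟨?_, fun hx => ⟨_, mem_closedBall_zero_iff.2 hx.2, (𝒰.κ i).left_inv hx.1⟩⟩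
    rintro ⟨y, hy, rfl⟩
    exact ⟨(𝒰.κ i).map_target (hsub hy), by rw [(𝒰.κ i).right_inv (hsub hy)]; exact mem_closedBall_zero_iff.1 hy⟩
  have hc : ∀ t ∈ Icc (0 : ℝ) 1, ContinuousAt (fun r : ℝ => γ (a + r * (b - a))) t := fun t ht =>
    (h _ (hseg t ht)).1.comp (f := fun r : ℝ => a + r * (b - a)) (by fun_prop)
  have h1 : Icc (0 : ℝ) 1 ⊆ (fun r : ℝ => γ (a + r * (b - a))) ⁻¹' ((𝒰.κ i).symm '' closedBall 0 (ρ + δ)) := by
    refine IsClosed.Icc_subset_of_forall_mem_nhdsGT_of_Icc_subset ?_ ?_ fun t ht hs => ?_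
    · rw [inter_comm]
      exact ContinuousOn.preimage_isClosed_of_isClosed (fun t ht => (hc t ht).continuousWithinAt) isClosed_Icc hC
    · refine (hC' _).2 ⟨by simpa using hi, key 0 (left_mem_Icc.2 zero_le_one) fun r hr => ?_⟩
      rw [le_antisymm hr.2 hr.1]
      simpa using hi
    · have h2 := ((hc t (Ico_subset_Icc_self ht)).eventually ((𝒰.κ i).open_source.mem_nhds
        ((hC' _).1 (hs (right_mem_Icc.2 ht.1))).1)).filter_mono (nhdsWithin_le_nhds (s := Ioi t))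
      obtain ⟨u, hu, h3⟩ := mem_nhdsGT_iff_exists_Ioc_subset.1 h2
      filter_upwards [Ioc_mem_nhdsGT hu, Ioc_mem_nhdsGT ht.2] with r h4 h5
      refine (hC' _).2 ⟨h3 h4, key r ⟨ht.1.trans h4.1.le, h5.2⟩ fun r' hr' => ?_⟩
      rcases le_or_gt r' t with h6 | h6
      · exact ((hC' _).1 (hs ⟨hr'.1, h6⟩)).1
      · exact h3 ⟨h6, hr'.2.trans h4.2⟩
  simpa using (hC' _).1 (h1 (right_mem_Icc.2 zero_le_one))

/-- **ε-regularity** (`ε₀ = π m² / (8 M)`, `C = 16 M / (π m)`).  Maximise `φ v = en γ v * (r/2 - ‖v - c‖)²` on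
`closedBall c (r/2)` at `v₀`; `δ = r/2 - ‖v₀ - c‖`, `K² = en γ v₀` (if `φ v₀ = 0` done).  On `ball v₀ (δ/2)`
`en ≤ (2K)²`.  With `s = min (δ/2) (√m / (2K))` the disc `ball v₀ s` lies in the chart `ch (γ v₀)` (`path_seg`), and
`mean_sq` for `deriv (κ ∘ γ)` with `en_bd` gives `π s² m K² ≤ M a`.  This excludes `s = √m/(2K)`. -/
theorem grad (𝒰 : UPA X A B) : ∃ ε₀ > 0, ∃ C > 0, ∀ (γ : ℂ → X) (c : ℂ) (r a : ℝ), 0 < r → 0 ≤ a → a ≤ ε₀ →
    (∀ v ∈ ball c r, 𝒰.An γ v) → 𝒰.Ar γ (ball c r) ≤ ENNReal.ofReal a → 𝒰.en γ c ≤ C * a / r ^ 2 := by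
  have m0 := 𝒰.m_pos
  have M0 := 𝒰.m_pos.trans_le 𝒰.m_le
  have π0 := Real.pi_pos
  refine ⟨Real.pi * 𝒰.m ^ 2 / (8 * 𝒰.M), by positivity, 16 * 𝒰.M / (Real.pi * 𝒰.m), by positivity,
    fun γ c r a hr a0 a1 h ha => ?_⟩
  have hsub : closedBall c (r / 2) ⊆ ball c r := closedBall_subset_ball (half_lt_self hr)
  obtain ⟨v₀, hv₀, hmax⟩ := (isCompact_closedBall c (r / 2)).exists_isMaxOn ⟨c, mem_closedBall_self (half_pos hr).le⟩
    (f := fun v => 𝒰.en γ v * (r / 2 - ‖v - c‖) ^ 2)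
    fun v hv => ((en_continuousAt (h v (hsub hv))).mul (by fun_prop)).continuousWithinAt
  have h0 : 𝒰.en γ c * (r / 2) ^ 2 ≤ 𝒰.en γ v₀ * (r / 2 - ‖v₀ - c‖) ^ 2 := by
    simpa using hmax (mem_closedBall_self (half_pos hr).le)
  suffices H : 𝒰.en γ v₀ * (r / 2 - ‖v₀ - c‖) ^ 2 ≤ 4 * 𝒰.M * a / (Real.pi * 𝒰.m) by
    rw [le_div_iff₀ (by positivity)]
    calc 𝒰.en γ c * r ^ 2 = 4 * (𝒰.en γ c * (r / 2) ^ 2) := by ring
      _ ≤ 4 * (4 * 𝒰.M * a / (Real.pi * 𝒰.m)) := by linarith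
      _ = _ := by ring
  set δ := r / 2 - ‖v₀ - c‖ with hδ
  rcases (sub_nonneg.2 (mem_closedBall_iff_norm.1 hv₀)).eq_or_lt with δ0 | δ0
  · rw [hδ, ← δ0]; simp only [ne_eq, OfNat.ofNat_ne_zero, not_false_eq_true, zero_pow, mul_zero]; positivity
  rcases (en_nonneg (𝒰 := 𝒰) γ v₀).eq_or_lt with K0 | K0
  · rw [← K0, zero_mul]; positivity
  replace δ0 : 0 < δ := δ0
  obtain ⟨K, K1, hK⟩ : ∃ K > 0, K ^ 2 = 𝒰.en γ v₀ := ⟨√(𝒰.en γ v₀), Real.sqrt_pos.2 K0, Real.sq_sqrt K0.le⟩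
  have h1 : ∀ v ∈ ball v₀ (δ / 2), v ∈ ball c r ∧ 𝒰.en γ v ≤ (2 * K) ^ 2 := fun v hv => by
    rw [mem_ball_iff_norm] at hv
    have h2 := norm_sub_le_norm_sub_add_norm_sub v v₀ c
    have h3 : v ∈ closedBall c (r / 2) := mem_closedBall_iff_norm.2 (by linarith)
    have h4 : 𝒰.en γ v * (r / 2 - ‖v - c‖) ^ 2 ≤ 𝒰.en γ v₀ * δ ^ 2 := hmax h3
    have h5 : (δ / 2) ^ 2 ≤ (r / 2 - ‖v - c‖) ^ 2 := pow_le_pow_left₀ (half_pos δ0).le (by linarith) 2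
    refine ⟨hsub h3, le_of_mul_le_mul_right ?_ (pow_pos δ0 2)⟩
    nlinarith [mul_le_mul_of_nonneg_left h5 (en_nonneg (𝒰 := 𝒰) γ v)]
  set s := min (δ / 2) (√𝒰.m / (2 * K)) with hs
  have s0 : 0 < s := lt_min (half_pos δ0) (by positivity)
  have s1 : ball v₀ s ⊆ ball v₀ (δ / 2) := ball_subset_ball (min_le_left _ _)
  have hi := 𝒰.ch_mem (γ v₀)
  have h2 : ∀ v ∈ ball v₀ s, γ v ∈ (𝒰.κ (𝒰.ch (γ v₀))).source := fun v hv => by
    have h3 := (convex_ball v₀ s).segment_subset (mem_ball_self s0) hv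
    refine (path_seg (ρ := 1) (δ := 1) (K := 2 * K) (by positivity) (fun z hz => h z (h1 z (s1 (h3 hz))).1)
      (fun z hz => (h1 z (s1 (h3 hz))).2) hi.1 (mem_ball_zero_iff.1 hi.2).le ?_ (by norm_num)).1
    have h4 := (mem_ball_iff_norm.1 hv).le.trans (min_le_right _ _)
    rw [le_div_iff₀ (by positivity)] at h4
    linarith
  have h3 := mean_sq (f := deriv (𝒰.κ (𝒰.ch (γ v₀)) ∘ γ)) s0 fun v hv =>
    ((h v (h1 v (s1 hv)).1).2 _ (h2 v hv)).deriv.differentiableAt.differentiableWithinAt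
  have h4 : ENNReal.ofReal (𝒰.m * (Real.pi * s ^ 2 * ‖deriv (𝒰.κ (𝒰.ch (γ v₀)) ∘ γ) v₀‖ ^ 2)) ≤ ENNReal.ofReal a := by
    rw [ENNReal.ofReal_mul m0.le]
    refine (mul_le_mul_right h3 _).trans ?_
    rw [← lintegral_const_mul' _ _ ENNReal.ofReal_ne_top]
    refine le_trans (setLIntegral_mono' measurableSet_ball fun v hv => ?_)
      ((lintegral_mono_set fun v hv => (h1 v (s1 hv)).1).trans ha)
    rw [← ENNReal.ofReal_mul m0.le]
    exact ENNReal.ofReal_le_ofReal (en_bd (h v (h1 v (s1 hv)).1) (h2 v hv)).1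
  rw [ENNReal.ofReal_le_ofReal_iff a0] at h4
  have h5 : Real.pi * s ^ 2 * 𝒰.m * K ^ 2 ≤ 𝒰.M * a := by
    have h6 := (en_bd (h v₀ (hsub hv₀)) hi.1).2
    rw [← hK] at h6
    nlinarith [mul_le_mul_of_nonneg_left h4 M0.le, mul_le_mul_of_nonneg_left h6 (by positivity : 0 ≤ Real.pi * s ^ 2 * 𝒰.m)]
  rcases min_choice (δ / 2) (√𝒰.m / (2 * K)) with e | e
  · rw [← hs] at e
    rw [e] at h5
    rw [le_div_iff₀ (by positivity), ← hK]
    linarith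
  · exfalso
    rw [← hs] at e
    rw [e, div_pow, Real.sq_sqrt m0.le,
      show Real.pi * (𝒰.m / (2 * K) ^ 2) * 𝒰.m * K ^ 2 = Real.pi * 𝒰.m ^ 2 / 4 by field_simp; ring] at h5
    rw [le_div_iff₀ (by positivity)] at a1
    nlinarith [mul_pos π0 (pow_pos m0 2)]

/-- `grad` on `ball v (s/2)`, `path_seg` from `c`, `diag_complete` -/
theorem small_complete (𝒰 : UPA X A B) : ∃ ε₁ > 0, ∀ (γ : ℂ → X) (c u : ℂ) (s : ℝ), 0 < s →
    (∀ v ∈ ball c s, 𝒰.An γ v) → 𝒰.Ar γ (ball c s) ≤ ENNReal.ofReal ε₁ →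
    ∃ Ψ : ℂ × ℂ → X, (∀ p ∈ ball (c, c + u) (s / 2), 𝒰.Rect Ψ p) ∧ ∀ v ∈ ball c (s / 2), Ψ (v, v + u) = γ v := by
  obtain ⟨ε₀, ε0, C, C0, hg⟩ := 𝒰.grad
  have m0 := 𝒰.m_pos
  refine ⟨min ε₀ (𝒰.m / C), lt_min ε0 (by positivity), fun γ c u s s0 h ha => ?_⟩
  have hsub : ball c (s / 2) ⊆ ball c s := ball_subset_ball (half_le_self s0.le)
  have h1 : ∀ v ∈ ball c (s / 2), 𝒰.en γ v ≤ (√𝒰.m / (s / 2)) ^ 2 := fun v hv => by
    have h2 : ball v (s / 2) ⊆ ball c s := ball_subset_ball' (by linarith [mem_ball.1 hv])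
    refine (hg γ v (s / 2) _ (half_pos s0) (lt_min ε0 (by positivity)).le (min_le_left _ _) (fun z hz => h z (h2 hz))
      ((lintegral_mono_set h2).trans ha)).trans ?_
    rw [div_pow √𝒰.m, Real.sq_sqrt m0.le]
    gcongr
    have := min_le_right ε₀ (𝒰.m / C)
    rw [le_div_iff₀ C0] at this
    linarith
  have hi := 𝒰.ch_mem (γ c)
  refine diag_complete (i := 𝒰.ch (γ c)) (fun v hv => h v (hsub hv)) fun v hv => ?_
  have h3 := (convex_ball c (s / 2)).segment_subset (mem_ball_self (half_pos s0)) hv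
  refine (path_seg (ρ := 1) (δ := 1) (by positivity) (fun z hz => h z (hsub (h3 hz))) (fun z hz => h1 z (h3 hz)) hi.1
    (mem_ball_zero_iff.1 hi.2).le ?_ (by norm_num)).1
  rw [div_mul_eq_mul_div, div_le_iff₀ (half_pos s0), mul_one]
  exact mul_le_mul_of_nonneg_left (mem_ball_iff_norm.1 hv).le (Real.sqrt_nonneg _)

theorem Ar_mono (γ : ℂ → X) {S T : Set ℂ} (h : S ⊆ T) : 𝒰.Ar γ S ≤ 𝒰.Ar γ T :=
  lintegral_mono_set h

end UPA

end

end Crest.Agent.R266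

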