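import Crest.Agent.R266.Rem
import Crest.Agent.R266.En
import Crest.Agent.R266.Rect

/-!
# Row 266: extension across a limit of diagonal discs of bounded area
-/

set_option autoImplicit false
set_option linter.unusedSectionVars false
set_option linter.unusedVariables false

namespace Crest.Agent.R266

open Set Metric Filter Topology MeasureTheory Polynomial
open scoped ENNReal Classical

noncomputable section

namespace UPA
variable {X A B D₁ D₂ : Type} [TopologicalSpace X] [T2Space X]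
  [NormedAddCommGroup A] [NormedSpace ℂ A] [NormedSpace ℝ A] [IsScalarTower ℝ ℂ A] [FiniteDimensional ℂ A]
  [NormedAddCommGroup B] [NormedSpace ℂ B] [NormedSpace ℝ B] [IsScalarTower ℝ ℂ B] [FiniteDimensional ℂ B]
  [CompleteSpace A] [CompleteSpace B]
  [NormedAddCommGroup D₁] [NormedSpace ℂ D₁] [NormedSpace ℝ D₁] [IsScalarTower ℝ ℂ D₁] [FiniteDimensional ℂ D₁]
  [NormedAddCommGroup D₂] [NormedSpace ℂ D₂] [NormedSpace ℝ D₂] [IsScalarTower ℝ ℂ D₂] [FiniteDimensional ℂ D₂]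
  {𝒰 : UPA X A B}

/-- `small_complete` for the disc at time `t < ρ/2`, `Rect.diag_unique`, `ext_of_convex` with
`N = ball (v, v + (u - t e)) (ρ/2)` -/
theorem ext_good (𝒰 : UPA X A B) : ∃ ε₁ > 0, ∀ (Φ : ℂ × ℂ → X) (Z : Set (ℂ × ℂ)) (v u e : ℂ) (ρ : ℝ),
    Convex ℝ Z → (∀ x ∈ Z, 𝒰.Rect Φ x) → ‖e‖ ≤ 1 → 0 < ρ →
    (∀ᶠ t : ℝ in 𝓝[>] 0, ∀ v' ∈ ball v ρ, (v', v' + (u - t * e)) ∈ Z) →
    (∃ᶠ t : ℝ in 𝓝[>] 0, 𝒰.Ar (fun z => Φ (z, z + (u - t * e))) (ball v ρ) ≤ ENNReal.ofReal ε₁) →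
    𝒰.Ext Φ Z (v, v + u) := by
  obtain ⟨ε, hε, hsc⟩ := 𝒰.small_complete
  refine ⟨ε, hε, fun Φ Z v u e ρ hc hΦ he hρ hin ha => ?_⟩
  obtain ⟨t, h1, h2, h3⟩ := (ha.and_eventually (hin.and (Ioo_mem_nhdsGT (half_pos hρ)))).exists
  obtain ⟨Ψ, k1, k2⟩ := hsc _ v (u - t * e) ρ hρ
    (fun z hz => (hΦ _ (h2 z hz)).an.comp (g := fun z => (z, z + (u - t * e))) (by fun_prop)) h1
  have k3 := mem_ball_self (x := (v, v + (u - t * e))) (half_pos hρ)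
  have k4 := h2 v (mem_ball_self hρ)
  refine ext_of_convex hc hΦ (convex_ball _ _) (isOpen_ball.mem_nhds ?_) k1 k4 k3 ((k1 _ k3).diag_unique (hΦ _ k4) ?_)
  · rw [mem_ball, Prod.dist_eq, dist_self, dist_eq_norm, max_lt_iff]
    refine ⟨half_pos hρ, ?_⟩
    rw [show v + u - (v + (u - t * e)) = t * e by ring, norm_mul, Complex.norm_real, Real.norm_of_nonneg h3.1.le]
    nlinarith [h3.1, h3.2]
  · filter_upwards [ball_mem_nhds v (half_pos hρ)] with z hz using k2 z hz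

/-- Finitely many concentration points: `k` distinct bad points have disjoint discs inside `ball c r`, so
`k ε ≤ a` (`lintegral_biUnion_finset`; `Set.Infinite.exists_subset_card_eq`). -/
theorem bad_finite {f : ℝ → ℂ → ℝ≥0∞} {c : ℂ} {r a ε : ℝ} (hε : 0 < ε)
    (h : ∀ᶠ t : ℝ in 𝓝[>] 0, ∫⁻ v in ball c r, f t v ≤ ENNReal.ofReal a) :
    {v ∈ ball c r | ∀ ρ > 0, ∀ᶠ t : ℝ in 𝓝[>] 0, ENNReal.ofReal ε < ∫⁻ z in ball v ρ, f t z}.Finite := by
  by_contra hinf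
  obtain ⟨k, hk⟩ := exists_nat_gt (a / ε)
  obtain ⟨T, hT, hcard⟩ := Set.Infinite.exists_subset_card_eq hinf (k + 1)
  obtain ⟨U, hU, hd⟩ := T.finite_toSet.t2_separation
  have h1 : ∀ v, ∃ ρ > 0, v ∈ T → ball v ρ ⊆ U v ∩ ball c r := fun v => by
    by_cases hv : v ∈ T
    · obtain ⟨ρ, h1, h2⟩ := Metric.isOpen_iff.1 ((hU v).2.inter isOpen_ball) v ⟨(hU v).1, (hT hv).1⟩
      exact ⟨ρ, h1, fun _ => h2⟩
    · exact ⟨1, one_pos, fun h => absurd h hv⟩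
  choose ρ hρ hb using h1
  obtain ⟨t, h2, h3⟩ := (h.and ((T.eventually_all).2 fun v hv => (hT hv).2 _ (hρ v))).exists
  have h4 : ∑ v ∈ T, ENNReal.ofReal ε ≤ ∑ v ∈ T, ∫⁻ z in ball v (ρ v), f t z :=
    Finset.sum_le_sum fun v hv => (h3 v hv).le
  rw [← lintegral_biUnion_finset (fun v hv w hw hvw => (hd hv hw hvw).mono ((hb v hv).trans inter_subset_left)
    ((hb w hw).trans inter_subset_left)) (fun _ _ => measurableSet_ball), Finset.sum_const, hcard, nsmul_eq_mul,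
    ← ENNReal.ofReal_natCast, ← ENNReal.ofReal_mul (Nat.cast_nonneg _)] at h4
  have h5 := h4.trans ((lintegral_mono_set (iUnion₂_subset fun v hv => (hb v hv).trans inter_subset_right)).trans h2)
  rw [div_lt_iff₀ hε] at hk
  refine absurd h5 (not_le.2 ((ENNReal.ofReal_lt_ofReal_iff (by positivity)).2 ?_))
  push_cast
  linarith

/-- The limit disc.  Choose `Ψ v` from `Ext`, `γ v = Ψ v (v, v + u)`.  For `v'` near `v`,
`Ψ v (v', v' + u)` and `Ψ v' (v', v' + u)` are both the limit of `Φ (v', v' + (u - t e))` as `t → 0+`.  Fatou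
(`lintegral_liminf_le'` along a sequence `t n → 0+`), `en_diag_continuousAt`, `en_congr` (`Z` is open),
measurability from `en_continuousAt`. -/
theorem limit_disc {Φ : ℂ × ℂ → X} {Z : Set (ℂ × ℂ)} {S : Set ℂ} {u e : ℂ} {a : ℝ≥0∞} (hZ : IsOpen Z)
    (hΦ : ∀ x ∈ Z, 𝒰.Rect Φ x) (hS : IsOpen S) (hin : ∀ᶠ t : ℝ in 𝓝[>] 0, ∀ v ∈ S, (v, v + (u - t * e)) ∈ Z)
    (ha : ∀ᶠ t : ℝ in 𝓝[>] 0, 𝒰.Ar (fun z => Φ (z, z + (u - t * e))) S ≤ a)
    (hext : ∀ v ∈ S, 𝒰.Ext Φ Z (v, v + u)) :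
    ∃ γ : ℂ → X, 𝒰.Ar γ S ≤ a ∧ ∀ v ∈ S, ∃ Ψ : ℂ × ℂ → X, 𝒰.Rect Ψ (v, v + u) ∧ Ψ =ᶠ[𝓝[Z] (v, v + u)] Φ ∧
      ∀ᶠ v' in 𝓝 v, Ψ (v', v' + u) = γ v' := by
  have h1 : ∀ v, ∃ Ψ : ℂ × ℂ → X, v ∈ S → 𝒰.Rect Ψ (v, v + u) ∧ Ψ =ᶠ[𝓝[Z] (v, v + u)] Φ := fun v => by
    by_cases hv : v ∈ S
    · obtain ⟨Ψ, h⟩ := hext v hv
      exact ⟨Ψ, fun _ => h⟩
    · exact ⟨Φ, fun h => absurd h hv⟩
  choose Ψ hΨ using h1
  have t0 : Tendsto (fun t : ℝ => u - t * e) (𝓝[>] 0) (𝓝 u) :=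
    tendsto_nhdsWithin_of_tendsto_nhds (by
      simpa [ContinuousAt] using (by fun_prop : ContinuousAt (fun t : ℝ => u - t * e) 0))
  have t1 : ∀ v ∈ S, Tendsto (fun t : ℝ => (v, v + (u - t * e))) (𝓝[>] 0) (𝓝[Z] (v, v + u)) := fun v hv =>
    tendsto_nhdsWithin_iff.2 ⟨tendsto_const_nhds.prodMk_nhds (t0.const_add v), hin.mono fun t ht => ht v hv⟩
  have hd : ∀ v : ℂ, ContinuousAt (fun v : ℂ => (v, v + u)) v := fun v => by fun_prop
  have h2 : ∀ v ∈ S, ∀ᶠ v' in 𝓝 v, Ψ v (v', v' + u) = Ψ v' (v', v' + u) := fun v hv => by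
    filter_upwards [hS.mem_nhds hv, (hd v).eventually (hΨ v hv).1.eventually,
      (hd v).eventually (eventually_nhdsWithin_iff.1 (hΨ v hv).2).eventually_nhds] with v' a1 a2 a3
    refine tendsto_nhds_unique_of_eventuallyEq (a2.an.1.tendsto.comp ((t1 v' a1).mono_right nhdsWithin_le_nhds))
      ((hΨ v' a1).1.an.1.tendsto.comp ((t1 v' a1).mono_right nhdsWithin_le_nhds)) ?_
    filter_upwards [(t1 v' a1).eventually (eventually_nhdsWithin_iff.2 a3), (t1 v' a1).eventually (hΨ v' a1).2]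
      with t a4 a5
    exact a4.trans a5.symm
  refine ⟨fun v => Ψ v (v, v + u), ?_, fun v hv => ⟨Ψ v, (hΨ v hv).1, (hΨ v hv).2, h2 v hv⟩⟩
  obtain ⟨t, ht⟩ := (𝓝[>] (0 : ℝ)).exists_seq_tendsto
  obtain ⟨n₀, hn₀⟩ := eventually_atTop.1 (ht.eventually (hin.and ha))
  have ht' : Tendsto (fun n => t (n + n₀)) atTop (𝓝[>] 0) := ht.comp (tendsto_add_atTop_nat n₀)
  have h3 : ∀ v ∈ S, Tendsto (fun n => ENNReal.ofReal (𝒰.en (fun z => Φ (z, z + (u - t (n + n₀) * e))) v)) atTop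
      (𝓝 (ENNReal.ofReal (𝒰.en (fun v => Ψ v (v, v + u)) v))) := fun v hv => by
    refine ENNReal.tendsto_ofReal ?_
    rw [← en_congr (h2 v hv)]
    refine (((en_diag_continuousAt (hΨ v hv).1.an).tendsto.comp
      (tendsto_const_nhds.prodMk_nhds (t0.comp ht'))).congr' ?_)
    filter_upwards [((t1 v hv).comp ht').eventually
      ((eventually_nhdsWithin_iff.1 (hΨ v hv).2).eventually_nhds.filter_mono nhdsWithin_le_nhds)] with n a1
    refine en_congr (𝒰 := 𝒰) (γ := fun z => Ψ v (z, z + (u - t (n + n₀) * e))) (v := v) ?_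
    have a2 : ContinuousAt (fun z : ℂ => (z, z + (u - t (n + n₀) * e))) v := by fun_prop
    filter_upwards [a2.eventually a1, hS.mem_nhds hv] with z a3 a4
    exact a3 ((hn₀ _ (Nat.le_add_left _ _)).1 z a4)
  calc 𝒰.Ar (fun v => Ψ v (v, v + u)) S
      = ∫⁻ v in S, liminf (fun n => ENNReal.ofReal (𝒰.en (fun z => Φ (z, z + (u - t (n + n₀) * e))) v)) atTop :=
        setLIntegral_congr_fun hS.measurableSet fun v hv => (h3 v hv).liminf_eq.symm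
    _ ≤ liminf (fun n => 𝒰.Ar (fun z => Φ (z, z + (u - t (n + n₀) * e))) S) atTop := by
        refine lintegral_liminf_le' fun n => ENNReal.measurable_ofReal.comp_aemeasurable
          (ContinuousOn.aemeasurable (fun v hv => ?_) hS.measurableSet)
        exact (en_continuousAt ((hΦ _ ((hn₀ _ (Nat.le_add_left _ _)).1 v hv)).an.comp
          (g := fun z => (z, z + (u - t (n + n₀) * e))) (by fun_prop))).continuousWithinAt
    _ ≤ a := liminf_le_of_frequently_le' (Frequently.of_forall fun n => (hn₀ _ (Nat.le_add_left _ _)).2)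

/-- If `c` is good use `ext_good`.  Otherwise by `bad_finite` a punctured disc `S` around `c` is good;
`limit_disc`, `removable`, `diag_complete` on a small disc give `Ψ` on `N = ball (c, c + u) σ`; for `v ≠ c` near `c`,
`Ψ =ᶠ Ψ v` near `(v, v + u)` (`Rect.diag_unique`), hence `Ψ =ᶠ Φ` near `(v, v + (u - t e))` for small `t`;
`ext_of_convex`. -/
theorem ext_interior {Φ : ℂ × ℂ → X} {Z : Set (ℂ × ℂ)} {c u e : ℂ} {r a : ℝ} (hZ : IsOpen Z) (hc : Convex ℝ Z)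
    (hΦ : ∀ x ∈ Z, 𝒰.Rect Φ x) (he : ‖e‖ ≤ 1) (hr : 0 < r)
    (hin : ∀ᶠ t : ℝ in 𝓝[>] 0, ∀ v ∈ ball c r, (v, v + (u - t * e)) ∈ Z)
    (ha : ∀ᶠ t : ℝ in 𝓝[>] 0, 𝒰.Ar (fun z => Φ (z, z + (u - t * e))) (ball c r) ≤ ENNReal.ofReal a) :
    𝒰.Ext Φ Z (c, c + u) := by
  obtain ⟨ε, hε, hg⟩ := 𝒰.ext_good
  have hfin := bad_finite (f := fun t v => ENNReal.ofReal (𝒰.en (fun z => Φ (z, z + (u - t * e))) v)) hε ha
  set Bad := {v ∈ ball c r | ∀ ρ > 0, ∀ᶠ t : ℝ in 𝓝[>] 0, ENNReal.ofReal ε <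
    ∫⁻ z in ball v ρ, ENNReal.ofReal (𝒰.en (fun z => Φ (z, z + (u - t * e))) z)} with hBad
  have good : ∀ v ∈ ball c r, v ∉ Bad → 𝒰.Ext Φ Z (v, v + u) := fun v hv hb => by
    simp only [hBad, mem_ofPred_eq, hv, true_and, not_forall, not_eventually, not_lt] at hb
    obtain ⟨ρ, hρ, hb⟩ := hb
    obtain ⟨ρ', hρ', hs⟩ := Metric.isOpen_iff.1 (isOpen_ball.inter isOpen_ball) v ⟨hv, mem_ball_self hρ⟩
    exact hg Φ Z v u e ρ' hc hΦ he hρ' (hin.mono fun t ht v' hv' => ht v' (hs hv').1)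
      (hb.mono fun t ht => (Ar_mono _ (hs.trans inter_subset_right)).trans ht)
  obtain ⟨ρ, hρ, hs⟩ := Metric.isOpen_iff.1 (isOpen_ball.inter (hfin.subset (sdiff_subset (t := {c}))).isClosed.isOpen_compl)
    c ⟨mem_ball_self hr, fun h => h.2 rfl⟩
  have hS : IsOpen (ball c ρ \ {c}) := isOpen_ball.sdiff isClosed_singleton
  have hS' : ball c ρ \ {c} ⊆ ball c r := fun v hv => (hs hv.1).1
  obtain ⟨γ, k1, k2⟩ := limit_disc hZ hΦ hS (hin.mono fun t ht v hv => ht v (hS' hv))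
    (ha.mono fun t ht => (Ar_mono _ hS').trans ht) fun v hv => good v (hS' hv) fun h => (hs hv.1).2 ⟨h, hv.2⟩
  obtain ⟨γ', k3, k4⟩ := removable hρ (fun v hv => by
    obtain ⟨Ψ, a1, -, a2⟩ := k2 v hv
    exact (a1.an.comp (g := fun z => (z, z + u)) (by fun_prop)).congr a2) (k1.trans_lt ENNReal.ofReal_lt_top).ne
  obtain ⟨i, hi⟩ := 𝒰.cov (γ' c)
  obtain ⟨σ, hσ, hb⟩ := Metric.eventually_nhds_iff_ball.1 ((k3.eventually.and
    (k3.1.eventually ((𝒰.κ i).open_source.mem_nhds hi))).and ((eventually_nhdsWithin_iff.1 k4).and (ball_mem_nhds c hρ)))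
  obtain ⟨Ψ, k5, k6⟩ := diag_complete (u := u) (fun v hv => (hb v hv).1.1) fun v hv => (hb v hv).1.2
  obtain ⟨v, v1, v2⟩ := (Eventually.and (self_mem_nhdsWithin : ∀ᶠ v in 𝓝[≠] c, v ∈ ({c}ᶜ : Set ℂ))
    (mem_nhdsWithin_of_mem_nhds (ball_mem_nhds c hσ))).exists
  have v3 : v ∈ ball c ρ \ {c} := ⟨(hb v v2).2.2, v1⟩
  obtain ⟨Ψ', a1, a2, a3⟩ := k2 v v3
  have v4 : (v, v + u) ∈ ball (c, c + u) σ := by simpa [Prod.dist_eq] using v2
  have a4 : Ψ =ᶠ[𝓝 (v, v + u)] Ψ' := (k5 _ v4).diag_unique a1 (by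
    filter_upwards [a3, isOpen_ball.mem_nhds v2, isOpen_compl_singleton.mem_nhds v1] with z b1 b2 b3
    rw [k6 z b2, b1, (hb z b2).2.1 b3])
  have t1 : Tendsto (fun t : ℝ => (v, v + (u - t * e))) (𝓝[>] 0) (𝓝 (v, v + u)) :=
    tendsto_nhdsWithin_of_tendsto_nhds (by
      simpa [ContinuousAt] using (by fun_prop : ContinuousAt (fun t : ℝ => (v, v + (u - t * e))) 0))
  obtain ⟨t, b1, b2, b3⟩ := (hin.and (t1.eventually ((a4.and (eventually_nhdsWithin_iff.1 a2)).eventually_nhds.and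
    (isOpen_ball.mem_nhds v4)))).exists
  have b4 := b1 v (hS' v3)
  refine ext_of_convex hc hΦ (convex_ball _ _) (ball_mem_nhds _ hσ) k5 b4 b3 ?_
  filter_upwards [b2, hZ.mem_nhds b4] with x b5 b6
  exact b5.1.trans (b5.2 b6)

end UPA

end

end Crest.Agent.R266

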