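import Crest.Agent.R266.Defs

/-!
# Row 266: linear algebra and polynomial bookkeeping for the dimension count
-/

set_option autoImplicit false
set_option linter.unusedSectionVars false
set_option linter.unusedVariables false

namespace Crest.Agent.R266

open Set Metric Filter Topology MeasureTheory Polynomial
open scoped ENNReal Classical

noncomputable section

/-- `finrank (V j) ≤ finrank (V (j+1)) + (2s + 1 - 2j)` (rank-nullity for `Λ` restricted to `V j`; the range lies in the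
image of `degreeLT`), `∑_{j ≤ s} (2s + 1 - 2j) = (s+1)²`, so `V (s+1) ≠ ⊥`; and `V j ≤ V (j+1)` for `j > s`. -/
theorem filtration {W : Type} [AddCommGroup W] [Module ℂ W] [FiniteDimensional ℂ W] (V : ℕ → Submodule ℂ W)
    (s : ℕ) (h0 : V 0 = ⊤) (hanti : ∀ j, V (j + 1) ≤ V j)
    (h : ∀ j, ∃ Λ : W →ₗ[ℂ] (ℂ → ℂ), (∀ w ∈ V j, ∃ p ∈ Polynomial.degreeLT ℂ (2 * s + 1 - 2 * j), ∀ z, Λ w z = p.eval z) ∧
      ∀ w ∈ V j, Λ w = 0 → w ∈ V (j + 1))
    (hdim : (s + 1) ^ 2 < Module.finrank ℂ W) : ∃ w ≠ 0, ∀ j, w ∈ V j := by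
  have step : ∀ j, Module.finrank ℂ (V j) ≤ Module.finrank ℂ (V (j + 1)) + (2 * s + 1 - 2 * j) := fun j => by
    obtain ⟨Λ, h1, h2⟩ := h j
    let ev' : degreeLT ℂ (2 * s + 1 - 2 * j) →ₗ[ℂ] (ℂ → ℂ) :=
      (LinearMap.pi fun z => Polynomial.leval z) ∘ₗ (degreeLT ℂ (2 * s + 1 - 2 * j)).subtype
    have h3 := LinearMap.finrank_range_add_finrank_ker (Λ ∘ₗ (V j).subtype)
    have h4 : LinearMap.range (Λ ∘ₗ (V j).subtype) ≤ LinearMap.range ev' := by
      rintro _ ⟨w, rfl⟩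
      obtain ⟨p, hp, e⟩ := h1 w w.2
      exact ⟨⟨p, hp⟩, funext fun z => by simpa [ev'] using (e z).symm⟩
    have h5 : Module.finrank ℂ (degreeLT ℂ (2 * s + 1 - 2 * j)) = 2 * s + 1 - 2 * j := by
      rw [(degreeLTEquiv ℂ _).finrank_eq]; simp
    have h6 := (Submodule.finrank_mono h4).trans (LinearMap.finrank_range_le ev')
    have h7 : (LinearMap.ker (Λ ∘ₗ (V j).subtype)).map (V j).subtype ≤ V (j + 1) := by
      rintro _ ⟨w, hw, rfl⟩
      exact h2 w w.2 hw
    have h8 := Submodule.finrank_mono h7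
    rw [Submodule.finrank_map_subtype_eq] at h8
    omega
  have h1 : ∀ j, j ≤ s + 1 → Module.finrank ℂ W + j ^ 2 ≤ Module.finrank ℂ (V j) + 2 * (s + 1) * j := by
    intro j
    induction j with
    | zero => intro _; rw [h0]; simp
    | succ j ih =>
      intro hj
      have h2 := ih (by omega)
      have h3 := step j
      obtain ⟨e, he⟩ : ∃ e, 2 * s + 1 = 2 * j + e := ⟨2 * s + 1 - 2 * j, by omega⟩
      rw [show 2 * s + 1 - 2 * j = e by omega] at h3
      nlinarith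
  have h2 : 0 < Module.finrank ℂ (V (s + 1)) := by nlinarith [h1 (s + 1) le_rfl]
  obtain ⟨w, hw⟩ := Module.finrank_pos_iff_exists_ne_zero.1 h2
  refine ⟨w, fun h0 => hw (Subtype.ext h0), fun j => ?_⟩
  rcases le_total j (s + 1) with hj | hj
  · exact antitone_nat_of_succ_le hanti hj w.2
  · induction j, hj using Nat.le_induction with
    | base => exact w.2
    | succ j hj ih =>
      obtain ⟨Λ, h1, h2⟩ := h j
      obtain ⟨p, hp, e⟩ := h1 w ih
      rw [show 2 * s + 1 - 2 * j = 0 by omega, mem_degreeLT, Nat.cast_zero, Nat.WithBot.lt_zero_iff, degree_eq_bot] at hp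
      exact h2 w ih (funext fun z => by simp [e, hp])

theorem bi_add {m : ℕ} (a b : Fin (m + 1) × Fin (m + 1) → ℂ) (x : ℂ × ℂ) : bi (a + b) x = bi a x + bi b x := by
  simp [bi, add_mul, Finset.sum_add_distrib]

theorem bi_smul {m : ℕ} (c : ℂ) (a : Fin (m + 1) × Fin (m + 1) → ℂ) (x : ℂ × ℂ) : bi (c • a) x = c * bi a x := by
  simp [bi, Finset.mul_sum, mul_assoc]

theorem bi_analyticAt {m : ℕ} (a : Fin (m + 1) × Fin (m + 1) → ℂ) (x : ℂ × ℂ) : AnalyticAt ℂ (bi a) x := by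
  exact Finset.analyticAt_fun_sum _ fun s _ =>
    analyticAt_const.mul ((analyticAt_fst.pow _).mul ((analyticAt_fst.add analyticAt_snd).pow _))

/-- behaviour under the inversion -/
theorem bi_inv {m : ℕ} (a : Fin (m + 1) × Fin (m + 1) → ℂ) {x : ℂ × ℂ} (h₁ : x.1 ≠ 0) (h₂ : x.1 + x.2 ≠ 0) :
    bi (fun s => a (Fin.rev s.1, Fin.rev s.2)) x = x.1 ^ m * (x.1 + x.2) ^ m * bi a (inv2 x) := by
  rw [bi, bi, Finset.mul_sum, ← Equiv.sum_comp (Fin.revPerm.prodCongr Fin.revPerm)]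
  refine Finset.sum_congr rfl fun s _ => ?_
  simp only [inv2, add_sub_cancel, inv_pow, Equiv.prodCongr_apply, Prod.map_fst, Prod.map_snd, Fin.revPerm_apply,
    Fin.rev_rev, Fin.val_rev, Nat.add_sub_add_right]
  rw [pow_sub₀ _ h₁ (Nat.le_of_lt_succ s.1.2), pow_sub₀ _ h₂ (Nat.le_of_lt_succ s.2.2)]
  ring

/-- `p = ∑ s, C (C (a s) * X ^ s.1) * (C X + X) ^ s.2`; if `bi a = 0` then `a = 0` (`ev_eq_zero`-type argument in `w`,
then in `z`) -/
theorem bi_poly {m : ℕ} (a : Fin (m + 1) × Fin (m + 1) → ℂ) :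
    ∃ p : ℂ[X][X], (∀ x : ℂ × ℂ, p.evalEval x.1 x.2 = bi a x) ∧ (p = 0 → a = 0) := by
  have h1 : ∀ x : ℂ × ℂ, (∑ s : Fin (m + 1) × Fin (m + 1),
      C (C (a s) * X ^ (s.1 : ℕ)) * (C X + X) ^ (s.2 : ℕ) : ℂ[X][X]).evalEval x.1 x.2 = bi a x := fun x => by
    simp [bi, evalEval, eval_finsetSum, mul_assoc]
  refine ⟨_, h1, fun h0 => ?_⟩
  have key : ∀ c : Fin (m + 1) → ℂ, (∀ z : ℂ, ∑ i, c i * z ^ (i : ℕ) = 0) → c = 0 := fun c hc => by
    have h2 : (∑ i : Fin (m + 1), monomial i (c i) : ℂ[X]) = 0 := Polynomial.funext fun z => by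
      simpa [eval_finsetSum] using hc z
    ext i
    have := congrArg (coeff · i) h2
    simpa [finsetSum_coeff, coeff_monomial, Fin.val_inj] using this
  have h2 : ∀ z w : ℂ, ∑ t : Fin (m + 1), (∑ s : Fin (m + 1), a (s, t) * z ^ (s : ℕ)) * w ^ (t : ℕ) = 0 := fun z w => by
    have := h1 (z, w - z)
    rw [h0, bi, Fintype.sum_prod_type_right] at this
    simpa [Finset.sum_mul, mul_assoc] using this.symm
  ext ⟨s, t⟩
  exact congrFun (key (fun s => a (s, t)) fun z => congrFun (key _ (h2 z)) t) s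

theorem evalEval_analyticAt (p : ℂ[X][X]) (x : ℂ × ℂ) : AnalyticAt ℂ (fun y : ℂ × ℂ => p.evalEval y.1 y.2) x := by
  induction p using Polynomial.induction_on' with
  | add p q hp hq => simp only [evalEval_add]; exact hp.add hq
  | monomial n a =>
    have h1 : AnalyticAt ℂ (fun y : ℂ × ℂ => a.eval y.1) x :=
      (a.differentiable.analyticAt _).comp analyticAt_fst
    have h2 : AnalyticAt ℂ (fun y : ℂ × ℂ => a.eval y.1 * y.2 ^ n) x := h1.mul (analyticAt_snd.pow n)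
    simpa [evalEval, ← C_mul_X_pow_eq_monomial] using h2

end

end Crest.Agent.R266

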