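import Crest.Agent.R266.VarA

/-!
# Row 266: variations of tangent rational curves
-/

set_option autoImplicit false
set_option linter.unusedSectionVars false
set_option linter.unusedVariables false

namespace Crest.Agent.R266

open Set Metric Filter Topology MeasureTheory Polynomial
open scoped ENNReal Classical

noncomputable section

/-- `ν j =ᶠ J · (ν i)` near `z`; `(J ν)' = J ν' + D²ψ (g', ν)`; `dP_cov0` with `s = ν`, `g = g'`, `P g' = g'`; symmetry -/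
theorem SA.nab_cov {X E : Type} [TopologicalSpace X] [NormedAddCommGroup E] [NormedSpace ℂ E] [FiniteDimensional ℂ E]
    [CompleteSpace E] {𝒮 : SA X E} {γ : ℂ → X} {ν : 𝒮.ι → ℂ → E} {z : ℂ} (hγ : 𝒮.An γ z) (ht : 𝒮.Tan γ z)
    (hν : ∀ᶠ t in 𝓝 z, 𝒮.Sec γ ν t) {i j : 𝒮.ι} (hi : γ z ∈ (𝒮.κ i).source) (hj : γ z ∈ (𝒮.κ j).source) :
    𝒮.nab γ ν j z = 𝒮.toAtl.J i j (γ z) (𝒮.nab γ ν i z) := by
  have e0 : (𝒮.κ j ∘ (𝒮.κ i).symm) (𝒮.κ i (γ z)) = 𝒮.κ j (γ z) := by simp [(𝒮.κ i).left_inv hi]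
  have hψ := 𝒮.an i j _ hi hj
  have key := dP_cov0 hψ (𝒮.anP i _ ((𝒮.κ i).map_source hi)).differentiableAt
    (e0 ▸ (𝒮.anP j _ ((𝒮.κ j).map_source hj)).differentiableAt) (SA.cmp_ev hi hj)
  rw [e0] at key
  have hs := (hψ.contDiffAt (n := ⊤)).isSymmSndFDerivAt_of_omega
  have hc := 𝒮.cmpP i j _ hi hj
  have hid := 𝒮.idem j _ ((𝒮.κ j).map_source hj)
  have h1 : ν j =ᶠ[𝓝 z] fun t => fderiv ℂ (𝒮.κ j ∘ (𝒮.κ i).symm) ((𝒮.κ i ∘ γ) t) (ν i t) := by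
    filter_upwards [hν, hγ.1.eventually ((𝒮.κ i).open_source.mem_nhds hi),
      hγ.1.eventually ((𝒮.κ j).open_source.mem_nhds hj)] with t h2 h3 h4
    exact h2.2 i j h3 h4
  have h2 := ((hψ.fderiv.differentiableAt.hasFDerivAt.comp_hasDerivAt z
    (hγ.2 i hi).differentiableAt.hasDerivAt).clm_apply
      (hν.self_of_nhds.1 i hi).differentiableAt.hasDerivAt).deriv
  rw [SA.nab, SA.nab, h1.deriv_eq.trans h2, hν.self_of_nhds.2 i j hi hj, hγ.deriv_chart hi hj]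
  simp only [Atl.J] at hc ⊢
  rw [key, ht i hi, hs (deriv (𝒮.κ i ∘ γ) z)]
  simp [hc, hid]
  abel

namespace PA
variable {X E D : Type} {N : ℕ} [TopologicalSpace X] [T2Space X] [CompactSpace X] [Nonempty X]
  [NormedAddCommGroup E] [NormedSpace ℂ E] [FiniteDimensional ℂ E] [CompleteSpace E]
  [NormedAddCommGroup D] [NormedSpace ℂ D] {𝒬 : PA X E N}

/-- at infinity, with `g = κ i ∘ pt ∘ evi c`:
`(ζ⁻¹ - a)^2 • nab ν i ζ⁻¹ = - (1 - a ζ)^2 • (1 - P (g ζ)) (ν'' ζ - DP (g ζ) (ν' ζ) (g' ζ))` -/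
theorem GSec.nab {d : ℕ} {c : Fin (d + 1) → VV N} (hc : 𝒬.TCrv c) {ν : 𝒬.ι → ℂ → E} (h : 𝒬.GSec c ν) (a : ℂ) :
    𝒬.GSec c (fun i z => (z - a) ^ 2 • 𝒬.nab (fun t => 𝒬.pt (ev c t)) ν i z) := by
  have an : ∀ {i : 𝒬.ι} {g n : ℂ → E} {z : ℂ}, g z ∈ (𝒬.κ i).target → AnalyticAt ℂ g z →
      AnalyticAt ℂ n z → AnalyticAt ℂ (fun t => (1 - 𝒬.P i (g t))
        (deriv n t - fderiv ℂ (𝒬.P i) (g t) (n t) (deriv g t))) z := fun {i g n z} h1 h2 h3 =>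
    cov_clm_an (analyticAt_const.sub ((𝒬.anP i _ h1).comp h2))
      (h3.deriv.sub (cov_clm_an (cov_clm_an ((𝒬.anP i _ h1).fderiv.comp h2) h3) h2.deriv))
  refine ⟨fun z => ⟨fun i hi => ?_, fun i j hi hj => ?_⟩, ?_⟩
  · exact ((analyticAt_id.sub analyticAt_const).pow 2).smul
      (an ((𝒬.κ i).map_source hi) ((hc.1.an z).2 i hi) ((h.1 z).1 i hi))
  · simp only
    rw [SA.nab_cov (hc.1.an z) (hc.2 z) (Eventually.of_forall h.1) hi hj, map_smul]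
  obtain ⟨i, n, hi, hn, e⟩ := h.2
  have hi' : 𝒬.pt (evi c 0) ∈ (𝒬.κ i).source := (evi_zero c).symm ▸ hi
  have hg := (hc.1.an_evi 0).2 i hi'
  refine ⟨i, _, hi, (by fun_prop : AnalyticAt ℂ (fun ζ : ℂ => -(1 - a * ζ) ^ 2) 0).fun_smul
    (an ((𝒬.κ i).map_source hi') hg hn), ?_⟩
  filter_upwards [eventually_eventually_nhdsWithin.2 e, self_mem_nhdsWithin,
    nhdsWithin_le_nhds hg.eventually_analyticAt, nhdsWithin_le_nhds hn.eventually_analyticAt]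
    with ζ h1 (h0 : ζ ≠ 0) h2 h3
  rw [isOpen_compl_singleton.nhdsWithin_eq h0] at h1
  have hinv : HasDerivAt (fun t : ℂ => t⁻¹) (-ζ ^ 2) ζ⁻¹ := by
    simpa using hasDerivAt_inv (inv_ne_zero h0)
  have hd : ∀ {f f' : ℂ → E}, AnalyticAt ℂ f' ζ → (∀ᶠ t in 𝓝 ζ, f' t = f t⁻¹) →
      deriv f ζ⁻¹ = (-ζ ^ 2) • deriv f' ζ := fun {f f'} a1 a2 => by
    have a3 : f =ᶠ[𝓝 ζ⁻¹] f' ∘ fun t => t⁻¹ := by
      filter_upwards [hinv.continuousAt.eventually ((inv_inv ζ).symm ▸ a2)] with t ht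
      simpa using ht.symm
    rw [a3.deriv_eq]
    exact (a1.differentiableAt.hasDerivAt.scomp_of_eq _ hinv (inv_inv ζ).symm).deriv
  rw [SA.nab, hd h3 h1, ← h1.self_of_nhds, hd (f := 𝒬.κ i ∘ fun t => 𝒬.pt (ev c t)) h2 (by
    filter_upwards [isOpen_compl_singleton.mem_nhds h0] with t ht
    simp only [Function.comp, hc.1.pt_evi ht]), ← hc.1.pt_evi h0, map_smul, ← smul_sub, map_smul,
    smul_smul]
  congr 1
  field_simp

/-- the operator raises the order of vanishing by exactly one -/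
theorem nab_order {γ : ℂ → X} {ν : 𝒬.ι → ℂ → E} {a : ℂ} {i : 𝒬.ι} (hγ : 𝒬.An γ a) (hi : γ a ∈ (𝒬.κ i).source)
    {k : ℕ} {G : ℂ → E} (hG : AnalyticAt ℂ G a) (e : ∀ᶠ z in 𝓝 a, ν i z = (z - a) ^ (k + 1) • G z) :
    ∃ G' : ℂ → E, AnalyticAt ℂ G' a ∧ G' a = ((k : ℂ) + 1) • (1 - 𝒬.P i (𝒬.κ i (γ a))) (G a) ∧
      ∀ᶠ z in 𝓝 a, (z - a) ^ 2 • 𝒬.nab γ ν i z = (z - a) ^ (k + 2) • G' z := by
  have hg := hγ.2 i hi
  have hP := 𝒬.anP i _ ((𝒬.κ i).map_source hi)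
  refine ⟨fun z => (1 - 𝒬.P i (𝒬.κ i (γ z))) (((k : ℂ) + 1) • G z + (z - a) •
    (deriv G z - fderiv ℂ (𝒬.P i) (𝒬.κ i (γ z)) (G z) (deriv (𝒬.κ i ∘ γ) z))), ?_, by simp, ?_⟩
  · have h1 : AnalyticAt ℂ (fun z => fderiv ℂ (𝒬.P i) (𝒬.κ i (γ z)) (G z)) a :=
      (ContinuousLinearMap.apply ℂ (E →L[ℂ] E)).analyticAt_bilinear _ |>.comp₂ hG (hP.fderiv.comp_of_eq hg rfl)
    exact (ContinuousLinearMap.apply ℂ E).analyticAt_bilinear _ |>.comp₂ ((hG.const_smul (c := (k : ℂ) + 1)).add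
      ((analyticAt_id.sub analyticAt_const).smul (hG.deriv.sub
        ((ContinuousLinearMap.apply ℂ E).analyticAt_bilinear _ |>.comp₂ hg.deriv h1))))
      (analyticAt_const.sub (hP.comp_of_eq hg rfl))
  · filter_upwards [e.eventually_nhds, hG.eventually_analyticAt] with z hz hz'
    have h1 := ((((hasDerivAt_id z).sub_const a).pow (k + 1)).smul hz'.differentiableAt.hasDerivAt).deriv
    rw [SA.nab, EventuallyEq.deriv_eq hz, hz.self_of_nhds, show deriv (fun z => (z - a) ^ (k + 1) • G z) z = _ from h1,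
      ← map_smul, ← map_smul]
    congr 1
    simp only [map_smul, smul_apply, id, Nat.add_sub_cancel, Pi.pow_apply]
    push_cast
    module

theorem var_main_zero {G : ℂ → E} {a : ℂ} {n : ℕ} (hG : ContinuousAt G a) (e : ∀ᶠ z in 𝓝 a, (z - a) ^ n • G z = 0) :
    G a = 0 := by
  refine tendsto_nhds_unique (hG.tendsto.mono_left (nhdsWithin_le_nhds (s := {a}ᶜ))) (tendsto_const_nhds.congr' ?_)
  filter_upwards [nhdsWithin_le_nhds e, self_mem_nhdsWithin] with z hz hz'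
  exact ((smul_eq_zero_iff_right (pow_ne_zero n (sub_ne_zero.2 hz'))).1 hz).symm

/-- `s = (1 - P) ν` (`GSec.proj`).  If `s i =ᶠ 0` near `a` use `eq_zero_of_order`.  Otherwise `s i = (z - a)^(k+1) G`,
`(1 - P) (G a) = G a ≠ 0`; iterating `GSec.nab`, `nab_order` gives global fields of arbitrarily large exact order,
contradicting `eq_zero_of_order`. -/
theorem var_main {d : ℕ} {c : Fin (d + 1) → VV N} (hc : 𝒬.TCrv c) {ν : 𝒬.ι → ℂ → E} (h : 𝒬.GSec c ν) {a : ℂ}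
    {i : 𝒬.ι} (hi : 𝒬.pt (ev c a) ∈ (𝒬.κ i).source) (h0 : 𝒬.P i (𝒬.κ i (𝒬.pt (ev c a))) (ν i a) = ν i a) :
    ∀ z j, 𝒬.pt (ev c z) ∈ (𝒬.κ j).source → 𝒬.P j (𝒬.κ j (𝒬.pt (ev c z))) (ν j z) = ν j z := by
  have hγ := hc.1.an a
  have hs := hγ.1.eventually ((𝒬.κ i).open_source.mem_nhds hi)
  have hQ : ∀ y ∈ (𝒬.κ i).target, ∀ v, (1 - 𝒬.P i y) ((1 - 𝒬.P i y) v) = (1 - 𝒬.P i y) v := 𝒬.swap.idem i
  have key : ∀ (m k : ℕ) (ν : 𝒬.ι → ℂ → E) (G : ℂ → E), 2 * d ≤ k + m → 𝒬.GSec c ν → AnalyticAt ℂ G a →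
      (∀ᶠ z in 𝓝 a, ν i z = (z - a) ^ (k + 1) • G z) → (1 - 𝒬.P i (𝒬.κ i (𝒬.pt (ev c a)))) (G a) = 0 := by
    intro m
    induction m with
    | zero =>
      intro k ν G hk hν hG e
      obtain ⟨l, rfl⟩ := Nat.exists_eq_add_of_le' hk
      have := hν.eq_zero_of_order hc.1 hi (((analyticAt_id.sub (analyticAt_const (v := a))).pow l).smul hG)
        (e.mono fun z hz => by simp [hz, smul_smul, ← pow_add, add_comm, add_left_comm])
      rw [var_main_zero hG.continuousAt ((e.and hs).mono fun z hz => hz.1.symm.trans (this z i hz.2)), map_zero]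
    | succ m ih =>
      intro k ν G hk hν hG e
      obtain ⟨G', hG', e1, e2⟩ := nab_order hγ hi hG e
      have := ih (k + 1) _ G' (by omega) (hν.nab hc a) hG' e2
      rw [e1, map_smul, hQ _ ((𝒬.κ i).map_source hi)] at this
      exact (smul_eq_zero_iff_right (Nat.cast_add_one_ne_zero k)).1 this
  have h1 := h.proj hc.1
  suffices ∀ᶠ z in 𝓝 a, (1 - 𝒬.P i (𝒬.κ i (𝒬.pt (ev c z)))) (ν i z) = 0 from fun z j hj =>
    (sub_eq_zero.1 (h1.eq_zero_of_order hc.1 hi (G := fun _ => 0) analyticAt_const (by simpa using this) z j hj)).symm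
  by_contra hn
  obtain ⟨n, G, hG, hG0, e⟩ := ((h1.1 a).1 i hi).exists_eventuallyEq_pow_smul_nonzero_iff.2 hn
  rcases n with _ | k
  · exact hG0 (by simpa [h0] using e.self_of_nhds.symm)
  have hP := (𝒬.anP i _ ((𝒬.κ i).map_source hi)).comp_of_eq (hγ.2 i hi) rfl
  have := var_main_zero (n := k + 1) ((((continuousAt_const (y := 1)).sub hP.continuousAt).clm_apply
    hG.continuousAt).sub hG.continuousAt) ((e.and hs).mono fun z hz => by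
      have := hQ _ ((𝒬.κ i).map_source hz.2) (ν i z)
      rw [show (1 - 𝒬.P i _) (ν i z) = _ from hz.1, map_smul] at this
      exact (smul_sub ..).trans (sub_eq_zero.2 this))
  exact hG0 ((sub_eq_zero.1 this).symm.trans (key (2 * d) k _ G (by omega) h1 hG e))

/-- `variation_GSec`, `var_main` -/
theorem var_family {d : ℕ} {σ : D → Fin (d + 1) → VV N} {t₀ : D} (hσ : AnalyticAt ℂ σ t₀)
    (h : ∀ᶠ t in 𝓝 t₀, 𝒬.TCrv (σ t)) (τ : D) {a z : ℂ} {i j : 𝒬.ι} (hi : 𝒬.pt (ev (σ t₀) a) ∈ (𝒬.κ i).source)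
    (hj : 𝒬.pt (ev (σ t₀) z) ∈ (𝒬.κ j).source)
    (h0 : 𝒬.P i (𝒬.κ i (𝒬.pt (ev (σ t₀) a))) (fderiv ℂ (fun t => 𝒬.κ i (𝒬.pt (ev (σ t) a))) t₀ τ) =
      fderiv ℂ (fun t => 𝒬.κ i (𝒬.pt (ev (σ t) a))) t₀ τ) :
    𝒬.P j (𝒬.κ j (𝒬.pt (ev (σ t₀) z))) (fderiv ℂ (fun t => 𝒬.κ j (𝒬.pt (ev (σ t) z))) t₀ τ) =
      fderiv ℂ (fun t => 𝒬.κ j (𝒬.pt (ev (σ t) z))) t₀ τ :=
  var_main h.self_of_nhds (variation_GSec hσ (h.mono fun _ ht => ht.1) τ) hi h0 z j hj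

end PA

end

end Crest.Agent.R266

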