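import Crest.Agent.R266.NonNull
import Crest.Agent.R266.VarB

/-!
# Row 266: the middle point of a family of chains
-/

set_option autoImplicit false
set_option linter.unusedSectionVars false
set_option linter.unusedVariables false

namespace Crest.Agent.R266

open Set Metric Filter Topology MeasureTheory Polynomial
open scoped ENNReal Classical

noncomputable section

theorem th_zero_of_middle_aux {E : Type} [NormedAddCommGroup E] [NormedSpace ℂ E] [CompleteSpace E]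
    {P : E → E →L[ℂ] E} {b : E × E → E} {t : E × E} (hb : AnalyticAt ℂ b t) (hP : DifferentiableAt ℂ P (b t))
    (hi : ∀ a, P (b t) (P (b t) a) = P (b t) a) (L : E →L[ℂ] E × E)
    (h : ∀ᶠ s in 𝓝 t, ∀ v, P (b s) (fderiv ℂ b s (L v)) = fderiv ℂ b s (L v))
    (hr : ∀ a, ∃ v, fderiv ℂ b t (L v) = P (b t) a) (a a' : E) : th P (b t) a a' = 0 := by
  have hg : AnalyticAt ℂ (fun y => t + L y) 0 := analyticAt_const.add (L.analyticAt 0)
  have e : t + L 0 = t := by simp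
  have hT : Tendsto (fun y => t + L y) (𝓝 0) (𝓝 t) := by simpa only [ContinuousAt, e] using hg.continuousAt
  have hd : ∀ᶠ y in 𝓝 0, ∀ v, fderiv ℂ (fun y => b (t + L y)) y v = fderiv ℂ b (t + L y) (L v) := by
    filter_upwards [hT.eventually hb.eventually_analyticAt] with y hy v
    exact congrArg (fun M => M v) (hy.differentiableAt.hasFDerivAt.comp y (L.hasFDerivAt.const_add t)).fderiv
  have := th_zero_of_slice (P := P) (β := fun y => b (t + L y)) (t := 0) (hb.comp_of_eq hg e) (by rwa [e])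
    (by rwa [e]) ?_ (fun a => ?_) a a'
  · rwa [e] at this
  · filter_upwards [hd, hT.eventually h] with y h1 h2 v
    rw [h1, h2]
  · simpa only [hd.self_of_nhds, e] using hr a

/-- For `t` near `t₀`: `th_zero_of_slice` for `y ↦ b (t.1, y)` and for `x ↦ b (x, t.2)` (with `1 - P`).  The derivative of
`b` at `t₀` is onto (`a = P a + (1 - P) a`), so `map b (𝓝 t₀) = 𝓝 (b t₀)` (`HasStrictFDerivAt.map_nhds_eq_of_surj`). -/
theorem th_zero_of_middle {E : Type} [NormedAddCommGroup E] [NormedSpace ℂ E] [FiniteDimensional ℂ E] [CompleteSpace E]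
    {P : E → E →L[ℂ] E} {b : E × E → E} {t₀ : E × E} (hb : AnalyticAt ℂ b t₀) (hP : AnalyticAt ℂ P (b t₀))
    (hi : ∀ᶠ y in 𝓝 (b t₀), ∀ v, P y (P y v) = P y v)
    (h : ∀ᶠ t in 𝓝 t₀, (∀ v, P (b t) (fderiv ℂ b t (0, v)) = fderiv ℂ b t (0, v)) ∧
      (∀ u, P (b t) (fderiv ℂ b t (u, 0)) = 0) ∧ (∀ a, ∃ v, fderiv ℂ b t (0, v) = P (b t) a) ∧
      ∀ a, ∃ u, fderiv ℂ b t (u, 0) = (1 - P (b t)) a) :
    ∀ᶠ y in 𝓝 (b t₀), (∀ a a', th P y a a' = 0) ∧ ∀ a a', th (fun z => 1 - P z) y a a' = 0 := by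
  have hs : (fderiv ℂ b t₀).range = ⊤ := by
    refine LinearMap.range_eq_top.2 fun a => ?_
    obtain ⟨v, hv⟩ := h.self_of_nhds.2.2.1 a
    obtain ⟨u, hu⟩ := h.self_of_nhds.2.2.2 a
    refine ⟨(0, v) + (u, 0), ?_⟩
    rw [map_add]
    exact (congrArg₂ (· + ·) hv hu).trans (by simp)
  rw [← hb.hasStrictFDerivAt.map_nhds_eq_of_surj hs, eventually_map]
  filter_upwards [hb.eventually_analyticAt, hb.continuousAt.eventually hP.eventually_analyticAt,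
    hb.continuousAt.eventually hi, h.eventually_nhds] with t h1 h2 h3 h4
  exact ⟨th_zero_of_middle_aux h1 h2.differentiableAt h3 (ContinuousLinearMap.inr ℂ E E) (h4.mono fun s hs => hs.1)
    h4.self_of_nhds.2.2.1, th_zero_of_middle_aux (P := fun z => 1 - P z) h1
      ((differentiableAt_const _).sub h2.differentiableAt) (fun a => by simp [h3]) (ContinuousLinearMap.inl ℂ E E)
      (h4.mono fun s hs v => by simp [hs.2.1]) h4.self_of_nhds.2.2.2⟩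

namespace PA
variable {X E D : Type} {N : ℕ} [TopologicalSpace X] [T2Space X] [CompactSpace X] [Nonempty X]
  [NormedAddCommGroup E] [NormedSpace ℂ E] [FiniteDimensional ℂ E] [CompleteSpace E]
  [NormedAddCommGroup D] [NormedSpace ℂ D] {𝒬 : PA X E N}

/-- `b t = κ k (pt (ev (σ t).1 1)) = κ k (pt (ev (σ t).2 0))`.  Four applications of `var_family` at every `t` near `t₀`
(to `(σ ·).1` for `𝒬`, to `(σ ·).2` for `𝒬.swap`; the end point maps are `fst`, `snd` near `t`):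
`Db (0,v) ∈ E₁`; `Db (u,0) ∈ E₂`; `Db (0,v) = 0 → P v = 0`; `Db (u,0) = 0 → (1 - P) u = 0`.
Then `range_of_rank` with `SA.rank_const` (for `𝒬.toSA` and its `swap`), `th_zero_of_middle`, `SA.int_of_open`. -/
theorem int_of_family [PreconnectedSpace X] {i j : 𝒬.ι} {d e : ℕ} {t₀ : E × E}
    {σ : E × E → (Fin (d + 1) → VV N) × (Fin (e + 1) → VV N)} (hσ : AnalyticAt ℂ σ t₀)
    (h : ∀ᶠ t in 𝓝 t₀, 𝒬.Chn (σ t) ∧ 𝒬.pt (ev (σ t).1 0) ∈ (𝒬.κ i).source ∧ 𝒬.pt (ev (σ t).2 1) ∈ (𝒬.κ j).source ∧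
      (𝒬.κ i (𝒬.pt (ev (σ t).1 0)), 𝒬.κ j (𝒬.pt (ev (σ t).2 1))) = t) : 𝒬.toSA.Int ∧ 𝒬.toSA.swap.Int := by
  obtain ⟨k, hk⟩ := 𝒬.cov (𝒬.pt (ev (σ t₀).1 1))
  have h1 : AnalyticAt ℂ (fun t => (σ t).1) t₀ := analyticAt_fst.comp hσ
  have h2 : AnalyticAt ℂ (fun t => (σ t).2) t₀ := analyticAt_snd.comp hσ
  have hm : 𝒬.An (fun t => 𝒬.pt (ev (σ t).1 1)) t₀ :=
    An_pt ((ev_analytic ((σ t₀).1, (1 : ℂ))).comp_of_eq (h1.prod analyticAt_const) rfl)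
      (h.mono fun t ht => ht.1.1.1.1 1)
  have hb : AnalyticAt ℂ (fun t => 𝒬.κ k (𝒬.pt (ev (σ t).1 1))) t₀ := hm.2 k hk
  have ht := (𝒬.κ k).map_source hk
  have key := th_zero_of_middle (P := 𝒬.P k) hb (𝒬.anP k _ ht)
    (mem_of_superset ((𝒬.κ k).open_target.mem_nhds ht) fun y hy => 𝒬.idem k y hy) ?_
  · exact ⟨SA.int_of_open ht (key.mono fun y hy => hy.1),
      SA.int_of_open (𝒮 := 𝒬.toSA.swap) (i := k) ht (key.mono fun y hy => hy.2)⟩
  filter_upwards [h.eventually_nhds, h1.eventually_analyticAt, h2.eventually_analyticAt,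
    hm.1.eventually ((𝒬.κ k).open_source.mem_nhds hk)] with t H a1 a2 hk
  obtain ⟨c, hi, hj, -⟩ := H.self_of_nhds
  have hk' : 𝒬.pt (ev (σ t).2 0) ∈ (𝒬.κ k).source := c.2.2 ▸ hk
  have d1 : fderiv ℂ (fun t => 𝒬.κ i (𝒬.pt (ev (σ t).1 0))) t = ContinuousLinearMap.fst ℂ E E :=
    (EventuallyEq.fderiv_eq (H.mono fun s hs => congrArg Prod.fst hs.2.2.2)).trans fderiv_fst
  have d2 : fderiv ℂ (fun t => 𝒬.κ j (𝒬.pt (ev (σ t).2 1))) t = ContinuousLinearMap.snd ℂ E E :=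
    (EventuallyEq.fderiv_eq (H.mono fun s hs => congrArg Prod.snd hs.2.2.2)).trans fderiv_snd
  have d3 : fderiv ℂ (fun t => 𝒬.κ k (𝒬.pt (ev (σ t).2 0))) t =
      fderiv ℂ (fun t => 𝒬.κ k (𝒬.pt (ev (σ t).1 1))) t :=
    EventuallyEq.fderiv_eq (H.mono fun s hs => by simp only [hs.1.2.2])
  have v1 := fun τ => var_family a1 (H.mono fun s hs => hs.1.1) τ hi hk
  have v2 := fun τ => var_family a1 (H.mono fun s hs => hs.1.1) τ hk hi
  have v3 : ∀ τ, (1 - 𝒬.P j (𝒬.κ j (𝒬.pt (ev (σ t).2 1)))) (fderiv ℂ (fun t => 𝒬.κ j (𝒬.pt (ev (σ t).2 1))) t τ) =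
      fderiv ℂ (fun t => 𝒬.κ j (𝒬.pt (ev (σ t).2 1))) t τ →
      (1 - 𝒬.P k (𝒬.κ k (𝒬.pt (ev (σ t).2 0)))) (fderiv ℂ (fun t => 𝒬.κ k (𝒬.pt (ev (σ t).2 0))) t τ) =
      fderiv ℂ (fun t => 𝒬.κ k (𝒬.pt (ev (σ t).2 0))) t τ :=
    fun τ => var_family (𝒬 := 𝒬.swap) (i := j) (j := k) a2 (H.mono fun s hs => hs.1.2.1) τ hj hk'
  have v4 : ∀ τ, (1 - 𝒬.P k (𝒬.κ k (𝒬.pt (ev (σ t).2 0)))) (fderiv ℂ (fun t => 𝒬.κ k (𝒬.pt (ev (σ t).2 0))) t τ) =
      fderiv ℂ (fun t => 𝒬.κ k (𝒬.pt (ev (σ t).2 0))) t τ →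
      (1 - 𝒬.P j (𝒬.κ j (𝒬.pt (ev (σ t).2 1)))) (fderiv ℂ (fun t => 𝒬.κ j (𝒬.pt (ev (σ t).2 1))) t τ) =
      fderiv ℂ (fun t => 𝒬.κ j (𝒬.pt (ev (σ t).2 1))) t τ :=
    fun τ => var_family (𝒬 := 𝒬.swap) (i := k) (j := j) a2 (H.mono fun s hs => hs.1.2.1) τ hk' hj
  rw [d1] at v1 v2
  rw [d2, d3, ← c.2.2] at v3
  rw [d2, d3, ← c.2.2] at v4
  generalize fderiv ℂ (fun t => 𝒬.κ k (𝒬.pt (ev (σ t).1 1))) t = B at v1 v2 v3 v4 ⊢
  have w1 := fun v => v1 (0, v) (by simp)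
  have w2 := fun u => v3 (u, 0) (by simp)
  refine ⟨w1, fun u => by simpa using w2 u, ?_, ?_⟩
  · exact range_of_rank (L := B.comp (ContinuousLinearMap.inr ℂ E E))
      w1 (fun v hv => by simpa using v4 (0, v) (by rw [show B (0, v) = 0 from hv, map_zero]))
      (SA.rank_const (𝒮 := 𝒬.toSA) hj hk)
  · exact range_of_rank (L := B.comp (ContinuousLinearMap.inl ℂ E E))
      (Q' := 1 - 𝒬.P i (𝒬.κ i (𝒬.pt (ev (σ t).1 0)))) w2
      (fun u hu => sub_eq_zero.2 (v2 (u, 0) (by rw [show B (u, 0) = 0 from hu, map_zero])).symm)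
      (SA.rank_const (𝒮 := 𝒬.toSA.swap) (i := i) (j := k) hi hk)

end PA

end

end Crest.Agent.R266

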