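import Crest.Agent.R266.SCV

/-!
# Row 266: a solution along rays solves the total differential equation
-/

set_option autoImplicit false
set_option linter.unusedSectionVars false
set_option linter.unusedVariables false

namespace Crest.Agent.R266

open Set Metric Filter Topology MeasureTheory Polynomial
open scoped ENNReal Classical

noncomputable section

variable {E : Type} [NormedAddCommGroup E] [NormedSpace ℂ E] [FiniteDimensional ℂ E] [CompleteSpace E]

theorem frob_ray_deriv {S : E → E →L[ℂ] E} {Y : E × E → E} {a b c : E} {τ : ℂ}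
    (hS : AnalyticAt ℂ S (Y (τ • a, b))) (hY : AnalyticAt ℂ Y (τ • a, b))
    (hc : ∀ a' c', fderiv ℂ S (Y (τ • a, b)) (S (Y (τ • a, b)) a') c' =
      fderiv ℂ S (Y (τ • a, b)) (S (Y (τ • a, b)) c') a')
    (he : ∀ᶠ p in 𝓝 (τ • a, b), fderiv ℂ Y p (p.1, 0) = S (Y p) p.1) :
    HasDerivAt (fun σ : ℂ => σ • (fderiv ℂ Y (σ • a, b) (c, 0) - S (Y (σ • a, b)) c))
      (fderiv ℂ S (Y (τ • a, b)) (τ • (fderiv ℂ Y (τ • a, b) (c, 0) - S (Y (τ • a, b)) c)) a) τ := by
  set q : E × E := (τ • a, b) with hq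
  have h1 : HasFDerivAt Y (fderiv ℂ Y q) q := hY.differentiableAt.hasFDerivAt
  have h2 : HasFDerivAt (fderiv ℂ Y) (fderiv ℂ (fderiv ℂ Y) q) q := hY.fderiv.differentiableAt.hasFDerivAt
  have h3 : HasFDerivAt (fun p => S (Y p)) ((fderiv ℂ S (Y q)).comp (fderiv ℂ Y q)) q :=
    hS.differentiableAt.hasFDerivAt.comp q h1
  have h4 : HasFDerivAt (fun p : E × E => ((p.1, 0) : E × E))
      ((ContinuousLinearMap.fst ℂ E E).prod 0) q := hasFDerivAt_fst.prodMk (hasFDerivAt_const _ _)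
  have h5 := (h2.clm_apply h4).unique
    ((h3.clm_apply hasFDerivAt_fst).congr_of_eventuallyEq he)
  have h6 := DFunLike.congr_fun h5 (c, 0)
  simp only [_root_.add_apply, ContinuousLinearMap.comp_apply, ContinuousLinearMap.prod_apply,
    ContinuousLinearMap.coe_fst', _root_.zero_apply, ContinuousLinearMap.flip_apply] at h6
  have h7 : fderiv ℂ (fderiv ℂ Y) q (c, 0) (q.1, 0) = fderiv ℂ (fderiv ℂ Y) q (q.1, 0) (c, 0) :=
    (hY.contDiffAt (n := ⊤)).isSymmSndFDerivAt le_top _ _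
  have h8 : fderiv ℂ Y q (q.1, 0) = S (Y q) q.1 := he.self_of_nhds
  have hl : HasDerivAt (fun σ : ℂ => ((σ • a, b) : E × E)) (a, 0) τ := by
    simpa using ((hasDerivAt_id τ).smul_const a).prodMk (hasDerivAt_const τ b)
  have h9 := (h2.comp_hasDerivAt τ hl).clm_apply (hasDerivAt_const τ ((c, 0) : E × E))
  have h10 := (h3.comp_hasDerivAt τ hl).clm_apply (hasDerivAt_const τ c)
  have h11 := (hasDerivAt_id τ).smul (h9.sub h10)
  refine h11.congr_deriv ?_
  have e1 : ((q.1, 0) : E × E) = τ • (a, 0) := by simp [hq]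
  have e2 : q.1 = τ • a := rfl
  have e3 := hc q.1 c
  rw [← h8, e1] at e3
  rw [h7, e1] at h6
  rw [e2] at e3 h6
  simp only [map_smul, _root_.smul_apply] at e3 h6
  simp only [map_zero, add_zero, id, one_smul, Function.comp, Pi.sub_apply, ContinuousLinearMap.comp_apply,
    map_smul, map_sub, _root_.smul_apply, _root_.sub_apply, smul_sub, ← hq]
  linear_combination (norm := module) h6 - e3

/-- For `p = (a, b)` put `w t = t • (DY (t a, b) (c, 0) - S (Y (t a, b)) c)`, `t ∈ [0, 1]` real.  Differentiating the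
Euler identity at `(t a, b)` in the direction `(c, 0)` gives
`t D²Y (c,0) (a,0) + DY (c,0) = t DS [DY (c,0)] a + S c`; with the symmetry of `D²Y` (`osgood`) and `hc`,
`w' t = DS (Y (t a, b)) (w t) a`.  Gronwall (`norm_le_gronwallBound_of_norm_deriv_right_le`) gives `w 1 = 0`. -/
theorem frob_ray {S : E → E →L[ℂ] E} {N : Set E} (hS : AnalyticOnNhd ℂ S N)
    (hc : ∀ y ∈ N, ∀ a c, fderiv ℂ S y (S y a) c = fderiv ℂ S y (S y c) a) {y₀ : E} {r : ℝ} {Y : E × E → E}
    (hY : DifferentiableOn ℂ Y (ball (0, y₀) r)) (hm : MapsTo Y (ball (0, y₀) r) N)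
    (he : ∀ p ∈ ball ((0 : E), y₀) r, fderiv ℂ Y p (p.1, 0) = S (Y p) p.1) :
    ∀ p ∈ ball ((0 : E), y₀) r, ∀ c, fderiv ℂ Y p (c, 0) = S (Y p) c := by
  rintro ⟨a, b⟩ hp c
  have hA := osgood isOpen_ball hY
  have hq : ∀ t ∈ Icc (0 : ℝ) 1, (((t : ℂ) • a, b) : E × E) ∈ ball ((0 : E), y₀) r := fun t ht => by
    rw [mem_ball, Prod.dist_eq, max_lt_iff] at hp ⊢
    refine ⟨lt_of_le_of_lt ?_ hp.1, hp.2⟩
    simp only [dist_zero_right, norm_smul, Complex.norm_real, Real.norm_eq_abs, abs_of_nonneg ht.1]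
    exact mul_le_of_le_one_left (norm_nonneg _) ht.2
  let w : ℝ → E := fun t => (t : ℂ) • (fderiv ℂ Y ((t : ℂ) • a, b) (c, 0) - S (Y ((t : ℂ) • a, b)) c)
  have hw : ∀ t ∈ Icc (0 : ℝ) 1, HasDerivAt w (fderiv ℂ S (Y ((t : ℂ) • a, b)) (w t) a) t := fun t ht => by
    have h := frob_ray_deriv (c := c) (hS _ (hm (hq t ht))) (hA _ (hq t ht)) (hc _ (hm (hq t ht)))
      (Filter.eventually_of_mem (isOpen_ball.mem_nhds (hq t ht)) he)
    have h' := h.scomp t Complex.ofRealCLM.hasDerivAt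
    rw [Complex.ofRealCLM_apply, Complex.ofReal_one, one_smul] at h'
    exact h'
  have hcont : ContinuousOn (fun t : ℝ => fderiv ℂ S (Y ((t : ℂ) • a, b))) (Icc 0 1) := fun t ht => by
    refine ContinuousAt.continuousWithinAt ?_
    have h1 : ContinuousAt (fun t : ℝ => (((t : ℂ) • a, b) : E × E)) t := by fun_prop
    have h2 : ContinuousAt (fun t : ℝ => Y ((t : ℂ) • a, b)) t :=
      ContinuousAt.comp (g := Y) (hA _ (hq t ht)).continuousAt h1
    exact ContinuousAt.comp (g := fderiv ℂ S) (hS _ (hm (hq t ht))).fderiv.continuousAt h2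
  obtain ⟨K, hK⟩ := IsCompact.exists_bound_of_continuousOn (E := E →L[ℂ] E →L[ℂ] E) isCompact_Icc hcont
  have h0 := eq_zero_of_abs_deriv_le_mul_abs_self_of_eq_zero_right (f := w) (K := K * ‖a‖) (a := 0) (b := 1)
    (fun t ht => (hw t ht).continuousAt.continuousWithinAt)
    (fun t ht => (hw t (Ico_subset_Icc_self ht)).hasDerivWithinAt) (by simp [w])
    (fun t ht => by
      refine (ContinuousLinearMap.le_opNorm₂ _ _ _).trans ?_
      have := hK t (Ico_subset_Icc_self ht)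
      calc _ ≤ K * ‖w t‖ * ‖a‖ := by gcongr
        _ = _ := by ring) 1 (by simp)
  simpa [w, sub_eq_zero] using h0

end

end Crest.Agent.R266

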