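import Crest.Agent.R266.Ray
import Crest.Agent.R266.FrobRay
import Crest.Agent.R266.Cov

/-!
# Row 266: holomorphic Frobenius theorem
-/

set_option autoImplicit false
set_option linter.unusedSectionVars false
set_option linter.unusedVariables false

namespace Crest.Agent.R266

open Set Metric Filter Topology MeasureTheory Polynomial
open scoped ENNReal Classical

noncomputable section

variable {E : Type} [NormedAddCommGroup E] [NormedSpace ℂ E] [FiniteDimensional ℂ E] [CompleteSpace E]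

theorem graph_field_unit {T : E → E →L[ℂ] E} {y₀ : E} (hT : ContinuousAt T y₀) (h1 : T y₀ = 1) :
    ∀ᶠ y in 𝓝 y₀, IsUnit (T y) := by
  have h : {A : E →L[ℂ] E | IsUnit A} ∈ 𝓝 (T y₀) := by
    rw [h1]
    exact Units.isOpen.mem_nhds isUnit_one
  exact hT h

theorem graph_field_inj {R : E →L[ℂ] E} (hR : IsUnit R) {u : E} (h : R u = 0) : u = 0 := by
  have h1 : (Ring.inverse R * R) u = u := by rw [Ring.inverse_mul_cancel _ hR]; rfl
  rw [← h1, ContinuousLinearMap.mul_apply, h, map_zero]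

/-- With `π = P y₀`, `T y = π * P y + (1 - π)` (`T y₀ = 1`), `S y = P y * Ring.inverse (T y) * π`
(`analyticAt_inverse`).  From `T b = π a` get `(1 - π) b = 0`, `π P b = π a`.  For the last clause: `P y` is
injective on `range π` hence... directly: if `P y v = v` put `u = S y v - v`; `P y u = u`, `π u = 0`; the operator
`R y = π + (1 - P y)` is invertible near `y₀` (`R y₀ = 1`) and `R y u = 0`.  Commutation: the bracket `u` of the fields
`S · a`, `S · c` satisfies `π u = 0` (differentiate `π (S y a) = π a`) and `(1 - P y) u = th = 0` (`bracket_th`). -/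
theorem graph_field {P : E → E →L[ℂ] E} {y₀ : E} (hP : AnalyticAt ℂ P y₀)
    (hi : ∀ᶠ y in 𝓝 y₀, ∀ v, P y (P y v) = P y v) (ht : ∀ᶠ y in 𝓝 y₀, ∀ a b, th P y a b = 0) :
    ∃ S : E → E →L[ℂ] E, AnalyticAt ℂ S y₀ ∧ S y₀ = P y₀ ∧ ∀ᶠ y in 𝓝 y₀,
      (∀ a, P y₀ (S y a) = P y₀ a) ∧ (∀ v, S y (P y₀ (P y v)) = P y v) ∧
      ∀ a c, fderiv ℂ S y (S y a) c = fderiv ℂ S y (S y c) a := by
  have hπ : ∀ v, P y₀ (P y₀ v) = P y₀ v := hi.self_of_nhds
  have hππ : P y₀ * P y₀ = P y₀ := ContinuousLinearMap.ext hπ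
  let T : E → E →L[ℂ] E := fun y => P y₀ * P y + (1 - P y₀)
  let R : E → E →L[ℂ] E := fun y => P y₀ + (1 - P y)
  have hTa : AnalyticAt ℂ T y₀ := (analyticAt_const.mul hP).add analyticAt_const
  have hRa : AnalyticAt ℂ R y₀ := analyticAt_const.add (analyticAt_const.sub hP)
  have hT1 : T y₀ = 1 := by simp only [T, hππ]; abel
  have hR1 : R y₀ = 1 := by simp only [R]; abel
  have hTu := graph_field_unit hTa.continuousAt hT1
  have hRu := graph_field_unit hRa.continuousAt hR1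
  let S : E → E →L[ℂ] E := fun y => P y * Ring.inverse (T y) * P y₀
  have hinv : AnalyticAt ℂ (fun y => Ring.inverse (T y)) y₀ := by
    have h : AnalyticAt ℂ (Ring.inverse : (E →L[ℂ] E) → (E →L[ℂ] E)) (T y₀) := by
      rw [hT1]
      exact analyticAt_inverse (𝕜 := ℂ) (1 : (E →L[ℂ] E)ˣ)
    exact h.comp hTa
  have hSa : AnalyticAt ℂ S y₀ := (hP.mul hinv).mul analyticAt_const
  have hA : ∀ᶠ y in 𝓝 y₀, ∀ a, P y₀ (S y a) = P y₀ a := by
    filter_upwards [hTu] with y hy a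
    have h1 : (T y * Ring.inverse (T y)) (P y₀ a) = P y₀ a := by
      rw [Ring.mul_inverse_cancel _ hy]; rfl
    have h2 := congrArg (P y₀) h1
    simp only [T, ContinuousLinearMap.mul_apply, ContinuousLinearMap.add_apply, ContinuousLinearMap.sub_apply,
      ContinuousLinearMap.one_apply, map_add, map_sub, hπ, sub_self, add_zero] at h2
    exact h2
  have hB : ∀ᶠ y in 𝓝 y₀, ∀ a, P y (S y a) = S y a := by
    filter_upwards [hi] with y hy a
    exact hy _
  refine ⟨S, hSa, ?_, ?_⟩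
  · simp only [S, hT1, Ring.inverse_one, mul_one, hππ]
  filter_upwards [hA.eventually_nhds, hB.eventually_nhds, hi, ht, hRu, hP.eventually_analyticAt,
    hSa.eventually_analyticAt] with y hA hB hi ht hRu hP hS
  refine ⟨hA.self_of_nhds, fun v => ?_, fun a c => ?_⟩
  · rw [← sub_eq_zero]
    refine graph_field_inj hRu ?_
    simp only [R, ContinuousLinearMap.add_apply, ContinuousLinearMap.sub_apply, ContinuousLinearMap.one_apply,
      map_sub, hA.self_of_nhds, hB.self_of_nhds, hπ, hi, sub_self, add_zero]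
  · have hd : ∀ b, HasFDerivAt (fun z => S z b) ((fderiv ℂ S y).flip b) y := fun b => by
      simpa using hS.differentiableAt.hasFDerivAt.clm_apply (hasFDerivAt_const b y)
    have hz : ∀ b h, P y₀ (fderiv ℂ S y h b) = 0 := fun b h => by
      have h1 : HasFDerivAt (fun z => P y₀ (S z b)) ((P y₀).comp ((fderiv ℂ S y).flip b)) y :=
        (P y₀).hasFDerivAt.comp y (hd b)
      have h2 : HasFDerivAt (fun z => P y₀ (S z b)) (0 : E →L[ℂ] E) y :=
        (hasFDerivAt_const (P y₀ b) y).congr_of_eventuallyEq (hA.mono fun z hz => hz b)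
      exact congrArg (fun L : E →L[ℂ] E => L h) (h1.unique h2)
    have hb := bracket_th (v := fun z => S z a) (w := fun z => S z c) hP.differentiableAt hi
      (hd a).differentiableAt (hd c).differentiableAt (hB.mono fun z hz => hz a) (hB.mono fun z hz => hz c)
    rw [ht, VectorField.lieBracket, (hd a).fderiv, (hd c).fderiv] at hb
    simp only [ContinuousLinearMap.flip_apply] at hb
    rw [← sub_eq_zero]
    refine graph_field_inj hRu ?_
    simp only [R, ContinuousLinearMap.add_apply]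
    rw [hb, map_sub, hz, hz]
    simp

theorem frob_inv {Ψ : E → E} (hΨ : AnalyticAt ℂ Ψ 0) (h1 : fderiv ℂ Ψ 0 = 1) :
    ∃ g : E → E, AnalyticAt ℂ g (Ψ 0) ∧ g (Ψ 0) = 0 ∧ (∀ᶠ x in 𝓝 (0 : E), g (Ψ x) = x) ∧
      ∀ᶠ y in 𝓝 (Ψ 0), Ψ (g y) = y := by
  have hc : ContDiffAt ℂ ⊤ Ψ 0 := hΨ.contDiffAt
  have hd : HasFDerivAt Ψ ((ContinuousLinearEquiv.refl ℂ E : E ≃L[ℂ] E) : E →L[ℂ] E) 0 := by
    have := hΨ.differentiableAt.hasFDerivAt
    rw [h1] at this
    exact this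
  have hn : (⊤ : WithTop ℕ∞) ≠ 0 := by simp
  have hs := hc.hasStrictFDerivAt' hd hn
  refine ⟨hc.localInverse hd hn, (hc.to_localInverse hd hn).analyticAt, hc.localInverse_apply_image hd hn,
    hs.eventually_left_inverse, hs.eventually_right_inverse⟩

theorem frob_of {Ψ : E → E} {π : E →L[ℂ] E} {P : E → E →L[ℂ] E} (hπ : ∀ v, π (π v) = π v)
    (hΨ : AnalyticAt ℂ Ψ 0) (h1 : fderiv ℂ Ψ 0 = 1)
    (h : ∀ᶠ x in 𝓝 (0 : E), ∀ v, fderiv ℂ Ψ x (π (P (Ψ x) v)) = P (Ψ x) v) :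
    ∃ q : E → E, AnalyticAt ℂ q (Ψ 0) ∧ fderiv ℂ q (Ψ 0) = 1 - π ∧ (∀ y, π (q y) = 0) ∧
      ∀ᶠ y in 𝓝 (Ψ 0), ∀ v, fderiv ℂ q y (P y v) = 0 := by
  obtain ⟨g, hg, hg0, hl, hr⟩ := frob_inv hΨ h1
  have hgt : Tendsto g (𝓝 (Ψ 0)) (𝓝 0) := by
    have := hg.continuousAt.tendsto
    rwa [hg0] at this
  have key : ∀ᶠ x in 𝓝 (0 : E), DifferentiableAt ℂ g (Ψ x) ∧ ∀ c, fderiv ℂ g (Ψ x) (fderiv ℂ Ψ x c) = c := by
    filter_upwards [hl.eventually_nhds, hΨ.eventually_analyticAt,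
      hΨ.continuousAt.tendsto.eventually hg.eventually_analyticAt] with x hx h2 h3
    refine ⟨h3.differentiableAt, fun c => ?_⟩
    have e : fderiv ℂ (g ∘ Ψ) x = fderiv ℂ id x := Filter.EventuallyEq.fderiv_eq hx
    rw [fderiv_comp x h3.differentiableAt h2.differentiableAt, fderiv_id] at e
    exact congrArg (fun L : E →L[ℂ] E => L c) e
  have hq : ∀ y, DifferentiableAt ℂ g y →
      fderiv ℂ (fun y => (1 - π) (g y)) y = (1 - π).comp (fderiv ℂ g y) := fun y hy =>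
    ((1 - π).hasFDerivAt.comp y hy.hasFDerivAt).fderiv
  refine ⟨fun y => (1 - π) (g y), ((1 - π).analyticAt _).comp hg, ?_, fun y => by simp [hπ], ?_⟩
  · rw [hq _ hg.differentiableAt]
    ext c
    have := key.self_of_nhds.2 c
    rw [h1] at this
    simp only [one_apply_eq_self] at this
    simp [this]
  · filter_upwards [hr, hgt.eventually key, hgt.eventually h] with y hy hk hh v
    rw [hy] at hk hh
    rw [hq _ hk.1, ContinuousLinearMap.comp_apply, ← hh v, hk.2]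
    simp [hπ]

/-- `Y` from `exists_ray`, `frob_ray`; `Ψ x = Y (π x, y₀ + (1 - π) x)` has `Ψ 0 = y₀`, `DΨ 0 = 1`,
`DΨ x (π c) = S (Ψ x) (π c)`; analytic local inverse `Ψ⁻¹` (`ContDiffAt.to_localInverse` with `n = ω`, or
`HasStrictFDerivAt.localInverse` and `analyticAt_of_ev`); `q = (1 - π) ∘ Ψ⁻¹`: `P y v = S y (π (P y v)) = DΨ (π (P y v))`. -/
theorem frob {P : E → E →L[ℂ] E} {y₀ : E} (hP : AnalyticAt ℂ P y₀)
    (hi : ∀ᶠ y in 𝓝 y₀, ∀ v, P y (P y v) = P y v) (ht : ∀ᶠ y in 𝓝 y₀, ∀ a b, th P y a b = 0) :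
    ∃ q : E → E, AnalyticAt ℂ q y₀ ∧ fderiv ℂ q y₀ = 1 - P y₀ ∧ (∀ y, P y₀ (q y) = 0) ∧
      ∀ᶠ y in 𝓝 y₀, ∀ v, fderiv ℂ q y (P y v) = 0 := by
  obtain ⟨S, hS, hS0, hev⟩ := graph_field hP hi ht
  have hπ : ∀ v, P y₀ (P y₀ v) = P y₀ v := hi.self_of_nhds
  have hN := hS.eventually_analyticAt.and hev
  obtain ⟨r, hr, Y, hY, hm, hb, he⟩ := exists_ray hS hN
  have hf := frob_ray (fun y hy => hy.1) (fun y hy => hy.2.2.2) hY hm he
  set L : E →L[ℂ] E × E := (P y₀).prod (1 - P y₀) with hL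
  set A : E → E × E := fun x => ((0 : E), y₀) + L x with hA
  have hA0 : A 0 = (0, y₀) := by simp [hA]
  have hAd : ∀ x, HasFDerivAt A L x := fun x => L.hasFDerivAt.const_add _
  have hAa : AnalyticAt ℂ A 0 := analyticAt_const.add (L.analyticAt _)
  have hYa : AnalyticOnNhd ℂ Y (ball (0, y₀) r) := osgood isOpen_ball hY
  have h0 : ((0 : E), y₀) ∈ ball ((0 : E), y₀) r := mem_ball_self hr
  have hY0 : Y (0, y₀) = y₀ := hb _ (mem_ball_self hr)
  have hΨ0 : (Y ∘ A) 0 = y₀ := by simp [hA0, hY0]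
  have hΨ : AnalyticAt ℂ (Y ∘ A) 0 := (hYa _ h0).comp_of_eq hAa hA0
  have hD : ∀ x, A x ∈ ball ((0 : E), y₀) r → ∀ c, fderiv ℂ (Y ∘ A) x c = fderiv ℂ Y (A x) (L c) := by
    intro x hx c
    rw [((hYa _ hx).differentiableAt.hasFDerivAt.comp x (hAd x)).fderiv]
    rfl
  have h2 : ∀ b, fderiv ℂ Y (0, y₀) (0, b) = b := by
    intro b
    have d1 : HasFDerivAt (fun b : E => Y (0, b)) ((fderiv ℂ Y (0, y₀)).comp (ContinuousLinearMap.inr ℂ E E)) y₀ :=
      HasFDerivAt.comp (f := fun b : E => ((0 : E), b)) y₀ (hYa _ h0).differentiableAt.hasFDerivAt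
        (ContinuousLinearMap.inr ℂ E E).hasFDerivAt
    have d2 : HasFDerivAt (fun b : E => Y (0, b)) (ContinuousLinearMap.id ℂ E) y₀ :=
      (hasFDerivAt_id y₀).congr_of_eventuallyEq (by
        filter_upwards [ball_mem_nhds y₀ hr] with b hb' using hb b hb')
    exact congrArg (fun T : E →L[ℂ] E => T b) (d1.unique d2)
  have h1 : fderiv ℂ (Y ∘ A) 0 = 1 := by
    ext c
    rw [hD 0 (hA0 ▸ h0), hA0]
    have : L c = (P y₀ c, 0) + (0, (1 - P y₀) c) := by simp [hL]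
    rw [this, map_add, hf _ h0, h2, hY0, hS0, hπ]
    simp
  have hAt : ∀ᶠ x in 𝓝 (0 : E), A x ∈ ball ((0 : E), y₀) r :=
    hAa.continuousAt.eventually_mem (hA0 ▸ ball_mem_nhds _ hr)
  have := frob_of (P := P) hπ hΨ h1 (by
    filter_upwards [hAt] with x hx v
    have e : L (P y₀ (P ((Y ∘ A) x) v)) = (P y₀ (P ((Y ∘ A) x) v), 0) := by simp [hL, hπ]
    rw [hD x hx, e, hf _ hx]
    exact (hm hx).2.2.1 v)
  rwa [hΨ0] at this

end

end Crest.Agent.R266

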