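import Crest.Agent.R266.Transport

/-!
# Row 266: good germs
-/

set_option autoImplicit false
set_option linter.unusedSectionVars false
set_option linter.unusedVariables false

namespace Crest.Agent.R266

open Set Metric Filter Topology MeasureTheory Polynomial
open scoped ENNReal Classical

noncomputable section

namespace UPA
variable {X A B D₁ D₂ : Type} [TopologicalSpace X] [T2Space X]
  [NormedAddCommGroup A] [NormedSpace ℂ A] [NormedSpace ℝ A] [IsScalarTower ℝ ℂ A] [FiniteDimensional ℂ A]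
  [NormedAddCommGroup B] [NormedSpace ℂ B] [NormedSpace ℝ B] [IsScalarTower ℝ ℂ B] [FiniteDimensional ℂ B]
  [CompleteSpace A] [CompleteSpace B]
  [NormedAddCommGroup D₁] [NormedSpace ℂ D₁] [NormedSpace ℝ D₁] [IsScalarTower ℝ ℂ D₁] [FiniteDimensional ℂ D₁]
  [NormedAddCommGroup D₂] [NormedSpace ℂ D₂] [NormedSpace ℝ D₂] [IsScalarTower ℝ ℂ D₂] [FiniteDimensional ℂ D₂]
  {𝒰 : UPA X A B}

theorem Loc.man {β : X × X → X} {q : X × X} {i j : 𝒰.ι} {Ψ : A × B → X} (h : 𝒰.Loc β q i j Ψ)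
    (hi : q.1 ∈ (𝒰.κ i).source) (hj : q.2 ∈ (𝒰.κ j).source) :
    (𝒰.toAtl.prod 𝒰.toAtl).MAn 𝒰.toAtl β q := by
  refine Atl.MAn.congr ?_ h.2.symm
  refine Atl.MAn_of (𝒜 := 𝒰.toAtl.prod 𝒰.toAtl) (i, j) ⟨hi, hj⟩ ?_
  have h1 : 𝒰.An (fun y : (A × B) × (A × B) => Ψ (y.2.1, y.1.2)) (𝒰.κ i q.1, 𝒰.κ j q.2) :=
    Atl.An.comp (g := fun y : (A × B) × (A × B) => (y.2.1, y.1.2)) h.1.an
      ((analyticAt_fst.comp analyticAt_snd).prod (analyticAt_snd.comp analyticAt_fst))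
  refine h1.congr ?_
  filter_upwards [prod_mem_nhds ((𝒰.κ i).open_target.mem_nhds ((𝒰.κ i).map_source hi))
    ((𝒰.κ j).open_target.mem_nhds ((𝒰.κ j).map_source hj))] with y hy
  show _ = Ψ ((𝒰.κ j ((𝒰.κ j).symm y.2)).1, (𝒰.κ i ((𝒰.κ i).symm y.1)).2)
  rw [(𝒰.κ i).right_inv hy.1, (𝒰.κ j).right_inv hy.2]

theorem Gd.congr {β β' : X × X → X} {q : X × X} (h : 𝒰.Gd β q) (e : β =ᶠ[𝓝 q] β') : 𝒰.Gd β' q := by
  obtain ⟨i, j, Ψ, V₁, V₂, hi, hj, hL, h⟩ := h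
  exact ⟨i, j, Ψ, V₁, V₂, hi, hj, ⟨hL.1, e.symm.trans hL.2⟩, h⟩

/-- Change of charts: with `κ j ∘ (κ j').symm =ᶠ Prod.map a _` near `κ j' q.2` and `κ i ∘ (κ i').symm =ᶠ Prod.map _ b` near
`κ i' q.1` put `Ψ' (z, w) = Ψ (a z, b w)`; `chain₁_comp`, `chain₁_congr`. -/
theorem Gd.chart {β : X × X → X} {q : X × X} (h : 𝒰.Gd β q) {i j : 𝒰.ι} (hi : q.1 ∈ (𝒰.κ i).source)
    (hj : q.2 ∈ (𝒰.κ j).source) :
    ∃ (Ψ : A × B → X) (V₁ : Set A) (V₂ : Set B), 𝒰.Loc β q i j Ψ ∧ V₁ ∈ 𝓝 (𝒰.κ j q.2).1 ∧ V₂ ∈ 𝓝 (𝒰.κ i q.1).2 ∧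
      Relation.TransGen (𝒰.St₁ V₁) (fun z => (𝒰.κ j).symm (z, (𝒰.κ j q.2).2)) (fun z => Ψ (z, (𝒰.κ i q.1).2)) ∧
      Relation.TransGen (𝒰.St₂ V₂) (fun w => (𝒰.κ i).symm ((𝒰.κ i q.1).1, w)) (fun w => Ψ ((𝒰.κ j q.2).1, w)) := by
  obtain ⟨i₀, j₀, Ψ, V₁, V₂, hi₀, hj₀, ⟨hR, hβ⟩, hV₁, hV₂, c₁, c₂⟩ := h
  obtain ⟨a, b', ha, hb', e₁⟩ := 𝒰.prod j j₀ _ hj hj₀
  obtain ⟨a', b, ha', hb, e₂⟩ := 𝒰.prod i i₀ _ hi hi₀
  have f₁ : 𝒰.κ j₀ q.2 = (a (𝒰.κ j q.2).1, b' (𝒰.κ j q.2).2) := by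
    simpa [(𝒰.κ j).left_inv hj, Prod.map] using e₁.self_of_nhds
  have f₂ : 𝒰.κ i₀ q.1 = (a' (𝒰.κ i q.1).1, b (𝒰.κ i q.1).2) := by
    simpa [(𝒰.κ i).left_inv hi, Prod.map] using e₂.self_of_nhds
  rw [f₁] at hV₁ c₁ c₂
  rw [f₂] at hV₂ c₁ c₂
  rw [f₁, f₂] at hR
  have g₁ : ∀ᶠ y in 𝓝 (𝒰.κ j q.2), (𝒰.κ j₀).symm (a y.1, b' y.2) = (𝒰.κ j).symm y := by
    filter_upwards [e₁, ((𝒰.κ j).tendsto_symm hj).eventually ((𝒰.κ j₀).open_source.mem_nhds hj₀)] with y h1 h2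
    rw [show (a y.1, b' y.2) = 𝒰.κ j₀ ((𝒰.κ j).symm y) from h1.symm, (𝒰.κ j₀).left_inv h2]
  have g₂ : ∀ᶠ y in 𝓝 (𝒰.κ i q.1), (𝒰.κ i₀).symm (a' y.1, b y.2) = (𝒰.κ i).symm y := by
    filter_upwards [e₂, ((𝒰.κ i).tendsto_symm hi).eventually ((𝒰.κ i₀).open_source.mem_nhds hi₀)] with y h1 h2
    rw [show (a' y.1, b y.2) = 𝒰.κ i₀ ((𝒰.κ i).symm y) from h1.symm, (𝒰.κ i₀).left_inv h2]
  have t₁ : Tendsto (fun z : A => (z, (𝒰.κ j q.2).2)) (𝓝 (𝒰.κ j q.2).1) (𝓝 (𝒰.κ j q.2)) :=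
    (by fun_prop : ContinuousAt (fun z : A => (z, (𝒰.κ j q.2).2)) _)
  have t₂ : Tendsto (fun w : B => ((𝒰.κ i q.1).1, w)) (𝓝 (𝒰.κ i q.1).2) (𝓝 (𝒰.κ i q.1)) :=
    (by fun_prop : ContinuousAt (fun w : B => ((𝒰.κ i q.1).1, w)) _)
  refine ⟨fun x => Ψ (a x.1, b x.2), _, _, ⟨Rect.comp hR ha hb, ?_⟩,
    (ha.eventually_analyticAt.and (ha.continuousAt.eventually hV₁)).and (t₁.eventually g₁),
    (hb.eventually_analyticAt.and (hb.continuousAt.eventually hV₂)).and (t₂.eventually g₂),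
    chain₁_congr (chain₁_comp c₁ fun z hz => hz.1) (fun z hz => hz.2) fun z hz => rfl,
    chain₂_congr (chain₂_comp c₂ fun z hz => hz.1) (fun z hz => hz.2) fun z hz => rfl⟩
  filter_upwards [hβ, continuousAt_snd.eventually (((𝒰.κ j).continuousAt hj).eventually e₁),
    continuousAt_fst.eventually (((𝒰.κ i).continuousAt hi).eventually e₂),
    continuousAt_snd.eventually ((𝒰.κ j).open_source.mem_nhds hj),
    continuousAt_fst.eventually ((𝒰.κ i).open_source.mem_nhds hi)] with x h1 h2 h3 h4 h5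
  simp only [Function.comp, (𝒰.κ j).left_inv h4, (𝒰.κ i).left_inv h5] at h2 h3
  rw [h1, h2, h3]
  rfl

/-- the initial germ: `Ψ = (κ i).symm`, one trivial step each -/
theorem gd_init {x : X} {i : 𝒰.ι} (hi : x ∈ (𝒰.κ i).source) :
    𝒰.Gd (fun q => (𝒰.κ i).symm ((𝒰.κ i q.2).1, (𝒰.κ i q.1).2)) (x, x) := by
  obtain ⟨r, hr, hb⟩ := Metric.isOpen_iff.1 (𝒰.κ i).open_target _ ((𝒰.κ i).map_source hi)
  rw [← Prod.mk.eta (p := 𝒰.κ i x), ← ball_prod_same] at hb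
  exact ⟨i, i, (𝒰.κ i).symm, ball (𝒰.κ i x).1 r, ball (𝒰.κ i x).2 r, hi, hi,
    ⟨rect_symm i ((𝒰.κ i).map_source hi), EventuallyEq.rfl⟩, ball_mem_nhds _ hr, ball_mem_nhds _ hr,
    .single ⟨(𝒰.κ i).symm, _, _, r, mem_ball_self hr, fun p hp => rect_symm i (hb hp), fun _ _ => rfl, fun _ _ => rfl⟩,
    .single ⟨(𝒰.κ i).symm, _, _, r, mem_ball_self hr, fun p hp => rect_symm i (hb hp), fun _ _ => rfl, fun _ _ => rfl⟩⟩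

/-- Uniform extension.  `i = ch q₀.1`, `j = ch q₀.2`, `N = {q | q.1 ∈ source i, q.2 ∈ source j, κ i q.1, κ j q.2 ∈ ball 0 1}`.
For `q = (a, d) ∈ N`: `Gd.chart`, `transport₁` on `ball d₁ 2` starting from the plaque `z ↦ (κ j).symm (z, d₂)`,
`transport₂` on `ball a₂ 2`, `cross` gives `Ψ'` on `ball d₁ 2 ×ˢ ball a₂ 2`, `=ᶠ Ψ` near `(d₁, a₂)`
(`Rect.cross_unique`).  At `q' = (a', d') ∈ N` take `V₁ = ball d₁ 2`; prepend the step `(κ j).symm` from `d'₂` to `d₂`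
(centre `d'₂`, radius `2`, `rect_symm`), append the step `Ψ'` from `a₂` to `a'₂`; for the second chain prepend the step
`(κ i).symm` from `a'₁` to `a₁` and append the step `Ψ'` from `d₁` to `d'₁`. -/
theorem gd_extend (q₀ : X × X) : ∃ N ∈ 𝓝 q₀, ∀ q ∈ N, ∀ β : X × X → X, 𝒰.Gd β q →
    ∃ β' : X × X → X, β' =ᶠ[𝓝 q] β ∧ ∀ q' ∈ N, 𝒰.Gd β' q' := by
  set i := 𝒰.ch q₀.1
  set j := 𝒰.ch q₀.2
  have hN : ∀ (x : X), {y | y ∈ (𝒰.κ (𝒰.ch x)).source ∧ 𝒰.κ (𝒰.ch x) y ∈ ball (0 : A × B) 1} ∈ 𝓝 x := fun x =>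
    ((𝒰.κ _).open_source.eventually_mem (𝒰.cov1 x).choose_spec.1).and
      (((𝒰.κ _).continuousAt (𝒰.cov1 x).choose_spec.1).eventually (isOpen_ball.mem_nhds (𝒰.cov1 x).choose_spec.2))
  refine ⟨_, prod_mem_nhds (hN q₀.1) (hN q₀.2), ?_⟩
  rintro ⟨a, d⟩ ⟨⟨hi, hi'⟩, ⟨hj, hj'⟩⟩ β hβ
  obtain ⟨Ψ, V₁, V₂, ⟨hR, e⟩, hV₁, hV₂, c₁, c₂⟩ := hβ.chart hi hj
  have n1 : ∀ {y : A × B}, y ∈ ball (0 : A × B) 1 → ‖y.1‖ < 1 ∧ ‖y.2‖ < 1 := fun hy => by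
    simpa [Prod.norm_def] using hy
  have tg : ∀ (k : 𝒰.ι) {z₀ : A} {w₀ : B}, ‖z₀‖ < 1 → ‖w₀‖ < 1 → ∀ p ∈ ball z₀ 2 ×ˢ ball w₀ 2, p ∈ (𝒰.κ k).target := by
    intro k z₀ w₀ h1 h2 p hp
    rw [𝒰.tgt, mem_ball_zero_iff, Prod.norm_def, max_lt_iff]
    have h3 := norm_le_norm_add_norm_sub' p.1 z₀
    have h4 := norm_le_norm_add_norm_sub' p.2 w₀
    have h5 := mem_ball_iff_norm.1 hp.1
    have h6 := mem_ball_iff_norm.1 hp.2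
    constructor <;> linarith
  have b1 : ∀ {z z' : A}, ‖z‖ < 1 → ‖z'‖ < 1 → z ∈ ball z' 2 := fun {z z'} h1 h2 => by
    rw [mem_ball_iff_norm]; linarith [norm_sub_le z z']
  have b2 : ∀ {z z' : B}, ‖z‖ < 1 → ‖z'‖ < 1 → z ∈ ball z' 2 := fun {z z'} h1 h2 => by
    rw [mem_ball_iff_norm]; linarith [norm_sub_le z z']
  obtain ⟨F, hF, eF, cF⟩ := transport₁ two_pos hV₁ c₁ (fun z hz =>
    (rect_symm j (tg j (n1 hj').1 (n1 hj').2 (z, _) ⟨hz, mem_ball_self two_pos⟩)).t₁) EventuallyEq.rfl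
  obtain ⟨G, hG, eG, cG⟩ := transport₂ two_pos hV₂ c₂ (fun w hw =>
    (rect_symm i (tg i (n1 hi').1 (n1 hi').2 (_, w) ⟨mem_ball_self two_pos, hw⟩)).t₂) EventuallyEq.rfl
  obtain ⟨Ψ', k1, k2, k3⟩ := cross two_pos two_pos hF hG (eF.self_of_nhds.trans eG.self_of_nhds.symm)
  have k4 : Ψ' =ᶠ[𝓝 ((𝒰.κ j d).1, (𝒰.κ i a).2)] Ψ := by
    refine (k1 ((𝒰.κ j d).1, (𝒰.κ i a).2) ⟨mem_ball_self two_pos, mem_ball_self two_pos⟩).cross_unique hR ?_ ?_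
    · filter_upwards [ball_mem_nhds _ two_pos, eF] with z a1 a2 using (k2 z a1).trans a2
    · filter_upwards [ball_mem_nhds _ two_pos, eG] with z a1 a2 using (k3 z a1).trans a2
  refine ⟨fun x => Ψ' ((𝒰.κ j x.2).1, (𝒰.κ i x.1).2), ?_, ?_⟩
  · have hc : ContinuousAt (fun x : X × X => ((𝒰.κ j x.2).1, (𝒰.κ i x.1).2)) (a, d) :=
      (((𝒰.κ j).continuousAt hj).comp_of_eq continuousAt_snd rfl).fst.prodMk
        (((𝒰.κ i).continuousAt hi).comp_of_eq continuousAt_fst rfl).snd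
    exact EventuallyEq.trans (hc.eventually k4) e.symm
  rintro ⟨a', d'⟩ ⟨⟨gi, gi'⟩, ⟨gj, gj'⟩⟩
  have m1 := b1 (n1 gj').1 (n1 hj').1
  have m2 := b2 (n1 gi').2 (n1 hi').2
  refine ⟨i, j, Ψ', ball (𝒰.κ j d).1 2, ball (𝒰.κ i a).2 2, gi, gj, ⟨k1 _ ⟨m1, m2⟩, EventuallyEq.rfl⟩,
    isOpen_ball.mem_nhds m1, isOpen_ball.mem_nhds m2, ?_, ?_⟩
  · refine (Relation.TransGen.head ⟨(𝒰.κ j).symm, _, _, 2, b2 (n1 hj').2 (n1 gj').2,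
      fun p hp => rect_symm j (tg j (n1 hj').1 (n1 gj').2 p hp), fun _ _ => rfl, fun _ _ => rfl⟩ cF).tail ?_
    exact ⟨Ψ', _, _, 2, m2, k1, k2, fun _ _ => rfl⟩
  · refine (Relation.TransGen.head ⟨(𝒰.κ i).symm, _, _, 2, b1 (n1 hi').1 (n1 gi').1,
      fun p hp => rect_symm i (tg i (n1 gi').1 (n1 hi').2 p hp), fun _ _ => rfl, fun _ _ => rfl⟩ cG).tail ?_
    exact ⟨Ψ', _, _, 2, m1, k1, k3, fun _ _ => rfl⟩

end UPA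

end

end Crest.Agent.R266

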