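import Crest.Agent.R266.Cone
import Crest.Agent.R266.Pull
import Crest.Agent.R266.Rect

/-!
# Row 266: monotonicity of the area of diagonal discs
-/

set_option autoImplicit false
set_option linter.unusedSectionVars false
set_option linter.unusedVariables false

namespace Crest.Agent.R266

open Set Metric Filter Topology MeasureTheory Polynomial
open scoped ENNReal Classical

noncomputable section

namespace UPA
variable {X A B D₁ D₂ : Type} [TopologicalSpace X] [T2Space X]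
  [NormedAddCommGroup A] [NormedSpace ℂ A] [NormedSpace ℝ A] [IsScalarTower ℝ ℂ A] [FiniteDimensional ℂ A]
  [NormedAddCommGroup B] [NormedSpace ℂ B] [NormedSpace ℝ B] [IsScalarTower ℝ ℂ B] [FiniteDimensional ℂ B]
  [CompleteSpace A] [CompleteSpace B]
  [NormedAddCommGroup D₁] [NormedSpace ℂ D₁] [NormedSpace ℝ D₁] [IsScalarTower ℝ ℂ D₁] [FiniteDimensional ℂ D₁]
  [NormedAddCommGroup D₂] [NormedSpace ℂ D₂] [NormedSpace ℝ D₂] [IsScalarTower ℝ ℂ D₂] [FiniteDimensional ℂ D₂]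
  {𝒰 : UPA X A B}

/-- In the chart `ch (Φ x)`: `D(κ Φ) (a, b) = (a • F', b • G')`, so `pb (0,e) (0,e) ≤ M ‖e‖² ‖G'‖²` and
`m ‖(F', G')‖² ≤ pb (1,1) (1,1)`. -/
theorem pb_rect_bound {Φ : ℂ × ℂ → X} {x : ℂ × ℂ} (h : 𝒰.Rect Φ x) {e : ℂ} (he : ‖e‖ ≤ 1) :
    𝒰.pb Φ x (0, e) (0, e) ≤ 𝒰.M / 𝒰.m * 𝒰.pb Φ x (1, 1) (1, 1) := by
    have hi := (𝒰.ch_mem (Φ x)).1
    obtain ⟨F, G, hF, hG, -, -, ee⟩ := h.chart hi
    have hd : HasFDerivAt (𝒰.κ (𝒰.ch (Φ x)) ∘ Φ)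
        (((ContinuousLinearMap.toSpanSingleton ℂ (deriv F x.1)).comp (ContinuousLinearMap.fst ℂ ℂ ℂ)).prod
          ((ContinuousLinearMap.toSpanSingleton ℂ (deriv G x.2)).comp (ContinuousLinearMap.snd ℂ ℂ ℂ))) x := by
      refine HasFDerivAt.congr_of_eventuallyEq ?_ ee
      exact (hF.differentiableAt.hasDerivAt.hasFDerivAt.comp x hasFDerivAt_fst).prodMk
        (hG.differentiableAt.hasDerivAt.hasFDerivAt.comp x hasFDerivAt_snd)
    have ht := (𝒰.κ _).map_source hi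
    have b1 := (𝒰.bd _ _ ht ((0 : A), e • deriv G x.2)).2
    have b2 := (𝒰.bd _ _ ht (deriv F x.1, deriv G x.2)).1
    have hm := 𝒰.m_pos
    have hM : 0 < 𝒰.M := hm.trans_le 𝒰.m_le
    unfold UPA.pb
    rw [hd.fderiv]
    simp only [pl_apply, ContinuousLinearMap.prod_apply, ContinuousLinearMap.comp_apply, ContinuousLinearMap.coe_fst',
      ContinuousLinearMap.coe_snd', ContinuousLinearMap.toSpanSingleton_apply, zero_smul, one_smul]
    have n1 : ‖((0 : A), e • deriv G x.2)‖ ≤ ‖(deriv F x.1, deriv G x.2)‖ := by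
      rw [Prod.norm_def, Prod.norm_def]
      simp only [norm_zero, norm_smul]
      refine max_le (le_max_of_le_left (norm_nonneg _)) (le_max_of_le_right ?_)
      exact mul_le_of_le_one_left (norm_nonneg _) he
    have n2 : ‖((0 : A), e • deriv G x.2)‖ ^ 2 ≤ ‖(deriv F x.1, deriv G x.2)‖ ^ 2 :=
      pow_le_pow_left₀ (norm_nonneg _) n1 2
    refine b1.trans ?_
    rw [div_mul_eq_mul_div, le_div_iff₀ hm]
    calc 𝒰.M * ‖((0 : A), e • deriv G x.2)‖ ^ 2 * 𝒰.m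
        = 𝒰.M * (𝒰.m * ‖((0 : A), e • deriv G x.2)‖ ^ 2) := by ring
      _ ≤ 𝒰.M * (𝒰.m * ‖(deriv F x.1, deriv G x.2)‖ ^ 2) := by gcongr
      _ ≤ _ := by gcongr

/-- `cone_mono` with `x = (v, v + u₀ + t e)`, `g = pb Φ x`, `p = g (1,1) (1,1)`, `q₁ = g (0,e) (1,1)`,
`q₂ = - g (0, I e) (1,1)`, `L = M / m`; `(pb_kah _).closed` with the vectors `(0,e)`, `(1,1)`, `(I,I)` and `herm`
(valid near `x`); `2 |g a b| ≤ g a a + g b b`. -/
theorem mono (𝒰 : UPA X A B) : ∃ lam > 0, ∀ (Φ : ℂ × ℂ → X) (c u₀ e : ℂ) (R r t₀ t₁ : ℝ), ‖e‖ ≤ 1 → t₀ ≤ t₁ →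
    0 ≤ r → r < R - lam * (t₁ - t₀) →
    (∀ (v : ℂ) (t : ℝ), t ∈ Icc t₀ t₁ → ‖v - c‖ < R - lam * (t - t₀) → 𝒰.Rect Φ (v, v + (u₀ + t * e))) →
    𝒰.Ar (fun v => Φ (v, v + (u₀ + t₁ * e))) (ball c r) ≤ 𝒰.Ar (fun v => Φ (v, v + (u₀ + t₀ * e))) (ball c R) := by
    have hm := 𝒰.m_pos
    have hL1 : 1 ≤ 𝒰.M / 𝒰.m := (one_le_div hm).2 𝒰.m_le
    refine ⟨2 * (𝒰.M / 𝒰.m), by positivity, fun Φ c u₀ e R r t₀ t₁ he ht hr hR hΦ => ?_⟩
    set ι : ℂ × ℝ → ℂ × ℂ := fun x => (x.1, x.1 + (u₀ + x.2 * e)) with hι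
    let J : ℂ × ℝ →L[ℝ] ℂ × ℂ := (ContinuousLinearMap.fst ℝ ℂ ℝ).prod ((ContinuousLinearMap.fst ℝ ℂ ℝ) +
      (ContinuousLinearMap.toSpanSingleton ℝ e).comp (ContinuousLinearMap.snd ℝ ℂ ℝ))
    have hιJ : ι = fun x => J x + (0, u₀) := by
      funext x
      simp only [hι, J, ContinuousLinearMap.prod_apply, add_apply, ContinuousLinearMap.comp_apply,
        ContinuousLinearMap.coe_fst', ContinuousLinearMap.coe_snd', ContinuousLinearMap.toSpanSingleton_apply,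
        Prod.mk_add_mk, add_zero, Complex.real_smul]
      congr 1
      ring
    have hιd : ∀ x, HasFDerivAt ι J x := fun x => by
      rw [hιJ]; exact J.hasFDerivAt.add_const _
    have hιc : ContDiff ℝ 1 ι := by
      rw [hιJ]; exact J.contDiff.add contDiff_const
    have J1 : J (0, 1) = (0, e) := by simp [J]
    have J2 : J (1, 0) = (1, 1) := by simp [J]
    have J3 : J (Complex.I, 0) = Complex.I • ((1 : ℂ), (1 : ℂ)) := by simp [J]
    have key := cone_mono (p := fun x => 𝒰.pb Φ (ι x) (1, 1) (1, 1)) (q₁ := fun x => 𝒰.pb Φ (ι x) (0, e) (1, 1))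
      (q₂ := fun x => - 𝒰.pb Φ (ι x) (Complex.I • (0, e)) (1, 1)) (c := c) (R := R) (r := r) (L := 𝒰.M / 𝒰.m)
      (t₀ := t₀) (t₁ := t₁) (by positivity) ht hr hR ?_
    · unfold UPA.Ar
      refine le_trans (le_of_eq ?_) (key.trans (le_of_eq ?_))
      · refine setLIntegral_congr_fun measurableSet_ball fun v hv => ?_
        have hv' : ‖v - c‖ < r := by simpa [dist_eq_norm] using hv
        rw [en_diag (hΦ v t₁ ⟨ht, le_rfl⟩ (hv'.trans hR)).an]
      · refine setLIntegral_congr_fun measurableSet_ball fun v hv => ?_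
        have hv' : ‖v - c‖ < R := by simpa [dist_eq_norm] using hv
        rw [en_diag (hΦ v t₀ ⟨le_rfl, ht⟩ (by simpa using hv')).an]
    · intro x hx hc
      have hR : 𝒰.Rect Φ (ι x) := hΦ x.1 x.2 hx hc
      have hK := pb_kah hR.an
      have hKe : ∀ᶠ z in 𝓝 (ι x), Kah (𝒰.pb Φ) z := hR.an.eventually.mono fun z hz => pb_kah hz
      have hs : ∀ a b : ℂ × ℂ, ContDiffAt ℝ 1 (fun z => 𝒰.pb Φ z a b) (ι x) := fun a b =>
        (hK.smooth.clm_apply contDiffAt_const).clm_apply contDiffAt_const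
      have hs' : ∀ a b : ℂ × ℂ, ContDiffAt ℝ 1 (fun y => 𝒰.pb Φ (ι y) a b) x := fun a b =>
        (hs a b).comp x hιc.contDiffAt
      have hd : ∀ (a b : ℂ × ℂ) (v : ℂ × ℝ), fderiv ℝ (fun y => 𝒰.pb Φ (ι y) a b) x v =
          fderiv ℝ (fun z => 𝒰.pb Φ z a b) (ι x) (J v) := fun a b v => by
        have := (((hs a b).differentiableAt one_ne_zero).hasFDerivAt.comp x (hιd x)).fderiv
        exact congrArg (fun L => L v) this
      have cs : ∀ a b : ℂ × ℂ, 2 * |𝒰.pb Φ (ι x) a b| ≤ 𝒰.pb Φ (ι x) a a + 𝒰.pb Φ (ι x) b b := fun a b => by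
        have h1 := pb_nonneg (𝒰 := 𝒰) Φ (ι x) (a + b)
        have h2 := pb_nonneg (𝒰 := 𝒰) Φ (ι x) (a - b)
        simp only [map_add, map_sub, add_apply, sub_apply] at h1 h2
        have h3 := hK.sym a b
        rcases abs_cases (𝒰.pb Φ (ι x) a b) with h | h <;> rw [h.1] <;> linarith
      have p0 := pb_nonneg (𝒰 := 𝒰) Φ (ι x) (1, 1)
      have p1 : 𝒰.pb Φ (ι x) (1, 1) (1, 1) ≤ 𝒰.M / 𝒰.m * 𝒰.pb Φ (ι x) (1, 1) (1, 1) :=
        le_mul_of_one_le_left p0 hL1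
      have q1 := pb_rect_bound hR he
      refine ⟨hs' _ _, hs' _ _, (hs' _ _).neg, p0, ?_, ?_, ?_⟩
      · have := cs (0, e) (1, 1)
        linarith
      · have := cs (Complex.I • (0, e)) (1, 1)
        rw [hK.herm] at this
        simp only [abs_neg]
        linarith
      · have hc := hK.closed (0, e) (1, 1) (Complex.I • ((1 : ℂ), (1 : ℂ)))
        have e1 : (fun z => 𝒰.pb Φ z (Complex.I • ((1 : ℂ), (1 : ℂ))) (Complex.I • ((1 : ℂ), (1 : ℂ)))) =ᶠ[𝓝 (ι x)]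
            fun z => 𝒰.pb Φ z (1, 1) (1, 1) := hKe.mono fun z hz => hz.herm _ _
        have e2 : (fun z => 𝒰.pb Φ z (Complex.I • ((0 : ℂ), e)) (Complex.I • ((1 : ℂ), (1 : ℂ)))) =ᶠ[𝓝 (ι x)]
            fun z => 𝒰.pb Φ z (0, e) (1, 1) := hKe.mono fun z hz => hz.herm _ _
        rw [e1.fderiv_eq, e2.fderiv_eq] at hc
        rw [fderiv_fun_neg, neg_apply, hd, hd, hd, J1, J2, J3]
        linarith

end UPA

end

end Crest.Agent.R266

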