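import Crest.Agent.R266.ExtInt
import Crest.Agent.R266.Mono
import Crest.Agent.R266.Glue

/-!
# Row 266: a diagonal disc of bounded area has a lens of definite thickness
-/

set_option autoImplicit false
set_option linter.unusedSectionVars false
set_option linter.unusedVariables false

namespace Crest.Agent.R266

open Set Metric Filter Topology MeasureTheory Polynomial
open scoped ENNReal Classical

noncomputable section

/-- pigeonhole among the `K` disjoint annuli `r/2 + 3σk < ‖v - c‖ < r/2 + 3σ(k+1)`, `σ = r/(6K)`,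
`ρ = r/2 + 3σk + 2σ` -/
theorem good_annulus {f : ℂ → ℝ≥0∞} {c : ℂ} {r a ε : ℝ} {K : ℕ} (hr : 0 < r) (hε : 0 < ε) (hK : 0 < K)
    (hKa : a ≤ K * ε) (h : ∫⁻ v in ball c r, f v ≤ ENNReal.ofReal a) :
    ∃ ρ : ℝ, r / 2 ≤ ρ ∧ ρ + r / (6 * K) ≤ r ∧ ∀ v : ℂ, ρ - r / (6 * K) ≤ ‖v - c‖ → ‖v - c‖ ≤ ρ →
      ∫⁻ z in ball v (r / (6 * K)), f z ≤ ENNReal.ofReal ε := by
  have hK' : (0 : ℝ) < K := Nat.cast_pos.2 hK
  set σ := r / (6 * K) with hσ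
  have σ0 : 0 < σ := by positivity
  have hσK : σ * K = r / 6 := by rw [hσ]; field_simp
  let A : ℕ → Set ℂ := fun k => {v | r / 2 + 3 * σ * k < ‖v - c‖ ∧ ‖v - c‖ < r / 2 + 3 * σ * (k + 1)}
  have hA : ∀ k, MeasurableSet (A k) := fun k =>
    ((isOpen_lt (g := fun v : ℂ => ‖v - c‖) continuous_const (by fun_prop)).inter
      (isOpen_lt (f := fun v : ℂ => ‖v - c‖) (by fun_prop) continuous_const)).measurableSet
  obtain ⟨k, hk, hk'⟩ : ∃ k ∈ Finset.range K, ∫⁻ v in A k, f v ≤ ENNReal.ofReal ε := by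
    by_contra hh
    push Not at hh
    have h1 : ∑ k ∈ Finset.range K, ENNReal.ofReal ε < ∑ k ∈ Finset.range K, ∫⁻ v in A k, f v :=
      ENNReal.sum_lt_sum_of_nonempty ⟨0, Finset.mem_range.2 hK⟩ hh
    rw [← lintegral_biUnion_finset ?_ (fun k _ => hA k)] at h1
    · refine absurd (h1.trans_le ((lintegral_mono_set ?_).trans (h.trans ?_))) (lt_irrefl _)
      · refine iUnion₂_subset fun k hk v hv => mem_ball_iff_norm.2 (hv.2.trans_le ?_)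
        have : (k : ℝ) + 1 ≤ K := by exact_mod_cast Finset.mem_range.1 hk
        nlinarith
      · rw [Finset.sum_const, Finset.card_range, nsmul_eq_mul, ← ENNReal.ofReal_natCast,
          ← ENNReal.ofReal_mul hK'.le]
        exact ENNReal.ofReal_le_ofReal hKa
    · have key : ∀ k l : ℕ, k < l → Disjoint (A k) (A l) := fun k l hkl => by
        refine Set.disjoint_left.2 fun v h1 h2 => ?_
        have : (k : ℝ) + 1 ≤ l := by exact_mod_cast hkl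
        nlinarith [h1.2, h2.1]
      intro k _ l _ hkl
      rcases lt_or_gt_of_ne hkl with h | h
      · exact key k l h
      · exact (key l k h).symm
  have hk1 : (k : ℝ) + 1 ≤ K := by exact_mod_cast Finset.mem_range.1 hk
  have hk0 : (0 : ℝ) ≤ k := Nat.cast_nonneg k
  refine ⟨r / 2 + 3 * σ * k + 2 * σ, by nlinarith, by nlinarith, fun v h1 h2 =>
    (lintegral_mono_set fun z hz => ?_).trans hk'⟩
  have h3 := mem_ball_iff_norm.1 hz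
  have h4 := norm_sub_le_norm_sub_add_norm_sub z v c
  have h5 := norm_sub_le_norm_sub_add_norm_sub v z c
  rw [norm_sub_rev v z] at h5
  exact ⟨by linarith, by linarith⟩

/-- the exhausting family -/
def lensW (c u₀ : ℂ) (ρ s : ℝ) : Set (ℂ × ℂ) := {p | ‖p.1 - c‖ < ρ ∧ ‖p.2 - p.1 - u₀‖ < s}

theorem lensW_convex (c u₀ : ℂ) (ρ s : ℝ) : Convex ℝ (lensW c u₀ ρ s) := by
  have e : lensW c u₀ ρ s = LinearMap.fst ℝ ℂ ℂ ⁻¹' ball c ρ ∩
      (LinearMap.snd ℝ ℂ ℂ - LinearMap.fst ℝ ℂ ℂ : ℂ × ℂ →ₗ[ℝ] ℂ) ⁻¹' ball u₀ s := by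
    ext p
    simp only [mem_inter_iff, mem_preimage, mem_ball_iff_norm]
    rfl
  rw [e]
  exact ((convex_ball _ _).linear_preimage _).inter ((convex_ball _ _).linear_preimage _)

theorem lensW_open (c u₀ : ℂ) (ρ s : ℝ) : IsOpen (lensW c u₀ ρ s) := by
  exact (isOpen_lt (f := fun p : ℂ × ℂ => ‖p.1 - c‖) (by fun_prop) continuous_const).inter
    (isOpen_lt (f := fun p : ℂ × ℂ => ‖p.2 - p.1 - u₀‖) (by fun_prop) continuous_const)

theorem lensW_bounded (c u₀ : ℂ) (ρ s : ℝ) : Bornology.IsBounded (lensW c u₀ ρ s) := by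
  refine ((isBounded_ball (x := c) (r := ρ)).prod (isBounded_ball (x := c + u₀) (r := s + ρ))).subset fun p hp =>
    ⟨mem_ball_iff_norm.2 hp.1, mem_ball_iff_norm.2 ?_⟩
  rw [show p.2 - (c + u₀) = p.2 - p.1 - u₀ + (p.1 - c) by ring]
  exact (norm_add_le _ _).trans_lt (add_lt_add hp.2 hp.1)

theorem lensW_thick (c u₀ : ℂ) (ρ : ℝ) {s ε : ℝ} (hs : 0 < s) (hε : 0 < ε) :
    lensW c u₀ ρ (s + ε / 2) ⊆ thickening ε (lensW c u₀ ρ s) := by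
  intro p hp
  have h0 : 0 < s + ε / 2 := by positivity
  refine mem_thickening_iff.2 ⟨(p.1, p.1 + u₀ + (s / (s + ε / 2) : ℝ) • (p.2 - p.1 - u₀)), ⟨hp.1, ?_⟩, ?_⟩
  · rw [show (p.1 + u₀ + (s / (s + ε / 2) : ℝ) • (p.2 - p.1 - u₀) - p.1 - u₀) =
      (s / (s + ε / 2) : ℝ) • (p.2 - p.1 - u₀) by ring, norm_smul, Real.norm_of_nonneg (by positivity),
      div_mul_eq_mul_div, div_lt_iff₀ h0]
    exact mul_lt_mul_of_pos_left hp.2 hs
  · rw [Prod.dist_eq, dist_self, dist_eq_norm, show p.2 - (p.1 + u₀ + (s / (s + ε / 2) : ℝ) • (p.2 - p.1 - u₀)) =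
      (1 - s / (s + ε / 2) : ℝ) • (p.2 - p.1 - u₀) by rw [sub_smul, one_smul]; ring, norm_smul,
      show 1 - s / (s + ε / 2) = ε / 2 / (s + ε / 2) by field_simp; ring, Real.norm_of_nonneg (by positivity),
      max_lt_iff, div_mul_eq_mul_div, div_lt_iff₀ h0]
    exact ⟨hε, by nlinarith [hp.2]⟩

theorem lensW_closure {c u₀ : ℂ} {ρ s : ℝ} {p : ℂ × ℂ} (h : p ∈ closure (lensW c u₀ ρ s)) :
    ‖p.1 - c‖ ≤ ρ ∧ ‖p.2 - p.1 - u₀‖ ≤ s := by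
  have hc : IsClosed {p : ℂ × ℂ | ‖p.1 - c‖ ≤ ρ ∧ ‖p.2 - p.1 - u₀‖ ≤ s} :=
    (isClosed_le (f := fun p : ℂ × ℂ => ‖p.1 - c‖) (by fun_prop) continuous_const).inter
      (isClosed_le (f := fun p : ℂ × ℂ => ‖p.2 - p.1 - u₀‖) (by fun_prop) continuous_const)
  exact hc.closure_subset_iff.2 (fun p hp => ⟨hp.1.le, hp.2.le⟩) h

namespace UPA
variable {X A B D₁ D₂ : Type} [TopologicalSpace X] [T2Space X]
  [NormedAddCommGroup A] [NormedSpace ℂ A] [NormedSpace ℝ A] [IsScalarTower ℝ ℂ A] [FiniteDimensional ℂ A]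
  [NormedAddCommGroup B] [NormedSpace ℂ B] [NormedSpace ℝ B] [IsScalarTower ℝ ℂ B] [FiniteDimensional ℂ B]
  [CompleteSpace A] [CompleteSpace B]
  [NormedAddCommGroup D₁] [NormedSpace ℂ D₁] [NormedSpace ℝ D₁] [IsScalarTower ℝ ℂ D₁] [FiniteDimensional ℂ D₁]
  [NormedAddCommGroup D₂] [NormedSpace ℂ D₂] [NormedSpace ℝ D₂] [IsScalarTower ℝ ℂ D₂] [FiniteDimensional ℂ D₂]
  {𝒰 : UPA X A B}

/-- One boundary point `p = (v, v + u)` of `lensW c u₀ ρ s`.  (a) `ρ - σ ≤ ‖v - c‖`: `ext_of_convex` with the given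
`Ψ`, `N = ball (v, v + u₀) (σ/2)`, at a point `q = (v', v' + u₀)` of the lens near `(v, v + u₀)`
(`Rect.diag_unique`).  (b) `‖v - c‖ < ρ - σ`: if `‖u - u₀‖ < s` use `Rect.ext`; otherwise `u = u₀ + s e`, `‖e‖ = 1`,
`ext_interior` on `ball v (σ/2)`, the area bound from `hmono` with `R = σ`, `t₀ = 0`, `t₁ = s - t`
(`Ar` of the base disc: `setLIntegral_congr_fun`, `en_congr`, `Ar_mono`). -/
theorem lens_ext {lam : ℝ} (hlam : 0 < lam)
    (hmono : ∀ (Φ : ℂ × ℂ → X) (c u₀ e : ℂ) (R r t₀ t₁ : ℝ), ‖e‖ ≤ 1 → t₀ ≤ t₁ → 0 ≤ r → r < R - lam * (t₁ - t₀) →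
      (∀ (v : ℂ) (t : ℝ), t ∈ Icc t₀ t₁ → ‖v - c‖ < R - lam * (t - t₀) → 𝒰.Rect Φ (v, v + (u₀ + t * e))) →
      𝒰.Ar (fun v => Φ (v, v + (u₀ + t₁ * e))) (ball c r) ≤ 𝒰.Ar (fun v => Φ (v, v + (u₀ + t₀ * e))) (ball c R))
    {γ : ℂ → X} {Φ : ℂ × ℂ → X} {c u₀ : ℂ} {ρ σ s a : ℝ} (hσ : 0 < σ) (hσρ : σ ≤ ρ) (hs : 0 < s)
    (hsσ : (lam + 1) * s ≤ σ / 4) (hΦ : ∀ x ∈ lensW c u₀ ρ s, 𝒰.Rect Φ x)
    (hγ : ∀ v ∈ ball c ρ, Φ (v, v + u₀) = γ v) (ha : 𝒰.Ar γ (ball c ρ) ≤ ENNReal.ofReal a)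
    (hann : ∀ v : ℂ, ρ - σ ≤ ‖v - c‖ → ‖v - c‖ ≤ ρ → ∃ Ψ : ℂ × ℂ → X, (∀ p ∈ ball (v, v + u₀) (σ / 2), 𝒰.Rect Ψ p) ∧
      ∀ v' ∈ ball v (σ / 2), Ψ (v', v' + u₀) = γ v') :
    ∀ p ∈ closure (lensW c u₀ ρ s), 𝒰.Ext Φ (lensW c u₀ ρ s) p := by
  rintro ⟨v, w⟩ hp
  obtain ⟨h1, h2⟩ := lensW_closure hp
  simp only at h1 h2
  have hs' : s ≤ σ / 4 := by nlinarith
  have hm : ∀ v' ∈ ball c ρ, (v', v' + u₀) ∈ lensW c u₀ ρ s := fun v' hv' =>
    ⟨mem_ball_iff_norm.1 hv', by simpa using hs⟩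
  rcases le_or_gt (ρ - σ) ‖v - c‖ with h3 | h3
  · obtain ⟨Ψ, k1, k2⟩ := hann v h3 h1
    have h4 : v ∈ closure (ball c ρ) := by
      rw [closure_ball c (hσ.trans_le hσρ).ne']; exact mem_closedBall_iff_norm.2 h1
    obtain ⟨v', k3, k4⟩ := mem_closure_iff_nhds.1 h4 _ (ball_mem_nhds v (half_pos hσ))
    have k5 : (v', v' + u₀) ∈ ball (v, v + u₀) (σ / 2) := by simpa [Prod.dist_eq] using k3
    refine ext_of_convex (lensW_convex _ _ _ _) hΦ (convex_ball _ _) (isOpen_ball.mem_nhds ?_) k1 (hm v' k4) k5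
      ((k1 _ k5).diag_unique (hΦ _ (hm v' k4)) ?_)
    · rw [mem_ball, Prod.dist_eq, dist_self, dist_eq_norm, max_lt_iff, ← sub_sub]
      exact ⟨half_pos hσ, by linarith⟩
    · filter_upwards [isOpen_ball.mem_nhds k3, isOpen_ball.mem_nhds k4] with z a1 a2
      rw [k2 z a1, hγ z a2]
  rcases h2.eq_or_lt with h4 | h4
  swap
  · exact (hΦ _ ⟨by simp only; linarith, h4⟩).ext
  have s0 : (s : ℂ) ≠ 0 := Complex.ofReal_ne_zero.2 hs.ne'
  obtain ⟨e, he, rfl⟩ : ∃ e : ℂ, ‖e‖ = 1 ∧ w = v + (u₀ + s * e) :=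
    ⟨(w - v - u₀) / s, by rw [norm_div, h4, Complex.norm_real, Real.norm_of_nonneg hs.le, div_self hs.ne'],
      by field_simp; ring⟩
  have hb : ∀ v' ∈ ball v σ, v' ∈ ball c ρ := fun v' hv' => by
    rw [mem_ball_iff_norm] at hv' ⊢
    linarith [norm_sub_le_norm_sub_add_norm_sub v' v c]
  have hm' : ∀ v' ∈ ball v σ, ∀ t : ℝ, 0 ≤ t → t < s → (v', v' + (u₀ + t * e)) ∈ lensW c u₀ ρ s := fun v' hv' t t0 t1 =>
    ⟨mem_ball_iff_norm.1 (hb v' hv'), by simpa [he, abs_of_nonneg t0] using t1⟩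
  have e1 : ∀ t : ℝ, u₀ + s * e - t * e = u₀ + ((s - t : ℝ) : ℂ) * e := fun t => by push_cast; ring
  refine ext_interior (a := a) (lensW_open _ _ _ _) (lensW_convex _ _ _ _) hΦ he.le (half_pos hσ) ?_ ?_
  · filter_upwards [Ioo_mem_nhdsGT hs] with t ht v' hv'
    rw [e1]
    exact hm' v' (ball_subset_ball (half_le_self hσ.le) hv') _ (sub_pos.2 ht.2).le (by linarith [ht.1])
  · filter_upwards [Ioo_mem_nhdsGT hs] with t ht
    rw [e1]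
    refine (hmono Φ v u₀ e σ (σ / 2) 0 (s - t) he.le (sub_pos.2 ht.2).le (half_pos hσ).le (by nlinarith [ht.1])
      fun v' t' ht' hv' => hΦ _ (hm' v' (mem_ball_iff_norm.2 (by nlinarith [ht'.1])) t' ht'.1
        (by linarith [ht'.2, ht.1]))).trans ((Ar_mono _ hb).trans (le_of_eq_of_le ?_ ha))
    refine setLIntegral_congr_fun measurableSet_ball fun z hz => ?_
    rw [en_congr]
    filter_upwards [isOpen_ball.mem_nhds hz] with y hy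
    simpa using hγ y hy

/-- `K = ⌈a / ε₁⌉ + 1`, `σ = r/(6K)`, `s₁ = σ / (4 (lam + 1))`, `κ₀ = 1 / (48 K (lam + 1))`.  `good_annulus`,
`small_complete`; a small `s₀ ≤ s₁` with `Φ` rectangle on `lensW c u₀ ρ s₀` by compactness of
`closedBall c ρ ⊆ ball c r` (`Rect.eventually`); `exhaust` with `lens_ext`. -/
theorem lens (𝒰 : UPA X A B) (a : ℝ) : ∃ κ₀ > 0, ∀ (Φ : ℂ × ℂ → X) (c u₀ : ℂ) (r : ℝ), 0 < r →
    (∀ v ∈ ball c r, 𝒰.Rect Φ (v, v + u₀)) → 𝒰.Ar (fun v => Φ (v, v + u₀)) (ball c r) ≤ ENNReal.ofReal a →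
    ∃ Φ' : ℂ × ℂ → X, (∀ p ∈ ball (c, c + u₀) (κ₀ * r), 𝒰.Rect Φ' p) ∧ Φ' =ᶠ[𝓝 (c, c + u₀)] Φ := by
  obtain ⟨lam, hlam, hmono⟩ := 𝒰.mono
  obtain ⟨ε, hε, hsc⟩ := 𝒰.small_complete
  set K := ⌈a / ε⌉₊ + 1 with hK
  have K0 : 0 < K := Nat.succ_pos _
  have K0' : (0 : ℝ) < K := Nat.cast_pos.2 K0
  have K1 : (1 : ℝ) ≤ K := by exact_mod_cast K0
  have hKa : a ≤ K * ε := by
    rw [← div_le_iff₀ hε, hK]
    push_cast
    linarith [Nat.le_ceil (a / ε)]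
  refine ⟨1 / (48 * K * (lam + 1)), by positivity, fun Φ c u₀ r hr hΦ ha => ?_⟩
  obtain ⟨ρ, h1, h2, h3⟩ := good_annulus hr hε K0 hKa ha
  set σ := r / (6 * K) with hσ
  have σ0 : 0 < σ := by positivity
  have σ1 : σ ≤ r / 6 := by rw [hσ]; gcongr; linarith
  set s₁ := σ / (4 * (lam + 1)) with hs₁
  have s0 : 0 < s₁ := by positivity
  have s1 : (lam + 1) * s₁ = σ / 4 := by rw [hs₁]; field_simp
  have s2 : 1 / (48 * K * (lam + 1)) * r = s₁ / 2 := by rw [hs₁, hσ]; field_simp; ring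
  obtain ⟨s₀, a0, a1, a2⟩ : ∃ s₀ > 0, s₀ ≤ s₁ ∧ ∀ p ∈ lensW c u₀ ρ s₀, 𝒰.Rect Φ p := by
    have hK : IsCompact ((fun v => (v, v + u₀)) '' closedBall c ρ) := (isCompact_closedBall c ρ).image (by fun_prop)
    obtain ⟨δ, hδ, hth⟩ := hK.exists_thickening_subset_open (isOpen_setOfPred_eventually_nhds (p := 𝒰.Rect Φ)) (by
      rintro _ ⟨v, hv, rfl⟩
      exact (hΦ v (closedBall_subset_ball (by linarith) hv)).eventually)
    refine ⟨min δ s₁, lt_min hδ s0, min_le_right _ _, fun p hp => Eventually.self_of_nhds (hth ?_)⟩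
    refine mem_thickening_iff.2 ⟨_, ⟨p.1, mem_closedBall_iff_norm.2 hp.1.le, rfl⟩, ?_⟩
    rw [Prod.dist_eq, dist_self, dist_eq_norm, max_lt_iff, ← sub_sub]
    exact ⟨hδ, hp.2.trans_le (min_le_left _ _)⟩
  have hm : ∀ v' ∈ ball c ρ, (v', v' + u₀) ∈ lensW c u₀ ρ s₀ := fun v' hv' =>
    ⟨mem_ball_iff_norm.1 hv', by simpa using a0⟩
  have ρ0 : 0 < ρ := by linarith
  obtain ⟨Φ', k1, k2⟩ := exhaust (𝒰 := 𝒰) (W := lensW c u₀ ρ) a1 (fun s _ => lensW_convex _ _ _ _)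
    (fun s _ => lensW_open _ _ _ _) (fun s _ => lensW_bounded _ _ _ _) (fun s _ s' _ h p hp => ⟨hp.1, hp.2.trans_le h⟩)
    (fun s hs p hp => by
      obtain ⟨s', b1, b2⟩ := exists_between (max_lt hs.1 hp.2)
      exact ⟨s', ⟨(le_max_left _ _).trans b1.le, b2⟩, hp.1, (le_max_right _ _).trans_lt b1⟩)
    (fun s hs δ hδ => ⟨min s₁ (s + δ / 2), ⟨lt_min hs.2 (by linarith), min_le_left _ _⟩, fun p hp =>
      lensW_thick c u₀ ρ (a0.trans_le hs.1) hδ ⟨hp.1, hp.2.trans_le (min_le_right _ _)⟩⟩)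
    ⟨_, hm c (mem_ball_self ρ0)⟩ a2
    (fun s hs Ψ b1 b2 => lens_ext (γ := fun v => Φ (v, v + u₀)) (a := a) hlam hmono σ0 (by linarith) (a0.trans_le hs.1)
      (by nlinarith [hs.2]) b1 (fun v hv => b2 (hm v hv)) ((Ar_mono _ (ball_subset_ball (by linarith))).trans ha)
      fun v b3 b4 => hsc _ v u₀ σ σ0 (fun z hz => (hΦ z (by
        rw [mem_ball_iff_norm] at hz ⊢
        linarith [norm_sub_le_norm_sub_add_norm_sub z v c])).an.comp (g := fun v => (v, v + u₀)) (by fun_prop))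
        (h3 v b3 b4))
  refine ⟨Φ', fun p hp => k1 p ?_, k2.eventuallyEq_of_mem ((lensW_open _ _ _ _).mem_nhds (hm c (mem_ball_self ρ0)))⟩
  rw [s2, mem_ball, Prod.dist_eq, max_lt_iff, dist_eq_norm, dist_eq_norm] at hp
  refine ⟨hp.1.trans_le (by nlinarith), ?_⟩
  rw [show p.2 - p.1 - u₀ = p.2 - (c + u₀) - (p.1 - c) by ring]
  linarith [norm_sub_le (p.2 - (c + u₀)) (p.1 - c), hp.1, hp.2]

end UPA

end

end Crest.Agent.R266

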