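import Crest.Agent.R266.Crv

/-!
# Row 266: holomorphic maps of the projective line are polynomial
-/

set_option autoImplicit false
set_option linter.unusedSectionVars false
set_option linter.unusedVariables false

namespace Crest.Agent.R266

open Set Metric Filter Topology MeasureTheory Polynomial
open scoped ENNReal Classical

noncomputable section

namespace PA
variable {X E D : Type} {N : ℕ} [TopologicalSpace X] [T2Space X] [CompactSpace X] [Nonempty X]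
  [NormedAddCommGroup E] [NormedSpace ℂ E] [FiniteDimensional ℂ E] [CompleteSpace E]
  [NormedAddCommGroup D] [NormedSpace ℂ D] {𝒬 : PA X E N}

/-- A meromorphic lift near `a` is `(z - a)^n` times a holomorphic lift: in a chart `i` at `g a` and for a coordinate `k`
with `ξ i (κ i (g a)) k ≠ 0`, `F z = φ z • ξ i (κ i (g z))`, `φ z = F z k / ξ i (κ i (g z)) k` is meromorphic and non-zero
(`meromorphicOrderAt_ne_top_iff`, `meromorphicOrderAt_eq_int_iff`). -/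
theorem lift_local {g : ℂ → X} {F : ℂ → VV N} {a : ℂ} (hg : 𝒬.An g a) (hF : MeromorphicAt F a)
    (h : ∀ᶠ z in 𝓝[≠] a, 𝒬.Ov (g z) (F z)) : ∃ (n : ℤ) (F' : ℂ → VV N), AnalyticAt ℂ F' a ∧ 𝒬.Ov (g a) (F' a) ∧
      ∀ᶠ z in 𝓝[≠] a, F z = (z - a) ^ n • F' z := by
  obtain ⟨F', h1, h2, h3⟩ := (meromorphicOrderAt_ne_top_iff hF).1
    ((meromorphicOrderAt_ne_top_iff_eventually_ne_zero hF).2 (h.mono fun z hz => hz.ne_zero))
  refine ⟨_, F', h1, ov_closed h2 ?_, h3⟩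
  have ht : Tendsto (fun z => (g z, F' z)) (𝓝[≠] a) (𝓝 (g a, F' a)) :=
    (hg.1.prodMk h1.continuousAt).tendsto.mono_left nhdsWithin_le_nhds
  refine ht.frequently (Eventually.frequently ?_)
  filter_upwards [h, h3, self_mem_nhdsWithin] with z hz hz3 hza
  have hc : (z - a) ^ (meromorphicOrderAt F a).untop₀ ≠ 0 := zpow_ne_zero _ (sub_ne_zero.2 hza)
  have := hz.smul (inv_ne_zero hc)
  rwa [hz3, inv_smul_smul₀ hc] at this

theorem lift_ind_ne (a b : ℂ) : ∀ᶠ z in 𝓝[≠] a, z ≠ b := by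
  rcases eq_or_ne a b with rfl | h
  · exact self_mem_nhdsWithin
  · exact (eventually_ne_nhds h).filter_mono nhdsWithin_le_nhds

/-- remove the exceptional points one at a time: `Function.update (fun z => (z - a) ^ (-n) • F z) a (F' a)` -/
theorem lift_ind {g : ℂ → X} (hg : ∀ z, 𝒬.An g z) (S : Finset ℂ) (F : ℂ → VV N)
    (h : ∀ z ∉ S, AnalyticAt ℂ F z ∧ 𝒬.Ov (g z) (F z)) (hS : ∀ a ∈ S, MeromorphicAt F a)
    (hinf : MeromorphicAt (fun ζ => F ζ⁻¹) 0) :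
    ∃ F' : ℂ → VV N, (∀ z, AnalyticAt ℂ F' z ∧ 𝒬.Ov (g z) (F' z)) ∧ MeromorphicAt (fun ζ => F' ζ⁻¹) 0 := by
  induction S using Finset.induction_on generalizing F with
  | empty => exact ⟨F, fun z => h z (Finset.notMem_empty z), hinf⟩
  | insert a S ha ih =>
    have hev : ∀ᶠ z in 𝓝[≠] a, z ∉ insert a S := by
      have := (eventually_all_finset (insert a S)).2 fun b _ => lift_ind_ne a b
      exact this.mono fun z hz hm => hz z hm rfl
    obtain ⟨n, F', h1, h2, h3⟩ := lift_local (hg a) (hS a (Finset.mem_insert_self a S))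
      (hev.mono fun z hz => (h z hz).2)
    let G : ℂ → VV N := fun z => (z - a) ^ (-n) • F z
    have hm : ∀ b, MeromorphicAt (fun z : ℂ => (z - a) ^ (-n)) b := fun b =>
      ((MeromorphicAt.id b).sub (.const a b)).zpow (-n)
    refine ih (Function.update G a (F' a)) (fun z hz => ?_) (fun b hb => ?_) ?_
    · rcases eq_or_ne z a with rfl | hza
      · refine ⟨h1.congr ?_, by rwa [Function.update_self]⟩
        rw [← nhdsNE_sup_pure, EventuallyEq, eventually_sup]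
        refine ⟨?_, by simp⟩
        filter_upwards [h3, self_mem_nhdsWithin] with w hw hwz
        have hwz : w ≠ z := hwz
        rw [Function.update_of_ne hwz]
        simp only [G]
        rw [hw, zpow_neg, inv_smul_smul₀ (zpow_ne_zero _ (sub_ne_zero.2 hwz))]
      · have hz' : z ∉ insert a S := by simp [hza, hz]
        have hG : AnalyticAt ℂ G z :=
          ((analyticAt_id.sub analyticAt_const).zpow (sub_ne_zero.2 hza)).smul (h z hz').1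
        refine ⟨hG.congr ?_, ?_⟩
        · filter_upwards [eventually_ne_nhds hza] with w hw
          rw [Function.update_of_ne hw]
        · rw [Function.update_of_ne hza]
          exact (h z hz').2.smul (zpow_ne_zero _ (sub_ne_zero.2 hza))
    · exact ((hm b).smul (hS b (Finset.mem_insert_of_mem hb))).update _ _
    · have h4 : MeromorphicAt (fun ζ : ℂ => (ζ⁻¹ - a) ^ (-n)) 0 :=
        ((MeromorphicAt.id 0).inv.sub (.const a 0)).zpow (-n)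
      refine (h4.smul hinf).congr ?_
      filter_upwards [lift_ind_ne 0 a⁻¹] with w hw
      rw [Function.update_of_ne fun h' => hw (by rw [← h', inv_inv])]
      rfl

theorem exists_merom_lift_nv (k : Fin (N + 1)) : ∃ Φ : X → VV N, ∀ i x, x ∈ (𝒬.κ i).source →
    Φ x = (𝒬.ξ i (𝒬.κ i x) k)⁻¹ • 𝒬.ξ i (𝒬.κ i x) := by
  choose j hj using 𝒬.cov
  refine ⟨fun x => (𝒬.ξ (j x) (𝒬.κ (j x) x) k)⁻¹ • 𝒬.ξ (j x) (𝒬.κ (j x) x), fun i x hi => ?_⟩
  obtain ⟨c, hc⟩ := 𝒬.cmpξ i (j x) x hi (hj x)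
  have hc0 : c ≠ 0 := by
    rintro rfl
    exact 𝒬.ne _ _ ((𝒬.κ (j x)).map_source (hj x)) (by rw [hc, zero_smul])
  simp only [hc, Pi.smul_apply, smul_eq_mul, smul_smul]
  congr 1
  rw [mul_inv, mul_comm c⁻¹, mul_assoc, inv_mul_cancel₀ hc0, mul_one]

theorem exists_merom_lift_loc {k : Fin (N + 1)} {Φ : X → VV N} (hΦ : ∀ i x, x ∈ (𝒬.κ i).source →
    Φ x = (𝒬.ξ i (𝒬.κ i x) k)⁻¹ • 𝒬.ξ i (𝒬.κ i x)) {g : ℂ → X} {a : ℂ} (hg : 𝒬.An g a) {i : 𝒬.ι}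
    (hi : g a ∈ (𝒬.κ i).source) : MeromorphicAt (fun z => Φ (g z)) a ∧
      (𝒬.ξ i (𝒬.κ i (g a)) k ≠ 0 → AnalyticAt ℂ (fun z => Φ (g z)) a ∧ 𝒬.Ov (g a) (Φ (g a)) ∧ Φ (g a) ≠ 0) := by
  have hV : AnalyticAt ℂ (fun z => 𝒬.ξ i (𝒬.κ i (g z))) a :=
    (𝒬.anξ i _ ((𝒬.κ i).map_source hi)).comp_of_eq (hg.2 i hi) rfl
  have hVk : AnalyticAt ℂ (fun z => 𝒬.ξ i (𝒬.κ i (g z)) k) a := analyticAt_pi_iff.1 hV k
  have he : (fun z => (𝒬.ξ i (𝒬.κ i (g z)) k)⁻¹ • 𝒬.ξ i (𝒬.κ i (g z))) =ᶠ[𝓝 a] fun z => Φ (g z) := by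
    filter_upwards [hg.1.preimage_mem_nhds ((𝒬.κ i).open_source.mem_nhds hi)] with z hz
    exact (hΦ i _ hz).symm
  refine ⟨(hVk.meromorphicAt.inv.smul hV.meromorphicAt).congr (he.filter_mono nhdsWithin_le_nhds),
    fun h0 => ⟨((hVk.inv h0).smul hV).congr he, ⟨i, hi, _, inv_ne_zero h0, hΦ i _ hi⟩, ?_⟩⟩
  rw [hΦ i _ hi]
  exact smul_ne_zero (inv_ne_zero h0) (𝒬.ne _ _ ((𝒬.κ i).map_source hi))

/-- Choose `k` with `ξ_k (g₀ 0) ≠ 0`; `F z` = the vector over `g₀ z` with `k`-th coordinate `1`, i.e.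
`(v k)⁻¹ • v` for any `v` over `g₀ z`.  The set `S` where `v k = 0` is closed and discrete (identity theorem on the
connected `ℂ`, chart by chart) and bounded (look at `g₁` near `0`), hence finite. -/
theorem exists_merom_lift {g₀ g₁ : ℂ → X} (h₀ : ∀ z, 𝒬.An g₀ z) (h₁ : 𝒬.An g₁ 0) (h : ∀ z, z ≠ 0 → g₁ z = g₀ z⁻¹) :
    ∃ (S : Finset ℂ) (F : ℂ → VV N), (∀ z ∉ S, AnalyticAt ℂ F z ∧ 𝒬.Ov (g₀ z) (F z)) ∧ (∀ a ∈ S, MeromorphicAt F a) ∧
      MeromorphicAt (fun ζ => F ζ⁻¹) 0 := by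
  obtain ⟨i₁, hi₁⟩ := 𝒬.cov (g₁ 0)
  obtain ⟨k, hk⟩ := Function.ne_iff.1 (𝒬.ne _ _ ((𝒬.κ i₁).map_source hi₁))
  obtain ⟨Φ, hΦ⟩ := exists_merom_lift_nv (𝒬 := 𝒬) k
  obtain ⟨m₁, a₁⟩ := exists_merom_lift_loc hΦ h₁ hi₁
  obtain ⟨a₁, -, n₁⟩ := a₁ hk
  have hm : ∀ a, MeromorphicAt (fun z => Φ (g₀ z)) a := fun a => by
    obtain ⟨i, hi⟩ := 𝒬.cov (g₀ a)
    exact (exists_merom_lift_loc hΦ (h₀ a) hi).1
  have ha : ∀ a, Φ (g₀ a) ≠ 0 → AnalyticAt ℂ (fun z => Φ (g₀ z)) a ∧ 𝒬.Ov (g₀ a) (Φ (g₀ a)) := fun a h0 => by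
    obtain ⟨i, hi⟩ := 𝒬.cov (g₀ a)
    have := (exists_merom_lift_loc hΦ (h₀ a) hi).2 fun h1 => h0 (by rw [hΦ i _ hi, h1, inv_zero, zero_smul])
    exact ⟨this.1, this.2.1⟩
  obtain ⟨r, r0, hr⟩ := Metric.eventually_nhds_iff.1 (a₁.continuousAt.eventually_ne n₁)
  have hbig : ∀ z : ℂ, r⁻¹ < ‖z‖ → Φ (g₀ z) ≠ 0 := fun z hz => by
    have z0 : 0 < ‖z‖ := (inv_pos.2 r0).trans hz
    have := @hr z⁻¹ (by rw [dist_zero_right, norm_inv]; exact inv_lt_of_inv_lt₀ r0 hz)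
    rwa [h _ (inv_ne_zero (norm_pos_iff.1 z0)), inv_inv] at this
  have hord : ∀ a, ∀ᶠ z in 𝓝[≠] a, Φ (g₀ z) ≠ 0 := fun a => by
    have hz : r⁻¹ < ‖((r⁻¹ + 1 : ℝ) : ℂ)‖ := by
      rw [Complex.norm_real, Real.norm_of_nonneg (by positivity)]; linarith
    refine (meromorphicOrderAt_ne_top_iff_eventually_ne_zero (hm a)).1
      (MeromorphicOn.meromorphicOrderAt_ne_top_of_isPreconnected (U := univ) (fun z _ => hm z)
        isPreconnected_univ (mem_univ ((r⁻¹ + 1 : ℝ) : ℂ)) (mem_univ a)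
        ((meromorphicOrderAt_ne_top_iff_eventually_ne_zero (hm _)).2 ?_))
    exact ((continuous_norm.continuousAt.eventually (lt_mem_nhds hz)).mono hbig).filter_mono
      nhdsWithin_le_nhds
  obtain ⟨t, -, ht⟩ := (isCompact_closedBall (0 : ℂ) r⁻¹).elim_nhds_subcover
    (fun a => {z | z ∈ ({a}ᶜ : Set ℂ) → Φ (g₀ z) ≠ 0}) fun a _ => eventually_nhdsWithin_iff.1 (hord a)
  refine ⟨t, fun z => Φ (g₀ z), fun z hz => ha z ?_, fun a _ => hm a, m₁.congr ?_⟩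
  · by_cases hb : r⁻¹ < ‖z‖
    · exact hbig z hb
    · obtain ⟨a, ha', hza⟩ := mem_iUnion₂.1 (ht (mem_closedBall_zero_iff.2 (not_lt.1 hb)))
      exact hza fun e => hz (by rw [mem_singleton_iff.1 e]; exact ha')
  · filter_upwards [self_mem_nhdsWithin] with z hz
    rw [h z hz]

/-- `lift_local` at infinity: `F ζ⁻¹ = ζ ^ n • F' ζ`; `n > 0` is impossible (Liouville, `F ≠ 0`); `exists_coeff (-n)` -/
theorem crv_of_an {g₀ g₁ : ℂ → X} (h₀ : ∀ z, 𝒬.An g₀ z) (h₁ : 𝒬.An g₁ 0) (h : ∀ z, z ≠ 0 → g₁ z = g₀ z⁻¹) :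
    ∃ (d : ℕ) (c : Fin (d + 1) → VV N), 𝒬.Crv c ∧ (∀ z, 𝒬.pt (ev c z) = g₀ z) ∧ 𝒬.pt (c (Fin.last d)) = g₁ 0 := by
  obtain ⟨S, F₀, h1, h2, h3⟩ := exists_merom_lift h₀ h₁ h
  obtain ⟨F, hF, hinf⟩ := lift_ind h₀ S F₀ h1 h2 h3
  obtain ⟨n, F', k1, k2, k3⟩ := lift_local h₁ hinf (by
    filter_upwards [self_mem_nhdsWithin] with z hz
    rw [h z hz]; exact (hF _).2)
  have hd : Differentiable ℂ F := fun z => (hF z).1.differentiableAt
  rcases le_or_gt n 0 with hn | hn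
  · obtain ⟨d, hd'⟩ := Int.eq_ofNat_of_zero_le (neg_nonneg.2 hn)
    obtain ⟨c, hc, hl⟩ := exists_coeff d hd k1 (by
      filter_upwards [k3] with z hz
      rw [hz, sub_zero, inv_pow, ← zpow_natCast, ← zpow_neg, ← hd', neg_neg])
    refine ⟨d, c, ⟨fun z => ⟨_, hc z ▸ (hF z).2⟩, ⟨_, hl ▸ k2⟩⟩, fun z => ?_, ?_⟩
    · rw [hc]; exact (hF z).2.pt_eq
    · rw [hl]; exact k2.pt_eq
  · exfalso
    obtain ⟨d, rfl⟩ := Int.eq_ofNat_of_zero_le hn.le
    obtain ⟨c, hc, hl⟩ := exists_coeff 0 (k := fun ζ => ζ ^ d • F' ζ) hd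
      ((analyticAt_id.pow d).smul k1) (by
        filter_upwards [k3] with z hz
        rw [hz, sub_zero, pow_zero, one_smul, zpow_natCast])
    have hd0 : d ≠ 0 := by omega
    refine (hF 0).2.ne_zero ?_
    rw [← hc, ev_zero]
    simpa [hd0] using hl

end PA

end

end Crest.Agent.R266

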