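import Crest.Agent.R266.Lens

/-!
# Row 266: extension across a non-characteristic boundary point
-/

set_option autoImplicit false
set_option linter.unusedSectionVars false
set_option linter.unusedVariables false

namespace Crest.Agent.R266

open Set Metric Filter Topology MeasureTheory Polynomial
open scoped ENNReal Classical

noncomputable section

/-- With `R = 1/M`, `τ₀ = min (R/16) (R/(64 lam²))`, `k = √R/4`, `R₀ = 3√(R τ₀)/8`, `R₁ = √(R τ₀)/2`: the point `(v, v - t)` satisfies the paraboloid inequality when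
`‖v‖ < √(R t)/2` and `0 < t ≤ τ₀`; and the cone `‖v‖ < √(R τ)/4 + lam (t - τ)`, `τ ≤ t ≤ τ₀`, has `‖v‖ < √(R t)/2`
(`lam √t ≤ √R / 8`). -/
theorem parab_cone {M lam : ℝ} (hM : 0 < M) (hlam : 0 < lam) : ∃ τ₀ > 0, ∃ R₀ > 0, ∃ R₁ > R₀,
    (∀ v : ℂ, ‖v‖ < R₁ → (-(τ₀ : ℝ)) + M * (‖v‖ ^ 2 + ‖v - τ₀‖ ^ 2) < 0) ∧
    ∃ k > 0, ∀ τ : ℝ, 0 < τ → τ ≤ τ₀ → k * √τ + lam * (τ₀ - τ) ≤ R₀ ∧
      ∀ (v : ℂ) (t : ℝ), τ ≤ t → t ≤ τ₀ → ‖v‖ < k * √τ + lam * (t - τ) →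
        -t + M * (‖v‖ ^ 2 + ‖v - t‖ ^ 2) < 0 := by
  have key : ∀ (v : ℂ) (t : ℝ), 0 < t → t ≤ M⁻¹ / 16 → ‖v‖ < √(M⁻¹) * √t / 2 → -t + M * (‖v‖ ^ 2 + ‖v - t‖ ^ 2) < 0 := by
    intro v t h0 h1 h2
    have h3 : ‖v‖ ^ 2 < M⁻¹ * t / 4 := by
      have := pow_lt_pow_left₀ h2 (norm_nonneg _) two_ne_zero
      rwa [div_pow, mul_pow, Real.sq_sqrt (by positivity), Real.sq_sqrt h0.le, show (2 : ℝ) ^ 2 = 4 by norm_num] at this
    have h4 : ‖v - t‖ ≤ ‖v‖ + t := by simpa [abs_of_pos h0] using norm_sub_le v t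
    have h5 : ‖v - t‖ ^ 2 ≤ 2 * ‖v‖ ^ 2 + 2 * t ^ 2 := by
      nlinarith [pow_le_pow_left₀ (norm_nonneg _) h4 2, sq_nonneg (‖v‖ - t)]
    have h6 : ‖v‖ ^ 2 + ‖v - t‖ ^ 2 < M⁻¹ * t := by nlinarith [mul_pos (inv_pos.2 hM) h0]
    have h7 := mul_lt_mul_of_pos_left h6 hM
    rw [← mul_assoc, mul_inv_cancel₀ hM.ne', one_mul] at h7
    linarith
  set τ₀ := min (M⁻¹ / 16) (M⁻¹ / (64 * lam ^ 2)) with hτ₀
  have τ0 : 0 < τ₀ := lt_min (by positivity) (by positivity)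
  have R0 : 0 < √(M⁻¹) := by positivity
  have key2 : ∀ t : ℝ, 0 < t → t ≤ τ₀ → lam * t ≤ √(M⁻¹) * √t / 8 := fun t h0 h1 => by
    have h2 : lam * √t ≤ √(M⁻¹) / 8 := by
      refine le_of_pow_le_pow_left₀ two_ne_zero (by positivity) ?_
      rw [mul_pow, div_pow, Real.sq_sqrt h0.le, Real.sq_sqrt (by positivity)]
      have h3 := h1.trans (min_le_right _ _)
      rw [le_div_iff₀ (by positivity)] at h3
      linarith
    calc lam * t = lam * √t * √t := by rw [mul_assoc, Real.mul_self_sqrt h0.le]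
      _ ≤ √(M⁻¹) / 8 * √t := by gcongr
      _ = _ := by ring
  have s0 : 0 < √τ₀ := by positivity
  refine ⟨τ₀, τ0, 3 * (√(M⁻¹) * √τ₀) / 8, by positivity, √(M⁻¹) * √τ₀ / 2, by nlinarith [mul_pos R0 s0],
    fun v hv => key v τ₀ τ0 (min_le_left _ _) hv, √(M⁻¹) / 4, by positivity, fun τ h0 h1 => ⟨?_, fun v t h2 h3 h4 => ?_⟩⟩
  · have := mul_le_mul_of_nonneg_left (Real.sqrt_le_sqrt h1) R0.le
    nlinarith [key2 τ₀ τ0 le_rfl, mul_pos hlam h0]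
  · have h5 := h0.trans_le h2
    refine key v t h5 (h3.trans (min_le_left _ _)) ?_
    have := mul_le_mul_of_nonneg_left (Real.sqrt_le_sqrt h2) R0.le
    nlinarith [key2 t h5 h3, mul_pos hlam h0, mul_pos R0 (Real.sqrt_pos.2 h5)]

namespace UPA
variable {X A B D₁ D₂ : Type} [TopologicalSpace X] [T2Space X]
  [NormedAddCommGroup A] [NormedSpace ℂ A] [NormedSpace ℝ A] [IsScalarTower ℝ ℂ A] [FiniteDimensional ℂ A]
  [NormedAddCommGroup B] [NormedSpace ℂ B] [NormedSpace ℝ B] [IsScalarTower ℝ ℂ B] [FiniteDimensional ℂ B]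
  [CompleteSpace A] [CompleteSpace B]
  [NormedAddCommGroup D₁] [NormedSpace ℂ D₁] [NormedSpace ℝ D₁] [IsScalarTower ℝ ℂ D₁] [FiniteDimensional ℂ D₁]
  [NormedAddCommGroup D₂] [NormedSpace ℂ D₂] [NormedSpace ℝ D₂] [IsScalarTower ℝ ℂ D₂] [FiniteDimensional ℂ D₂]
  {𝒰 : UPA X A B}

theorem Ar_lt_top {γ : ℂ → X} {c : ℂ} {R₀ R₁ : ℝ} (h : R₀ < R₁) (hγ : ∀ v ∈ ball c R₁, 𝒰.An γ v) :
    𝒰.Ar γ (ball c R₀) ≠ ⊤ := by
  obtain ⟨C, hC⟩ := (isCompact_closedBall c R₀).exists_bound_of_continuousOn (f := 𝒰.en γ)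
    fun v hv => (en_continuousAt (hγ v (closedBall_subset_ball h hv))).continuousWithinAt
  refine (lt_of_le_of_lt (setLIntegral_mono' measurableSet_ball (g := fun _ => ENNReal.ofReal C) fun v hv =>
    ENNReal.ofReal_le_ofReal ((le_abs_self _).trans (hC v (ball_subset_closedBall hv)))) ?_).ne
  rw [setLIntegral_const]
  exact ENNReal.mul_lt_top ENNReal.ofReal_lt_top measure_ball_lt_top

/-- Normalised case.  `a` = area of the disc at depth `τ₀` of radius `R₀`; by `mono` (`u₀ = -τ₀`, `e = 1`, `t₀ = 0`,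
`t₁ = τ₀ - τ`, `R = k √τ + lam (τ₀ - τ)`, `r = k √τ / 2`) the disc at depth `τ` has area `≤ a`; `lens` extends to the
ball of radius `κ₀ k √τ / 2 > τ` around `(0, -τ)`; `ext_of_convex`. -/
theorem loc2_norm {Φ : ℂ × ℂ → X} {W : Set (ℂ × ℂ)} {M : ℝ} (hW : Convex ℝ W) (hΦ : ∀ x ∈ W, 𝒰.Rect Φ x)
    (hM : 0 < M) (h : ∀ z w : ℂ, (w - z).re + M * (‖z‖ ^ 2 + ‖w‖ ^ 2) < 0 → (z, w) ∈ W) : 𝒰.Ext Φ W (0, 0) := by
  obtain ⟨lam, hlam, hmono⟩ := 𝒰.mono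
  obtain ⟨τ₀, τ0, R₀, R0, R₁, R1, h1, k, k0, h2⟩ := parab_cone hM hlam
  have hin : ∀ (v : ℂ) (t : ℝ), -t + M * (‖v‖ ^ 2 + ‖v - t‖ ^ 2) < 0 → (v, v + (-τ₀ + ((τ₀ - t : ℝ) : ℂ) * 1)) ∈ W :=
    fun v t ht => by
      rw [show v + (-τ₀ + ((τ₀ - t : ℝ) : ℂ) * 1) = v - t by push_cast; ring]
      exact h _ _ (by simpa using ht)
  have ha := Ar_lt_top (𝒰 := 𝒰) (γ := fun v => Φ (v, v + (-τ₀ + ((0 : ℝ) : ℂ) * 1))) (c := 0) R1 fun v hv =>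
    (hΦ _ (by simpa using hin v τ₀ (h1 v (mem_ball_zero_iff.1 hv)))).an.comp
      (g := fun v => (v, v + (-τ₀ + ((0 : ℝ) : ℂ) * 1))) (by fun_prop)
  obtain ⟨κ₀, κ0, hl⟩ := 𝒰.lens (𝒰.Ar (fun v => Φ (v, v + (-τ₀ + ((0 : ℝ) : ℂ) * 1))) (ball 0 R₀)).toReal
  set τ := min τ₀ ((κ₀ * k / 4) ^ 2) with hτ
  have t0 : 0 < τ := lt_min τ0 (by positivity)
  have t1 : τ ≤ τ₀ := min_le_left _ _
  have s0 : 0 < √τ := by positivity
  have s1 : √τ ≤ κ₀ * k / 4 := Real.sqrt_le_iff.2 ⟨by positivity, min_le_right _ _⟩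
  obtain ⟨h3, h4⟩ := h2 τ t0 t1
  have ks : 0 < k * √τ := by positivity
  have h5 : ∀ v ∈ ball (0 : ℂ) (k * √τ / 2), (v, v + (-τ₀ + ((τ₀ - τ : ℝ) : ℂ) * 1)) ∈ W := fun v hv =>
    hin v τ (h4 v τ le_rfl t1 (by rw [mem_ball_zero_iff] at hv; linarith))
  obtain ⟨Φ', k1, k2⟩ := hl Φ 0 _ (k * √τ / 2) (half_pos ks) (fun v hv => hΦ _ (h5 v hv)) (by
    rw [ENNReal.ofReal_toReal ha]
    refine (hmono Φ 0 (-τ₀) 1 (k * √τ + lam * (τ₀ - τ)) _ 0 (τ₀ - τ) (by simp) (by linarith) (half_pos ks).le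
      (by linarith) fun v t ht hv => hΦ _ ?_).trans (Ar_mono _ (ball_subset_ball h3))
    have := hin v (τ₀ - t) (h4 v _ (by linarith [ht.2]) (by linarith [ht.1]) (by rw [sub_zero] at hv; linarith))
    rwa [sub_sub_cancel] at this)
  refine ext_of_convex hW hΦ (convex_ball _ _) (isOpen_ball.mem_nhds ?_) k1 (h5 0 (mem_ball_self (half_pos ks)))
    (mem_ball_self (by positivity)) k2
  rw [mem_ball, Prod.dist_eq, dist_self, dist_eq_norm, max_lt_iff,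
    show (0 : ℂ) - (0 + (-τ₀ + ((τ₀ - τ : ℝ) : ℂ) * 1)) = τ by push_cast; ring, Complex.norm_real,
    Real.norm_of_nonneg t0.le]
  refine ⟨by positivity, ?_⟩
  nlinarith [Real.mul_self_sqrt t0.le, mul_le_mul_of_nonneg_right s1 s0.le, mul_pos κ0 ks]

/-- substitute `z = -z'/α`, `w = w'/β` (`Rect.comp`) -/
theorem loc2 {Φ : ℂ × ℂ → X} {W : Set (ℂ × ℂ)} {M : ℝ} {α β : ℂ} (hW : Convex ℝ W) (hΦ : ∀ x ∈ W, 𝒰.Rect Φ x)
    (hα : α ≠ 0) (hβ : β ≠ 0) (hM : 0 < M)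
    (h : ∀ z w : ℂ, (α * z + β * w).re + M * (‖z‖ ^ 2 + ‖w‖ ^ 2) < 0 → (z, w) ∈ W) : 𝒰.Ext Φ W (0, 0) := by
  let L : ℂ × ℂ →ₗ[ℝ] ℂ × ℂ := (LinearMap.mulLeft ℝ (-α⁻¹)).prodMap (LinearMap.mulLeft ℝ β⁻¹)
  obtain ⟨Ψ, k1, k2⟩ := loc2_norm (𝒰 := 𝒰) (Φ := fun x => Φ (-α⁻¹ * x.1, β⁻¹ * x.2)) (W := L ⁻¹' W)
    (M := M * (‖α⁻¹‖ ^ 2 + ‖β⁻¹‖ ^ 2)) (hW.linear_preimage L)
    (fun x hx => Rect.comp (a := fun z => -α⁻¹ * z) (b := fun z => β⁻¹ * z) (hΦ _ hx) (by fun_prop) (by fun_prop))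
    (by have := norm_pos_iff.2 (inv_ne_zero hα); positivity) fun z w hzw => h (-α⁻¹ * z) (β⁻¹ * w) (by
      rw [show α * (-α⁻¹ * z) + β * (β⁻¹ * w) = w - z by field_simp; ring]
      refine lt_of_le_of_lt (add_le_add_right ?_ _) hzw
      rw [mul_assoc, norm_mul, norm_mul, norm_neg, mul_pow, mul_pow]
      refine mul_le_mul_of_nonneg_left ?_ hM.le
      nlinarith [mul_nonneg (sq_nonneg ‖α⁻¹‖) (sq_nonneg ‖w‖), mul_nonneg (sq_nonneg ‖β⁻¹‖) (sq_nonneg ‖z‖)])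
  refine ⟨fun x => Ψ (-α * x.1, β * x.2), Rect.comp (a := fun z => -α * z) (b := fun z => β * z) (by simpa using k1)
    (by fun_prop) (by fun_prop), ?_⟩
  have e : ∀ x : ℂ × ℂ, (-α⁻¹ * (-α * x.1), β⁻¹ * (β * x.2)) = x := fun x => by
    ext <;> field_simp
  have t : Tendsto (fun x : ℂ × ℂ => (-α * x.1, β * x.2)) (𝓝[W] (0, 0)) (𝓝[L ⁻¹' W] (0, 0)) := by
    refine tendsto_nhdsWithin_iff.2 ⟨tendsto_nhdsWithin_of_tendsto_nhds ?_, ?_⟩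
    · simpa [ContinuousAt] using (by fun_prop : ContinuousAt (fun x : ℂ × ℂ => (-α * x.1, β * x.2)) (0, 0))
    · filter_upwards [self_mem_nhdsWithin] with x hx
      show (-α⁻¹ * (-α * x.1), β⁻¹ * (β * x.2)) ∈ W
      rwa [e]
  filter_upwards [t.eventually k2] with x hx
  rw [hx]
  simp only [e]

end UPA

end

end Crest.Agent.R266

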