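import Crest.Agent.R266.Crv

/-!
# Row 266: the sets of curves and chains are locally analytic
-/

set_option autoImplicit false
set_option linter.unusedSectionVars false
set_option linter.unusedVariables false

namespace Crest.Agent.R266

open Set Metric Filter Topology MeasureTheory Polynomial
open scoped ENNReal Classical

noncomputable section

section
variable {E E' : Type} [NormedAddCommGroup E] [NormedSpace ℂ E] [CompleteSpace E] [NormedAddCommGroup E']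
  [NormedSpace ℂ E'] [CompleteSpace E']

theorem LocAn.prod {Z : Set E} {Z' : Set E'} (h : LocAn Z) (h' : LocAn Z') : LocAn (Z ×ˢ Z') := by
  rintro ⟨c₀, c₀'⟩ ⟨h0, h0'⟩
  obtain ⟨J, g, U, hU, hc, han, hiff⟩ := h c₀ h0
  obtain ⟨J', g', U', hU', hc', han', hiff'⟩ := h' c₀' h0'
  refine ⟨J ⊕ J', fun j c => Sum.elim (fun a => g a c.1) (fun b => g' b c.2) j, U ×ˢ U', hU.prod hU',
    ⟨hc, hc'⟩, ?_, ?_⟩
  · rintro (a | b) c hcU
    · exact (han a c.1 hcU.1).comp analyticAt_fst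
    · exact (han' b c.2 hcU.2).comp analyticAt_snd
  · intro c hcU
    rw [mem_prod, hiff c.1 hcU.1, hiff' c.2 hcU.2, Sum.forall]
    rfl

/-- a subset cut out inside `Z` by vector valued analytic equations (use all continuous linear functionals) -/
theorem LocAn.of_rel {Z Z' : Set E} (h : LocAn Z) (hs : Z' ⊆ Z)
    (h' : ∀ c₀ ∈ Z', ∃ (J : Type) (g : J → E → E') (U : Set E), IsOpen U ∧ c₀ ∈ U ∧ (∀ j, AnalyticOnNhd ℂ (g j) U) ∧
      ∀ c ∈ U, c ∈ Z → (c ∈ Z' ↔ ∀ j, g j c = 0)) : LocAn Z' := by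
  intro c₀ h0
  obtain ⟨J, g, U, hU, hc, han, hiff⟩ := h c₀ (hs h0)
  obtain ⟨J', g', U', hU', hc', han', hiff'⟩ := h' c₀ h0
  refine ⟨J ⊕ (J' × (E' →L[ℂ] ℂ)), fun j c => Sum.elim (fun a => g a c) (fun b => b.2 (g' b.1 c)) j,
    U ∩ U', hU.inter hU', ⟨hc, hc'⟩, ?_, ?_⟩
  · rintro (a | b) c hcU
    · exact han a c hcU.1
    · exact (b.2.analyticAt _).comp (han' b.1 c hcU.2)
  · intro c hcU
    rw [Sum.forall]
    constructor
    · intro hz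
      refine ⟨(hiff c hcU.1).1 (hs hz), fun b => ?_⟩
      have := (hiff' c hcU.2 (hs hz)).1 hz b.1
      simp [this]
    · rintro ⟨h1, h2⟩
      have hz := (hiff c hcU.1).2 h1
      refine (hiff' c hcU.2 hz).2 fun j => ?_
      exact SeparatingDual.eq_zero_of_forall_dual_eq_zero (R := ℂ) fun f => h2 (j, f)

theorem LocAn.rel_open {Z Z' : Set E} (h : LocAn Z) (hs : Z' ⊆ Z) (h' : ∀ c₀ ∈ Z', ∀ᶠ c in 𝓝[Z] c₀, c ∈ Z') :
    LocAn Z' := by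
  intro c₀ h0
  obtain ⟨J, g, U, hU, hc, han, hiff⟩ := h c₀ (hs h0)
  have := h' c₀ h0
  rw [eventually_nhdsWithin_iff, _root_.eventually_nhds_iff] at this
  obtain ⟨V, hV, hVo, hcV⟩ := this
  refine ⟨J, g, U ∩ V, hU.inter hVo, ⟨hc, hcV⟩, fun j => (han j).mono inter_subset_left, fun c hcU => ?_⟩
  rw [← hiff c hcU.1]
  exact ⟨fun hz => hs hz, fun hz => hV c hcU.2 hz⟩

end

/-- compactness of the closed unit disc for `ev` and `evi` (`IsCompact.eventually_forall_of_forall_eventually`) -/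
theorem ne_near {N d : ℕ} {c₀ : Fin (d + 1) → VV N} (h0 : ∀ z, ev c₀ z ≠ 0) (hl : c₀ (Fin.last d) ≠ 0) :
    ∀ᶠ c in 𝓝 c₀, (∀ z, ev c z ≠ 0) ∧ c (Fin.last d) ≠ 0 := by
  have h1 : ∀ᶠ c in 𝓝 c₀, ∀ z ∈ closedBall (0 : ℂ) 1, ev c z ≠ 0 :=
    (isCompact_closedBall (0 : ℂ) 1).eventually_forall_of_forall_eventually
      (P := fun c z => ev c z ≠ 0) fun z _ =>
        (ev_analytic (c₀, z)).continuousAt.eventually_ne (h0 z)
  have h0' : ∀ z, evi c₀ z ≠ 0 := by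
    intro z
    rcases eq_or_ne z 0 with rfl | hz
    · rw [evi_zero]; exact hl
    · rw [evi_eq c₀ hz]; exact smul_ne_zero (pow_ne_zero _ hz) (h0 _)
  have h2 : ∀ᶠ c in 𝓝 c₀, ∀ z ∈ closedBall (0 : ℂ) 1, evi c z ≠ 0 :=
    (isCompact_closedBall (0 : ℂ) 1).eventually_forall_of_forall_eventually
      (P := fun c z => evi c z ≠ 0) fun z _ =>
        (evi_analytic (c₀, z)).continuousAt.eventually_ne (h0' z)
  filter_upwards [h1, h2] with c hc1 hc2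
  refine ⟨fun z => ?_, ?_⟩
  · by_cases hz : ‖z‖ ≤ 1
    · exact hc1 z (by simpa using hz)
    · push Not at hz
      have hz0 : z ≠ 0 := by
        rintro rfl
        simp at hz
        linarith
      have hi : ‖z⁻¹‖ ≤ 1 := by
        rw [norm_inv]
        exact inv_le_one_of_one_le₀ hz.le
      have := hc2 z⁻¹ (by simpa using hi)
      rw [evi_eq c (inv_ne_zero hz0), inv_inv] at this
      intro h
      exact this (by rw [h, smul_zero])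
  · have := hc2 0 (by simp)
    rwa [evi_zero] at this

namespace PA
variable {X E D : Type} {N : ℕ} [TopologicalSpace X] [T2Space X] [CompactSpace X] [Nonempty X]
  [NormedAddCommGroup E] [NormedSpace ℂ E] [FiniteDimensional ℂ E] [CompleteSpace E]
  [NormedAddCommGroup D] [NormedSpace ℂ D] {𝒬 : PA X E N}

theorem crv_locAn_fam {C E' : Type} [NormedAddCommGroup C] [NormedSpace ℂ C] [CompleteSpace C]
    [NormedAddCommGroup E'] [NormedSpace ℂ E'] [CompleteSpace E'] {Z Z' : Set C} (h : LocAn Z) (hs : Z' ⊆ Z)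
    (h' : ∀ c₀ ∈ Z', ∃ G : C × ℂ → E', AnalyticAt ℂ G (c₀, 0) ∧ (∀ᶠ p in 𝓝 (c₀, (0 : ℂ)), p.1 ∈ Z' → G p = 0) ∧
      ∀ᶠ c in 𝓝 c₀, c ∈ Z → (∀ᶠ z in 𝓝 (0 : ℂ), G (c, z) = 0) → c ∈ Z') : LocAn Z' := by
  refine h.of_rel (E' := E') hs fun c₀ hc => ?_
  obtain ⟨G, h1, h2, h3⟩ := h' c₀ hc
  obtain ⟨u, v, hu, hu0, hv, hv0, huv⟩ := mem_nhds_prod_iff'.1
    ((h1.eventually_analyticAt.and h2).and ((continuousAt_fst (p := (c₀, (0 : ℂ)))).eventually h3))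
  refine ⟨v, fun j c => G (c, j), u, hu, hu0, fun j c hcu => ?_, fun c hcu hcZ => ⟨fun h4 j => ?_, fun h4 => ?_⟩⟩
  · exact (huv (mk_mem_prod hcu j.2)).1.1.comp (f := fun c => (c, (j : ℂ))) (analyticAt_id.prod analyticAt_const)
  · exact (huv (mk_mem_prod hcu j.2)).1.2 h4
  · exact (huv (mk_mem_prod hcu hv0)).2 hcZ (Eventually.mono (hv.mem_nhds hv0) fun z hz => h4 ⟨z, hz⟩)

/-- equations `ev c z - μ (ev c z) • ξ (r (ev c z)) = 0`, `‖z‖ < δ` (`local_retr` at `ev c₀ 0`, `crv_of_germ`) -/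
theorem crv_locAn (d : ℕ) : LocAn {c : Fin (d + 1) → VV N | 𝒬.Crv c} := by
  refine crv_locAn_fam (E' := VV N) (Z := univ) (fun _ _ => ⟨Empty, fun _ _ => 0, univ, isOpen_univ, trivial,
    fun j => j.elim, fun _ _ => by simp⟩) (subset_univ _) fun c₀ hc => ?_
  obtain ⟨i, hi⟩ := 𝒬.cov (𝒬.pt (ev c₀ 0))
  obtain ⟨r, μ, hr, hμ, h1, -, h2⟩ := local_retr (ov_pt (hc.1 0)) hi
  have hF := ev_analytic (c₀, (0 : ℂ))
  have h3 := hF.continuousAt.eventually h2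
  refine ⟨fun p => ev p.1 p.2 - μ (ev p.1 p.2) • 𝒬.ξ i (r (ev p.1 p.2)),
    hF.sub ((hμ.comp_of_eq hF rfl).smul
      ((𝒬.anξ i _ (h1 ▸ (𝒬.κ i).map_source hi)).comp_of_eq (hr.comp_of_eq hF rfl) rfl)),
    h3.mono fun p hp hq => sub_eq_zero.2 (hp.1.1 (hq.1 _)), ?_⟩
  filter_upwards [h3.curry_nhds, ne_near (fun z => (ov_pt (hc.1 z)).ne_zero) (ov_pt hc.2).ne_zero]
    with c h4 h5 _ h6
  exact crv_of_germ h5.1 h5.2 (z₀ := 0) (((h4.and h6).mono fun z hz =>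
    hz.1.1.2 (sub_eq_zero.1 hz.2)).filter_mono nhdsWithin_le_nhds).frequently

/-- equations `P (r (ev c z)) (deriv (r ∘ ev c) z) - deriv (r ∘ ev c) z = 0`, `‖z‖ < δ`; the derivative is
`fderiv (fun y => r (ev y.1 y.2)) (c, z) (0, 1)`; `SA.Tan.of_frequently`, `SA.Tan_of` -/
theorem tcrv_locAn (d : ℕ) : LocAn {c : Fin (d + 1) → VV N | 𝒬.TCrv c} := by
  refine crv_locAn_fam (E' := E) (crv_locAn (𝒬 := 𝒬) d) (fun c hc => hc.1) fun c₀ hc => ?_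
  obtain ⟨i, hi⟩ := 𝒬.cov (𝒬.pt (ev c₀ 0))
  obtain ⟨r, μ, hr, -, h1, -, h2⟩ := local_retr (ov_pt (hc.1.1 0)) hi
  have hF := ev_analytic (c₀, (0 : ℂ))
  have h3 := hF.continuousAt.eventually h2
  set H : (Fin (d + 1) → VV N) × ℂ → E := fun p => r (ev p.1 p.2) with hH
  have h4 : AnalyticAt ℂ H (c₀, 0) := hr.comp_of_eq hF rfl
  have h5 : AnalyticAt ℂ (fun p => fderiv ℂ H p (0, 1)) (c₀, 0) :=
    ((ContinuousLinearMap.apply ℂ E ((0, 1) : (Fin (d + 1) → VV N) × ℂ)).analyticAt _).comp h4.fderiv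
  have ht : H (c₀, 0) ∈ (𝒬.κ i).target := by
    change r (ev c₀ 0) ∈ _
    rw [h1]; exact (𝒬.κ i).map_source hi
  have key : ∀ᶠ p in 𝓝 (c₀, (0 : ℂ)), 𝒬.Crv p.1 → (𝒬.Tan (fun t => 𝒬.pt (ev p.1 t)) p.2 ↔
      𝒬.P i (H p) (fderiv ℂ H p (0, 1)) - fderiv ℂ H p (0, 1) = 0) := by
    filter_upwards [h3.eventually_nhds, h4.eventually_analyticAt] with p k1 k2 k3
    have k4 := k1.self_of_nhds.2 (k3.1 _)
    have k5 : (𝒬.κ i ∘ fun t => 𝒬.pt (ev p.1 t)) =ᶠ[𝓝 p.2] fun t => H (p.1, t) :=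
      ((Continuous.prodMk_right p.1).continuousAt.eventually k1).mono fun t ht => (ht.2 (k3.1 _)).2
    have k6 : deriv (𝒬.κ i ∘ fun t => 𝒬.pt (ev p.1 t)) p.2 = fderiv ℂ H p (0, 1) := by
      rw [k5.deriv_eq]
      exact (k2.differentiableAt.hasFDerivAt.comp_hasDerivAt p.2
        ((hasDerivAt_const p.2 p.1).prodMk (hasDerivAt_id p.2))).deriv
    rw [sub_eq_zero, ← k6, show H p = 𝒬.κ i (𝒬.pt (ev p.1 p.2)) from k4.2.symm]
    exact ⟨fun h => h i k4.1, fun h => SA.Tan_of (k3.an _) i k4.1 h⟩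
  refine ⟨fun p => 𝒬.P i (H p) (fderiv ℂ H p (0, 1)) - fderiv ℂ H p (0, 1),
    ((ContinuousLinearMap.id ℂ (E →L[ℂ] E)).analyticAt_bilinear _ |>.comp₂
      ((𝒬.anP i _ ht).comp_of_eq h4 rfl) h5).sub h5,
    key.mono fun p hp hq => (hp hq.1).1 (hq.2 _), ?_⟩
  filter_upwards [key.curry_nhds] with c k1 k2 k3
  exact ⟨k2, SA.Tan.of_frequently k2.an (z₀ := 0) (((k1.and k3).mono fun z hz =>
    (hz.1 k2).2 hz.2).filter_mono nhdsWithin_le_nhds).frequently⟩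

theorem chn_locAn_ext {d : ℕ} {c₀ : Fin (d + 1) → VV N} (h : 𝒬.Crv c₀) (z : ℂ) {i : 𝒬.ι}
    (hi : 𝒬.pt (ev c₀ z) ∈ (𝒬.κ i).source) : ∃ e' : (Fin (d + 1) → VV N) → E, AnalyticAt ℂ e' c₀ ∧
      ∀ᶠ c in 𝓝 c₀, 𝒬.Crv c → 𝒬.pt (ev c z) ∈ (𝒬.κ i).source ∧ 𝒬.κ i (𝒬.pt (ev c z)) = e' c := by
  obtain ⟨r, μ, hr, -, -, -, hev⟩ := local_retr (ov_pt (h.1 z)) hi
  have ha : AnalyticAt ℂ (fun c : Fin (d + 1) → VV N => ev c z) c₀ :=
    (ev_analytic (c₀, z)).comp (f := fun c => (c, z)) (analyticAt_id.prod analyticAt_const)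
  refine ⟨fun c => r (ev c z), hr.comp_of_eq ha rfl, ?_⟩
  filter_upwards [ha.continuousAt.eventually hev] with c hc hcrv
  exact hc.2 (hcrv.1 z)

/-- equation `r (ev c.1 1) - r' (ev c.2 0) = 0` -/
theorem chn_locAn (d e : ℕ) : LocAn {c : (Fin (d + 1) → VV N) × (Fin (e + 1) → VV N) | 𝒬.Chn c} := by
  refine LocAn.of_rel (E' := E) ((tcrv_locAn (𝒬 := 𝒬) d).prod (tcrv_locAn (𝒬 := 𝒬.swap) e))
    (fun c hc => ⟨hc.1, hc.2.1⟩) ?_
  intro c₀ h0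
  obtain ⟨h1, h2, h3⟩ := h0
  obtain ⟨i, hi⟩ := 𝒬.cov (𝒬.pt (ev c₀.1 1))
  have h2' : 𝒬.Crv c₀.2 := h2.1
  obtain ⟨e1, a1, v1⟩ := chn_locAn_ext h1.1 1 hi
  obtain ⟨e2, a2, v2⟩ := chn_locAn_ext h2' 0 (h3 ▸ hi)
  have an : AnalyticAt ℂ (fun c : (Fin (d + 1) → VV N) × (Fin (e + 1) → VV N) => e1 c.1 - e2 c.2) c₀ :=
    (a1.comp analyticAt_fst).sub (a2.comp analyticAt_snd)
  have hall := an.eventually_analyticAt.and
    ((continuousAt_fst.eventually v1).and (continuousAt_snd.eventually v2))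
  obtain ⟨U, hU, hUo, hcU⟩ := _root_.eventually_nhds_iff.1 hall
  refine ⟨Unit, fun _ c => e1 c.1 - e2 c.2, U, hUo, hcU, fun _ c hc => (hU c hc).1, fun c hc hz => ?_⟩
  obtain ⟨-, w1, w2⟩ := hU c hc
  have hz1 : 𝒬.TCrv c.1 := hz.1
  have hz2 : 𝒬.swap.TCrv c.2 := hz.2
  have hz2' : 𝒬.Crv c.2 := hz2.1
  obtain ⟨s1, t1⟩ := w1 hz1.1
  obtain ⟨s2, t2⟩ := w2 hz2'
  constructor
  · intro hc' _
    have h4 : 𝒬.pt (ev c.1 1) = 𝒬.pt (ev c.2 0) := hc'.2.2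
    show e1 c.1 - e2 c.2 = 0
    rw [← t1, ← t2, h4, sub_self]
  · intro hc'
    refine ⟨hz1, hz2, (𝒬.κ i).injOn s1 s2 ?_⟩
    rw [t1, t2]
    exact sub_eq_zero.1 (hc' ())

/-- evaluation is locally the restriction of an analytic map -/
theorem eval_ext {d : ℕ} {c₀ : Fin (d + 1) → VV N} (h : 𝒬.Crv c₀) (z : ℂ) {i : 𝒬.ι}
    (hi : 𝒬.pt (ev c₀ z) ∈ (𝒬.κ i).source) : ∃ e' : (Fin (d + 1) → VV N) → E, AnalyticAt ℂ e' c₀ ∧
      ∀ᶠ c in 𝓝 c₀, 𝒬.Crv c → 𝒬.pt (ev c z) ∈ (𝒬.κ i).source ∧ 𝒬.κ i (𝒬.pt (ev c z)) = e' c := by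
  exact chn_locAn_ext h z hi

end PA

end

end Crest.Agent.R266

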