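import Crest.Agent.R266.Loc2

/-!
# Row 266: extension in higher dimension
-/

set_option autoImplicit false
set_option linter.unusedSectionVars false
set_option linter.unusedVariables false

namespace Crest.Agent.R266

open Set Metric Filter Topology MeasureTheory Polynomial
open scoped ENNReal Classical

noncomputable section

namespace UPA
variable {X A B D₁ D₂ : Type} [TopologicalSpace X] [T2Space X]
  [NormedAddCommGroup A] [NormedSpace ℂ A] [NormedSpace ℝ A] [IsScalarTower ℝ ℂ A] [FiniteDimensional ℂ A]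
  [NormedAddCommGroup B] [NormedSpace ℂ B] [NormedSpace ℝ B] [IsScalarTower ℝ ℂ B] [FiniteDimensional ℂ B]
  [CompleteSpace A] [CompleteSpace B]
  [NormedAddCommGroup D₁] [NormedSpace ℂ D₁] [NormedSpace ℝ D₁] [IsScalarTower ℝ ℂ D₁] [FiniteDimensional ℂ D₁]
  [NormedAddCommGroup D₂] [NormedSpace ℂ D₂] [NormedSpace ℝ D₂] [IsScalarTower ℝ ℂ D₂] [FiniteDimensional ℂ D₂]
  {𝒰 : UPA X A B}

/-- The basic construction.  `f = Φ (·, w')`-like map on a convex `U₁ ∋ z'`, `g` on `U₂ ∋ w'`, all values in the chart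
`i`: `Ψ (z, w) = (κ i).symm ((κ i (f z)).1, (κ i (g w)).2)` is a rectangle map on `U₁ ×ˢ U₂`, equal to `Φ` near
`(z', w')` (`Rect.chart`); `ext_of_convex`. -/
theorem ext_of_two {Φ : D₁ × D₂ → X} {W : Set (D₁ × D₂)} {p : D₁ × D₂} (hW : Convex ℝ W)
    (hΦ : ∀ x ∈ W, 𝒰.Rect Φ x) {f : D₁ → X} {g : D₂ → X} {U₁ : Set D₁} {U₂ : Set D₂} {z' : D₁} {w' : D₂} {i : 𝒰.ι}
    (h₁ : Convex ℝ U₁) (h₂ : Convex ℝ U₂) (hp₁ : U₁ ∈ 𝓝 p.1) (hp₂ : U₂ ∈ 𝓝 p.2) (hz : z' ∈ U₁) (hw : w' ∈ U₂)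
    (hq : (z', w') ∈ W) (hf : ∀ z ∈ U₁, 𝒰.An f z ∧ f z ∈ (𝒰.κ i).source)
    (hg : ∀ w ∈ U₂, 𝒰.An g w ∧ g w ∈ (𝒰.κ i).source) (ef : ∀ᶠ z in 𝓝 z', Φ (z, w') = f z)
    (eg : ∀ᶠ w in 𝓝 w', Φ (z', w) = g w) : 𝒰.Ext Φ W p := by
  have hΨ : ∀ x ∈ U₁ ×ˢ U₂, 𝒰.Rect (fun q : D₁ × D₂ => (𝒰.κ i).symm ((𝒰.κ i (f q.1)).1, (𝒰.κ i (g q.2)).2)) x :=
    fun x hx => ⟨i, fun z => (𝒰.κ i (f z)).1, fun w => (𝒰.κ i (g w)).2,
      analyticAt_fst.comp ((hf _ hx.1).1.2 i (hf _ hx.1).2), analyticAt_snd.comp ((hg _ hx.2).1.2 i (hg _ hx.2).2),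
      𝒰.mix_mem (hf _ hx.1).2 (hg _ hx.2).2, EventuallyEq.rfl⟩
  refine ext_of_convex hW hΦ (h₁.prod h₂) (prod_mem_nhds hp₁ hp₂) hΨ hq ⟨hz, hw⟩ ?_
  obtain ⟨F, G, -, -, -, e1, e2⟩ := (hΦ _ hq).chart (i := i) (by rw [ef.self_of_nhds]; exact (hf _ hz).2)
  have k1 : ∀ᶠ z in 𝓝 z', (𝒰.κ i (f z)).1 = F z := by
    filter_upwards [ef, (by fun_prop : ContinuousAt (fun z : D₁ => (z, w')) z').eventually e2] with z a1 a2
    rw [← a1]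
    exact congrArg Prod.fst a2
  have k2 : ∀ᶠ w in 𝓝 w', (𝒰.κ i (g w)).2 = G w := by
    filter_upwards [eg, (by fun_prop : ContinuousAt (fun w : D₂ => (z', w)) w').eventually e2] with z a1 a2
    rw [← a1]
    exact congrArg Prod.snd a2
  filter_upwards [e1, (continuousAt_fst (p := (z', w'))).eventually k1, (continuousAt_snd (p := (z', w'))).eventually k2]
    with q a1 a2 a3
  rw [a1, a2, a3]

theorem locN_thick (z n : D₁) {ε : ℝ} (hε : 0 < ε) {Q : D₁ → Prop}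
    (h : ∀ s ∈ Icc (0 : ℝ) ε, ∀ᶠ y in 𝓝 (z + (-s : ℂ) • n), Q y) :
    ∃ U : Set D₁, Convex ℝ U ∧ U ∈ 𝓝 z ∧ z + (-ε : ℂ) • n ∈ U ∧ ∀ y ∈ U, Q y := by
  have hK : IsCompact (segment ℝ z (z + (-ε : ℂ) • n)) := by
    rw [segment_eq_image]; exact isCompact_Icc.image (by fun_prop)
  obtain ⟨δ, hδ, hth⟩ := hK.exists_thickening_subset_open (isOpen_setOfPred_eventually_nhds (p := Q)) (by
    rw [segment_eq_image']
    rintro _ ⟨θ, hθ, rfl⟩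
    have := h (θ * ε) ⟨mul_nonneg hθ.1 hε.le, mul_le_of_le_one_left hε.le hθ.2⟩
    rw [show (-((θ * ε : ℝ) : ℂ)) • n = θ • (z + (-ε : ℂ) • n - z) by
      rw [add_sub_cancel_left, ← algebraMap_smul ℂ θ, smul_smul]; congr 1; simp] at this
    exact this)
  exact ⟨_, (convex_segment _ _).thickening δ,
    isOpen_thickening.mem_nhds (self_subset_thickening hδ _ (left_mem_segment _ _ _)),
    self_subset_thickening hδ _ (right_mem_segment _ _ _), fun y hy => Eventually.self_of_nhds (hth hy)⟩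

/-- Slice `Φ' (ζ, η) = Φ (p.1 + ζ • n₁, p.2 + η • n₂)`; `loc2` gives an extension `Ψ` of the slice, with values in a
chart `i` near `0`.  For small `ε > 0` put `z' = p.1 - ε • n₁`, `w' = p.2 - ε • n₂`: the segments
`[z', p.1] × {w'}`, `{z'} × [w', p.2]` lie in `W` and are mapped into the chart; thicken them
(`IsCompact.exists_thickening_subset_open`, `Convex.thickening`); `ext_of_two` with `f = Φ (·, w')`, `g = Φ (z', ·)`. -/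
theorem locN {Φ : D₁ × D₂ → X} {W : Set (D₁ × D₂)} {p : D₁ × D₂} {n₁ : D₁} {n₂ : D₂} {M α β : ℝ}
    (hW : Convex ℝ W) (hΦ : ∀ x ∈ W, 𝒰.Rect Φ x) (hα : 0 < α) (hβ : 0 < β) (hM : 0 < M)
    (h : ∀ z w : ℂ, ((α : ℂ) * z + (β : ℂ) * w).re + M * (‖z‖ ^ 2 + ‖w‖ ^ 2) < 0 → (p.1 + z • n₁, p.2 + w • n₂) ∈ W) :
    𝒰.Ext Φ W p := by
  let L : ℂ × ℂ →ᵃ[ℝ] D₁ × D₂ := AffineMap.const ℝ _ p + LinearMap.toAffineMap
    (((LinearMap.toSpanSingleton ℂ D₁ n₁).prodMap (LinearMap.toSpanSingleton ℂ D₂ n₂)).restrictScalars ℝ)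
  have hL : ∀ x : ℂ × ℂ, L x = (p.1 + x.1 • n₁, p.2 + x.2 • n₂) := fun x => rfl
  obtain ⟨Ψ, hΨ, e⟩ := loc2 (𝒰 := 𝒰) (Φ := fun x : ℂ × ℂ => Φ (p.1 + x.1 • n₁, p.2 + x.2 • n₂)) (W := L ⁻¹' W)
    (hW.affine_preimage L) (fun x hx => Rect.comp (a := fun z : ℂ => p.1 + z • n₁) (b := fun z : ℂ => p.2 + z • n₂)
      (hΦ _ hx) (analyticAt_const.add (analyticAt_id.smul analyticAt_const))
      (analyticAt_const.add (analyticAt_id.smul analyticAt_const)))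
    (Complex.ofReal_ne_zero.2 hα.ne') (Complex.ofReal_ne_zero.2 hβ.ne') hM h
  obtain ⟨i, hi⟩ := 𝒰.cov (Ψ (0, 0))
  obtain ⟨δ, hδ, hb⟩ := Metric.eventually_nhds_iff_ball.1
    ((hΨ.an.1.eventually ((𝒰.κ i).open_source.mem_nhds hi)).and (eventually_nhdsWithin_iff.1 e))
  obtain ⟨ε, hε, h1, h2, h3⟩ : ∃ ε > 0, ε < δ ∧ 2 * M * ε < α ∧ 2 * M * ε < β := by
    have t : Tendsto (fun ε : ℝ => 2 * M * ε) (𝓝[>] 0) (𝓝 0) :=
      tendsto_nhdsWithin_of_tendsto_nhds (by simpa using (tendsto_id (x := 𝓝 (0 : ℝ))).const_mul (2 * M))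
    obtain ⟨ε, h⟩ := (Eventually.and (self_mem_nhdsWithin : ∀ᶠ ε : ℝ in 𝓝[>] 0, ε ∈ Ioi 0)
      (((gt_mem_nhds hδ).filter_mono nhdsWithin_le_nhds).and
        ((t.eventually (gt_mem_nhds hα)).and (t.eventually (gt_mem_nhds hβ))))).exists
    exact ⟨ε, h.1, h.2⟩
  have key : ∀ s ∈ Icc (0 : ℝ) ε, ∀ t ∈ Icc (0 : ℝ) ε, s = ε ∨ t = ε →
      (p.1 + (-s : ℂ) • n₁, p.2 + (-t : ℂ) • n₂) ∈ W ∧ Φ (p.1 + (-s : ℂ) • n₁, p.2 + (-t : ℂ) • n₂) ∈ (𝒰.κ i).source := by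
    intro s hs t ht hst
    have a1 : (p.1 + (-s : ℂ) • n₁, p.2 + (-t : ℂ) • n₂) ∈ W := by
      refine h _ _ ?_
      simp only [norm_neg, Complex.norm_real, Real.norm_eq_abs, sq_abs, mul_neg, Complex.add_re, Complex.neg_re,
        Complex.mul_re, Complex.ofReal_re, Complex.ofReal_im, mul_zero, sub_zero]
      have a2 : s ^ 2 ≤ ε ^ 2 := pow_le_pow_left₀ hs.1 hs.2 2
      have a3 : t ^ 2 ≤ ε ^ 2 := pow_le_pow_left₀ ht.1 ht.2 2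
      rcases hst with rfl | rfl <;> nlinarith [mul_nonneg hα.le hs.1, mul_nonneg hβ.le ht.1]
    have a2 := hb ((-s : ℂ), (-t : ℂ)) (by
      simp only [mem_ball, Prod.dist_eq, dist_zero_right, norm_neg, Complex.norm_real, Real.norm_eq_abs, max_lt_iff,
        abs_of_nonneg hs.1, abs_of_nonneg ht.1]
      exact ⟨hs.2.trans_lt h1, ht.2.trans_lt h1⟩)
    exact ⟨a1, by have a3 := a2.1; rw [a2.2 a1] at a3; exact a3⟩
  have hε' : ε ∈ Icc (0 : ℝ) ε := right_mem_Icc.2 hε.le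
  obtain ⟨U₁, c₁, m₁, z₁, k₁⟩ := locN_thick p.1 n₁ hε
    (Q := fun z => 𝒰.An (fun z => Φ (z, p.2 + (-ε : ℂ) • n₂)) z ∧ Φ (z, p.2 + (-ε : ℂ) • n₂) ∈ (𝒰.κ i).source)
    fun s hs => by
      have a1 := (hΦ _ (key s hs ε hε' (Or.inr rfl)).1).t₁.an
      exact a1.eventually.and (a1.1.eventually ((𝒰.κ i).open_source.mem_nhds (key s hs ε hε' (Or.inr rfl)).2))
  obtain ⟨U₂, c₂, m₂, z₂, k₂⟩ := locN_thick p.2 n₂ hε
    (Q := fun w => 𝒰.An (fun w => Φ (p.1 + (-ε : ℂ) • n₁, w)) w ∧ Φ (p.1 + (-ε : ℂ) • n₁, w) ∈ (𝒰.κ i).source)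
    fun s hs => by
      have a1 := (hΦ _ (key ε hε' s hs (Or.inl rfl)).1).t₂.an
      exact a1.eventually.and (a1.1.eventually ((𝒰.κ i).open_source.mem_nhds (key ε hε' s hs (Or.inl rfl)).2))
  exact ext_of_two hW hΦ c₁ c₂ m₁ m₂ z₁ z₂ (key ε hε' ε hε' (Or.inl rfl)).1 k₁ k₂
    (Eventually.of_forall fun _ => rfl) (Eventually.of_forall fun _ => rfl)

/-- axis case: `ext_of_two` with `U₁` a ball around `p.1`, `w' = p.2`, `z'` from `h`, `g = Φ (z', ·)` -/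
theorem ext_axis₁ {Φ : D₁ × D₂ → X} {W : Set (D₁ × D₂)} {p : D₁ × D₂} {f : D₁ → X} (hW : Convex ℝ W)
    (hΦ : ∀ x ∈ W, 𝒰.Rect Φ x) (hf : 𝒰.An f p.1)
    (h : ∃ᶠ z' in 𝓝 p.1, (z', p.2) ∈ W ∧ ∀ᶠ z in 𝓝 z', Φ (z, p.2) = f z) : 𝒰.Ext Φ W p := by
  obtain ⟨i, hi⟩ := 𝒰.cov (f p.1)
  obtain ⟨r, hr, hb⟩ := Metric.eventually_nhds_iff_ball.1
    (hf.eventually.and (hf.1.eventually ((𝒰.κ i).open_source.mem_nhds hi)))
  obtain ⟨z', ⟨h1, h2⟩, h3⟩ := (h.and_eventually (ball_mem_nhds _ hr)).exists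
  have hg := (hΦ _ h1).t₂.an
  obtain ⟨r', hr', hb'⟩ := Metric.eventually_nhds_iff_ball.1 (hg.eventually.and (hg.1.eventually
    ((𝒰.κ i).open_source.mem_nhds (show Φ (z', p.2) ∈ _ by rw [h2.self_of_nhds]; exact (hb _ h3).2))))
  exact ext_of_two hW hΦ (convex_ball _ _) (convex_ball _ _) (ball_mem_nhds _ hr) (ball_mem_nhds _ hr') h3
    (mem_ball_self hr') h1 hb hb' h2 (Eventually.of_forall fun _ => rfl)

theorem ext_axis₂ {Φ : D₁ × D₂ → X} {W : Set (D₁ × D₂)} {p : D₁ × D₂} {g : D₂ → X} (hW : Convex ℝ W)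
    (hΦ : ∀ x ∈ W, 𝒰.Rect Φ x) (hg : 𝒰.An g p.2)
    (h : ∃ᶠ w' in 𝓝 p.2, (p.1, w') ∈ W ∧ ∀ᶠ w in 𝓝 w', Φ (p.1, w) = g w) : 𝒰.Ext Φ W p := by
  obtain ⟨i, hi⟩ := 𝒰.cov (g p.2)
  obtain ⟨r, hr, hb⟩ := Metric.eventually_nhds_iff_ball.1
    (hg.eventually.and (hg.1.eventually ((𝒰.κ i).open_source.mem_nhds hi)))
  obtain ⟨w', ⟨h1, h2⟩, h3⟩ := (h.and_eventually (ball_mem_nhds _ hr)).exists
  have hf := (hΦ _ h1).t₁.an
  obtain ⟨r', hr', hb'⟩ := Metric.eventually_nhds_iff_ball.1 (hf.eventually.and (hf.1.eventually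
    ((𝒰.κ i).open_source.mem_nhds (show Φ (p.1, w') ∈ _ by rw [h2.self_of_nhds]; exact (hb _ h3).2))))
  exact ext_of_two hW hΦ (convex_ball _ _) (convex_ball _ _) (ball_mem_nhds _ hr') (ball_mem_nhds _ hr)
    (mem_ball_self hr') h3 h1 hb' hb (Eventually.of_forall fun _ => rfl) h2

end UPA

end

end Crest.Agent.R266

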