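import Crest.Agent.R266.Fin4
import Crest.Agent.R266.Lift
import Crest.Agent.R266.BridgeA
import Crest.Agent.R266.BridgeB

/-!
# Row 266: S0404
-/

set_option autoImplicit false
set_option linter.unusedSectionVars false
set_option linter.unusedVariables false

namespace Crest.Agent.R266

open Set Metric Filter Topology MeasureTheory Polynomial
open scoped ENNReal Classical

noncomputable section

open Crest.AlgGeometry.HolSplit
open scoped Manifold ContDiff

theorem main404 (n : ℕ) (X : Type) [TopologicalSpace X] [T2Space X] [CompactSpace X] [ConnectedSpace X]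
    [ChartedSpace (Model n) X] [IsManifold (mI n) ω X] (hproj : IsProjective n X) (hrc : IsRationallyConnected n X)
    (S : Splitting n X) : S.FirstIntegrable ∧ S.SecondIntegrable := by
  obtain ⟨N, ⟨e⟩⟩ := hproj
  obtain ⟨𝒬, hB⟩ := exists_PA S e
  obtain ⟨U, V, hU, hV, hU', hV', hc⟩ := exists_box hrc
  borelize (Model n × Model n)
  have key : ∀ x ∈ U, ∀ y ∈ V, ∃ (d : ℕ) (c : Fin (d + 1) → VV N), 𝒬.Crv c ∧ 𝒬.pt (ev c 0) = x ∧ 𝒬.pt (ev c 1) = y := by
    intro x hx y hy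
    obtain ⟨g₀, g₁, h₀, h₁, h01, hx', hy'⟩ := hc x hx y hy
    obtain ⟨d, c, hcr, e₀, e₁⟩ := PA.crv_of_an (𝒬 := 𝒬) (fun z => hB.an_of_contMDiffAt (h₀ z))
      (hB.an_of_contMDiffAt (h₁ 0)) h01
    have e₀' : (fun z => 𝒬.pt (ev c z)) = g₀ := funext e₀
    exact hcr.two_points (by rw [e₀', e₁]; exact hx') (by rw [e₀', e₁]; exact hy')
  obtain ⟨i, j, d, t₀, σ, hσ, h⟩ := PA.crv_family (𝒬 := 𝒬) Measure.addHaar hU hV hU' hV' key
  obtain ⟨d', e', t₁, σ', hσ', h'⟩ := PA.chn_family (PA.chain_nonnull (μ := Measure.addHaar) hσ h)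
  obtain ⟨h₁, h₂⟩ := PA.int_of_family hσ' h'
  exact ⟨hB.first_of_int h₁, hB.second_of_int h₂⟩

end

end Crest.Agent.R266

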