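import Crest.Agent.R266.ProdChart
import Crest.Agent.R266.Pull

/-!
# Row 266: uniform product atlas of a compact manifold and of its coverings
-/

set_option autoImplicit false
set_option linter.unusedSectionVars false
set_option linter.unusedVariables false

namespace Crest.Agent.R266

open Set Metric Filter Topology MeasureTheory Polynomial
open scoped ENNReal Classical

noncomputable section

variable {X X' E A B : Type} [TopologicalSpace X] [TopologicalSpace X']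
  [NormedAddCommGroup E] [NormedSpace ℂ E] [NormedSpace ℝ E] [IsScalarTower ℝ ℂ E] [FiniteDimensional ℂ E] [CompleteSpace E]
  [NormedAddCommGroup A] [NormedSpace ℂ A] [NormedSpace ℝ A] [IsScalarTower ℝ ℂ A] [FiniteDimensional ℂ A]
  [NormedAddCommGroup B] [NormedSpace ℂ B] [NormedSpace ℝ B] [IsScalarTower ℝ ℂ B] [FiniteDimensional ℂ B]
  [CompleteSpace A] [CompleteSpace B]

theorem SA.Adapted.restr {𝒮 : SA X E} {κ κ' : OpenPartialHomeomorph X (A × B)} (h : 𝒮.Adapted κ)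
    (hs : κ'.source ⊆ κ.source) (e : ⇑κ' = κ) (e' : ⇑κ'.symm = κ.symm) : 𝒮.Adapted κ' := by
  intro k x hx hk
  rw [e, e']
  exact h k x (hs hx) hk

/-- a continuous positive definite field of forms on a compact set is uniformly bounded above and below
(compactness of `K ×ˢ sphere 0 1`, homogeneity) -/
theorem form_bounds {G : E → E →L[ℝ] E →L[ℝ] ℝ} {K : Set E} (hK : IsCompact K) (hG : ContinuousOn G K)
    (hp : ∀ y ∈ K, ∀ u, u ≠ 0 → 0 < G y u u) :
    ∃ m M : ℝ, 0 < m ∧ m ≤ M ∧ ∀ y ∈ K, ∀ u, m * ‖u‖ ^ 2 ≤ G y u u ∧ G y u u ≤ M * ‖u‖ ^ 2 := by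
  have : ProperSpace E := FiniteDimensional.proper ℂ E
  have hS : IsCompact (K ×ˢ sphere (0 : E) 1) := hK.prod (isCompact_sphere _ _)
  have hf : ContinuousOn (fun p : E × E => G p.1 p.2 p.2) (K ×ˢ sphere (0 : E) 1) :=
    ((hG.comp continuousOn_fst fun p hp => hp.1).clm_apply continuousOn_snd).clm_apply continuousOn_snd
  obtain ⟨m, hm, h1⟩ := hS.exists_forall_le' hf (a := 0) fun p h => hp _ h.1 _ (ne_zero_of_mem_unit_sphere ⟨_, h.2⟩)
  obtain ⟨M, h2⟩ := hS.bddAbove_image hf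
  refine ⟨m, max m M, hm, le_max_left _ _, fun y hy u => ?_⟩
  rcases eq_or_ne u 0 with rfl | hu
  · simp
  have h0 : 0 < ‖u‖ := norm_pos_iff.2 hu
  have hv : (y, ‖u‖⁻¹ • u) ∈ K ×ˢ sphere (0 : E) 1 := ⟨hy, by simp [norm_smul, h0.ne']⟩
  have e : G y u u = G y (‖u‖⁻¹ • u) (‖u‖⁻¹ • u) * ‖u‖ ^ 2 := by
    simp only [map_smul, smul_apply, smul_eq_mul]
    field_simp
  rw [e]
  exact ⟨mul_le_mul_of_nonneg_right (h1 _ hv) (sq_nonneg _),
    mul_le_mul_of_nonneg_right ((h2 ⟨_, hv, rfl⟩).trans (le_max_right _ _)) (sq_nonneg _)⟩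

theorem exists_upa_chain {D₁ D₂ D₃ : Type} [NormedAddCommGroup D₁] [NormedSpace ℂ D₁] [NormedAddCommGroup D₂]
    [NormedSpace ℂ D₂] [NormedAddCommGroup D₃] [NormedSpace ℂ D₃] (a : OpenPartialHomeomorph X D₁)
    (b : OpenPartialHomeomorph X D₂) (c : X → D₃) {x : X} (ha : x ∈ a.source) (hb : x ∈ b.source)
    (h1 : AnalyticAt ℂ (b ∘ a.symm) (a x)) (h2 : AnalyticAt ℂ (c ∘ b.symm) (b x)) (u : D₁) :
    fderiv ℂ (c ∘ b.symm) (b x) (fderiv ℂ (b ∘ a.symm) (a x) u) = fderiv ℂ (c ∘ a.symm) (a x) u := by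
  have e0 : (b ∘ a.symm) (a x) = b x := by simp [a.left_inv ha]
  have e : (c ∘ b.symm) ∘ (b ∘ a.symm) =ᶠ[𝓝 (a x)] c ∘ a.symm := by
    have hc := a.continuousAt_symm (a.map_source ha)
    have : b.source ∈ 𝓝 (a.symm (a x)) := by rw [a.left_inv ha]; exact b.open_source.mem_nhds hb
    filter_upwards [hc.eventually this] with y hy
    simp only [Function.comp_apply, b.left_inv hy]
  rw [← e.fderiv_eq, fderiv_comp _ (by rw [e0]; exact h2.differentiableAt) h1.differentiableAt, e0]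
  rfl

/-- For every `x` take `k x` with `x ∈ source (k x)` and `κ x` from `exists_adapted` inside `N x ∩ source (k x)`; finitely
many `source ∩ κ x ⁻¹' ball 0 1` cover; restrict the charts to the preimage of `ball 0 4`;
`G x y = pl (𝒦.G k (𝒦.κ k ((κ x).symm y))) (fderiv ℂ (𝒦.κ k ∘ (κ x).symm) y)` (`pull_kah`, `form_bounds` on
`closedBall 0 4`; the derivative is injective; `cmpG` by the chain rule). -/
theorem exists_upa [CompactSpace X] (𝒦 : KA X E) (h₁ : 𝒦.toSA.Int) (h₂ : 𝒦.toSA.swap.Int)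
    (hA : ∀ i, ∀ y ∈ (𝒦.κ i).target,
      Module.finrank ℂ (LinearMap.range (𝒦.P i y : E →ₗ[ℂ] E)) = Module.finrank ℂ A)
    (hB : Module.finrank ℂ E = Module.finrank ℂ A + Module.finrank ℂ B) (N : X → Set X) (hN : ∀ x, N x ∈ 𝓝 x) :
    ∃ 𝒰 : UPA X A B, ∀ i, 𝒦.toSA.Adapted (𝒰.κ i) ∧ ∃ x, (𝒰.κ i).source ⊆ N x := by
  choose k hk using 𝒦.cov
  choose κ hκ hT hx h0 hs using fun x => exists_adapted (A := A) (B := B) 𝒦.toSA h₁ h₂ hA hB x
    (inter_mem (hN x) ((𝒦.κ (k x)).open_source.mem_nhds (hk x)))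
  obtain ⟨t, -, ht⟩ := isCompact_univ.elim_nhds_subcover
    (fun x => (κ x).source ∩ κ x ⁻¹' ball 0 1) fun x _ =>
      ((κ x).isOpen_inter_preimage isOpen_ball).mem_nhds ⟨hx x, by simp [h0 x]⟩
  let κ' : X → OpenPartialHomeomorph X (A × B) := fun x =>
    ((κ x).symm.restrOpen (ball 0 4) isOpen_ball).symm
  have hs' : ∀ x, (κ' x).source ⊆ (κ x).source := fun x y hy => hy.1
  have ht' : ∀ x, (κ' x).target = ball 0 4 := fun x => by
    change (κ x).target ∩ ball 0 4 = _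
    rw [hT]
    exact inter_eq_right.2 (ball_subset_ball (by norm_num))
  have hκ' : ∀ x, 𝒦.toSA.Adapted (κ' x) := fun x => (hκ x).restr (hs' x) rfl rfl
  let G : X → A × B → A × B →L[ℝ] A × B →L[ℝ] ℝ := fun x y =>
    pl (𝒦.G (k x) ((𝒦.κ (k x) ∘ (κ x).symm) y)) (fderiv ℂ (𝒦.κ (k x) ∘ (κ x).symm) y)
  have hkah : ∀ x, ∀ y ∈ (κ x).target, Kah (G x) y := by
    intro x y hy
    have h1 := (κ x).map_target hy
    have h2 := (hκ x (k x) _ h1 (hs x h1).2).2.1
    rw [(κ x).right_inv hy] at h2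
    exact pull_kah (f := 𝒦.κ (k x) ∘ (κ x).symm) (𝒦.kah _ _ ((𝒦.κ _).map_source (hs x h1).2)) h2
  have hpos : ∀ x, ∀ y ∈ (κ x).target, ∀ u, u ≠ 0 → 0 < G x y u u := by
    intro x y hy u hu
    have h1 := (κ x).map_target hy
    obtain ⟨h2, h3, -⟩ := hκ x (k x) _ h1 (hs x h1).2
    have h4 := exists_upa_chain (κ x) (𝒦.κ (k x)) (κ x) h1 (hs x h1).2 h3 h2 u
    rw [(κ x).right_inv hy] at h4
    have h5 : (κ x) ∘ (κ x).symm =ᶠ[𝓝 y] id := by
      filter_upwards [(κ x).open_target.mem_nhds hy] with z hz using (κ x).right_inv hz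
    rw [h5.fderiv_eq, fderiv_id] at h4
    simp only [G, pl_apply]
    refine 𝒦.pos _ _ ((𝒦.κ _).map_source (hs x h1).2) _ fun h => hu ?_
    rw [h, map_zero] at h4
    exact h4.symm
  have hcl : ∀ x, closedBall (0 : A × B) 4 ⊆ (κ x).target := fun x => by
    rw [hT]; exact closedBall_subset_ball (by norm_num)
  have : ProperSpace (A × B) := FiniteDimensional.proper ℂ _
  choose m M hm hmM hb using fun x => form_bounds (G := G x) (isCompact_closedBall (0 : A × B) 4)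
    (fun y hy => (hkah x y (hcl x hy)).smooth.continuousAt.continuousWithinAt)
    fun y hy => hpos x y (hcl x hy)
  obtain ⟨m₀, hm₀, hm₁⟩ : ∃ m₀ : ℝ, 0 < m₀ ∧ ∀ x ∈ t, m₀ ≤ m x := by
    rcases t.eq_empty_or_nonempty with rfl | hne
    · exact ⟨1, one_pos, by simp⟩
    · obtain ⟨x, -, hx⟩ := t.exists_min_image m hne
      exact ⟨m x, hm x, hx⟩
  obtain ⟨M₀, hM₀⟩ := (t.image M).bddAbove
  refine ⟨{ ι := t
            κ := fun i => κ' i
            cov := fun x => ?_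
            an := fun i j x hi hj => ((hκ' i).trans (hκ' j) hi hj).1
            tgt := fun i => ht' i
            cov1 := fun x => ?_
            prod := fun i j x hi hj => ((hκ' i).trans (hκ' j) hi hj).2
            G := fun i => G i
            kah := fun i y hy => hkah i y hy.1
            cmpG := fun i j x hi hj u v => ?_
            m := m₀
            M := max m₀ M₀
            m_pos := hm₀
            m_le := le_max_left _ _
            bd := fun i y hy u => ?_ }, fun i => ⟨hκ' i, i, fun y hy => (hs i (hs' i hy)).1⟩⟩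
  · obtain ⟨i, hi, hx⟩ := mem_iUnion₂.1 (ht (mem_univ x))
    exact ⟨⟨i, hi⟩, hx.1, ball_subset_ball (by norm_num) hx.2⟩
  · obtain ⟨i, hi, hx⟩ := mem_iUnion₂.1 (ht (mem_univ x))
    exact ⟨⟨i, hi⟩, ⟨hx.1, ball_subset_ball (by norm_num) hx.2⟩, hx.2⟩
  · have hi' := hs' i hi
    have hj' := hs' j hj
    have key : ∀ w, fderiv ℂ (𝒦.κ (k j) ∘ (κ j).symm) (κ j x)
        (fderiv ℂ (κ j ∘ (κ i).symm) (κ i x) w) =
        𝒦.toAtl.J (k i) (k j) x (fderiv ℂ (𝒦.κ (k i) ∘ (κ i).symm) (κ i x) w) := by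
      intro w
      rw [exists_upa_chain (κ i) (κ j) (𝒦.κ (k j)) hi' hj' ((hκ i).trans (hκ j) hi' hj').1
        (hκ j (k j) x hj' (hs j hj').2).2.1 w]
      exact (exists_upa_chain (κ i) (𝒦.κ (k i)) (𝒦.κ (k j)) hi' (hs i hi').2
        (hκ i (k i) x hi' (hs i hi').2).2.1 (𝒦.an _ _ x (hs i hi').2 (hs j hj').2) w).symm
    change G j (κ j x) (fderiv ℂ (κ j ∘ (κ i).symm) (κ i x) u)
      (fderiv ℂ (κ j ∘ (κ i).symm) (κ i x) v) = G i (κ i x) u v
    simp only [G, pl_apply, key]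
    simp only [Function.comp_apply, (κ i).left_inv hi', (κ j).left_inv hj']
    exact 𝒦.cmpG _ _ x (hs i hi').2 (hs j hj').2 _ _
  · obtain ⟨h1, h2⟩ := hb i y (ball_subset_closedBall hy.2) u
    have h3 : M i ≤ max m₀ M₀ :=
      (hM₀ (Finset.mem_coe.2 (Finset.mem_image_of_mem M i.2))).trans (le_max_right _ _)
    exact ⟨(mul_le_mul_of_nonneg_right (hm₁ i i.2) (sq_nonneg _)).trans h1,
      h2.trans (mul_le_mul_of_nonneg_right h3 (sq_nonneg _))⟩

/-- sheets of a covering -/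
theorem exists_sheet {π : X' → X} (hπ : IsCoveringMap π) (x : X) : ∃ N ∈ 𝓝 x, ∀ x', π x' ∈ N →
    ∃ e : OpenPartialHomeomorph X' X, x' ∈ e.source ∧ N ⊆ e.target ∧ ⇑e = π := by
  have h := hπ x
  have := h.1
  refine ⟨h.2.choose, h.2.choose_spec.2.1.mem_nhds h.2.choose_spec.1, fun x' hx' => ?_⟩
  have : Nonempty (π ⁻¹' {x}) := ⟨(h.2.choose_spec.2.2.2.choose ⟨x', hx'⟩).2⟩
  let e := h.toTrivialization
  have hb : e.baseSet = h.2.choose := rfl
  exact ⟨{
    toFun := π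
    invFun := fun y => e.toOpenPartialHomeomorph.symm (y, (e x').2)
    source := e.source ∩ e ⁻¹' (Prod.snd ⁻¹' {(e x').2})
    target := e.baseSet
    map_source' := fun p hp => e.mem_source.1 hp.1
    map_target' := fun y hy => ⟨e.map_target (e.mem_target.2 hy), by
      simp only [mem_preimage, e.apply_symm_apply' hy, mem_singleton_iff]⟩
    left_inv' := fun p hp => by
      rw [← (show (e p).2 = (e x').2 from hp.2)]; exact e.symm_apply_mk_proj hp.1
    right_inv' := fun y hy => e.proj_symm_apply' hy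
    open_source := e.toOpenPartialHomeomorph.isOpen_inter_preimage
      ((isOpen_discrete _).preimage continuous_snd)
    open_target := e.open_baseSet
    continuousOn_toFun := hπ.continuous.continuousOn
    continuousOn_invFun := e.continuousOn_symm_prodMk_left }, ⟨e.mem_source.2 hx', rfl⟩, hb.ge, rfl⟩

theorem UPA.lift_ev {π : X' → X} {e e' : OpenPartialHomeomorph X' X} (he : ⇑e = π) (he' : ⇑e' = π)
    {κ κ' : OpenPartialHomeomorph X (A × B)} {x : X'} (hx : x ∈ (e.trans κ).source) :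
    e'.trans κ' ∘ (e.trans κ).symm =ᶠ[𝓝 (κ (π x))] κ' ∘ κ.symm := by
  have h := (e.trans κ).open_target.mem_nhds ((e.trans κ).map_source hx)
  rw [OpenPartialHomeomorph.trans_apply, he] at h
  filter_upwards [h] with y hy
  have := e.right_inv hy.2
  rw [he] at this
  simp only [Function.comp, OpenPartialHomeomorph.trans_apply, OpenPartialHomeomorph.coe_trans_symm, he']
  exact congrArg κ' this

/-- index set `{(i, e) | source i ⊆ e.target, ⇑e = π}`, charts `e.trans (𝒰.κ i)`; the transition maps agree near the point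
with those of `𝒰` -/
theorem UPA.lift (𝒰 : UPA X A B) {π : X' → X} (h : ∀ i x', π x' ∈ (𝒰.κ i).source →
    ∃ e : OpenPartialHomeomorph X' X, x' ∈ e.source ∧ (𝒰.κ i).source ⊆ e.target ∧ ⇑e = π) :
    ∃ 𝒰' : UPA X' A B, ∀ i', ∃ (i : 𝒰.ι) (e : OpenPartialHomeomorph X' X), ⇑e = π ∧ 𝒰'.κ i' = e.trans (𝒰.κ i) := by
  let I := {p : 𝒰.ι × OpenPartialHomeomorph X' X // (𝒰.κ p.1).source ⊆ p.2.target ∧ ⇑p.2 = π}
  let κ : I → OpenPartialHomeomorph X' (A × B) := fun p => p.1.2.trans (𝒰.κ p.1.1)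
  have hv : ∀ p x, κ p x = 𝒰.κ p.1.1 (π x) := fun p x => by
    simp only [κ, OpenPartialHomeomorph.trans_apply, p.2.2]
  have hs : ∀ p x, x ∈ (κ p).source → π x ∈ (𝒰.κ p.1.1).source := fun p x hx =>
    congrFun p.2.2 x ▸ (hx.2 : p.1.2 x ∈ _)
  have ht : ∀ p, (κ p).target = (𝒰.κ p.1.1).target := fun p =>
    inter_eq_left.2 fun y hy => p.2.1 ((𝒰.κ _).map_target hy)
  have he : ∀ p q x, x ∈ (κ p).source →
      κ q ∘ (κ p).symm =ᶠ[𝓝 (𝒰.κ p.1.1 (π x))] 𝒰.κ q.1.1 ∘ (𝒰.κ p.1.1).symm := fun p q x hx =>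
    UPA.lift_ev p.2.2 q.2.2 hx
  have hc : ∀ x, ∃ p, x ∈ (κ p).source ∧ κ p x ∈ ball (0 : A × B) 1 := fun x => by
    obtain ⟨i, hi, hb⟩ := 𝒰.cov1 (π x)
    obtain ⟨e, h1, h2, h3⟩ := h i x hi
    exact ⟨⟨(i, e), h2, h3⟩, ⟨h1, (by rwa [h3] : e x ∈ _)⟩, by rwa [hv]⟩
  refine ⟨{
    ι := I
    κ := κ
    cov := fun x => (hc x).imp fun _ h => h.1
    an := fun p q x hp hq => ?_
    tgt := fun p => (ht p).trans (𝒰.tgt _)
    cov1 := hc
    prod := fun p q x hp hq => ?_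
    G := fun p => 𝒰.G p.1.1
    kah := fun p y hy => 𝒰.kah _ y (ht p ▸ hy)
    cmpG := fun p q x hp hq u v => ?_
    m := 𝒰.m
    M := 𝒰.M
    m_pos := 𝒰.m_pos
    m_le := 𝒰.m_le
    bd := fun p y hy => 𝒰.bd _ y (ht p ▸ hy) }, fun p => ⟨p.1.1, p.1.2, p.2.2, rfl⟩⟩
  · rw [hv]
    exact (𝒰.an _ _ _ (hs p x hp) (hs q x hq)).congr (he p q x hp).symm
  · obtain ⟨a, b, h1, h2, h3⟩ := 𝒰.prod _ _ _ (hs p x hp) (hs q x hq)
    rw [hv]
    exact ⟨a, b, h1, h2, (he p q x hp).trans h3⟩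
  · simp only [Atl.J, hv, (he p q x hp).fderiv_eq]
    exact 𝒰.cmpG _ _ _ (hs p x hp) (hs q x hq) u v

end

end Crest.Agent.R266

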