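import Crest.Agent.R266.Asm
import Crest.Agent.R266.MkUPA
import Crest.Agent.R266.Compat
import Crest.Agent.R266.BridgeA
import Crest.Agent.R266.BridgeB

/-!
# Row 266: S0405
-/

set_option autoImplicit false
set_option linter.unusedSectionVars false
set_option linter.unusedVariables false

namespace Crest.Agent.R266

open Set Metric Filter Topology MeasureTheory Polynomial
open scoped ENNReal Classical

noncomputable section

open Crest.AlgGeometry.HolSplit
open scoped Manifold ContDiff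

theorem main405 (n : ℕ) (X : Type) [TopologicalSpace X] [CompactSpace X] [ConnectedSpace X]
    [ChartedSpace (Model n) X] [IsManifold (mI n) ω X] (hK : Nonempty (KahlerMetric n X)) (S : Splitting n X)
    (h₁ : S.FirstIntegrable) (h₂ : S.SecondIntegrable) (X' : Type) [TopologicalSpace X'] [T2Space X']
    [SimplyConnectedSpace X'] [ChartedSpace (Model n) X'] [IsManifold (mI n) ω X'] (π : X' → X)
    (hcov : IsCoveringMap π) (hπ : ContMDiff (mI n) (mI n) ω π)
    (hdπ : ∀ p : X', Function.Bijective (mfderiv (mI n) (mI n) π p)) : HasCompatibleProductCover S X' π := by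
  obtain ⟨K⟩ := hK
  obtain ⟨𝒦, hB⟩ := exists_KA S K
  obtain ⟨x₀⟩ : Nonempty X := inferInstance
  obtain ⟨i₀, hi₀⟩ := 𝒦.cov x₀
  set n₁ := Module.finrank ℂ (LinearMap.range (𝒦.P i₀ (𝒦.κ i₀ x₀) : Model n →ₗ[ℂ] Model n)) with hn₁
  have hle : n₁ ≤ n := by
    have := Submodule.finrank_le (LinearMap.range (𝒦.P i₀ (𝒦.κ i₀ x₀) : Model n →ₗ[ℂ] Model n))
    simpa using this
  choose Nb hNb hsh using exists_sheet hcov
  obtain ⟨𝒰, h𝒰⟩ := exists_upa (A := Model n₁) (B := Model (n - n₁)) 𝒦 (hB.int_of_first h₁) (hB.int_of_second h₂)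
    (fun i y hy => by
      have := SA.rank_const (𝒮 := 𝒦.toSA) ((𝒦.κ i).map_target hy) hi₀
      rw [(𝒦.κ i).right_inv hy] at this
      simpa using this)
    (by simp; omega) Nb hNb
  obtain ⟨𝒰', h𝒰'⟩ := 𝒰.lift (π := π) (fun i x' hx' => by
    obtain ⟨x, hx⟩ := (h𝒰 i).2
    obtain ⟨e, he, hN, hπe⟩ := hsh x x' (hx hx')
    exact ⟨e, he, hx.trans hN, hπe⟩)
  haveI : LocallyPathConnectedSpace X' := ChartedSpace.locallyPathConnectedSpace (Model n) X'
  obtain ⟨b, hb⟩ := 𝒰'.exists_band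
  refine asm S π 𝒰' (fun i' => ?_) hb
  obtain ⟨i, e, he, hκ⟩ := h𝒰' i'
  rw [hκ]
  exact hB.compat (h𝒰 i).1 hπ hdπ he

end

end Crest.Agent.R266

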