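import Crest.Agent.R266.Rat
import Crest.Agent.R266.LocAn
import Crest.Agent.R266.Balls

/-!
# Row 266: chains join a non-null set of pairs of points
-/

set_option autoImplicit false
set_option linter.unusedSectionVars false
set_option linter.unusedVariables false

namespace Crest.Agent.R266

open Set Metric Filter Topology MeasureTheory Polynomial
open scoped ENNReal Classical

noncomputable section

namespace PA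
variable {X E D : Type} {N : ℕ} [TopologicalSpace X] [T2Space X] [CompactSpace X] [Nonempty X]
  [NormedAddCommGroup E] [NormedSpace ℂ E] [FiniteDimensional ℂ E] [CompleteSpace E]
  [NormedAddCommGroup D] [NormedSpace ℂ D] {𝒬 : PA X E N} [MeasurableSpace (E × E)] [BorelSpace (E × E)] {μ : Measure (E × E)} [μ.IsAddHaarMeasure]

/-- pairs of chart points: `R` holds -/
def prs (𝒬 : PA X E N) (i j : 𝒬.ι) (R : X → X → Prop) : Set (E × E) :=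
  {t | ∃ x ∈ (𝒬.κ i).source, ∃ y ∈ (𝒬.κ j).source, R x y ∧ t = (𝒬.κ i x, 𝒬.κ j y)}

/-- The open set `κ i '' (U ∩ source) ×ˢ κ j '' (V ∩ source)` has positive measure and is covered by the countably many
images of `Z d = {c | Crv c ∧ pt (ev c 0) ∈ source i ∧ pt (ev c 1) ∈ source j}`; `crv_locAn`, `LocAn.rel_open`, `eval_ext`, `sub`. -/
theorem crv_family (μ : Measure (E × E)) [μ.IsAddHaarMeasure] {U V : Set X} (hU : IsOpen U) (hV : IsOpen V)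
    (hU' : U.Nonempty) (hV' : V.Nonempty)
    (h : ∀ x ∈ U, ∀ y ∈ V, ∃ (d : ℕ) (c : Fin (d + 1) → VV N), 𝒬.Crv c ∧ 𝒬.pt (ev c 0) = x ∧ 𝒬.pt (ev c 1) = y) :
    ∃ (i j : 𝒬.ι) (d : ℕ) (t₀ : E × E) (σ : E × E → Fin (d + 1) → VV N), AnalyticAt ℂ σ t₀ ∧
      ∀ᶠ t in 𝓝 t₀, 𝒬.Crv (σ t) ∧ 𝒬.pt (ev (σ t) 0) ∈ (𝒬.κ i).source ∧ 𝒬.pt (ev (σ t) 1) ∈ (𝒬.κ j).source ∧
        (𝒬.κ i (𝒬.pt (ev (σ t) 0)), 𝒬.κ j (𝒬.pt (ev (σ t) 1))) = t := by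
  obtain ⟨x₀, hx₀⟩ := hU'
  obtain ⟨y₀, hy₀⟩ := hV'
  obtain ⟨i, hi⟩ := 𝒬.cov x₀
  obtain ⟨j, hj⟩ := 𝒬.cov y₀
  let Z : (d : ℕ) → Set (Fin (d + 1) → VV N) := fun d =>
    {c | 𝒬.Crv c ∧ 𝒬.pt (ev c 0) ∈ (𝒬.κ i).source ∧ 𝒬.pt (ev c 1) ∈ (𝒬.κ j).source}
  let e : (d : ℕ) → (Fin (d + 1) → VV N) → E × E := fun d c =>
    (𝒬.κ i (𝒬.pt (ev c 0)), 𝒬.κ j (𝒬.pt (ev c 1)))
  have hO : IsOpen ((𝒬.κ i '' ((𝒬.κ i).source ∩ U)) ×ˢ (𝒬.κ j '' ((𝒬.κ j).source ∩ V))) :=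
    ((𝒬.κ i).isOpen_image_source_inter hU).prod ((𝒬.κ j).isOpen_image_source_inter hV)
  have hpos := hO.measure_ne_zero μ ⟨(𝒬.κ i x₀, 𝒬.κ j y₀), ⟨x₀, ⟨hi, hx₀⟩, rfl⟩, ⟨y₀, ⟨hj, hy₀⟩, rfl⟩⟩
  have hex : ∃ d, μ (e d '' Z d) ≠ 0 := by
    by_contra hcon
    push Not at hcon
    refine hpos (measure_mono_null ?_ (measure_iUnion_null hcon))
    rintro ⟨_, _⟩ ⟨⟨x, ⟨hx1, hx2⟩, rfl⟩, ⟨y, ⟨hy1, hy2⟩, rfl⟩⟩
    obtain ⟨d, c, hc, rfl, rfl⟩ := h x hx2 y hy2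
    exact mem_iUnion.2 ⟨d, c, ⟨hc, hx1, hy1⟩, rfl⟩
  obtain ⟨d, hd⟩ := hex
  have key : ∀ c ∈ Z d, ∃ e' : (Fin (d + 1) → VV N) → E × E, AnalyticAt ℂ e' c ∧
      ∀ᶠ x in 𝓝 c, 𝒬.Crv x → x ∈ Z d ∧ e d x = e' x := by
    intro c hc
    obtain ⟨e₁, a1, b1⟩ := eval_ext hc.1 0 hc.2.1
    obtain ⟨e₂, a2, b2⟩ := eval_ext hc.1 1 hc.2.2
    refine ⟨fun x => (e₁ x, e₂ x), a1.prod a2, ?_⟩
    filter_upwards [b1, b2] with x h1 h2 hx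
    exact ⟨⟨hx, (h1 hx).1, (h2 hx).1⟩, Prod.ext (h1 hx).2 (h2 hx).2⟩
  have hZ : LocAn (Z d) := by
    refine (crv_locAn (𝒬 := 𝒬) d).rel_open (fun c hc => hc.1) fun c hc => ?_
    obtain ⟨e', -, h2⟩ := key c hc
    exact eventually_nhdsWithin_iff.2 (h2.mono fun x hx hx' => (hx hx').1)
  obtain ⟨t₀, σ, hσ, hev⟩ := sub (μ := μ) hZ (e := e d) (fun c hc => by
    obtain ⟨e', h1, h2⟩ := key c hc
    exact ⟨e', h1, eventually_nhdsWithin_iff.2 (h2.mono fun x hx hx' => (hx hx'.1).2)⟩) hd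
  exact ⟨i, j, d, t₀, σ, hσ, hev.mono fun t ht => ⟨ht.1.1, ht.1.2.1, ht.1.2.2, ht.2⟩⟩

theorem chain_nonnull_seq (a : ℂ) {δ : ℝ} (hδ : 0 < δ) : ∃ S : Set ℂ, S.Countable ∧ S.Infinite ∧ S ⊆ ball a δ := by
  obtain ⟨S, hS, hc, hi⟩ := (infinite_of_mem_nhds a (ball_mem_nhds a hδ)).exists_subset_countable_infinite
  exact ⟨S, hc, hi, hS⟩

theorem chain_nonnull_aux {F : Type} [NormedAddCommGroup F] [NormedSpace ℂ F] [FiniteDimensional ℂ F] [CompleteSpace F]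
    [MeasurableSpace F] [BorelSpace F] {μ : Measure F} [μ.IsAddHaarMeasure] {e : F × (ℂ × ℂ) → F} {t₀ : F} {M : Set F}
    {R : F × (ℂ × ℂ) → Prop} (he : AnalyticAt ℂ e (t₀, (0, 1))) (hid : ∀ᶠ t in 𝓝 t₀, e (t, (0, 1)) = t)
    (hR : ∀ᶠ x in 𝓝 ((t₀, (0, 1)) : F × (ℂ × ℂ)), R x)
    (hcov : ∀ᶠ t in 𝓝 t₀, ∀ S T : Set ℂ, S.Infinite → T.Infinite →
      ∃ p ∈ S, ∃ q ∈ T, (R (t, (p, q)) → e (t, (p, q)) ∈ M)) : μ M ≠ 0 := by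
  intro hM
  set x₀ : F × (ℂ × ℂ) := (t₀, (0, 1)) with hx₀
  -- the partial derivative
  have hpart : ∀ x : F × (ℂ × ℂ), AnalyticAt ℂ e x →
      HasFDerivAt (fun t => e (t, x.2)) ((fderiv ℂ e x).comp (ContinuousLinearMap.inl ℂ F (ℂ × ℂ))) x.1 := fun x hx =>
    hx.differentiableAt.hasFDerivAt.comp x.1 (hasFDerivAt_prodMk_left x.1 x.2)
  have hD0 : (fderiv ℂ e x₀).comp (ContinuousLinearMap.inl ℂ F (ℂ × ℂ)) = ContinuousLinearMap.id ℂ F :=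
    (hpart x₀ he).unique ((hasFDerivAt_id t₀).congr_of_eventuallyEq hid)
  have hc : ContinuousAt (fun x => (fderiv ℂ e x).comp (ContinuousLinearMap.inl ℂ F (ℂ × ℂ))) x₀ :=
    he.fderiv.continuousAt.clm_comp continuousAt_const
  have hinj : ∀ᶠ x in 𝓝 x₀, Function.Injective ((fderiv ℂ e x).comp (ContinuousLinearMap.inl ℂ F (ℂ × ℂ))) := by
    refine hc.eventually (ContinuousLinearMap.isOpen_injective.mem_nhds ?_)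
    show Function.Injective ((fderiv ℂ e x₀).comp (ContinuousLinearMap.inl ℂ F (ℂ × ℂ)))
    rw [hD0]
    exact Function.injective_id
  obtain ⟨δ, hδ, hall⟩ := Metric.eventually_nhds_iff_ball.1 (hinj.and (he.eventually_analyticAt.and hR))
  obtain ⟨ε, hε, hall'⟩ := Metric.eventually_nhds_iff_ball.1 (hcov.and (ball_mem_nhds t₀ hδ))
  obtain ⟨S, hSc, hSi, hS⟩ := chain_nonnull_seq 0 hδ
  obtain ⟨T, hTc, hTi, hT⟩ := chain_nonnull_seq 1 hδ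
  have hmem : ∀ t ∈ ball t₀ ε, ∀ p ∈ S, ∀ q ∈ T, ((t, (p, q)) : F × (ℂ × ℂ)) ∈ ball x₀ δ := fun t ht p hp q hq => by
    rw [hx₀, ← ball_prod_same, ← ball_prod_same]
    exact ⟨(hall' t ht).2, hS hp, hT hq⟩
  have hsub : ball t₀ ε ⊆ ⋃ p ∈ S, ⋃ q ∈ T, ball t₀ ε ∩ (fun t => e (t, (p, q))) ⁻¹' M := fun t ht => by
    obtain ⟨p, hp, q, hq, h⟩ := (hall' t ht).1 S T hSi hTi
    exact mem_iUnion₂.2 ⟨p, hp, mem_iUnion₂.2 ⟨q, hq, ht, h (hall _ (hmem t ht p hp q hq)).2.2⟩⟩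
  refine (measure_ball_pos μ t₀ hε).ne' (measure_mono_null hsub ?_)
  refine (measure_biUnion_null_iff hSc).2 fun p hp => (measure_biUnion_null_iff hTc).2 fun q hq => ?_
  refine null_preimage (fun t ht => ?_) hM
  obtain ⟨h1, h2, -⟩ := hall _ (hmem t ht p hp q hq)
  refine ⟨h2.comp (f := fun t => (t, (p, q))) (analyticAt_id.prod analyticAt_const), ?_⟩
  rw [(hpart _ h2).fderiv]
  exact h1

/-- `e (t, p, q) = (κ i (pt (ev (σ t) p)), κ j (pt (ev (σ t) q)))` is analytic at `(t₀, 0, 1)` and `e (·, 0, 1) = id`, so on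
`ball t₀ δ` and for `‖p‖, ‖q - 1‖ < δ` the derivative in `t` is injective (`‖D - 1‖ < 1`).  Take countable infinite
`S ⊆ ball 0 δ`, `T ⊆ ball 1 δ`.  By `rat_chain` the ball is covered by the sets `ball ∩ e (·, p, q) ⁻¹' prs`, which would be
null (`null_preimage`). -/
theorem chain_nonnull {i j : 𝒬.ι} {d : ℕ} {t₀ : E × E} {σ : E × E → Fin (d + 1) → VV N} (hσ : AnalyticAt ℂ σ t₀)
    (h : ∀ᶠ t in 𝓝 t₀, 𝒬.Crv (σ t) ∧ 𝒬.pt (ev (σ t) 0) ∈ (𝒬.κ i).source ∧ 𝒬.pt (ev (σ t) 1) ∈ (𝒬.κ j).source ∧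
      (𝒬.κ i (𝒬.pt (ev (σ t) 0)), 𝒬.κ j (𝒬.pt (ev (σ t) 1))) = t) : μ (𝒬.prs i j 𝒬.Chain) ≠ 0 := by
  have hcr : ∀ᶠ x in 𝓝 ((t₀, (0, 1)) : (E × E) × (ℂ × ℂ)), 𝒬.Crv (σ x.1) :=
    (continuousAt_fst (p := ((t₀, (0, 1)) : (E × E) × (ℂ × ℂ)))).eventually (h.mono fun t ht => ht.1)
  have hσ' : AnalyticAt ℂ (fun x : (E × E) × (ℂ × ℂ) => σ x.1) (t₀, (0, 1)) :=
    hσ.comp (f := fun x : (E × E) × (ℂ × ℂ) => x.1) analyticAt_fst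
  have h1 : 𝒬.An (fun x : (E × E) × (ℂ × ℂ) => 𝒬.pt (ev (σ x.1) x.2.1)) (t₀, (0, 1)) :=
    An_pt ((ev_analytic _).comp (f := fun x : (E × E) × (ℂ × ℂ) => (σ x.1, x.2.1))
      (hσ'.prod (analyticAt_fst.comp analyticAt_snd))) (hcr.mono fun x hx => hx.1 _)
  have h2 : 𝒬.An (fun x : (E × E) × (ℂ × ℂ) => 𝒬.pt (ev (σ x.1) x.2.2)) (t₀, (0, 1)) :=
    An_pt ((ev_analytic _).comp (f := fun x : (E × E) × (ℂ × ℂ) => (σ x.1, x.2.2))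
      (hσ'.prod (analyticAt_snd.comp analyticAt_snd))) (hcr.mono fun x hx => hx.1 _)
  obtain ⟨-, hi, hj, -⟩ := h.self_of_nhds
  refine chain_nonnull_aux (t₀ := t₀)
    (e := fun x => (𝒬.κ i (𝒬.pt (ev (σ x.1) x.2.1)), 𝒬.κ j (𝒬.pt (ev (σ x.1) x.2.2))))
    (R := fun x => 𝒬.pt (ev (σ x.1) x.2.1) ∈ (𝒬.κ i).source ∧ 𝒬.pt (ev (σ x.1) x.2.2) ∈ (𝒬.κ j).source)
    ((h1.2 i hi).prod (h2.2 j hj)) (h.mono fun t ht => ht.2.2.2)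
    ((h1.1.eventually ((𝒬.κ i).open_source.mem_nhds hi)).and (h2.1.eventually ((𝒬.κ j).open_source.mem_nhds hj))) ?_
  filter_upwards [h] with t ht S T hS hT
  obtain ⟨p, hp, q, hq, hpq⟩ := rat_chain ht.1 hS hT
  exact ⟨p, hp, q, hq, fun hx => ⟨_, hx.1, _, hx.2, hpq, rfl⟩⟩

/-- as `crv_family`, with `chn_locAn` -/
theorem chn_family {i j : 𝒬.ι} (h : μ (𝒬.prs i j 𝒬.Chain) ≠ 0) :
    ∃ (d e : ℕ) (t₀ : E × E) (σ : E × E → (Fin (d + 1) → VV N) × (Fin (e + 1) → VV N)), AnalyticAt ℂ σ t₀ ∧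
      ∀ᶠ t in 𝓝 t₀, 𝒬.Chn (σ t) ∧ 𝒬.pt (ev (σ t).1 0) ∈ (𝒬.κ i).source ∧ 𝒬.pt (ev (σ t).2 1) ∈ (𝒬.κ j).source ∧
        (𝒬.κ i (𝒬.pt (ev (σ t).1 0)), 𝒬.κ j (𝒬.pt (ev (σ t).2 1))) = t := by
  let Z : (d : ℕ × ℕ) → Set ((Fin (d.1 + 1) → VV N) × (Fin (d.2 + 1) → VV N)) := fun d =>
    {c | 𝒬.Chn c ∧ 𝒬.pt (ev c.1 0) ∈ (𝒬.κ i).source ∧ 𝒬.pt (ev c.2 1) ∈ (𝒬.κ j).source}
  let e : (d : ℕ × ℕ) → ((Fin (d.1 + 1) → VV N) × (Fin (d.2 + 1) → VV N)) → E × E := fun d c =>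
    (𝒬.κ i (𝒬.pt (ev c.1 0)), 𝒬.κ j (𝒬.pt (ev c.2 1)))
  have hex : ∃ d, μ (e d '' Z d) ≠ 0 := by
    by_contra hcon
    push Not at hcon
    refine h (measure_mono_null ?_ (measure_iUnion_null hcon))
    rintro _ ⟨x, hx1, y, hy1, ⟨d₁, d₂, c, hc, rfl, rfl⟩, rfl⟩
    exact mem_iUnion.2 ⟨(d₁, d₂), c, ⟨hc, hx1, hy1⟩, rfl⟩
  obtain ⟨d, hd⟩ := hex
  have key : ∀ c ∈ Z d, ∃ e' : ((Fin (d.1 + 1) → VV N) × (Fin (d.2 + 1) → VV N)) → E × E,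
      AnalyticAt ℂ e' c ∧ ∀ᶠ x in 𝓝 c, 𝒬.Chn x → x ∈ Z d ∧ e d x = e' x := by
    intro c hc
    have hc2 : 𝒬.Crv c.2 := hc.1.2.1.1
    obtain ⟨e₁, a1, b1⟩ := eval_ext hc.1.1.1 0 hc.2.1
    obtain ⟨e₂, a2, b2⟩ := eval_ext hc2 1 hc.2.2
    refine ⟨fun x => (e₁ x.1, e₂ x.2), (a1.comp analyticAt_fst).prod (a2.comp analyticAt_snd), ?_⟩
    filter_upwards [continuousAt_fst.eventually b1, continuousAt_snd.eventually b2] with x h1 h2 hx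
    have hx2 : 𝒬.Crv x.2 := hx.2.1.1
    exact ⟨⟨hx, (h1 hx.1.1).1, (h2 hx2).1⟩, Prod.ext (h1 hx.1.1).2 (h2 hx2).2⟩
  have hZ : LocAn (Z d) := by
    refine (chn_locAn (𝒬 := 𝒬) d.1 d.2).rel_open (fun c hc => hc.1) fun c hc => ?_
    obtain ⟨e', -, h2⟩ := key c hc
    exact eventually_nhdsWithin_iff.2 (h2.mono fun x hx hx' => (hx hx').1)
  obtain ⟨t₀, σ, hσ, hev⟩ := sub (μ := μ) hZ (e := e d) (fun c hc => by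
    obtain ⟨e', h1, h2⟩ := key c hc
    exact ⟨e', h1, eventually_nhdsWithin_iff.2 (h2.mono fun x hx hx' => (hx hx'.1).2)⟩) hd
  exact ⟨d.1, d.2, t₀, σ, hσ, hev.mono fun t ht => ⟨ht.1.1, ht.1.2.1, ht.1.2.2, ht.2⟩⟩

end PA

end

end Crest.Agent.R266

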