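import Crest.Agent.R266.Frob
import Crest.Agent.R266.Cov

/-!
# Row 266: product charts
-/

set_option autoImplicit false
set_option linter.unusedSectionVars false
set_option linter.unusedVariables false

namespace Crest.Agent.R266

open Set Metric Filter Topology MeasureTheory Polynomial
open scoped ENNReal Classical

noncomputable section

variable {X E A B : Type} [TopologicalSpace X] [NormedAddCommGroup E] [NormedSpace ℂ E] [FiniteDimensional ℂ E]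
  [CompleteSpace E] [NormedAddCommGroup A] [NormedSpace ℂ A] [FiniteDimensional ℂ A] [CompleteSpace A]
  [NormedAddCommGroup B] [NormedSpace ℂ B] [FiniteDimensional ℂ B] [CompleteSpace B]

/-- `range π ≃ A`, `ker π ≃ B` (`LinearEquiv.ofFinrankEq`), `LinearMap.equivProdOfSurjectiveOfIsCompl` or by hand -/
theorem exists_L (π : E →L[ℂ] E) (hπ : ∀ v, π (π v) = π v)
    (hA : Module.finrank ℂ (LinearMap.range (π : E →ₗ[ℂ] E)) = Module.finrank ℂ A)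
    (hB : Module.finrank ℂ E = Module.finrank ℂ A + Module.finrank ℂ B) :
    ∃ L : E ≃L[ℂ] A × B, ∀ v, L (π v) = ((L v).1, 0) := by
  have hK : Module.finrank ℂ (LinearMap.ker (π : E →ₗ[ℂ] E)) = Module.finrank ℂ B := by
    have := LinearMap.finrank_range_add_finrank_ker (π : E →ₗ[ℂ] E)
    omega
  let eA := LinearEquiv.ofFinrankEq _ _ hA
  let eB := LinearEquiv.ofFinrankEq _ _ hK
  let r : E →ₗ[ℂ] LinearMap.ker (π : E →ₗ[ℂ] E) :=
    (LinearMap.id - (π : E →ₗ[ℂ] E)).codRestrict _ fun v => by simp [hπ]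
  let ℓ : E →ₗ[ℂ] A × B := (eA.toLinearMap ∘ₗ (π : E →ₗ[ℂ] E).rangeRestrict).prod (eB.toLinearMap ∘ₗ r)
  have hi : Function.Injective ℓ := by
    refine (injective_iff_map_eq_zero _).2 fun v hv => ?_
    have h1 : π v = 0 := congrArg Subtype.val (eA.map_eq_zero_iff.1 (congrArg Prod.fst hv))
    have h2 : v - π v = 0 := congrArg Subtype.val (eB.map_eq_zero_iff.1 (congrArg Prod.snd hv))
    rwa [h1, sub_zero] at h2
  refine ⟨(ℓ.linearEquivOfInjective hi (by rw [Module.finrank_prod, hB])).toContinuousLinearEquiv,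
    fun v => Prod.ext ?_ ?_⟩
  · exact congrArg eA (Subtype.ext (hπ v))
  · exact eB.map_eq_zero_iff.2 (Subtype.ext (sub_eq_zero.2 (hπ v).symm))
/-- `Q y = L (q₁ y + q₂ y)`, `q₂ = frob P`, `q₁ = frob (1 - P)` -/
theorem prod_chart {P : E → E →L[ℂ] E} {y₀ : E} (hP : AnalyticAt ℂ P y₀)
    (hi : ∀ᶠ y in 𝓝 y₀, ∀ v, P y (P y v) = P y v) (ht : ∀ᶠ y in 𝓝 y₀, ∀ a b, th P y a b = 0)
    (ht' : ∀ᶠ y in 𝓝 y₀, ∀ a b, th (fun z => 1 - P z) y a b = 0) (L : E ≃L[ℂ] A × B)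
    (hL : ∀ v, L (P y₀ v) = ((L v).1, 0)) :
    ∃ Q : E → A × B, AnalyticAt ℂ Q y₀ ∧ fderiv ℂ Q y₀ = (L : E →L[ℂ] A × B) ∧
      ∀ᶠ y in 𝓝 y₀, ∀ v, fderiv ℂ Q y (P y v) = ((fderiv ℂ Q y v).1, 0) := by
  obtain ⟨q₂, a₂, d₂, k₂, e₂⟩ := frob hP hi ht
  obtain ⟨q₁, a₁, d₁, k₁, e₁⟩ := frob (P := fun z => 1 - P z) (analyticAt_const.sub hP)
    (hi.mono fun y hy v => by simp [hy]) ht'
  have hD : ∀ y, DifferentiableAt ℂ q₁ y → DifferentiableAt ℂ q₂ y →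
      fderiv ℂ (fun y => L (q₁ y + q₂ y)) y = (L : E →L[ℂ] A × B) ∘L (fderiv ℂ q₁ y + fderiv ℂ q₂ y) :=
    fun y h₁ h₂ => ((L : E →L[ℂ] A × B).hasFDerivAt.comp y (h₁.hasFDerivAt.add h₂.hasFDerivAt)).fderiv
  have hz : ∀ (T : E →L[ℂ] E) (q : E → E) (y : E), DifferentiableAt ℂ q y → (∀ y, T (q y) = 0) →
      ∀ v, T (fderiv ℂ q y v) = 0 := fun T q y hq h0 v => by
    have h1 := (T.hasFDerivAt.comp y hq.hasFDerivAt).fderiv
    rw [show (T ∘ q) = fun _ => 0 from funext h0, fderiv_fun_const] at h1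
    exact (congrArg (· v) h1).symm
  refine ⟨fun y => L (q₁ y + q₂ y), ((L : E →L[ℂ] A × B).analyticAt _).comp (a₁.add a₂), ?_, ?_⟩
  · rw [hD _ a₁.differentiableAt a₂.differentiableAt, d₁, d₂]
    ext v <;> simp
  · filter_upwards [a₁.eventually_analyticAt, a₂.eventually_analyticAt, e₁, e₂] with y b₁ b₂ f₁ f₂ v
    have h1 : fderiv ℂ q₁ y (P y v) = fderiv ℂ q₁ y v := by
      have := f₁ v
      rw [sub_apply, map_sub, sub_eq_zero] at this
      exact this.symm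
    have h2 := hL (fderiv ℂ q₁ y v)
    have h3 := hL (fderiv ℂ q₂ y v)
    rw [show P y₀ (fderiv ℂ q₁ y v) = fderiv ℂ q₁ y v from
      (sub_eq_zero.1 (hz _ _ y b₁.differentiableAt k₁ v)).symm] at h2
    rw [hz _ _ y b₂.differentiableAt k₂ v, map_zero] at h3
    rw [hD _ b₁.differentiableAt b₂.differentiableAt]
    simp only [ContinuousLinearMap.comp_apply, add_apply, f₂, h1, add_zero, map_add,
      ContinuousLinearEquiv.coe_coe, Prod.fst_add]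
    rw [← show (0 : A) = (L (fderiv ℂ q₂ y v)).1 from congrArg Prod.fst h3, add_zero]
    exact h2
/-- on a ball: `(ψ (z, w)).1` does not depend on `w`, `(ψ (z, w)).2` not on `z` (`Convex.is_const_of_fderivWithin_eq_zero`) -/
theorem prod_of_comm {ψ : A × B → A × B} {p : A × B} (hψ : AnalyticAt ℂ ψ p)
    (h : ∀ᶠ y in 𝓝 p, ∀ v : A × B, fderiv ℂ ψ y (v.1, 0) = ((fderiv ℂ ψ y v).1, 0)) :
    ∃ (a : A → A) (b : B → B), AnalyticAt ℂ a p.1 ∧ AnalyticAt ℂ b p.2 ∧ ψ =ᶠ[𝓝 p] Prod.map a b := by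
  obtain ⟨r, hr, hb⟩ := Metric.eventually_nhds_iff_ball.1 (h.and hψ.eventually_analyticAt)
  rw [← ball_prod_same] at hb
  refine ⟨fun z => (ψ (z, p.2)).1, fun w => (ψ (p.1, w)).2,
    analyticAt_fst.comp (hψ.comp_of_eq (analyticAt_id.prod analyticAt_const) rfl),
    analyticAt_snd.comp (hψ.comp_of_eq (analyticAt_const.prod analyticAt_id) rfl), ?_⟩
  filter_upwards [ball_mem_nhds p hr] with y hy
  rw [← ball_prod_same] at hy
  have h1 : ∀ w ∈ ball p.2 r, HasFDerivAt (fun w => (ψ (y.1, w)).1) (0 : B →L[ℂ] A) w := fun w hw => by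
    obtain ⟨c₁, c₂⟩ := hb (y.1, w) ⟨hy.1, hw⟩
    refine ((c₂.differentiableAt.hasFDerivAt.comp w (hasFDerivAt_prodMk_right y.1 w)).fst).congr_fderiv ?_
    ext v
    have := c₁ (0, v)
    rw [show (((0 : A), v).1, (0 : B)) = 0 from rfl, map_zero] at this
    exact (congrArg Prod.fst this).symm
  have h2 : ∀ z ∈ ball p.1 r, HasFDerivAt (fun z => (ψ (z, y.2)).2) (0 : A →L[ℂ] B) z := fun z hz => by
    obtain ⟨c₁, c₂⟩ := hb (z, y.2) ⟨hz, hy.2⟩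
    refine ((c₂.differentiableAt.hasFDerivAt.comp z (hasFDerivAt_prodMk_left z y.2)).snd).congr_fderiv ?_
    ext v
    exact congrArg Prod.snd (c₁ (v, 0))
  refine Prod.ext ?_ ?_
  · exact isOpen_ball.is_const_of_fderiv_eq_zero (convex_ball _ _).isPreconnected
      (fun w hw => (h1 w hw).differentiableAt.differentiableWithinAt) (fun w hw => (h1 w hw).fderiv)
      hy.2 (mem_ball_self hr)
  · exact isOpen_ball.is_const_of_fderiv_eq_zero (convex_ball _ _).isPreconnected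
      (fun w hw => (h2 w hw).differentiableAt.differentiableWithinAt) (fun w hw => (h2 w hw).fderiv)
      hy.1 (mem_ball_self hr)
/-- Take `k` with `x ∈ source k`, `Q` from `prod_chart`, `e = Q` as an `OpenPartialHomeomorph` (inverse function theorem,
`OpenPartialHomeomorph.analyticAt_symm`), shrink so that all properties hold on the source, compose with an affine map
`y ↦ (5/δ) • (y - Q y₀)` and restrict to the preimage of `ball 0 5`.  Other charts `k'`: `𝒮.an`, `𝒮.cmpP`, chain rule. -/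
theorem exists_adapted (𝒮 : SA X E) (h₁ : 𝒮.Int) (h₂ : 𝒮.swap.Int)
    (hA : ∀ i, ∀ y ∈ (𝒮.κ i).target,
      Module.finrank ℂ (LinearMap.range (𝒮.P i y : E →ₗ[ℂ] E)) = Module.finrank ℂ A)
    (hB : Module.finrank ℂ E = Module.finrank ℂ A + Module.finrank ℂ B) (x : X) {N : Set X} (hN : N ∈ 𝓝 x) :
    ∃ κ : OpenPartialHomeomorph X (A × B), 𝒮.Adapted κ ∧ κ.target = ball 0 5 ∧ x ∈ κ.source ∧ κ x = 0 ∧
      κ.source ⊆ N := by
  obtain ⟨k, hk⟩ := 𝒮.cov x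
  have hy := (𝒮.κ k).map_source hk
  have hev := (𝒮.κ k).open_target.eventually_mem hy
  obtain ⟨L, hL⟩ := exists_L (𝒮.P k (𝒮.κ k x)) (𝒮.idem k _ hy) (hA k _ hy) hB
  obtain ⟨Q, hQ, hQ', hQ''⟩ := prod_chart (𝒮.anP k _ hy) (hev.mono (𝒮.idem k)) (hev.mono (h₁ k)) (hev.mono (h₂ k)) L hL
  have hs : HasStrictFDerivAt Q (L : E →L[ℂ] A × B) (𝒮.κ k x) := hQ' ▸ hQ.hasStrictFDerivAt
  set e := hs.toOpenPartialHomeomorph Q
  have he : 𝒮.κ k x ∈ e.source := hs.mem_toOpenPartialHomeomorph_source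
  have hx : x ∈ ((𝒮.κ k).trans e).source := ⟨hk, he⟩
  obtain ⟨δ, δ0, hδ⟩ := Metric.eventually_nhds_iff_ball.1 ((((𝒮.κ k).trans e).open_target.eventually_mem
    (((𝒮.κ k).trans e).map_source hx)).and (((((𝒮.κ k).trans e).tendsto_symm hx).eventually hN).and
    ((e.analyticAt_symm' he hQ hQ').eventually_analyticAt.and
    ((e.tendsto_symm he).eventually (hQ.eventually_analyticAt.and hQ'')))))
  obtain ⟨c, c0, hc⟩ : ∃ c : ℂ, c ≠ 0 ∧ ‖c‖ * δ = 5 := ⟨((5 / δ : ℝ) : ℂ), Complex.ofReal_ne_zero.2 (by positivity), by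
    rw [Complex.norm_real, Real.norm_of_nonneg (by positivity), div_mul_cancel₀ _ δ0.ne']⟩
  let h : A × B ≃ₜ A × B :=
    { toFun := fun p => c • (p - Q (𝒮.κ k x))
      invFun := fun q => c⁻¹ • q + Q (𝒮.κ k x)
      left_inv := fun p => by simp only [inv_smul_smul₀ c0, sub_add_cancel]
      right_inv := fun q => by simp only [add_sub_cancel_right, smul_inv_smul₀ c0] }
  have hb : ∀ p, h p ∈ ball (0 : A × B) 5 → p ∈ ball (Q (𝒮.κ k x)) δ := fun p hp => by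
    rw [mem_ball_zero_iff, show h p = c • (p - Q (𝒮.κ k x)) from rfl, norm_smul, ← hc] at hp
    exact mem_ball_iff_norm.2 (lt_of_mul_lt_mul_left hp (norm_nonneg _))
  have h0 : h (Q (𝒮.κ k x)) = 0 := (congrArg (c • ·) (sub_self _)).trans (smul_zero c)
  refine ⟨((((𝒮.κ k).trans e).transHomeomorph h).symm.restrOpen (ball 0 5) isOpen_ball).symm,
    fun k' x' hx' hk' => ?_, inter_eq_right.2 fun q hq => (hδ _ (hb _ ((h.apply_symm_apply q).symm ▸ hq))).1,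
    ⟨hx, show h (Q (𝒮.κ k x)) ∈ ball (0 : A × B) 5 from h0.symm ▸ mem_ball_self (by norm_num)⟩, h0, fun x' hx' => ?_⟩
  · obtain ⟨-, -, a1, a2, a3⟩ := hδ _ (hb (Q (𝒮.κ k x')) hx'.2)
    have e1 : e.symm (Q (𝒮.κ k x')) = 𝒮.κ k x' := e.left_inv hx'.1.2
    have e2 : (𝒮.κ k ∘ (𝒮.κ k').symm) (𝒮.κ k' x') = 𝒮.κ k x' := congrArg _ ((𝒮.κ k').left_inv hk')
    rw [e1] at a2 a3
    have a4 := 𝒮.an k' k x' hk' hx'.1.1
    refine ⟨(((a2.sub analyticAt_const).const_smul (c := c)).comp_of_eq a4 e2 :), ?_, fun v => ?_⟩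
    · have a5 : AnalyticAt ℂ h.symm (h (Q (𝒮.κ k x'))) := (analyticAt_id.const_smul (c := c⁻¹)).add analyticAt_const
      exact ((𝒮.an k k' x' hx'.1.1 hk').comp_of_eq (a1.comp_of_eq a5 (h.symm_apply_apply _))
        ((congrArg e.symm (h.symm_apply_apply _)).trans e1) :)
    · have d := ((((e2 ▸ a2.differentiableAt.hasFDerivAt :).sub_const (Q (𝒮.κ k x))).const_smul c).comp _
        a4.differentiableAt.hasFDerivAt).fderiv
      erw [d]
      have := 𝒮.cmpP k' k x' hk' hx'.1.1 v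
      simp only [Atl.J] at this
      simp only [ContinuousLinearMap.comp_apply, smul_apply, ← this, e2, a3, Prod.smul_mk,
        smul_zero, Prod.smul_fst]
  · have := (hδ _ (hb (Q (𝒮.κ k x')) hx'.2)).2.1
    rwa [show Q (𝒮.κ k x') = ((𝒮.κ k).trans e) x' from rfl, ((𝒮.κ k).trans e).left_inv hx'.1] at this

theorem adapted_trans_comm {𝒮 : SA X E} {κ κ' : OpenPartialHomeomorph X (A × B)} (h : 𝒮.Adapted κ)
    (h' : 𝒮.Adapted κ') {x : X} (hx : x ∈ κ.source) (hx' : x ∈ κ'.source) :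
    AnalyticAt ℂ (κ' ∘ κ.symm) (κ x) ∧ ∀ v : A × B,
      fderiv ℂ (κ' ∘ κ.symm) (κ x) (v.1, 0) = ((fderiv ℂ (κ' ∘ κ.symm) (κ x) v).1, 0) := by
  obtain ⟨k, hk⟩ := 𝒮.cov x
  obtain ⟨a₁, a₂, a₃⟩ := h k x hx hk
  obtain ⟨b₁, -, b₃⟩ := h' k x hx' hk
  have e₁ : (𝒮.κ k ∘ κ.symm) (κ x) = 𝒮.κ k x := congrArg (𝒮.κ k) (κ.left_inv hx)
  have e₂ : (κ ∘ (𝒮.κ k).symm) (𝒮.κ k x) = κ x := congrArg κ ((𝒮.κ k).left_inv hk)
  have c₁ : ∀ g : X → A × B, (g ∘ (𝒮.κ k).symm) ∘ (𝒮.κ k ∘ κ.symm) =ᶠ[𝓝 (κ x)] g ∘ κ.symm := fun g => by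
    filter_upwards [(κ.tendsto_symm hx).eventually ((𝒮.κ k).open_source.mem_nhds hk)] with y hy
    exact congrArg g ((𝒮.κ k).left_inv hy)
  have c₂ : ∀ g : X → A × B, AnalyticAt ℂ (g ∘ (𝒮.κ k).symm) (𝒮.κ k x) → ∀ v, fderiv ℂ (g ∘ κ.symm) (κ x) v =
      fderiv ℂ (g ∘ (𝒮.κ k).symm) (𝒮.κ k x) (fderiv ℂ (𝒮.κ k ∘ κ.symm) (κ x) v) := fun g hg v => by
    rw [← (c₁ g).fderiv_eq, fderiv_comp _ (e₁.symm ▸ hg.differentiableAt) a₂.differentiableAt, e₁]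
    rfl
  have c₃ : ∀ v, fderiv ℂ (κ ∘ (𝒮.κ k).symm) (𝒮.κ k x) (fderiv ℂ (𝒮.κ k ∘ κ.symm) (κ x) v) = v := fun v => by
    rw [← c₂ κ a₁, EventuallyEq.fderiv_eq (f₁ := κ ∘ κ.symm) (f := id) (κ.eventually_right_inverse' hx),
      fderiv_id]
    rfl
  have c₄ : ∀ v, fderiv ℂ (𝒮.κ k ∘ κ.symm) (κ x) (fderiv ℂ (κ ∘ (𝒮.κ k).symm) (𝒮.κ k x) v) = v := fun v => by
    have d₁ : (𝒮.κ k ∘ κ.symm) ∘ (κ ∘ (𝒮.κ k).symm) =ᶠ[𝓝 (𝒮.κ k x)] id := by
      filter_upwards [((𝒮.κ k).tendsto_symm hk).eventually (κ.open_source.mem_nhds hx),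
        (𝒮.κ k).eventually_right_inverse' hk] with y hy hy'
      exact (congrArg (𝒮.κ k) (κ.left_inv hy)).trans hy'
    have d₂ := d₁.fderiv_eq (𝕜 := ℂ)
    rw [fderiv_comp _ (e₂.symm ▸ a₂.differentiableAt) a₁.differentiableAt, e₂, fderiv_id] at d₂
    exact congrArg (· v) d₂
  refine ⟨(b₁.comp_of_eq a₂ e₁).congr (c₁ κ'), fun v => ?_⟩
  have c₅ := congrArg (fderiv ℂ (𝒮.κ k ∘ κ.symm) (κ x)) (a₃ (fderiv ℂ (𝒮.κ k ∘ κ.symm) (κ x) v))
  rw [c₄, c₃] at c₅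
  rw [c₂ κ' b₁, c₂ κ' b₁, ← c₅, b₃]


/-- transitions between adapted charts are products (`prod_of_comm`; the derivative of `κ ∘ (𝒮.κ k).symm` is onto) -/
theorem SA.Adapted.trans {𝒮 : SA X E} {κ κ' : OpenPartialHomeomorph X (A × B)} (h : 𝒮.Adapted κ)
    (h' : 𝒮.Adapted κ') {x : X} (hx : x ∈ κ.source) (hx' : x ∈ κ'.source) :
    AnalyticAt ℂ (κ' ∘ κ.symm) (κ x) ∧ ∃ (a : A → A) (b : B → B), AnalyticAt ℂ a (κ x).1 ∧ AnalyticAt ℂ b (κ x).2 ∧
      (κ' ∘ κ.symm) =ᶠ[𝓝 (κ x)] Prod.map a b := by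
  refine ⟨(adapted_trans_comm h h' hx hx').1, prod_of_comm (adapted_trans_comm h h' hx hx').1 ?_⟩
  filter_upwards [κ.open_target.mem_nhds (κ.map_source hx),
    (κ.tendsto_symm hx).eventually (κ'.open_source.mem_nhds hx')] with y hy hy'
  have := (adapted_trans_comm h h' (κ.map_target hy) hy').2
  rwa [κ.right_inv hy] at this
end

end Crest.Agent.R266

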