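import Crest.Agent.R266.Atl

/-!
# Row 266: the cone over a compact projective manifold
-/

set_option autoImplicit false
set_option linter.unusedSectionVars false
set_option linter.unusedVariables false

namespace Crest.Agent.R266

open Set Metric Filter Topology MeasureTheory Polynomial
open scoped ENNReal Classical

noncomputable section

namespace PA
variable {X E D : Type} {N : ℕ} [TopologicalSpace X] [T2Space X] [CompactSpace X] [Nonempty X]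
  [NormedAddCommGroup E] [NormedSpace ℂ E] [FiniteDimensional ℂ E] [CompleteSpace E]
  [NormedAddCommGroup D] [NormedSpace ℂ D] {𝒬 : PA X E N}

theorem Ov.chart {x : X} {v : VV N} (h : 𝒬.Ov x v) {i : 𝒬.ι} (hi : x ∈ (𝒬.κ i).source) :
    ∃ c : ℂ, c ≠ 0 ∧ v = c • 𝒬.ξ i (𝒬.κ i x) := by
  obtain ⟨j, hj, c, hc, rfl⟩ := h
  obtain ⟨a, ha⟩ := 𝒬.cmpξ i j x hi hj
  refine ⟨c * a, mul_ne_zero hc fun h0 => 𝒬.ne j _ ((𝒬.κ j).map_source hj) (by simp [ha, h0]), ?_⟩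
  rw [ha, smul_smul]

theorem Ov.smul {x : X} {v : VV N} (h : 𝒬.Ov x v) {c : ℂ} (hc : c ≠ 0) : 𝒬.Ov x (c • v) := by
  obtain ⟨j, hj, a, ha, rfl⟩ := h
  exact ⟨j, hj, c * a, mul_ne_zero hc ha, smul_smul _ _ _⟩

theorem Ov.ne_zero {x : X} {v : VV N} (h : 𝒬.Ov x v) : v ≠ 0 := by
  obtain ⟨j, hj, a, ha, rfl⟩ := h
  exact smul_ne_zero ha (𝒬.ne j _ ((𝒬.κ j).map_source hj))

theorem Ov.pt_eq {x : X} {v : VV N} (h : 𝒬.Ov x v) : 𝒬.pt v = x := by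
  have h0 : ∃ x, 𝒬.Ov x v := ⟨x, h⟩
  rw [pt, dif_pos h0]
  obtain ⟨j, hj, a, ha, e⟩ := h0.choose_spec
  obtain ⟨i, hi, b, hb, e'⟩ := h
  refine 𝒬.inj j i _ _ hj hi ⟨b⁻¹ * a, ?_⟩
  rw [mul_smul, ← e, e', smul_smul, inv_mul_cancel₀ hb, one_smul]

theorem ov_pt {v : VV N} (h : v ∈ 𝒬.cone) : 𝒬.Ov (𝒬.pt v) v := by
  obtain ⟨x, hx⟩ := h
  rwa [hx.pt_eq]

theorem ov_xi {x : X} {i : 𝒬.ι} (hi : x ∈ (𝒬.κ i).source) : 𝒬.Ov x (𝒬.ξ i (𝒬.κ i x)) := by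
  exact ⟨i, hi, 1, one_ne_zero, (one_smul _ _).symm⟩

theorem cone_smul {v : VV N} (h : v ∈ 𝒬.cone) {c : ℂ} (hc : c ≠ 0) : c • v ∈ 𝒬.cone ∧ 𝒬.pt (c • v) = 𝒬.pt v := by
  exact ⟨⟨_, (ov_pt h).smul hc⟩, ((ov_pt h).smul hc).pt_eq⟩

theorem swap_pt : 𝒬.swap.pt = 𝒬.pt := rfl

theorem swap_cone : 𝒬.swap.cone = 𝒬.cone := rfl

/-- The relation `Ov` is closed in `X × (V \ 0)`: near `x ∈ source i` it says that all `2 × 2` minors of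
`(v, ξ i (κ i x))` vanish. -/
theorem ov_closed {x : X} {v : VV N} (hv : v ≠ 0) (h : ∃ᶠ p in 𝓝 (x, v), 𝒬.Ov p.1 p.2) : 𝒬.Ov x v := by
  obtain ⟨i, hi⟩ := 𝒬.cov x
  have hξ : ContinuousAt (fun p : X × VV N => 𝒬.ξ i (𝒬.κ i p.1)) (x, v) :=
    ((𝒬.anξ i _ ((𝒬.κ i).map_source hi)).continuousAt.comp ((𝒬.κ i).continuousAt hi)).comp_of_eq continuousAt_fst rfl
  obtain ⟨b, hb⟩ := Function.ne_iff.1 (𝒬.ne i _ ((𝒬.κ i).map_source hi))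
  have hb : 𝒬.ξ i (𝒬.κ i x) b ≠ 0 := hb
  have key : 𝒬.ξ i (𝒬.κ i x) b • v = v b • 𝒬.ξ i (𝒬.κ i x) := by
    refine tendsto_nhds_unique_of_frequently_eq (l := 𝓝 (x, v))
      (f := fun p : X × VV N => 𝒬.ξ i (𝒬.κ i p.1) b • p.2) (g := fun p : X × VV N => p.2 b • 𝒬.ξ i (𝒬.κ i p.1))
      (((continuous_apply b).continuousAt.comp hξ).smul continuousAt_snd)
      (((continuous_apply b).continuousAt.comp continuousAt_snd).smul hξ) ?_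
    refine (h.and_eventually ((continuousAt_fst (p := (x, v))).eventually ((𝒬.κ i).open_source.mem_nhds hi))).mono
      fun p hp => ?_
    obtain ⟨c, -, e⟩ := hp.1.chart hp.2
    simp only [e, Pi.smul_apply, smul_smul, smul_eq_mul, mul_comm]
  have e : v = ((𝒬.ξ i (𝒬.κ i x) b)⁻¹ * v b) • 𝒬.ξ i (𝒬.κ i x) := by
    rw [mul_smul, ← key, smul_smul, inv_mul_cancel₀ hb, one_smul]
  exact ⟨i, hi, _, fun h0 => hv (by rw [e, h0, zero_smul]), e⟩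

theorem ov_of_cluster {x : X} {v : VV N} (hv : v ≠ 0) (h : ClusterPt x (map 𝒬.pt (𝓝[𝒬.cone] v))) : 𝒬.Ov x v := by
  refine ov_closed hv ?_
  rw [nhds_prod_eq, frequently_iff]
  intro W hW
  obtain ⟨A, hA, B, hB, hAB⟩ := mem_prod_iff.1 hW
  have h1 : ∃ᶠ w in 𝓝[𝒬.cone] v, 𝒬.pt w ∈ A := (mapClusterPt_iff_frequently.1 h) A hA
  have h5 : ∀ᶠ w in 𝓝[𝒬.cone] v, w ∈ B := mem_nhdsWithin_of_mem_nhds hB
  obtain ⟨w, h2, h3, h4⟩ := (h1.and_eventually (h5.and self_mem_nhdsWithin)).exists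
  exact ⟨(𝒬.pt w, w), hAB ⟨h2, h3⟩, ov_pt h4⟩

/-- compactness of `X` (a cluster point of `pt`), `ov_closed` -/
theorem cone_closed {v : VV N} (hv : v ≠ 0) (h : v ∈ closure 𝒬.cone) : v ∈ 𝒬.cone := by
  have : (𝓝[𝒬.cone] v).NeBot := mem_closure_iff_nhdsWithin_neBot.1 h
  obtain ⟨x, hx⟩ := exists_clusterPt_of_compactSpace (map 𝒬.pt (𝓝[𝒬.cone] v))
  exact ⟨x, ov_of_cluster hv hx⟩

theorem pt_continuousWithinAt {v : VV N} (h : v ∈ 𝒬.cone) : ContinuousWithinAt 𝒬.pt 𝒬.cone v := by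
  refine (le_nhds_of_unique_clusterPt fun x hx => ?_)
  exact (ov_of_cluster (ov_pt h).ne_zero hx).pt_eq.symm

/-- the transition functions of the homogeneous coordinates are analytic (ratio of a non-vanishing coordinate) -/
theorem cmp_an {i j : 𝒬.ι} {x : X} (hi : x ∈ (𝒬.κ i).source) (hj : x ∈ (𝒬.κ j).source) :
    ∃ lam : E → ℂ, AnalyticAt ℂ lam (𝒬.κ i x) ∧ lam (𝒬.κ i x) ≠ 0 ∧
      ∀ᶠ y in 𝓝 (𝒬.κ i x), 𝒬.ξ j ((𝒬.κ j ∘ (𝒬.κ i).symm) y) = lam y • 𝒬.ξ i y := by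
  obtain ⟨b, hb⟩ := Function.ne_iff.1 (𝒬.ne i _ ((𝒬.κ i).map_source hi))
  have hb : 𝒬.ξ i (𝒬.κ i x) b ≠ 0 := hb
  have e0 : (𝒬.κ j ∘ (𝒬.κ i).symm) (𝒬.κ i x) = 𝒬.κ j x := by simp [(𝒬.κ i).left_inv hi]
  have h1 : AnalyticAt ℂ (fun y => 𝒬.ξ i y b) (𝒬.κ i x) := analyticAt_pi_iff.1 (𝒬.anξ i _ ((𝒬.κ i).map_source hi)) b
  have h2 : AnalyticAt ℂ (fun y => 𝒬.ξ j ((𝒬.κ j ∘ (𝒬.κ i).symm) y) b) (𝒬.κ i x) :=
    analyticAt_pi_iff.1 ((𝒬.anξ j _ ((𝒬.κ j).map_source hj)).comp_of_eq (𝒬.an i j x hi hj) e0) b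
  have h3 : ∀ᶠ y in 𝓝 (𝒬.κ i x), 𝒬.ξ j ((𝒬.κ j ∘ (𝒬.κ i).symm) y) =
      (𝒬.ξ j ((𝒬.κ j ∘ (𝒬.κ i).symm) y) b / 𝒬.ξ i y b) • 𝒬.ξ i y := by
    filter_upwards [h1.continuousAt.eventually_ne hb, (𝒬.κ i).open_target.mem_nhds ((𝒬.κ i).map_source hi),
      ((𝒬.κ i).tendsto_symm hi).eventually ((𝒬.κ j).open_source.mem_nhds hj)] with y h3 h4 h5
    obtain ⟨c, hc⟩ := 𝒬.cmpξ i j _ ((𝒬.κ i).map_target h4) h5
    rw [(𝒬.κ i).right_inv h4] at hc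
    simp only [Function.comp, hc, Pi.smul_apply, smul_eq_mul, mul_div_cancel_right₀ _ h3]
  refine ⟨_, h2.div h1 hb, fun h0 => ?_, h3⟩
  have h4 := h3.self_of_nhds
  rw [show 𝒬.ξ j ((𝒬.κ j ∘ (𝒬.κ i).symm) (𝒬.κ i x)) b / 𝒬.ξ i (𝒬.κ i x) b = 0 from h0, zero_smul, e0] at h4
  exact 𝒬.ne j _ ((𝒬.κ j).map_source hj) h4

end PA

end

end Crest.Agent.R266

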