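import Crest.Agent.R266.Count

/-!
# Row 266: the rational rectangle through a rational curve
-/

set_option autoImplicit false
set_option linter.unusedSectionVars false
set_option linter.unusedVariables false

namespace Crest.Agent.R266

open Set Metric Filter Topology MeasureTheory Polynomial
open scoped ENNReal Classical

noncomputable section

namespace PA
variable {X E D : Type} {N : ℕ} [TopologicalSpace X] [T2Space X] [CompactSpace X] [Nonempty X]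
  [NormedAddCommGroup E] [NormedSpace ℂ E] [FiniteDimensional ℂ E] [CompleteSpace E]
  [NormedAddCommGroup D] [NormedSpace ℂ D] {𝒬 : PA X E N}

/-- `G k = q k * ∏_{k' ≠ k} p k'`, `T = ∏ p k` -/
theorem exists_G {d : ℕ} {c : Fin (d + 1) → VV N} (hc : 𝒬.Crv c) {l : Fin (N + 1)} (hl : ev c 0 l ≠ 0) :
    ∃ (G : Fin (N + 1) → Polynomial (Polynomial ℂ)) (T : Polynomial (Polynomial ℂ)), T.coeff 0 ≠ 0 ∧
      ∀ j z i, 𝒬.pt (ev c z) ∈ (𝒬.κ i).source → ∀ φ, Sol (𝒬.P i) (𝒬.κ i ∘ fun t => 𝒬.pt (ev c t)) j φ z →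
        Van j (fun x => 𝒬.ξ i (φ x) l • ev2 G x - T.evalEval x.1 x.2 • 𝒬.ξ i (φ x)) z := by
  choose p q hp h using fun k => min_pair hc k hl
  refine ⟨fun k => q k * ∏ k' ∈ Finset.univ.erase k, p k', ∏ k, p k, ?_, ?_⟩
  · rw [coeff_zero_prod]
    exact Finset.prod_ne_zero_iff.2 fun k _ => hp k
  · intro j z i hi φ hφ
    refine Van.pi fun k => ?_
    have h1 := (h k j z i hi φ hφ).smul
      (a := fun x => -(∏ k' ∈ Finset.univ.erase k, p k').evalEval x.1 x.2)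
      (evalEval_analyticAt _ _).neg
    refine h1.congr (Eventually.of_forall fun x => ?_)
    simp only [Pi.sub_apply, Pi.smul_apply, smul_eq_mul, ev2, evalEval_mul]
    rw [← Finset.mul_prod_erase Finset.univ p (Finset.mem_univ k), evalEval_mul]
    ring

/-- `w j x = (T x / ξ_l (φ j x)) • ξ (φ j x)` lies in the cone over `φ j x`, `ev2 G - w j` is `Van j`, and
`v₀ = ev2 G (z₀, 0) = w j (z₀, 0)` (`j ≥ 1`).  With `r, μ` from `local_retr` at `v₀`: `K v = v - μ v • ξ (r v)` vanishes on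
`w j`, so `K ∘ ev2 G` is `Van j` for all `j`, hence `0` (`eq_zero_of_van`); `r ∘ ev2 G - φ j` is `Van j`, so
`Res (r ∘ ev2 G)` is `Van (j - 1)` for all `j` (`res_sub`, `Van.du`). -/
theorem rat_solves {γ : ℂ → X} {z₀ : ℂ} (hγ : 𝒬.An γ z₀) {i : 𝒬.ι} (hi : γ z₀ ∈ (𝒬.κ i).source) {l : Fin (N + 1)}
    (hl : 𝒬.ξ i (𝒬.κ i (γ z₀)) l ≠ 0) {H : ℂ × ℂ → VV N} {T : ℂ × ℂ → ℂ} (hH : AnalyticAt ℂ H (z₀, 0))
    (hT : AnalyticAt ℂ T (z₀, 0)) (hT0 : T (z₀, 0) ≠ 0)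
    (h : ∀ j φ, Sol (𝒬.P i) (𝒬.κ i ∘ γ) j φ z₀ → Van j (fun x => 𝒬.ξ i (φ x) l • H x - T x • 𝒬.ξ i (φ x)) z₀) :
    𝒬.pt (H (z₀, 0)) = γ z₀ ∧ ∀ᶠ x in 𝓝 (z₀, (0 : ℂ)), H x ∈ 𝒬.cone ∧
      Res (𝒬.P i) (fun y => 𝒬.κ i (𝒬.pt (H y))) x = 0 := by
  have hf : AnalyticAt ℂ (𝒬.κ i ∘ γ) z₀ := hγ.2 i hi
  have ht : 𝒬.κ i (γ z₀) ∈ (𝒬.κ i).target := (𝒬.κ i).map_source hi
  have hP : AnalyticAt ℂ (𝒬.P i) (𝒬.κ i (γ z₀)) := 𝒬.anP i _ ht
  have hξ : AnalyticAt ℂ (𝒬.ξ i) (𝒬.κ i (γ z₀)) := 𝒬.anξ i _ ht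
  set v₀ : VV N := (T (z₀, 0) * (𝒬.ξ i (𝒬.κ i (γ z₀)) l)⁻¹) • 𝒬.ξ i (𝒬.κ i (γ z₀)) with hv₀
  have key : ∀ j, ∃ (φ : ℂ × ℂ → E) (w : ℂ × ℂ → VV N), Sol (𝒬.P i) (𝒬.κ i ∘ γ) j φ z₀ ∧
      φ (z₀, 0) = 𝒬.κ i (γ z₀) ∧ AnalyticAt ℂ w (z₀, 0) ∧ w (z₀, 0) = v₀ ∧ Van j (fun x => H x - w x) z₀ ∧
      ∀ᶠ x in 𝓝 (z₀, (0 : ℂ)), w x ∈ 𝒬.cone ∧ 𝒬.κ i (𝒬.pt (w x)) = φ x := fun j => by
    obtain ⟨φ, hφ⟩ := exists_sol hf hP j
    have e : φ (z₀, 0) = 𝒬.κ i (γ z₀) := hφ.init.self_of_nhds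
    have a1 : AnalyticAt ℂ (fun x => 𝒬.ξ i (φ x)) (z₀, 0) := hξ.comp_of_eq hφ.an e
    have a2 : AnalyticAt ℂ (fun x => 𝒬.ξ i (φ x) l) (z₀, 0) := analyticAt_pi_iff.1 a1 l
    have a3 : 𝒬.ξ i (φ (z₀, 0)) l ≠ 0 := by rwa [e]
    have a4 : AnalyticAt ℂ (fun x => (𝒬.ξ i (φ x) l)⁻¹) (z₀, 0) := a2.inv a3
    have b1 := a2.continuousAt.eventually_ne a3
    have b2 := hT.continuousAt.eventually_ne hT0
    have b3 : ∀ᶠ x in 𝓝 (z₀, (0 : ℂ)), φ x ∈ (𝒬.κ i).target :=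
      hφ.an.continuousAt.eventually ((𝒬.κ i).open_target.mem_nhds (e ▸ ht))
    refine ⟨φ, fun x => (T x * (𝒬.ξ i (φ x) l)⁻¹) • 𝒬.ξ i (φ x), hφ, e, (hT.mul a4).smul a1,
      by simp only [e, hv₀], ((h j φ hφ).smul a4).congr ?_, ?_⟩
    · filter_upwards [b1] with x hx
      rw [smul_sub, smul_smul, smul_smul, inv_mul_cancel₀ hx, one_smul, mul_comm]
    · filter_upwards [b1, b2, b3] with x h1 h2 h3
      have : 𝒬.Ov ((𝒬.κ i).symm (φ x)) ((T x * (𝒬.ξ i (φ x) l)⁻¹) • 𝒬.ξ i (φ x)) :=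
        ⟨i, (𝒬.κ i).map_target h3, _, mul_ne_zero h2 (inv_ne_zero h1), by rw [(𝒬.κ i).right_inv h3]⟩
      exact ⟨⟨_, this⟩, by rw [this.pt_eq, (𝒬.κ i).right_inv h3]⟩
  have hH0 : H (z₀, 0) = v₀ := by
    obtain ⟨φ, w, -, -, -, a1, a2, -⟩ := key 1
    rw [← a1]
    exact sub_eq_zero.1 (Van.init (j := 0) a2).self_of_nhds
  have hov : 𝒬.Ov (γ z₀) v₀ := ⟨i, hi, _, mul_ne_zero hT0 (inv_ne_zero hl), rfl⟩
  refine ⟨by rw [hH0, hov.pt_eq], ?_⟩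
  obtain ⟨r, μ, hr, hμ, hr0, -, hev⟩ := local_retr hov hi
  have hK : AnalyticAt ℂ (fun v => v - μ v • 𝒬.ξ i (r v)) v₀ :=
    analyticAt_id.sub (hμ.smul (hξ.comp_of_eq hr hr0))
  have hK0 : (fun x => H x - μ (H x) • 𝒬.ξ i (r (H x))) =ᶠ[𝓝 (z₀, 0)] 0 := eq_zero_of_van fun j => by
    obtain ⟨φ, w, -, -, a1, a2, a3, a4⟩ := key j
    refine (a3.comp_sub a1 (hH0.trans a2.symm) (a2 ▸ hK)).congr ?_
    filter_upwards [a4, a1.continuousAt.eventually (a2 ▸ hev)] with x b1 b2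
    rw [← b2.1.1 b1.1, sub_self, sub_zero]
  have hHev := hH.continuousAt.eventually (hH0 ▸ hev)
  have hc : ∀ᶠ x in 𝓝 (z₀, (0 : ℂ)), H x ∈ 𝒬.cone := by
    filter_upwards [hK0, hHev] with x b1 b2
    exact b2.1.2 (sub_eq_zero.1 b1)
  have he : (fun y => 𝒬.κ i (𝒬.pt (H y))) =ᶠ[𝓝 (z₀, 0)] fun y => r (H y) := by
    filter_upwards [hc, hHev] with x b1 b2
    exact (b2.2 b1).2
  have hR : Res (𝒬.P i) (fun y => r (H y)) =ᶠ[𝓝 (z₀, 0)] 0 := eq_zero_of_van fun j => by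
    obtain ⟨φ, w, a0, e, a1, a2, a3, a4⟩ := key (j + 1)
    have b0 : Van (j + 1) (fun x => r (H x) - φ x) z₀ := by
      refine (a3.comp_sub a1 (hH0.trans a2.symm) (a2 ▸ hr)).congr ?_
      filter_upwards [a4, a1.continuousAt.eventually (a2 ▸ hev)] with x b1 b2
      rw [← (b2.2 b1.1).2, b1.2]
    have b1 := res_sub (P := 𝒬.P i) a0.an (e ▸ hP) (by rw [hH0, hr0, e]) b0
    refine (((b1.add a0.res).mono (Nat.le_succ j)).add b0.du).congr (Eventually.of_forall fun x => ?_)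
    simp only
    abel
  filter_upwards [hc, he.eventuallyEq_nhds, hR] with x b1 b2 b3
  refine ⟨b1, Eq.trans ?_ b3⟩
  unfold Res
  simp only [b2.fderiv_eq, b2.eq_of_nhds]

/-- `rat_solves`, `tan_of_res`, `SA.Tan_of`, `An_pt` -/
theorem rat_tan {γ : ℂ → X} {z₀ : ℂ} {i : 𝒬.ι} (hi : γ z₀ ∈ (𝒬.κ i).source) {H : ℂ × ℂ → VV N}
    (hH : AnalyticAt ℂ H (z₀, 0)) (h0 : 𝒬.pt (H (z₀, 0)) = γ z₀)
    (h : ∀ᶠ x in 𝓝 (z₀, (0 : ℂ)), H x ∈ 𝒬.cone ∧ Res (𝒬.P i) (fun y => 𝒬.κ i (𝒬.pt (H y))) x = 0) :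
    (∀ᶠ z in 𝓝 z₀, H (z, z₀ - z) ∈ 𝒬.cone ∧ 𝒬.Tan (fun t => 𝒬.pt (H (t, z₀ - t))) z) ∧
      ∀ᶠ w in 𝓝 z₀, H (z₀, w - z₀) ∈ 𝒬.cone ∧ 𝒬.swap.Tan (fun t => 𝒬.pt (H (z₀, t - z₀))) w := by
  have hA : 𝒬.An (fun q => 𝒬.pt (H q)) (z₀, 0) := An_pt hH (h.mono fun x hx => hx.1)
  have hs : ∀ᶠ x in 𝓝 (z₀, (0 : ℂ)), 𝒬.pt (H x) ∈ (𝒬.κ i).source :=
    hA.1.eventually ((𝒬.κ i).open_source.mem_nhds (by simpa only [h0] using hi))
  have key : ∀ᶠ x in 𝓝 (z₀, (0 : ℂ)), H x ∈ 𝒬.cone ∧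
      𝒬.Tan (fun t => 𝒬.pt (H (t, x.1 + x.2 - t))) x.1 ∧
      𝒬.swap.Tan (fun t => 𝒬.pt (H (x.1, t - x.1))) (x.1 + x.2) := by
    filter_upwards [h, hs, hA.eventually] with x hx hxs hxa
    have hd : DifferentiableAt ℂ (fun y => 𝒬.κ i (𝒬.pt (H y))) x := (hxa.2 i hxs).differentiableAt
    have ht := tan_of_res hd (𝒬.idem i _ ((𝒬.κ i).map_source hxs)) hx.2
    have e1 : ((x.1, x.1 + x.2 - x.1) : ℂ × ℂ) = x := by ext <;> simp
    refine ⟨hx.1, ?_, ?_⟩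
    · have a1 : 𝒬.An (fun t => 𝒬.pt (H (t, x.1 + x.2 - t))) x.1 :=
        Atl.An.comp (f := fun q => 𝒬.pt (H q)) (g := fun t : ℂ => (t, x.1 + x.2 - t))
          (by simpa only [e1] using hxa) (analyticAt_id.prod (analyticAt_const.sub analyticAt_id))
      refine SA.Tan_of a1 i (by simpa only [e1] using hxs) ?_
      simp only [e1]
      exact ht.1
    · have a1 : 𝒬.An (fun t => 𝒬.pt (H (x.1, t - x.1))) (x.1 + x.2) :=
        Atl.An.comp (f := fun q => 𝒬.pt (H q)) (g := fun t : ℂ => (x.1, t - x.1))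
          (by simpa only [e1] using hxa) (analyticAt_const.prod (analyticAt_id.sub analyticAt_const))
      refine SA.Tan_of (𝒮 := 𝒬.swap.toSA) a1 i (by simp only [e1]; exact hxs) ?_
      simp only [e1]
      exact ht.2
  constructor
  · have hc : Tendsto (fun z : ℂ => ((z, z₀ - z) : ℂ × ℂ)) (𝓝 z₀) (𝓝 (z₀, 0)) := by
      have : Continuous fun z : ℂ => ((z, z₀ - z) : ℂ × ℂ) := by fun_prop
      simpa using this.tendsto z₀
    filter_upwards [hc.eventually key] with z hz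
    exact ⟨hz.1, by simpa only [add_sub_cancel] using hz.2.1⟩
  · have hc : Tendsto (fun w : ℂ => ((z₀, w - z₀) : ℂ × ℂ)) (𝓝 z₀) (𝓝 (z₀, 0)) := by
      have : Continuous fun w : ℂ => ((z₀, w - z₀) : ℂ × ℂ) := by fun_prop
      simpa using this.tendsto z₀
    filter_upwards [hc.eventually key] with w hw
    exact ⟨hw.1, by simpa only [add_sub_cancel] using hw.2.2⟩

theorem rat_chain_fin {f : ℂ[X]} (hf : f ≠ 0) : {z | f.eval z = 0}.Finite :=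
  finite_setOfPred_isRoot hf

theorem rat_chain_fin_ev {d : ℕ} (c : Fin (d + 1) → VV N) {l : Fin (N + 1)} (hl : ev c 0 l ≠ 0) :
    {z | ev c z l = 0}.Finite := by
  have e : ∀ z, (∑ j : Fin (d + 1), C (c j l) * Polynomial.X ^ (j : ℕ) : ℂ[X]).eval z = ev c z l := by
    intro z
    rw [eval_finsetSum, ev, Finset.sum_apply]
    refine Finset.sum_congr rfl fun j _ => ?_
    rw [eval_mul, eval_C, eval_pow, eval_X, Pi.smul_apply, smul_eq_mul, mul_comm]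
  have hf : (∑ j : Fin (d + 1), C (c j l) * Polynomial.X ^ (j : ℕ) : ℂ[X]) ≠ 0 := by
    intro h0
    apply hl
    rw [← e, h0, eval_zero]
  simpa only [e] using rat_chain_fin hf

theorem rat_chain_eval (g : Polynomial (Polynomial ℂ)) (r : ℂ[X]) (t : ℂ) :
    (g.eval r).eval t = g.evalEval t (r.eval t) := by
  rw [← eval₂_evalRingHom]
  have := hom_eval₂ g (RingHom.id _) (evalRingHom t) r
  simpa using this

/-- Call `z` good if `(T.coeff 0).eval z ≠ 0` and `ev c z l ≠ 0` (all but finitely many).  Take `q ∈ T'` good; the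
polynomial vector `t ↦ ev2 G (q, t - q)` is non-zero at `t = q`, so take `p ∈ S` good, `p ≠ q`, with `ev2 G (q, p - q) ≠ 0`.
First curve `t ↦ ev2 G (t, p - t)` from `p` to `q`, second curve `t ↦ ev2 G (q, t - q)` from `p` to `q`
(`reduce` for `𝒬` and `𝒬.swap`, `TCrv.affine` with `α = p`, `β = q - p`). -/
theorem rat_chain {d : ℕ} {c : Fin (d + 1) → VV N} (hc : 𝒬.Crv c) {S T : Set ℂ} (hS : S.Infinite) (hT : T.Infinite) :
    ∃ p ∈ S, ∃ q ∈ T, 𝒬.Chain (𝒬.pt (ev c p)) (𝒬.pt (ev c q)) := by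
  obtain ⟨l, hl⟩ : ∃ l, ev c 0 l ≠ 0 := Function.ne_iff.1 (ov_pt (hc.1 0)).ne_zero
  obtain ⟨G, T₀, hT₀, hG⟩ := exists_G hc hl
  have hH : ∀ x, AnalyticAt ℂ (ev2 G) x := fun x =>
    analyticAt_pi_iff.2 fun k => evalEval_analyticAt (G k) x
  -- the bad points
  have hbad : ({z | (T₀.coeff 0).eval z = 0} ∪ {z | ev c z l = 0}).Finite :=
    (rat_chain_fin hT₀).union (rat_chain_fin_ev c hl)
  have good : ∀ z, z ∉ ({z | (T₀.coeff 0).eval z = 0} ∪ {z | ev c z l = 0}) →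
      𝒬.pt (ev2 G (z, 0)) = 𝒬.pt (ev c z) ∧
      (∀ᶠ t in 𝓝 z, ev2 G (t, z - t) ∈ 𝒬.cone ∧ 𝒬.Tan (fun t => 𝒬.pt (ev2 G (t, z - t))) t) ∧
      ∀ᶠ w in 𝓝 z, ev2 G (z, w - z) ∈ 𝒬.cone ∧ 𝒬.swap.Tan (fun t => 𝒬.pt (ev2 G (z, t - z))) w := by
    intro z hz
    simp only [mem_union, mem_ofPred_eq, not_or] at hz
    obtain ⟨i, hi⟩ := 𝒬.cov (𝒬.pt (ev c z))
    obtain ⟨μ, -, hμ⟩ := (ov_pt (hc.1 z)).chart hi
    have hl' : 𝒬.ξ i (𝒬.κ i (𝒬.pt (ev c z))) l ≠ 0 := by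
      intro h0
      apply hz.2
      rw [hμ, Pi.smul_apply, h0, smul_zero]
    have hT0 : (fun x : ℂ × ℂ => T₀.evalEval x.1 x.2) (z, 0) ≠ 0 := by
      have : T₀.evalEval z 0 = (T₀.coeff 0).eval z := by
        rw [evalEval, C_0, coeff_zero_eq_eval_zero]
      simpa only [this] using hz.1
    obtain ⟨h1, h2⟩ := rat_solves (γ := fun t => 𝒬.pt (ev c t)) (hc.an z) hi hl' (hH _)
      (evalEval_analyticAt T₀ _) hT0 (fun j φ hφ => hG j z i hi φ hφ)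
    exact ⟨h1, rat_tan (γ := fun t => 𝒬.pt (ev c t)) hi (hH _) h1 h2⟩
  obtain ⟨q, hqT, hq⟩ := (hT.sdiff hbad).nonempty
  obtain ⟨hq0, -, hq2⟩ := good q hq
  set F₂ : Fin (N + 1) → ℂ[X] := fun k => ((G k).map (evalRingHom q)).comp (Polynomial.X - C q) with hF₂
  have e₂ : ∀ t, (fun k => (F₂ k).eval t) = ev2 G (q, t - q) := by
    intro t
    funext k
    simp [hF₂, ev2, eval_comp, map_evalRingHom_eval]
  have hqc : ev2 G (q, q - q) ∈ 𝒬.cone := hq2.self_of_nhds.1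
  obtain ⟨k, hk⟩ : ∃ k, ev2 G (q, q - q) k ≠ 0 := Function.ne_iff.1 (ov_pt hqc).ne_zero
  have hF₂k : F₂ k ≠ 0 := by
    intro h0
    apply hk
    rw [← e₂ q]
    simp [h0]
  obtain ⟨p, hpS, hp⟩ := (hS.sdiff ((hbad.union (rat_chain_fin hF₂k)).union (finite_singleton q))).nonempty
  have hpb : p ∉ ({z | (T₀.coeff 0).eval z = 0} ∪ {z | ev c z l = 0}) := fun h => hp (Or.inl (Or.inl h))
  have hpk : (F₂ k).eval p ≠ 0 := fun h => hp (Or.inl (Or.inr h))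
  have hpq : q - p ≠ 0 := sub_ne_zero.2 fun h => hp (Or.inr h.symm)
  obtain ⟨hp0, hp1, -⟩ := good p hpb
  set F₁ : Fin (N + 1) → ℂ[X] := fun k => (G k).eval (C p - Polynomial.X) with hF₁
  have e₁ : ∀ t, (fun k => (F₁ k).eval t) = ev2 G (t, p - t) := by
    intro t
    funext k
    simp only [hF₁, ev2]
    rw [rat_chain_eval]
    simp
  have hmid : ev2 G (q, p - q) ≠ 0 := by
    intro h0
    apply hpk
    have := congrFun (e₂ p) k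
    simp only [h0, Pi.zero_apply] at this
    exact this
  obtain ⟨d₁, c₁, hc₁, hc₁'⟩ := reduce (𝒬 := 𝒬) F₁ (z₀ := p)
    (by simpa only [e₁] using hp1.mono fun t ht => ht.1) (by simpa only [e₁] using hp1.mono fun t ht => ht.2)
  obtain ⟨d₂, c₂, hc₂, hc₂'⟩ := reduce (𝒬 := 𝒬.swap) F₂ (z₀ := q)
    (by simpa only [e₂, swap_cone] using hq2.mono fun t ht => ht.1)
    (by simpa only [e₂, swap_pt] using hq2.mono fun t ht => ht.2)
  simp only [e₁] at hc₁'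
  simp only [e₂, swap_pt] at hc₂'
  obtain ⟨c₁', h₁, h₁'⟩ := hc₁.affine p hpq
  obtain ⟨c₂', h₂, h₂'⟩ := hc₂.affine p hpq
  have hpc : ev2 G (p, p - p) ∈ 𝒬.cone := hp1.self_of_nhds.1
  refine ⟨p, hpS, q, hqT, d₁, d₂, (c₁', c₂'), ⟨h₁, h₂, ?_⟩, ?_, ?_⟩
  · simp only [h₁', h₂', mul_one, mul_zero, add_zero, add_sub_cancel]
    rw [hc₁' q hmid, hc₂' p hmid]
  · simp only [h₁', mul_zero, add_zero]
    rw [hc₁' p (ov_pt hpc).ne_zero, sub_self, hp0]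
  · simp only [h₂', mul_one, add_sub_cancel]
    rw [hc₂' q (ov_pt hqc).ne_zero, sub_self, hq0]

end PA

end

end Crest.Agent.R266

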