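import Crest.Agent.R266.En

/-!
# Row 266: punctures of finite area are removable
-/

set_option autoImplicit false
set_option linter.unusedSectionVars false
set_option linter.unusedVariables false

namespace Crest.Agent.R266

open Set Metric Filter Topology MeasureTheory Polynomial
open scoped ENNReal Classical

noncomputable section

namespace UPA
variable {X A B D₁ D₂ : Type} [TopologicalSpace X] [T2Space X]
  [NormedAddCommGroup A] [NormedSpace ℂ A] [NormedSpace ℝ A] [IsScalarTower ℝ ℂ A] [FiniteDimensional ℂ A]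
  [NormedAddCommGroup B] [NormedSpace ℂ B] [NormedSpace ℝ B] [IsScalarTower ℝ ℂ B] [FiniteDimensional ℂ B]
  [CompleteSpace A] [CompleteSpace B]
  [NormedAddCommGroup D₁] [NormedSpace ℂ D₁] [NormedSpace ℝ D₁] [IsScalarTower ℝ ℂ D₁] [FiniteDimensional ℂ D₁]
  [NormedAddCommGroup D₂] [NormedSpace ℂ D₂] [NormedSpace ℝ D₂] [IsScalarTower ℝ ℂ D₂] [FiniteDimensional ℂ D₂]
  {𝒰 : UPA X A B}

/-- `grad` on `ball v (‖v - c‖ / 2) ⊆ ball c (2ρ) \ {c}`; the area of `ball c (2ρ) \ {c}` tends to `0`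
(`tendsto_setLIntegral_zero`). -/
theorem rem_small {γ : ℂ → X} {c : ℂ} {r : ℝ} (hr : 0 < r) (h : ∀ v ∈ ball c r \ {c}, 𝒰.An γ v)
    (ha : 𝒰.Ar γ (ball c r \ {c}) ≠ ⊤) {ε : ℝ} (hε : 0 < ε) :
    ∃ ρ > 0, ρ ≤ r ∧ ∀ v ∈ ball c ρ \ {c}, ‖v - c‖ ^ 2 * 𝒰.en γ v ≤ ε := by
  obtain ⟨ε₀, ε0, C, C0, hg⟩ := 𝒰.grad
  have a0 : 0 < min ε₀ (ε / (4 * C)) := lt_min ε0 (by positivity)
  obtain ⟨δ, δ0, hδ⟩ := exists_pos_setLIntegral_lt_of_measure_lt ha (ENNReal.ofReal_pos.2 a0).ne'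
  have t : Tendsto (fun ρ : ℝ => volume (ball c (2 * ρ))) (𝓝[>] 0) (𝓝 0) := by
    simp only [Complex.volume_ball]
    refine tendsto_nhdsWithin_of_tendsto_nhds ?_
    have : Tendsto (fun ρ : ℝ => ENNReal.ofReal (2 * ρ)) (𝓝 0) (𝓝 0) := by
      simpa using ENNReal.tendsto_ofReal ((tendsto_id (x := 𝓝 (0 : ℝ))).const_mul 2)
    simpa using ENNReal.Tendsto.mul_const (ENNReal.Tendsto.pow (n := 2) this) (Or.inr ENNReal.coe_ne_top)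
  obtain ⟨ρ, h1, h2⟩ := ((t.eventually (gt_mem_nhds δ0)).and (Ioo_mem_nhdsGT (half_pos hr))).exists
  refine ⟨ρ, h2.1, by linarith [h2.2], fun v hv => ?_⟩
  have v0 : 0 < ‖v - c‖ := norm_pos_iff.2 (sub_ne_zero.2 hv.2)
  have v1 := mem_ball_iff_norm.1 hv.1
  have h3 : ∀ z ∈ ball v (‖v - c‖ / 2), z ∈ ball c (2 * ρ) ∧ z ∈ ball c r \ {c} := fun z hz => by
    rw [mem_ball_iff_norm] at hz
    have h4 := norm_sub_le_norm_sub_add_norm_sub z v c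
    refine ⟨mem_ball_iff_norm.2 (by linarith), mem_ball_iff_norm.2 (by linarith [h2.2]), fun e => ?_⟩
    rw [mem_singleton_iff.1 e, norm_sub_rev] at hz
    linarith
  have h4 := hg γ v _ _ (half_pos v0) a0.le (min_le_left _ _) (fun z hz => h z (h3 z hz).2) (by
    have h5 := hδ (ball c (2 * ρ)) ((Measure.restrict_apply_le _ _).trans_lt h1)
    rw [Measure.restrict_restrict measurableSet_ball] at h5
    exact (lintegral_mono_set h3).trans h5.le)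
  rw [le_div_iff₀ (by positivity)] at h4
  have h5 := min_le_right ε₀ (ε / (4 * C))
  rw [le_div_iff₀ (by positivity)] at h5
  linarith

/-- An annulus of bounded modulus lies in one chart: apply `path_seg` to `ζ ↦ γ (c + exp ζ)` (`en_reparam`) along the
segment from `log (v - c)` to `log (s)`, of length `≤ log τ + 2π`; `ε = m / (log τ + 2π)²`. -/
theorem ann_chart (𝒰 : UPA X A B) {τ : ℝ} (hτ : 1 < τ) : ∃ ε > 0, ∀ (γ : ℂ → X) (c v : ℂ), v ≠ 0 →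
    (∀ s : ℂ, ‖v‖ / τ ≤ ‖s‖ → ‖s‖ ≤ ‖v‖ * τ → 𝒰.An γ (c + s) ∧ ‖s‖ ^ 2 * 𝒰.en γ (c + s) ≤ ε) →
    ∃ i, ∀ s : ℂ, ‖v‖ / τ ≤ ‖s‖ → ‖s‖ ≤ ‖v‖ * τ → γ (c + s) ∈ (𝒰.κ i).source := by
  have m0 := 𝒰.m_pos
  have l0 := Real.log_pos hτ
  have L0 : 0 < Real.log τ + 2 * Real.pi := by positivity
  refine ⟨(√𝒰.m / (Real.log τ + 2 * Real.pi)) ^ 2, by positivity, fun γ c v hv h => ⟨𝒰.ch (γ (c + v)), fun s h1 h2 => ?_⟩⟩
  have v0 := norm_pos_iff.2 hv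
  have τ0 : 0 < τ := by linarith
  have s0 : 0 < ‖s‖ := lt_of_lt_of_le (by positivity) h1
  have b1 : Real.log ‖v‖ - Real.log τ ≤ Real.log ‖s‖ := by
    rw [← Real.log_div v0.ne' τ0.ne']; exact Real.log_le_log (by positivity) h1
  have b2 : Real.log ‖s‖ ≤ Real.log ‖v‖ + Real.log τ := by
    rw [← Real.log_mul v0.ne' τ0.ne']; exact Real.log_le_log s0 h2
  have h3 : ∀ ζ ∈ segment ℝ (Complex.log v) (Complex.log s), ‖v‖ / τ ≤ ‖Complex.exp ζ‖ ∧ ‖Complex.exp ζ‖ ≤ ‖v‖ * τ := by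
    rintro ζ ⟨p, q, hp, hq, hpq, rfl⟩
    rw [Complex.norm_exp, ← Real.log_le_iff_le_exp (by positivity), ← Real.le_log_iff_exp_le (by positivity),
      Real.log_div v0.ne' τ0.ne', Real.log_mul v0.ne' τ0.ne']
    simp only [Complex.add_re, Complex.smul_re, Complex.log_re, smul_eq_mul]
    obtain rfl : p = 1 - q := by linarith
    constructor <;> nlinarith
  have hi := 𝒰.ch_mem (γ (c + v))
  have h4 := path_seg (𝒰 := 𝒰) (γ := fun ζ => γ (c + Complex.exp ζ)) (ρ := 1) (δ := 1) (i := 𝒰.ch (γ (c + v)))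
    (K := √𝒰.m / (Real.log τ + 2 * Real.pi)) (by positivity)
    (fun ζ hζ => (h _ (h3 ζ hζ).1 (h3 ζ hζ).2).1.comp (g := fun ζ => c + Complex.exp ζ) (by fun_prop))
    (fun ζ hζ => by
      rw [en_reparam (c := fun ζ => c + Complex.exp ζ) (h _ (h3 ζ hζ).1 (h3 ζ hζ).2).1 (by fun_prop),
        ((Complex.hasDerivAt_exp ζ).const_add c).deriv]
      exact (h _ (h3 ζ hζ).1 (h3 ζ hζ).2).2)
    (by simpa only [Complex.exp_log hv] using hi.1) (by simpa only [Complex.exp_log hv] using (mem_ball_zero_iff.1 hi.2).le)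
    (by
      rw [div_mul_eq_mul_div, div_le_iff₀ L0, mul_one]
      refine mul_le_mul_of_nonneg_left ((Complex.norm_le_abs_re_add_abs_im _).trans (add_le_add ?_ ?_)) (Real.sqrt_nonneg _)
      · rw [Complex.sub_re, Complex.log_re, Complex.log_re, abs_le]
        constructor <;> linarith
      · rw [Complex.sub_im, Complex.log_im, Complex.log_im, abs_le]
        constructor <;> linarith [Complex.neg_pi_lt_arg v, Complex.neg_pi_lt_arg s, Complex.arg_le_pi v, Complex.arg_le_pi s])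
    (by norm_num)
  simpa only [Complex.exp_log (norm_pos_iff.1 s0)] using h4.1

/-- `sup_decay` for `N s = ‖s‖ * √(en γ (c + s))`, `θ = √(M/m) / (τ - 1)`, `τ` large; `three_ann` for
`s ↦ κ i (γ (c + s))`, `en_bd`. -/
theorem rem_decay {γ : ℂ → X} {c : ℂ} {r : ℝ} (hr : 0 < r) (h : ∀ v ∈ ball c r \ {c}, 𝒰.An γ v)
    (ha : 𝒰.Ar γ (ball c r \ {c}) ≠ ⊤) :
    ∃ ρ > 0, ρ ≤ r ∧ ∃ K ≥ 0, ∀ v ∈ ball c ρ \ {c}, ‖v - c‖ * 𝒰.en γ v ≤ K := by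
  have m0 := 𝒰.m_pos
  have M0 := 𝒰.m_pos.trans_le 𝒰.m_le
  obtain ⟨Q, hQ⟩ : ∃ Q, Q = √𝒰.M / √𝒰.m := ⟨_, rfl⟩
  have Q0 : 0 < Q := by rw [hQ]; positivity
  obtain ⟨τ, hτ⟩ : ∃ τ, τ = (2 * Q + 2) ^ 2 := ⟨_, rfl⟩
  have τ1 : 1 < τ := by nlinarith
  have τs : √τ = 2 * Q + 2 := by rw [hτ, Real.sqrt_sq (by positivity)]
  obtain ⟨ε, ε0, hann⟩ := 𝒰.ann_chart τ1
  obtain ⟨ρ, ρ0, ρr, hρ⟩ := rem_small hr h ha ε0
  have hm : ∀ s : ℂ, s ≠ 0 → ‖s‖ < ρ → c + s ∈ ball c ρ \ {c} := fun s h1 h2 =>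
    ⟨by simpa [mem_ball_iff_norm] using h2, by simpa using h1⟩
  have hm' : ∀ s : ℂ, s ≠ 0 → ‖s‖ < ρ → 𝒰.An γ (c + s) := fun s h1 h2 =>
    h _ ⟨ball_subset_ball ρr (hm s h1 h2).1, (hm s h1 h2).2⟩
  have h1 := sup_decay (N := fun s => ‖s‖ * √(𝒰.en γ (c + s))) (θ := Q / (τ - 1)) (B := √ε) ρ0 τ1
    (div_nonneg Q0.le (by linarith)) (by rw [← mul_div_assoc, div_lt_one (by linarith)]; nlinarith)
    (by
      rw [τs, div_mul_eq_mul_div, div_le_one (by linarith)]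
      have : 1 / (2 * Q + 2) ≤ 1 := by rw [div_le_one (by positivity)]; linarith
      nlinarith) (Real.sqrt_nonneg _)
    (fun s s0 s1 => by
      refine Real.le_sqrt_of_sq_le ?_
      rw [mul_pow, Real.sq_sqrt (en_nonneg _ _)]
      simpa using hρ _ (hm s s0 s1))
    (fun v v0 v1 K₁ K₂ k1 k2 => by
      have v0' := norm_pos_iff.2 v0
      have a1 : ∀ s : ℂ, ‖v‖ / τ ≤ ‖s‖ → ‖s‖ ≤ ‖v‖ * τ → s ≠ 0 ∧ ‖s‖ < ρ := fun s h1 h2 =>
        ⟨norm_pos_iff.1 (lt_of_lt_of_le (by positivity) h1), h2.trans_lt v1⟩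
      obtain ⟨i, hi⟩ := hann γ c v v0 fun s h1 h2 =>
        ⟨hm' s (a1 s h1 h2).1 (a1 s h1 h2).2, by simpa using hρ _ (hm s (a1 s h1 h2).1 (a1 s h1 h2).2)⟩
      have a2 : ∀ s : ℂ, ‖v‖ / τ ≤ ‖s‖ → ‖s‖ ≤ ‖v‖ * τ → ∀ K, ‖s‖ * √(𝒰.en γ (c + s)) ≤ K →
          ‖s‖ * ‖deriv (fun s => (𝒰.κ i ∘ γ) (c + s)) s‖ ≤ K / √𝒰.m := fun s h1 h2 K hK => by
        rw [deriv_comp_const_add, le_div_iff₀ (by positivity), mul_assoc]
        refine le_trans (mul_le_mul_of_nonneg_left (Real.le_sqrt_of_sq_le ?_) (norm_nonneg _)) hK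
        rw [mul_pow, Real.sq_sqrt m0.le, mul_comm]
        exact (en_bd (hm' s (a1 s h1 h2).1 (a1 s h1 h2).2) (hi s h1 h2)).1
      have a3 : ‖v‖ / τ ≤ ‖v‖ := div_le_self v0'.le τ1.le
      have a4 : ‖v‖ ≤ ‖v‖ * τ := le_mul_of_one_le_right v0'.le τ1.le
      have a5 := three_ann (h := fun s => (𝒰.κ i ∘ γ) (c + s)) τ1 v0
        (fun s h1 h2 => ((hm' s (a1 s h1 h2).1 (a1 s h1 h2).2).2 i (hi s h1 h2)).comp (f := fun s => c + s) (by fun_prop))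
        (fun s hs => a2 s (hs ▸ a3.trans a4) hs.le K₁ (k1 s hs)) fun s hs => a2 s hs.ge (hs ▸ a3.trans a4) K₂ (k2 s hs)
      rw [deriv_comp_const_add] at a5
      have a6 : √(𝒰.en γ (c + v)) ≤ √𝒰.M * ‖deriv (𝒰.κ i ∘ γ) (c + v)‖ := by
        refine Real.sqrt_le_iff.2 ⟨by positivity, ?_⟩
        rw [mul_pow, Real.sq_sqrt M0.le]
        exact (en_bd (hm' v v0 (a4.trans_lt v1)) (hi v a3 a4)).2
      calc ‖v‖ * √(𝒰.en γ (c + v)) ≤ √𝒰.M * (‖v‖ * ‖deriv (𝒰.κ i ∘ γ) (c + v)‖) := by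
            nlinarith [mul_le_mul_of_nonneg_left a6 v0'.le]
        _ ≤ √𝒰.M * ((K₁ / √𝒰.m + K₂ / √𝒰.m) / (τ - 1)) := by gcongr
        _ = _ := by rw [hQ]; ring)
  refine ⟨ρ, ρ0, ρr, ε * τ / ρ, by positivity, fun v hv => ?_⟩
  have v0 : v - c ≠ 0 := sub_ne_zero.2 hv.2
  have h2 := pow_le_pow_left₀ (by positivity) (h1 (v - c) v0 (mem_ball_iff_norm.1 hv.1)) 2
  rw [mul_pow, mul_pow, Real.sq_sqrt (en_nonneg _ _), Real.sq_sqrt ε0.le, Real.sq_sqrt (by positivity),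
    add_sub_cancel] at h2
  refine le_of_mul_le_mul_left ?_ (norm_pos_iff.2 v0)
  calc _ = ‖v - c‖ ^ 2 * 𝒰.en γ v := by ring
    _ ≤ _ := h2
    _ = _ := by ring

/-- `ζ ↦ γ (c + ζ ^ 2)` has energy `≤ 4K`; every `v - c` has a square root with `0 ≤ re`, and the segment from
`σ/2 > 0` to it avoids `0`; `path_seg` in the chart `ch (γ (c + (σ/2)^2))`. -/
theorem rem_chart {γ : ℂ → X} {c : ℂ} {ρ K : ℝ} (hρ : 0 < ρ) (hK : 0 ≤ K) (h : ∀ v ∈ ball c ρ \ {c}, 𝒰.An γ v)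
    (hb : ∀ v ∈ ball c ρ \ {c}, ‖v - c‖ * 𝒰.en γ v ≤ K) :
    ∃ σ > 0, ∃ i, ∀ v ∈ ball c σ \ {c}, γ v ∈ (𝒰.κ i).source ∧ ‖𝒰.κ i (γ v)‖ ≤ 2 := by
  have m0 : 0 < √𝒰.m := Real.sqrt_pos.2 𝒰.m_pos
  obtain ⟨σ, σ0, σ1, σ2⟩ : ∃ σ > 0, σ ^ 2 ≤ ρ ∧ 2 * √K * (2 * σ) ≤ √𝒰.m := by
    refine ⟨min √ρ (√𝒰.m / (4 * (√K + 1))), lt_min (by positivity) (by positivity), ?_, ?_⟩
    · exact (pow_le_pow_left₀ (le_min (by positivity) (by positivity)) (min_le_left _ _) 2).trans_eq (Real.sq_sqrt hρ.le)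
    · have h1 := min_le_right √ρ (√𝒰.m / (4 * (√K + 1)))
      have h2 : 0 ≤ min √ρ (√𝒰.m / (4 * (√K + 1))) := le_min (by positivity) (by positivity)
      rw [le_div_iff₀ (by positivity)] at h1
      nlinarith
  have hm : ∀ ζ : ℂ, ζ ≠ 0 → ‖ζ‖ < σ → c + ζ ^ 2 ∈ ball c ρ \ {c} := fun ζ h1 h2 =>
    ⟨by simpa [mem_ball_iff_norm] using (pow_lt_pow_left₀ h2 (norm_nonneg _) two_ne_zero).trans_le σ1, by simpa using h1⟩
  refine ⟨σ ^ 2, by positivity, 𝒰.ch (γ (c + ((σ / 2 : ℝ) : ℂ) ^ 2)), fun v hv => ?_⟩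
  obtain ⟨ζ, h1, h2⟩ : ∃ ζ : ℂ, ζ ^ 2 = v - c ∧ 0 ≤ ζ.re := by
    obtain ⟨ζ, hζ⟩ := IsAlgClosed.exists_pow_nat_eq (v - c) two_pos
    rcases le_total 0 ζ.re with h | h
    · exact ⟨ζ, hζ, h⟩
    · exact ⟨-ζ, by rw [neg_sq, hζ], by simpa using h⟩
  have ζ0 : ζ ≠ 0 := fun e => hv.2 (by rw [e] at h1; exact sub_eq_zero.1 (by simpa using h1.symm))
  have ζ1 : ‖ζ‖ < σ := lt_of_pow_lt_pow_left₀ 2 σ0.le (by rw [← norm_pow, h1]; exact mem_ball_iff_norm.1 hv.1)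
  have n0 : ‖((σ / 2 : ℝ) : ℂ)‖ = σ / 2 := by rw [Complex.norm_real, Real.norm_of_nonneg (half_pos σ0).le]
  have h3 : ∀ z ∈ segment ℝ ((σ / 2 : ℝ) : ℂ) ζ, z ≠ 0 ∧ ‖z‖ < σ := fun z hz => by
    refine ⟨?_, mem_ball_zero_iff.1 ((convex_ball 0 σ).segment_subset
      (mem_ball_zero_iff.2 (by rw [n0]; exact half_lt_self σ0)) (mem_ball_zero_iff.2 ζ1) hz)⟩
    obtain ⟨p, q, hp, hq, hpq, rfl⟩ := hz
    intro e
    have h4 := congrArg Complex.re e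
    simp only [Complex.add_re, Complex.smul_re, Complex.ofReal_re, smul_eq_mul, Complex.zero_re] at h4
    have h5 : p = 0 := by nlinarith [mul_nonneg hq h2]
    obtain rfl : q = 1 := by linarith
    rw [h5] at e
    exact ζ0 (by simpa using e)
  have hi := 𝒰.ch_mem (γ (c + ((σ / 2 : ℝ) : ℂ) ^ 2))
  have h4 := path_seg (𝒰 := 𝒰) (γ := fun ζ => γ (c + ζ ^ 2)) (ρ := 1) (δ := 1) (K := 2 * √K) (by positivity)
    (fun z hz => (h _ (hm z (h3 z hz).1 (h3 z hz).2)).comp (g := fun ζ => c + ζ ^ 2) (by fun_prop))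
    (fun z hz => by
      rw [en_reparam (c := fun ζ => c + ζ ^ 2) (h _ (hm z (h3 z hz).1 (h3 z hz).2)) (by fun_prop),
        ((hasDerivAt_pow 2 z).const_add c).deriv, mul_pow, Real.sq_sqrt hK]
      have := hb _ (hm z (h3 z hz).1 (h3 z hz).2)
      simp only [add_sub_cancel_left, norm_pow] at this
      simp only [Nat.cast_ofNat, Nat.add_one_sub_one, pow_one, norm_mul, Complex.norm_ofNat, mul_pow]
      linarith)
    hi.1 (mem_ball_zero_iff.1 hi.2).le (by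
      have := norm_sub_le ζ ((σ / 2 : ℝ) : ℂ)
      rw [n0] at this
      rw [mul_one]
      exact le_trans (mul_le_mul_of_nonneg_left (by linarith) (by positivity)) σ2) (by norm_num)
  simp only [h1, add_sub_cancel] at h4
  exact ⟨h4.1, by linarith [h4.2]⟩

/-- Riemann's theorem (`Complex.differentiableOn_update_limUnder_of_bddAbove`), `An_symm` -/
theorem removable {γ : ℂ → X} {c : ℂ} {r : ℝ} (hr : 0 < r) (h : ∀ v ∈ ball c r \ {c}, 𝒰.An γ v)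
    (ha : 𝒰.Ar γ (ball c r \ {c}) ≠ ⊤) : ∃ γ' : ℂ → X, 𝒰.An γ' c ∧ γ' =ᶠ[𝓝[≠] c] γ := by
  obtain ⟨ρ, ρ0, ρr, K, K0, hK⟩ := rem_decay hr h ha
  have h' : ∀ v ∈ ball c ρ \ {c}, 𝒰.An γ v := fun v hv => h v ⟨ball_subset_ball ρr hv.1, hv.2⟩
  obtain ⟨σ, σ0, i, hi⟩ := rem_chart ρ0 K0 h' hK
  have hs : ball c σ ∩ ball c ρ ∈ 𝓝 c := inter_mem (ball_mem_nhds c σ0) (ball_mem_nhds c ρ0)
  have h1 := Complex.differentiableOn_update_limUnder_of_bddAbove (f := 𝒰.κ i ∘ γ) hs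
    (fun v hv => ((h' v ⟨hv.1.2, hv.2⟩).2 i (hi v ⟨hv.1.1, hv.2⟩).1).differentiableAt.differentiableWithinAt)
    ⟨2, by rintro _ ⟨v, hv, rfl⟩; exact (hi v ⟨hv.1.1, hv.2⟩).2⟩
  have h2 := h1.analyticAt hs
  set g := Function.update (𝒰.κ i ∘ γ) c (limUnder (𝓝[≠] c) (𝒰.κ i ∘ γ))
  have h3 : ∀ᶠ v in 𝓝[≠] c, g v = 𝒰.κ i (γ v) ∧ γ v ∈ (𝒰.κ i).source ∧ ‖𝒰.κ i (γ v)‖ ≤ 2 := by
    filter_upwards [self_mem_nhdsWithin, mem_nhdsWithin_of_mem_nhds hs] with v h3 h4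
    exact ⟨Function.update_of_ne h3 _ _, hi v ⟨h4.1, h3⟩⟩
  have h4 : ‖g c‖ ≤ 2 := le_of_tendsto (h2.continuousAt.norm.tendsto.mono_left (nhdsWithin_le_nhds (s := {c}ᶜ)))
    (h3.mono fun v hv => hv.1 ▸ hv.2.2)
  refine ⟨fun v => (𝒰.κ i).symm (g v), Atl.An_symm i h2 (by rw [𝒰.tgt, mem_ball_zero_iff]; linarith), ?_⟩
  filter_upwards [h3] with v hv
  rw [hv.1, (𝒰.κ i).left_inv hv.2.1]

end UPA

end

end Crest.Agent.R266

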