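import Crest.Agent.R266.Proj

/-!
# Row 266: local retraction onto the cone
-/

set_option autoImplicit false
set_option linter.unusedSectionVars false
set_option linter.unusedVariables false

namespace Crest.Agent.R266

open Set Metric Filter Topology MeasureTheory Polynomial
open scoped ENNReal Classical

noncomputable section

namespace PA
variable {X E D : Type} {N : ℕ} [TopologicalSpace X] [T2Space X] [CompactSpace X] [Nonempty X]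
  [NormedAddCommGroup E] [NormedSpace ℂ E] [FiniteDimensional ℂ E] [CompleteSpace E]
  [NormedAddCommGroup D] [NormedSpace ℂ D] {𝒬 : PA X E N}

theorem local_retr_inv {A B : Type} [NormedAddCommGroup A] [NormedSpace ℂ A] [FiniteDimensional ℂ A]
    [NormedAddCommGroup B] [NormedSpace ℂ B] [FiniteDimensional ℂ B] {Θ : A → B} {p : A}
    (h : AnalyticAt ℂ Θ p) (hi : ∀ v, fderiv ℂ Θ p v = 0 → v = 0) :
    ∃ τ : B → A, AnalyticAt ℂ τ (Θ p) ∧ ∀ᶠ q in 𝓝 p, τ (Θ q) = q := by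
  haveI := FiniteDimensional.complete ℂ A
  obtain ⟨Λ, hΛ⟩ := (fderiv ℂ Θ p : A →ₗ[ℂ] B).exists_leftInverse_of_injective (LinearMap.ker_eq_bot'.2 hi)
  have h1 : AnalyticAt ℂ (fun q => Λ.toContinuousLinearMap (Θ q)) p :=
    (Λ.toContinuousLinearMap.analyticAt _).comp h
  have h2 : HasStrictFDerivAt (fun q => Λ.toContinuousLinearMap (Θ q))
      (ContinuousLinearEquiv.refl ℂ A : A →L[ℂ] A) p := by
    refine (Λ.toContinuousLinearMap.hasStrictFDerivAt.comp p h.hasStrictFDerivAt).congr_fderiv ?_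
    ext v
    exact LinearMap.congr_fun hΛ v
  exact ⟨fun v => (h2.toOpenPartialHomeomorph _).symm (Λ.toContinuousLinearMap v),
    AnalyticAt.comp (g := (h2.toOpenPartialHomeomorph _).symm)
      ((h2.toOpenPartialHomeomorph _).analyticAt_symm' h2.mem_toOpenPartialHomeomorph_source h1
        h2.hasFDerivAt.fderiv) (Λ.toContinuousLinearMap.analyticAt _), h2.eventually_left_inverse⟩

/-- `Θ (c, y) = c • ξ i y` has injective derivative at `(c₀, κ i x)` (`imm`); take a linear left inverse `Λ`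
(`LinearMap.exists_leftInverse_of_injective`); `Λ ∘ Θ` has an analytic local inverse `τ`; `(μ, r) = τ ∘ Λ`.  For
`v` in the cone near `v₀`, `v = Θ (c, κ i (pt v))` with `(c, κ i (pt v))` near `(c₀, κ i x)` (`pt_continuousWithinAt`). -/
theorem local_retr {x : X} {v₀ : VV N} (h : 𝒬.Ov x v₀) {i : 𝒬.ι} (hi : x ∈ (𝒬.κ i).source) :
    ∃ (r : VV N → E) (μ : VV N → ℂ), AnalyticAt ℂ r v₀ ∧ AnalyticAt ℂ μ v₀ ∧ r v₀ = 𝒬.κ i x ∧ μ v₀ ≠ 0 ∧
      ∀ᶠ v in 𝓝 v₀, (v ∈ 𝒬.cone ↔ v = μ v • 𝒬.ξ i (r v)) ∧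
        (v ∈ 𝒬.cone → 𝒬.pt v ∈ (𝒬.κ i).source ∧ 𝒬.κ i (𝒬.pt v) = r v) := by
  obtain ⟨c₀, hc₀, rfl⟩ := h.chart hi
  have ht := (𝒬.κ i).map_source hi
  have hξ := 𝒬.anξ i _ ht
  obtain ⟨τ, hτ, hl⟩ := local_retr_inv (Θ := fun p : ℂ × E => p.1 • 𝒬.ξ i p.2) (p := (c₀, 𝒬.κ i x))
    (analyticAt_fst.smul (hξ.comp_of_eq analyticAt_snd rfl)) fun v hv => by
      have hd := (hasFDerivAt_fst (𝕜 := ℂ) (p := (c₀, 𝒬.κ i x))).fun_smul
        (HasFDerivAt.comp (c₀, 𝒬.κ i x) (g := 𝒬.ξ i) hξ.differentiableAt.hasFDerivAt hasFDerivAt_snd)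
      have hv' : c₀ • fderiv ℂ (𝒬.ξ i) (𝒬.κ i x) v.2 + v.1 • 𝒬.ξ i (𝒬.κ i x) = 0 := by
        rw [← hv]
        exact (congrArg (fun L => L v) hd.fderiv).symm
      have h2 : v.2 = 0 := 𝒬.imm i _ ht _ ⟨-(c₀⁻¹ * v.1), by
        rw [neg_smul, mul_smul, ← smul_neg, ← eq_neg_of_add_eq_zero_left hv', inv_smul_smul₀ hc₀]⟩
      rw [h2, map_zero, smul_zero, zero_add] at hv'
      exact Prod.ext ((smul_eq_zero.1 hv').resolve_right (𝒬.ne i _ ht)) h2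
  have h0 : τ (c₀ • 𝒬.ξ i (𝒬.κ i x)) = (c₀, 𝒬.κ i x) := hl.self_of_nhds
  obtain ⟨k, hk⟩ := Function.ne_iff.1 (𝒬.ne i _ ht)
  have hk : 𝒬.ξ i (𝒬.κ i x) k ≠ 0 := hk
  have t1 : Tendsto 𝒬.pt (𝓝[𝒬.cone] (c₀ • 𝒬.ξ i (𝒬.κ i x))) (𝓝 x) := by
    simpa only [ContinuousWithinAt, h.pt_eq] using pt_continuousWithinAt ⟨x, h⟩
  have t2 := ((𝒬.κ i).continuousAt hi).tendsto.comp t1
  have t3 := ((continuous_apply k).continuousAt.tendsto.comp hξ.continuousAt.tendsto).comp t2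
  have t4 := (((continuous_apply k).tendsto (c₀ • 𝒬.ξ i (𝒬.κ i x))).mono_left
    (nhdsWithin_le_nhds (s := 𝒬.cone))).div t3 hk
  rw [Pi.smul_apply, smul_eq_mul, mul_div_cancel_right₀ _ hk] at t4
  have key : ∀ᶠ v in 𝓝[𝒬.cone] (c₀ • 𝒬.ξ i (𝒬.κ i x)), v = (τ v).1 • 𝒬.ξ i (τ v).2 ∧
      𝒬.pt v ∈ (𝒬.κ i).source ∧ 𝒬.κ i (𝒬.pt v) = (τ v).2 := by
    filter_upwards [self_mem_nhdsWithin, t1.eventually ((𝒬.κ i).open_source.mem_nhds hi),
      t3.eventually_ne hk, (t4.prodMk_nhds t2).eventually hl] with v h1 h2 h3 h4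
    obtain ⟨c, -, e⟩ := (ov_pt h1).chart h2
    have e1 : v k / 𝒬.ξ i (𝒬.κ i (𝒬.pt v)) k = c := by
      rw [congrFun e k, Pi.smul_apply, smul_eq_mul]
      exact mul_div_cancel_right₀ _ h3
    simp only [Pi.div_apply, Function.comp, e1, ← e] at h4
    rw [h4]
    exact ⟨e, h2, rfl⟩
  have hμ : AnalyticAt ℂ (fun v => (τ v).1) _ := analyticAt_fst.comp hτ
  have hr : AnalyticAt ℂ (fun v => (τ v).2) _ := analyticAt_snd.comp hτ
  refine ⟨_, _, hr, hμ, congrArg Prod.snd h0, by simpa only [h0] using hc₀, ?_⟩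
  filter_upwards [eventually_nhdsWithin_iff.1 key, hμ.continuousAt.eventually_ne (y := 0) (by simpa only [h0] using hc₀),
    hr.continuousAt.eventually_mem ((𝒬.κ i).open_target.mem_nhds (by simpa only [h0] using ht))] with v h1 h2 h3
  exact ⟨⟨fun hv => (h1 hv).1, fun hv => ⟨(𝒬.κ i).symm (τ v).2, i, (𝒬.κ i).map_target h3, _, h2, by
    rwa [(𝒬.κ i).right_inv h3]⟩⟩, fun hv => (h1 hv).2⟩

theorem An_pt {F : D → VV N} {p : D} (hF : AnalyticAt ℂ F p) (h : ∀ᶠ q in 𝓝 p, F q ∈ 𝒬.cone) :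
    𝒬.An (fun q => 𝒬.pt (F q)) p := by
  obtain ⟨i, hi⟩ := 𝒬.cov (𝒬.pt (F p))
  obtain ⟨r, μ, hr, -, e, -, hv⟩ := local_retr (ov_pt h.self_of_nhds) hi
  refine (Atl.An_symm i (hr.comp hF) (by simpa only [Function.comp, e] using (𝒬.κ i).map_source hi)).congr ?_
  filter_upwards [h, hF.continuousAt.eventually hv] with q h1 h2
  rw [Function.comp, ← (h2.2 h1).2, (𝒬.κ i).left_inv (h2.2 h1).1]

theorem exists_mu {F : D → VV N} {p : D} (hF : AnalyticAt ℂ F p) (h : ∀ᶠ q in 𝓝 p, F q ∈ 𝒬.cone) {i : 𝒬.ι}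
    (hi : 𝒬.pt (F p) ∈ (𝒬.κ i).source) : ∃ μ : D → ℂ, AnalyticAt ℂ μ p ∧ μ p ≠ 0 ∧
      ∀ᶠ q in 𝓝 p, F q = μ q • 𝒬.ξ i (𝒬.κ i (𝒬.pt (F q))) := by
  obtain ⟨r, μ, -, hμ, -, h0, hv⟩ := local_retr (ov_pt h.self_of_nhds) hi
  refine ⟨μ ∘ F, hμ.comp hF, h0, ?_⟩
  filter_upwards [h, hF.continuousAt.eventually hv] with q h1 h2
  rw [(h2.2 h1).2]
  exact h2.1.1 h1

/-- `{z | ∀ᶠ t in 𝓝 z, F t ∈ cone}` is clopen (`cone_closed`, `local_retr`, identity theorem) -/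
theorem cone_ident {F : ℂ → VV N} (hF : ∀ z, AnalyticAt ℂ F z) (h0 : ∀ z, F z ≠ 0) {z₀ : ℂ}
    (h : ∃ᶠ z in 𝓝[≠] z₀, F z ∈ 𝒬.cone) (z : ℂ) : F z ∈ 𝒬.cone := by
  have key : ∀ z, (∃ᶠ t in 𝓝[≠] z, F t ∈ 𝒬.cone) → ∀ᶠ t in 𝓝 z, F t ∈ 𝒬.cone := fun z hz => by
    have h1 : F z ∈ 𝒬.cone := cone_closed (h0 z) (mem_closure_of_frequently_of_tendsto hz
      ((hF z).continuousAt.tendsto.mono_left nhdsWithin_le_nhds))
    obtain ⟨i, hi⟩ := 𝒬.cov (𝒬.pt (F z))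
    obtain ⟨r, μ, hr, hμ, e, -, hv⟩ := local_retr (ov_pt h1) hi
    have hv' := (hF z).continuousAt.eventually hv
    have h2 : AnalyticAt ℂ (fun t => μ (F t) • 𝒬.ξ i (r (F t))) z := (hμ.comp (hF z)).smul
      ((𝒬.anξ i _ ((𝒬.κ i).map_source hi)).comp_of_eq (hr.comp (hF z)) e)
    have h3 := ((hF z).frequently_eq_iff_eventually_eq h2).1
      ((hz.and_eventually (hv'.filter_mono nhdsWithin_le_nhds)).mono fun t ht => ht.2.1.1 ht.1)
    filter_upwards [h3, hv'] with t a b using b.1.2 a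
  have hc : IsClopen {z | ∀ᶠ t in 𝓝 z, F t ∈ 𝒬.cone} := by
    refine ⟨isClosed_iff_frequently.2 fun z hz => ?_, isOpen_setOfPred_eventually_nhds⟩
    rw [← nhdsNE_sup_pure, frequently_sup, frequently_pure] at hz
    exact hz.elim (fun a => key z (a.mono fun t ht => Eventually.self_of_nhds (p := fun t => F t ∈ 𝒬.cone) ht)) id
  exact Eventually.self_of_nhds (p := fun t => F t ∈ 𝒬.cone) ((hc.eq_univ ⟨z₀, key z₀ h⟩).ge (mem_univ z))

end PA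

end

end Crest.Agent.R266

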