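import Crest.Agent.R266.SCV

/-!
# Row 266: null sets and analytic maps
-/

set_option autoImplicit false
set_option linter.unusedSectionVars false
set_option linter.unusedVariables false

namespace Crest.Agent.R266

open Set Metric Filter Topology MeasureTheory Polynomial
open scoped ENNReal Classical

noncomputable section

variable {E F : Type} [NormedAddCommGroup E] [NormedSpace ℂ E] [FiniteDimensional ℂ E] [CompleteSpace E]
  [NormedAddCommGroup F] [NormedSpace ℂ F] [FiniteDimensional ℂ F] [CompleteSpace F]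
  [MeasurableSpace F] [BorelSpace F] {μ : Measure F} [μ.IsAddHaarMeasure]

/-- a locally null image is null (Lindelöf: `TopologicalSpace.countable_cover_nhdsWithin`) -/
theorem image_null_of_local {Z : Set E} {e : E → F} (h : ∀ c ∈ Z, ∃ U ∈ 𝓝[Z] c, μ (e '' U) = 0) : μ (e '' Z) = 0 := by
  choose! U hU hU0 using h
  obtain ⟨t, htZ, htc, ht⟩ := TopologicalSpace.countable_cover_nhdsWithin hU
  refine measure_mono_null (image_mono ht) ?_
  rw [image_iUnion₂]
  exact (measure_biUnion_null_iff htc).2 fun c hc => hU0 c (htZ hc)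

theorem null_preimage_inv {f : F → F} {t : F} (hf : AnalyticAt ℂ f t)
    (hi : Function.Injective (fderiv ℂ f t)) : ∃ g : F → F, AnalyticAt ℂ g (f t) ∧
      (∀ᶠ x in 𝓝 t, g (f x) = x) ∧ ∀ᶠ y in 𝓝 (f t), f (g y) = y := by
  let i : F ≃L[ℂ] F :=
    (LinearEquiv.ofInjectiveEndo (fderiv ℂ f t : F →ₗ[ℂ] F) hi).toContinuousLinearEquiv
  have e : fderiv ℂ f t = i := by
    ext v
    rfl
  have hs : HasStrictFDerivAt f (i : F →L[ℂ] F) t := e ▸ hf.hasStrictFDerivAt
  exact ⟨hs.localInverse f i t, (hs.toOpenPartialHomeomorph f).analyticAt_symm'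
    hs.mem_toOpenPartialHomeomorph_source hf e, hs.eventually_left_inverse, hs.eventually_right_inverse⟩

/-- local inverse and `addHaar_image_eq_zero_of_differentiableOn_of_addHaar_eq_zero` (over `ℝ`), `measure_null_of_locally_null` -/
theorem null_preimage {f : F → F} {T N : Set F}
    (hf : ∀ t ∈ T, AnalyticAt ℂ f t ∧ Function.Injective (fderiv ℂ f t)) (hN : μ N = 0) : μ (T ∩ f ⁻¹' N) = 0 := by
  refine measure_null_of_locally_null _ fun t ht => ?_
  obtain ⟨g, hg, hl, -⟩ := null_preimage_inv (hf t ht.1).1 (hf t ht.1).2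
  have hV := hg.eventually_analyticAt
  have hd : DifferentiableOn ℝ g (N ∩ {y | AnalyticAt ℂ g y}) := fun y hy =>
    (hy.2.differentiableAt.restrictScalars ℝ).differentiableWithinAt
  have : FiniteDimensional ℝ F := FiniteDimensional.complexToReal F
  refine ⟨_, ?_, addHaar_image_eq_zero_of_differentiableOn_of_addHaar_eq_zero μ hd
    (measure_mono_null inter_subset_left hN)⟩
  filter_upwards [self_mem_nhdsWithin, mem_nhdsWithin_of_mem_nhds hl,
    mem_nhdsWithin_of_mem_nhds ((hf t ht.1).1.continuousAt.eventually hV)] with x hx h1 h2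
  exact ⟨f x, ⟨hx.2, h2⟩, h1⟩

/-- analytic local section of a submersion (right inverse `R` of the derivative, inverse function theorem for
`y ↦ e (c + R y)`) -/
theorem exists_section {e : E → F} {c : E} (he : AnalyticAt ℂ e c) (hs : Function.Surjective (fderiv ℂ e c)) :
    ∃ σ : F → E, AnalyticAt ℂ σ (e c) ∧ σ (e c) = c ∧ ∀ᶠ t in 𝓝 (e c), e (σ t) = t := by
  obtain ⟨R₀, hR₀⟩ := (fderiv ℂ e c : E →ₗ[ℂ] F).exists_rightInverse_of_surjective
    (LinearMap.range_eq_top.2 hs)
  let R : F →L[ℂ] E := LinearMap.toContinuousLinearMap R₀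
  have hR : ∀ y, fderiv ℂ e c (R y) = y := fun y => LinearMap.congr_fun hR₀ y
  have ha : AnalyticAt ℂ (fun y => c + R y) 0 := analyticAt_const.add (R.analyticAt 0)
  have h0 : c + R 0 = c := by simp
  have hφ : AnalyticAt ℂ (fun y => e (c + R y)) 0 := he.comp_of_eq ha h0
  have hd : HasFDerivAt (fun y => e (c + R y)) ((fderiv ℂ e c).comp R) 0 := by
    refine HasFDerivAt.comp (g := e) (f := fun y => c + R y) 0 ?_ (R.hasFDerivAt.const_add c)
    rw [h0]
    exact he.differentiableAt.hasFDerivAt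
  obtain ⟨g, hg, hl, hr⟩ := null_preimage_inv hφ (by
    rw [hd.fderiv]
    intro y y' h
    simpa [hR] using h)
  have hl0 := hl.self_of_nhds
  simp only [h0] at hg hl0 hr
  refine ⟨fun t => c + R (g t), analyticAt_const.add ((R.analyticAt _).comp hg), ?_, hr⟩
  simp only [hl0, h0]

/-- Constant rank.  `L = fderiv e c`, `F₁ = range L`, `π : F → F₁` a projection, `lam : E → ker L` a projection;
`(π ∘ e, lam)` has an analytic local inverse `ψ`; `e ∘ ψ` has derivative of rank `≤ finrank F₁` with `π ∘ D = fst`, so it does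
not depend on the second variable on a ball; the image is contained in the image of `y ↦ e (ψ (π y, b₀))`, whose
determinant vanishes (`addHaar_image_eq_zero_of_det_fderivWithin_eq_zero`), or use `dimH`. -/
theorem const_rank_null {e : E → F} {c : E} (he : AnalyticAt ℂ e c) (hs : ¬ Function.Surjective (fderiv ℂ e c))
    (hr : ∀ᶠ x in 𝓝 c, Module.finrank ℂ (LinearMap.range (fderiv ℂ e x : E →ₗ[ℂ] F)) ≤
      Module.finrank ℂ (LinearMap.range (fderiv ℂ e c : E →ₗ[ℂ] F))) : ∃ U ∈ 𝓝 c, μ (e '' U) = 0 := by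
  set L := fderiv ℂ e c with hL
  obtain ⟨R₀, hR₀⟩ := (L : E →ₗ[ℂ] F).rangeRestrict.exists_rightInverse_of_surjective
    (LinearMap.range_rangeRestrict _)
  obtain ⟨R₁, hR₁⟩ := R₀.exists_extend
  let R : F →L[ℂ] E := LinearMap.toContinuousLinearMap R₁
  have hR : ∀ x, L (R (L x)) = L x := fun x => by
    have h1 : R (L x) = R₀ ⟨L x, x, rfl⟩ := LinearMap.congr_fun hR₁ ⟨L x, x, rfl⟩
    rw [h1]
    exact congrArg Subtype.val (LinearMap.congr_fun hR₀ ⟨L x, x, rfl⟩)
  let G : E → E := fun x => x + R (e x - e c - L (x - c))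
  have Gc : G c = c := by simp [G]
  have hG : ContDiffAt ℂ 1 G c := by
    have := he.contDiffAt (n := 1)
    fun_prop
  have hG' : HasFDerivAt G ((ContinuousLinearEquiv.refl ℂ E : E ≃L[ℂ] E) : E →L[ℂ] E) c := by
    have := (hasFDerivAt_id c).add (R.hasFDerivAt.comp c ((he.differentiableAt.hasFDerivAt.sub_const (e c)).sub
      (L.hasFDerivAt.comp c ((hasFDerivAt_id c).sub_const c))))
    refine this.congr_fderiv ?_
    ext x
    simp [hL]
  let ψ := hG.localInverse hG' one_ne_zero
  have hψ : ContDiffAt ℂ 1 ψ c := Gc ▸ hG.to_localInverse hG' one_ne_zero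
  have l1 : ∀ᶠ x in 𝓝 c, ψ (G x) = x := (hG.hasStrictFDerivAt' hG' one_ne_zero).eventually_left_inverse
  have l2 : ∀ᶠ y in 𝓝 c, G (ψ y) = y := Gc ▸ (hG.hasStrictFDerivAt' hG' one_ne_zero).eventually_right_inverse
  have ψc : ψ c = c := by simpa only [Gc] using l1.self_of_nhds
  have tψ : Tendsto ψ (𝓝 c) (𝓝 c) := by simpa only [ContinuousAt, ψc] using hψ.continuousAt
  have key : ∀ᶠ y in 𝓝 c, ∃ D : E →L[ℂ] F, HasFDerivAt (fun y => e (ψ y)) D y ∧ ∀ v, L v = 0 → D v = 0 := by
    filter_upwards [hψ.eventually (by simp), tψ.eventually he.eventually_analyticAt, tψ.eventually hr,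
      l2.eventually_nhds] with y a1 a2 a3 a4
    have b1 := a2.differentiableAt.hasFDerivAt.comp y (a1.differentiableAt one_ne_zero).hasFDerivAt
    set D := (fderiv ℂ e (ψ y)).comp (fderiv ℂ ψ y)
    have b2 : (L.comp R).comp D = L := ((L.comp R).hasFDerivAt.comp y b1).unique
      ((L.hasFDerivAt.add_const (L (R (e c)) - L c)).congr_of_eventuallyEq (a4.mono fun z hz => by
        have := congrArg L hz
        simp only [G, map_add, map_sub, hR] at this
        simp only [Function.comp, ContinuousLinearMap.comp_apply, ← this]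
        abel))
    have b3 : LinearMap.ker (D : E →ₗ[ℂ] F) = LinearMap.ker (L : E →ₗ[ℂ] F) := by
      refine Submodule.eq_of_le_of_finrank_le (fun v (hv : D v = 0) => show L v = 0 by
        rw [← b2]; simp [hv]) ?_
      have c1 := LinearMap.finrank_range_add_finrank_ker (D : E →ₗ[ℂ] F)
      have c2 := LinearMap.finrank_range_add_finrank_ker (L : E →ₗ[ℂ] F)
      have c3 : Module.finrank ℂ (LinearMap.range (D : E →ₗ[ℂ] F)) ≤ _ :=
        Submodule.finrank_mono (LinearMap.range_comp_le_range (fderiv ℂ ψ y : E →ₗ[ℂ] E)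
          (fderiv ℂ e (ψ y) : E →ₗ[ℂ] F))
      omega
    exact ⟨D, b1, fun v hv => (b3.ge hv :)⟩
  obtain ⟨ε, hε, hb⟩ := Metric.eventually_nhds_iff_ball.1 key
  have hk : ∀ y ∈ ball c ε, ∀ y' ∈ ball c ε, L (y - y') = 0 → e (ψ y) = e (ψ y') := fun y hy y' hy' h0 => by
    have hd : ∀ s ∈ Icc (0 : ℝ) 1, HasDerivAt (fun s : ℝ => e (ψ (y' + s • (y - y')))) 0 s := fun s hs => by
      obtain ⟨D, d1, d2⟩ := hb _ ((convex_ball c ε).add_smul_sub_mem hy' hy hs)
      have := (d1.restrictScalars ℝ).comp_hasDerivAt s (((hasDerivAt_id' s).smul_const (y - y')).const_add y')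
      rwa [one_smul, ContinuousLinearMap.coe_restrictScalars', d2 _ h0] at this
    simpa using constant_of_has_deriv_right_zero (fun s hs => (hd s hs).continuousAt.continuousWithinAt)
      (fun s hs => (hd s (Ico_subset_Icc_self hs)).hasDerivWithinAt) 1 ⟨zero_le_one, le_rfl⟩
  have tG : Tendsto G (𝓝 c) (𝓝 c) := by simpa only [ContinuousAt, Gc] using hG.continuousAt
  have tP : Tendsto (fun y => c + R (L (y - c))) (𝓝 c) (𝓝 c) :=
    Continuous.tendsto' (by fun_prop) _ _ (by simp)
  refine ⟨_, l1.and ((tG.eventually (ball_mem_nhds c hε)).and ((tP.comp tG).eventually (ball_mem_nhds c hε))),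
    measure_mono_null (t := (fun t => e (ψ (c + R t))) ''
      ({t | c + R t ∈ ball c ε} ∩ (LinearMap.range (L : E →ₗ[ℂ] F)).restrictScalars ℝ)) ?_
      (addHaar_image_eq_zero_of_differentiableOn_of_addHaar_eq_zero μ (fun t ht => ?_)
        (measure_mono_null inter_subset_right (Measure.addHaar_submodule μ _ fun h => hs fun t => ?_)))⟩
  · rintro _ ⟨x, ⟨h1, h2, h3⟩, rfl⟩
    refine ⟨L (G x - c), ⟨h3, G x - c, rfl⟩, (hk _ h3 _ h2 ?_).trans (by rw [h1])⟩
    rw [Function.comp, map_sub, map_add, hR, map_sub, add_sub_cancel, sub_self]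
  · obtain ⟨D, d1, -⟩ := hb _ ht.1
    exact ((d1.comp t (R.hasFDerivAt.const_add c)).restrictScalars ℝ).differentiableAt.differentiableWithinAt
  · exact (h.ge (Submodule.mem_top (x := t)) :)

/-- a minor detecting the rank: `m x = det (π ∘ De x ∘ ι)` with `π ∘ De c ∘ ι = id` on `range (De c)` -/
theorem exists_minor {e : E → F} {U : Set E} (he : AnalyticOnNhd ℂ e U) (c : E) :
    ∃ m : E → ℂ, AnalyticOnNhd ℂ m U ∧ m c ≠ 0 ∧ ∀ x, m x ≠ 0 →
      Module.finrank ℂ (LinearMap.range (fderiv ℂ e c : E →ₗ[ℂ] F)) ≤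
        Module.finrank ℂ (LinearMap.range (fderiv ℂ e x : E →ₗ[ℂ] F)) := by
  set L : E →ₗ[ℂ] F := (fderiv ℂ e c : E →ₗ[ℂ] F) with hL
  obtain ⟨ι, hι⟩ := L.rangeRestrict.exists_rightInverse_of_surjective L.range_rangeRestrict
  obtain ⟨π, hπ⟩ := (LinearMap.range L).subtype.exists_leftInverse_of_injective (Submodule.ker_subtype _)
  let b := Module.finBasis ℂ (LinearMap.range L)
  let A : E → LinearMap.range L →ₗ[ℂ] LinearMap.range L := fun x => π ∘ₗ (fderiv ℂ e x : E →ₗ[ℂ] F) ∘ₗ ι
  refine ⟨fun x => LinearMap.det (A x), fun x hx => ?_, ?_, fun x hx => ?_⟩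
  · simp only [← LinearMap.det_toMatrix b, Matrix.det_apply', LinearMap.toMatrix_apply]
    refine Finset.analyticAt_fun_sum _ fun σ _ => analyticAt_const.mul
      (Finset.analyticAt_fun_prod _ fun i _ => ?_)
    exact ((LinearMap.toContinuousLinearMap (b.coord (σ i) ∘ₗ π)).analyticAt _).comp
      (((ContinuousLinearMap.apply ℂ F (ι (b i))).analyticAt _).comp (he x hx).fderiv)
  · have e1 : A c = LinearMap.id := by
      ext1 v
      have h1 := LinearMap.congr_fun hπ (L.rangeRestrict (ι v))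
      exact h1.trans (LinearMap.congr_fun hι v)
    simp [e1]
  · have h1 : LinearMap.range (A x) = ⊤ := LinearMap.range_eq_top.2
      (LinearMap.equivOfDetNeZero (A x) hx).surjective
    rw [← finrank_top, ← h1]
    refine le_trans (Submodule.finrank_mono ?_) (Submodule.finrank_map_le π _)
    rintro _ ⟨v, rfl⟩
    exact ⟨_, ⟨ι v, rfl⟩, rfl⟩

end

end Crest.Agent.R266

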