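import Crest.Agent.R266.Cross

/-!
# Row 266: holonomy chains extend to large balls
-/

set_option autoImplicit false
set_option linter.unusedSectionVars false
set_option linter.unusedVariables false

namespace Crest.Agent.R266

open Set Metric Filter Topology MeasureTheory Polynomial
open scoped ENNReal Classical

noncomputable section

namespace UPA
variable {X A B D₁ D₂ : Type} [TopologicalSpace X] [T2Space X]
  [NormedAddCommGroup A] [NormedSpace ℂ A] [NormedSpace ℝ A] [IsScalarTower ℝ ℂ A] [FiniteDimensional ℂ A]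
  [NormedAddCommGroup B] [NormedSpace ℂ B] [NormedSpace ℝ B] [IsScalarTower ℝ ℂ B] [FiniteDimensional ℂ B]
  [CompleteSpace A] [CompleteSpace B]
  [NormedAddCommGroup D₁] [NormedSpace ℂ D₁] [NormedSpace ℝ D₁] [IsScalarTower ℝ ℂ D₁] [FiniteDimensional ℂ D₁]
  [NormedAddCommGroup D₂] [NormedSpace ℂ D₂] [NormedSpace ℝ D₂] [IsScalarTower ℝ ℂ D₂] [FiniteDimensional ℂ D₂]
  {𝒰 : UPA X A B}

theorem St₁.mono {V V' : Set A} {f f' : A → X} (h : 𝒰.St₁ V f f') (hV : V' ⊆ V) : 𝒰.St₁ V' f f' := by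
  obtain ⟨Ψ, w₀, w₁, r, h1, h2, h3, h4⟩ := h
  exact ⟨Ψ, w₀, w₁, r, h1, fun p hp => h2 p ⟨hV hp.1, hp.2⟩, fun z hz => h3 z (hV hz), fun z hz => h4 z (hV hz)⟩

theorem St₂.mono {V V' : Set B} {g g' : B → X} (h : 𝒰.St₂ V g g') (hV : V' ⊆ V) : 𝒰.St₂ V' g g' := by
  obtain ⟨Ψ, w₀, w₁, r, h1, h2, h3, h4⟩ := h
  exact ⟨Ψ, w₀, w₁, r, h1, fun p hp => h2 p ⟨hp.1, hV hp.2⟩, fun z hz => h3 z (hV hz), fun z hz => h4 z (hV hz)⟩

theorem chain₁_mono {V V' : Set A} {f f' : A → X} (h : Relation.TransGen (𝒰.St₁ V) f f') (hV : V' ⊆ V) :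
    Relation.TransGen (𝒰.St₁ V') f f' := by
  induction h with
  | single h => exact .single (h.mono hV)
  | tail _ h ih => exact ih.tail (h.mono hV)

theorem chain₂_mono {V V' : Set B} {g g' : B → X} (h : Relation.TransGen (𝒰.St₂ V) g g') (hV : V' ⊆ V) :
    Relation.TransGen (𝒰.St₂ V') g g' := by
  induction h with
  | single h => exact .single (h.mono hV)
  | tail _ h ih => exact ih.tail (h.mono hV)

/-- the end points matter only on `V` -/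
theorem chain₁_congr {V : Set A} {f f' g g' : A → X} (h : Relation.TransGen (𝒰.St₁ V) f f') (e : EqOn f g V)
    (e' : EqOn f' g' V) : Relation.TransGen (𝒰.St₁ V) g g' := by
  induction h generalizing g' with
  | single h =>
    obtain ⟨Ψ, w₀, w₁, r, h1, h2, h3, h4⟩ := h
    exact .single ⟨Ψ, w₀, w₁, r, h1, h2, fun z hz => (h3 z hz).trans (e hz), fun z hz => (h4 z hz).trans (e' hz)⟩
  | tail _ h ih =>
    obtain ⟨Ψ, w₀, w₁, r, h1, h2, h3, h4⟩ := h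
    exact (ih (eqOn_refl _ _)).tail ⟨Ψ, w₀, w₁, r, h1, h2, h3, fun z hz => (h4 z hz).trans (e' hz)⟩

theorem chain₂_congr {V : Set B} {f f' g g' : B → X} (h : Relation.TransGen (𝒰.St₂ V) f f') (e : EqOn f g V)
    (e' : EqOn f' g' V) : Relation.TransGen (𝒰.St₂ V) g g' := by
  induction h generalizing g' with
  | single h =>
    obtain ⟨Ψ, w₀, w₁, r, h1, h2, h3, h4⟩ := h
    exact .single ⟨Ψ, w₀, w₁, r, h1, h2, fun z hz => (h3 z hz).trans (e hz), fun z hz => (h4 z hz).trans (e' hz)⟩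
  | tail _ h ih =>
    obtain ⟨Ψ, w₀, w₁, r, h1, h2, h3, h4⟩ := h
    exact (ih (eqOn_refl _ _)).tail ⟨Ψ, w₀, w₁, r, h1, h2, h3, fun z hz => (h4 z hz).trans (e' hz)⟩

/-- reparametrisation (`Rect.comp`) -/
theorem chain₁_comp {V V' : Set A} {f f' : A → X} {a : A → A} (h : Relation.TransGen (𝒰.St₁ V) f f')
    (ha : ∀ z ∈ V', AnalyticAt ℂ a z ∧ a z ∈ V) : Relation.TransGen (𝒰.St₁ V') (f ∘ a) (f' ∘ a) := by
  refine h.lift (fun f : A → X => f ∘ a) ?_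
  rintro f f' ⟨Ψ, w₀, w₁, r, h1, h2, h3, h4⟩
  exact ⟨fun x => Ψ (a x.1, x.2), w₀, w₁, r, h1,
    fun p hp => Rect.comp (b := id) (h2 (a p.1, p.2) ⟨(ha _ hp.1).2, hp.2⟩) (ha _ hp.1).1 analyticAt_id,
    fun z hz => h3 _ (ha z hz).2, fun z hz => h4 _ (ha z hz).2⟩

theorem chain₂_comp {V V' : Set B} {g g' : B → X} {b : B → B} (h : Relation.TransGen (𝒰.St₂ V) g g')
    (hb : ∀ w ∈ V', AnalyticAt ℂ b w ∧ b w ∈ V) : Relation.TransGen (𝒰.St₂ V') (g ∘ b) (g' ∘ b) := by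
  refine h.lift (fun f : B → X => f ∘ b) ?_
  rintro f f' ⟨Ψ, w₀, w₁, r, h1, h2, h3, h4⟩
  exact ⟨fun x => Ψ (x.1, b x.2), w₀, w₁, r, h1,
    fun p hp => Rect.comp (a := id) (h2 (p.1, b p.2) ⟨hp.1, (hb _ hp.2).2⟩) analyticAt_id (hb _ hp.2).1,
    fun z hz => h3 _ (hb z hz).2, fun z hz => h4 _ (hb z hz).2⟩

/-- One step: the step map `Ψ` is a rectangle map on `V ×ˢ ball w₀ r'`.  `cross` needs the crossing point at the centres:
apply it to `F` on `ball z₀ r` and `Ψ (z₀, ·)` on `ball w₀ r'`; the result `Ψ'` agrees with `Ψ` near `(z₀, w₀)`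
(`Rect.cross_unique`), hence near `(z₀, w₁)` (`An.evEq` on `{z₀} ×ˢ ball w₀ r'`).  `F' = Ψ' (·, w₁)`.  Then induction. -/
theorem transport₁ {V : Set A} {z₀ : A} {r : ℝ} (hr : 0 < r) (hV : V ∈ 𝓝 z₀) {f f' : A → X}
    (h : Relation.TransGen (𝒰.St₁ V) f f') {F : A → X} (hF : ∀ z ∈ ball z₀ r, 𝒰.T₁ F z) (e : F =ᶠ[𝓝 z₀] f) :
    ∃ F' : A → X, (∀ z ∈ ball z₀ r, 𝒰.T₁ F' z) ∧ F' =ᶠ[𝓝 z₀] f' ∧ Relation.TransGen (𝒰.St₁ (ball z₀ r)) F F' := by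
  have step : ∀ {f f' F : A → X}, 𝒰.St₁ V f f' → (∀ z ∈ ball z₀ r, 𝒰.T₁ F z) → F =ᶠ[𝓝 z₀] f →
      ∃ F' : A → X, (∀ z ∈ ball z₀ r, 𝒰.T₁ F' z) ∧ F' =ᶠ[𝓝 z₀] f' ∧ 𝒰.St₁ (ball z₀ r) F F' := by
    rintro f f' F ⟨Ψ, w₀, w₁, r', h1, h2, h3, h4⟩ hF e
    have hz := mem_of_mem_nhds hV
    have hr' := pos_of_mem_ball h1
    obtain ⟨Ψ', k1, k2, k3⟩ := cross (g := fun w => Ψ (z₀, w)) hr hr' hF (fun w hw => (h2 (z₀, w) ⟨hz, hw⟩).t₂)
      (e.self_of_nhds.trans (h3 _ hz).symm)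
    have k4 : Ψ' =ᶠ[𝓝 (z₀, w₀)] Ψ := by
      refine (k1 _ ⟨mem_ball_self hr, mem_ball_self hr'⟩).cross_unique (h2 _ ⟨hz, mem_ball_self hr'⟩) ?_ ?_
      · filter_upwards [ball_mem_nhds z₀ hr, e, hV] with z a1 a2 a3
        exact (k2 z a1).trans (a2.trans (h3 z a3).symm)
      · filter_upwards [ball_mem_nhds w₀ hr'] with w a1 using k3 w a1
    have k5 := Atl.An.evEq (𝒜 := 𝒰.toAtl) (U := {z₀} ×ˢ ball w₀ r')
      (isPreconnected_singleton.prod (convex_ball _ _).isPreconnected)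
      (fun p hp => (k1 p ⟨by rw [mem_singleton_iff.1 hp.1]; exact mem_ball_self hr, hp.2⟩).an)
      (fun p hp => (h2 p ⟨by rw [mem_singleton_iff.1 hp.1]; exact hz, hp.2⟩).an)
      ⟨rfl, mem_ball_self hr'⟩ k4 (z₀, w₁) ⟨rfl, h1⟩
    refine ⟨fun z => Ψ' (z, w₁), fun z hz => (k1 (z, w₁) ⟨hz, h1⟩).t₁, ?_, Ψ', w₀, w₁, r', h1, k1, k2, fun _ _ => rfl⟩
    filter_upwards [(by fun_prop : ContinuousAt (fun z : A => (z, w₁)) z₀).eventually k5, hV] with z a1 a2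
    exact a1.trans (h4 z a2)
  induction h with
  | single h =>
    obtain ⟨F', h1, h2, h3⟩ := step h hF e
    exact ⟨F', h1, h2, .single h3⟩
  | tail _ h ih =>
    obtain ⟨F₁, h1, h2, h3⟩ := ih
    obtain ⟨F', h4, h5, h6⟩ := step h h1 h2
    exact ⟨F', h4, h5, h3.tail h6⟩

theorem transport₂ {V : Set B} {w₀ : B} {r : ℝ} (hr : 0 < r) (hV : V ∈ 𝓝 w₀) {g g' : B → X}
    (h : Relation.TransGen (𝒰.St₂ V) g g') {G : B → X} (hG : ∀ w ∈ ball w₀ r, 𝒰.T₂ G w) (e : G =ᶠ[𝓝 w₀] g) :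
    ∃ G' : B → X, (∀ w ∈ ball w₀ r, 𝒰.T₂ G' w) ∧ G' =ᶠ[𝓝 w₀] g' ∧ Relation.TransGen (𝒰.St₂ (ball w₀ r)) G G' := by
  have step : ∀ {f f' F : B → X}, 𝒰.St₂ V f f' → (∀ z ∈ ball w₀ r, 𝒰.T₂ F z) → F =ᶠ[𝓝 w₀] f →
      ∃ F' : B → X, (∀ z ∈ ball w₀ r, 𝒰.T₂ F' z) ∧ F' =ᶠ[𝓝 w₀] f' ∧ 𝒰.St₂ (ball w₀ r) F F' := by
    rintro f f' F ⟨Ψ, z₀, z₁, r', h1, h2, h3, h4⟩ hF e
    have hz := mem_of_mem_nhds hV
    have hr' := pos_of_mem_ball h1
    obtain ⟨Ψ', k1, k3, k2⟩ := cross (f := fun z => Ψ (z, w₀)) hr' hr (fun z hw => (h2 (z, w₀) ⟨hw, hz⟩).t₁) hF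
      (e.self_of_nhds.trans (h3 _ hz).symm).symm
    have k4 : Ψ' =ᶠ[𝓝 (z₀, w₀)] Ψ := by
      refine (k1 _ ⟨mem_ball_self hr', mem_ball_self hr⟩).cross_unique (h2 _ ⟨mem_ball_self hr', hz⟩) ?_ ?_
      · filter_upwards [ball_mem_nhds z₀ hr'] with w a1 using k3 w a1
      · filter_upwards [ball_mem_nhds w₀ hr, e, hV] with z a1 a2 a3
        exact (k2 z a1).trans (a2.trans (h3 z a3).symm)
    have k5 := Atl.An.evEq (𝒜 := 𝒰.toAtl) (U := ball z₀ r' ×ˢ {w₀})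
      ((convex_ball _ _).isPreconnected.prod isPreconnected_singleton)
      (fun p hp => (k1 p ⟨hp.1, by rw [mem_singleton_iff.1 hp.2]; exact mem_ball_self hr⟩).an)
      (fun p hp => (h2 p ⟨hp.1, by rw [mem_singleton_iff.1 hp.2]; exact hz⟩).an)
      ⟨mem_ball_self hr', rfl⟩ k4 (z₁, w₀) ⟨h1, rfl⟩
    refine ⟨fun w => Ψ' (z₁, w), fun w hw => (k1 (z₁, w) ⟨h1, hw⟩).t₂, ?_, Ψ', z₀, z₁, r', h1, k1, k2, fun _ _ => rfl⟩
    filter_upwards [(by fun_prop : ContinuousAt (fun w : B => (z₁, w)) w₀).eventually k5, hV] with z a1 a2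
    exact a1.trans (h4 z a2)
  induction h with
  | single h =>
    obtain ⟨F', h1, h2, h3⟩ := step h hG e
    exact ⟨F', h1, h2, .single h3⟩
  | tail _ h ih =>
    obtain ⟨F₁, h1, h2, h3⟩ := ih
    obtain ⟨F', h4, h5, h6⟩ := step h h1 h2
    exact ⟨F', h4, h5, h3.tail h6⟩

end UPA

end

end Crest.Agent.R266

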