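import Crest.Agent.R266.Defs

/-!
# Row 266: vector fields in the preferred charts
-/

set_option autoImplicit false
set_option linter.unusedSectionVars false
set_option linter.unusedVariables false

namespace Crest.Agent.R266

open Set Metric Filter Topology MeasureTheory Polynomial
open scoped ENNReal Classical

noncomputable section

open Crest.AlgGeometry.HolSplit
open scoped Manifold ContDiff

variable {n : ℕ} {X : Type} [TopologicalSpace X] [ChartedSpace (Model n) X] [IsManifold (mI n) ω X]

/-- the expression of a vector field in the chart at `x` -/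
def vfc (x : X) (V : (p : X) → TangentSpace (mI n) p) (y : Model n) : Model n :=
  mfderiv (mI n) (mI n) (chartAt (Model n) x) ((chartAt (Model n) x).symm y) (V ((chartAt (Model n) x).symm y))

/-- the vector field with expression `v` in the chart at `x` -/
def cvf (x : X) (v : Model n → Model n) (p : X) : TangentSpace (mI n) p :=
  mfderiv (mI n) (mI n) (chartAt (Model n) x).symm (chartAt (Model n) x p) (v (chartAt (Model n) x p))

theorem mfderiv_chart_symm_chart {x p : X} (hp : p ∈ (chartAt (Model n) x).source) (v : TangentSpace (mI n) p) :
    (mfderiv (mI n) (mI n) (chartAt (Model n) x).symm (chartAt (Model n) x p)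
      (mfderiv (mI n) (mI n) (chartAt (Model n) x) p v) : Model n) = v := by
  exact ((mdifferentiable_chart (I := mI n) x).mfderiv hp).left_inv v

theorem mfderiv_chart_chart_symm {x p : X} (hp : p ∈ (chartAt (Model n) x).source) (v : Model n) :
    (mfderiv (mI n) (mI n) (chartAt (Model n) x) p
      (mfderiv (mI n) (mI n) (chartAt (Model n) x).symm (chartAt (Model n) x p) v : Model n) : Model n) = v := by
  exact ((mdifferentiable_chart (I := mI n) x).mfderiv hp).right_inv v

theorem mfderiv_chart_self (x : X) (v : TangentSpace (mI n) x) :
    (mfderiv (mI n) (mI n) (chartAt (Model n) x) x v : Model n) = v := by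
  exact DFunLike.congr_fun (mfderiv_extChartAt_self (I := mI n) (x := x)) v

/-- the derivative of a change of preferred charts -/
theorem fderiv_chart_change {x x' p : X} (hp : p ∈ (chartAt (Model n) x).source)
    (hp' : p ∈ (chartAt (Model n) x').source) (v : TangentSpace (mI n) p) :
    fderiv ℂ (chartAt (Model n) x' ∘ (chartAt (Model n) x).symm) (chartAt (Model n) x p)
      (mfderiv (mI n) (mI n) (chartAt (Model n) x) p v) = mfderiv (mI n) (mI n) (chartAt (Model n) x') p v := by
  have e := (chartAt (Model n) x).left_inv hp
  have h := mfderiv_comp_of_eq ((mdifferentiable_chart (I := mI n) x').mdifferentiableAt hp')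
    ((mdifferentiable_chart (I := mI n) x).mdifferentiableAt_symm
      ((chartAt (Model n) x).map_source hp)) e
  rw [mfderiv_eq_fderiv, e] at h
  exact (DFunLike.congr_fun h _).trans (congrArg _ (mfderiv_chart_symm_chart hp v))

theorem vfc_analyticAt_triv {x q : X} (hq : q ∈ (chartAt (Model n) x).source) (v : TangentSpace (mI n) q) :
    (trivializationAt (Model n) (TangentSpace (mI n)) x (Bundle.TotalSpace.mk' (Model n) q v)).2 =
      mfderiv (mI n) (mI n) (chartAt (Model n) x) q v := by
  have h1 := TangentBundle.continuousLinearMapAt_trivializationAt (I := mI n) hq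
  have h2 := (trivializationAt (Model n) (TangentSpace (mI n)) x).continuousLinearMapAt_apply_of_mem ℂ
    (show q ∈ (trivializationAt (Model n) (TangentSpace (mI n)) x).baseSet by simpa using hq) v
  rw [← h2, h1]
  rfl

/-- `Bundle.contMDiffWithinAt_section`/`Trivialization.contMDiffAt_section_iff` for the trivialization at `x`,
`TangentBundle.continuousLinearMapAt_trivializationAt` -/
theorem vfc_analyticAt {U : Set X} (hU : IsOpen U) {V : (p : X) → TangentSpace (mI n) p} (hV : IsHolVectorFieldOn U V)
    {x p : X} (hp : p ∈ (chartAt (Model n) x).source) (hpU : p ∈ U) :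
    AnalyticAt ℂ (vfc x V) (chartAt (Model n) x p) := by
  have h1 := ((trivializationAt (Model n) (TangentSpace (mI n)) x).contMDiffAt_section_iff (IB := mI n) (n := ω)
    (s := V) (show p ∈ (trivializationAt (Model n) (TangentSpace (mI n)) x).baseSet by simpa using hp)).1
    (hV.contMDiffAt (hU.mem_nhds hpU))
  have ht := (chartAt (Model n) x).map_source hp
  have h2 : ContMDiffAt (mI n) (mI n) ω (chartAt (Model n) x).symm (chartAt (Model n) x p) :=
    contMDiffOn_chart_symm.contMDiffAt ((chartAt (Model n) x).open_target.mem_nhds ht)
  have h3 := (h1.comp_of_eq h2 ((chartAt (Model n) x).left_inv hp)).contDiffAt.analyticAt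
  refine h3.congr ?_
  filter_upwards [(chartAt (Model n) x).open_target.mem_nhds ht] with y hy
  exact vfc_analyticAt_triv ((chartAt (Model n) x).map_target hy) _

theorem cvf_hol {U : Set X} (hU : IsOpen U) {x : X} (hx : U ⊆ (chartAt (Model n) x).source) {v : Model n → Model n}
    (hv : ∀ p ∈ U, AnalyticAt ℂ v (chartAt (Model n) x p)) : IsHolVectorFieldOn U (cvf x v) := by
  refine ((trivializationAt (Model n) (TangentSpace (mI n)) x).contMDiffOn_section_iff (IB := mI n) (n := ω)
    (s := cvf x v) hU (by simpa using hx)).2 fun p hp => ?_
  have h2 : ContMDiffAt (mI n) (mI n) ω (chartAt (Model n) x) p :=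
    contMDiffOn_chart.contMDiffAt ((chartAt (Model n) x).open_source.mem_nhds (hx hp))
  refine (((hv p hp).contDiffAt.contMDiffAt.comp p h2).congr_of_eventuallyEq ?_).contMDiffWithinAt
  filter_upwards [hU.mem_nhds hp] with q hq
  exact (vfc_analyticAt_triv (hx hq) _).trans (mfderiv_chart_chart_symm (hx hq) _)

/-- unfold `VectorField.mlieBracket`, `mlieBracketWithin_apply`, `mpullbackWithin`; `range 𝓘 = univ`;
`(mfderiv chart.symm y).inverse = mfderiv chart (chart.symm y)` near `chartAt x x` -/
theorem mlieBracket_eq (x : X) (V W : (p : X) → TangentSpace (mI n) p) :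
    (VectorField.mlieBracket (mI n) V W x : Model n) =
      VectorField.lieBracket ℂ (vfc x V) (vfc x W) (chartAt (Model n) x x) := by
  have k : ∀ V : (p : X) → TangentSpace (mI n) p,
      VectorField.mpullbackWithin (mI n) (mI n) (extChartAt (mI n) x).symm V (range (mI n))
        =ᶠ[𝓝 (chartAt (Model n) x x)] vfc x V := fun V => by
    filter_upwards [(chartAt (Model n) x).open_target.mem_nhds
      ((chartAt (Model n) x).map_source (mem_chart_source _ x))] with y hy
    have hy' : y ∈ (extChartAt (mI n) x).target := by simpa using hy
    exact DFunLike.congr_fun (ContinuousLinearMap.inverse_eq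
      (mfderivWithin_extChartAt_symm_comp_mfderiv_extChartAt hy')
      (mfderiv_extChartAt_comp_mfderivWithin_extChartAt_symm hy')) _
  have h1 : (mfderiv (mI n) (mI n) (extChartAt (mI n) x) x).inverse =
      ContinuousLinearMap.id ℂ (Model n) := by
    rw [mfderiv_extChartAt_self]; exact ContinuousLinearMap.inverse_id
  rw [← (k V).lieBracket_vectorField_eq (k W), ← VectorField.lieBracketWithin_univ]
  refine (DFunLike.congr_fun h1 _).trans ?_
  simp only [preimage_univ, modelWithCornersSelf_coe, range_id, inter_self]
  rfl

end

end Crest.Agent.R266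

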