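import Crest.Agent.R266.SCV

/-!
# Row 266: vanishing to order j along u = 0
-/

set_option autoImplicit false
set_option linter.unusedSectionVars false
set_option linter.unusedVariables false

namespace Crest.Agent.R266

open Set Metric Filter Topology MeasureTheory Polynomial
open scoped ENNReal Classical

noncomputable section

variable {E F : Type} [NormedAddCommGroup E] [NormedSpace ℂ E] [CompleteSpace E]
  [NormedAddCommGroup F] [NormedSpace ℂ F] [CompleteSpace F] {j : ℕ} {z₀ : ℂ} {H H' : ℂ × ℂ → F}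

theorem van_clm_an {D : Type} [NormedAddCommGroup D] [NormedSpace ℂ D] {L : D → F →L[ℂ] E} {f : D → F} {x : D}
    (hL : AnalyticAt ℂ L x) (hf : AnalyticAt ℂ f x) : AnalyticAt ℂ (fun y => L y (f y)) x :=
  ((ContinuousLinearMap.id ℂ (F →L[ℂ] E)).analyticAt_bilinear (L x, f x)).comp₂ hL hf

theorem van_freq (p : ℂ × ℂ) : ∃ᶠ q in 𝓝 p, q.2 ≠ 0 := by
  have hc : Tendsto (fun u : ℂ => (p.1, u)) (𝓝 p.2) (𝓝 p) := (by fun_prop : ContinuousAt (fun u : ℂ => (p.1, u)) p.2)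
  refine hc.frequently ?_
  exact mem_closure_iff_frequently.1 (dense_compl_singleton (0 : ℂ) p.2)

theorem van_fderiv {G : ℂ × ℂ → F} {p : ℂ × ℂ} (hG : DifferentiableAt ℂ G p) (k : ℕ) (v : ℂ × ℂ) :
    fderiv ℂ (fun q : ℂ × ℂ => q.2 ^ k • G q) p v = ((k : ℂ) * p.2 ^ (k - 1) * v.2) • G p + p.2 ^ k • fderiv ℂ G p v := by
  have h1 : HasFDerivAt (fun q : ℂ × ℂ => q.2 ^ k • G q) _ p :=
    ((hasFDerivAt_snd (𝕜 := ℂ) (p := p)).pow k).smul hG.hasFDerivAt
  rw [h1.fderiv]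
  simp [add_comm]

theorem Van.analyticAt (h : Van j H z₀) : AnalyticAt ℂ H (z₀, 0) := by
  obtain ⟨G, hG, e⟩ := h
  exact ((analyticAt_snd.pow j).smul hG).congr e.symm

theorem van_zero (h : AnalyticAt ℂ H (z₀, 0)) : Van 0 H z₀ := by
  exact ⟨H, h, by simp⟩

theorem Van.congr (h : Van j H z₀) (e : H =ᶠ[𝓝 (z₀, 0)] H') : Van j H' z₀ := by
  obtain ⟨G, hG, e'⟩ := h
  exact ⟨G, hG, e.symm.trans e'⟩

theorem Van.mono {k : ℕ} (h : Van j H z₀) (hk : k ≤ j) : Van k H z₀ := by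
  obtain ⟨G, hG, e⟩ := h
  refine ⟨fun p => p.2 ^ (j - k) • G p, (analyticAt_snd.pow _).smul hG, e.trans (Eventually.of_forall fun p => ?_)⟩
  simp only [smul_smul, ← pow_add, Nat.add_sub_cancel' hk]

theorem Van.eventually (h : Van j H z₀) : ∀ᶠ z in 𝓝 z₀, Van j H z := by
  obtain ⟨G, hG, e⟩ := h
  have hc : Tendsto (fun z : ℂ => (z, (0 : ℂ))) (𝓝 z₀) (𝓝 (z₀, 0)) :=
    (by fun_prop : ContinuousAt (fun z : ℂ => (z, (0 : ℂ))) z₀)
  filter_upwards [hc.eventually hG.eventually_analyticAt, hc.eventually e.eventually_nhds] with z h1 h2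
  exact ⟨G, h1, h2⟩

theorem Van.add (h : Van j H z₀) (h' : Van j H' z₀) : Van j (fun x => H x + H' x) z₀ := by
  obtain ⟨G, hG, e⟩ := h
  obtain ⟨G', hG', e'⟩ := h'
  refine ⟨fun p => G p + G' p, hG.add hG', ?_⟩
  filter_upwards [e, e'] with p h1 h2
  rw [h1, h2, smul_add]

theorem Van.neg (h : Van j H z₀) : Van j (fun x => - H x) z₀ := by
  obtain ⟨G, hG, e⟩ := h
  refine ⟨fun p => - G p, hG.neg, ?_⟩
  filter_upwards [e] with p h1
  rw [h1, smul_neg]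

theorem Van.sub (h : Van j H z₀) (h' : Van j H' z₀) : Van j (fun x => H x - H' x) z₀ := by
  simpa only [sub_eq_add_neg] using h.add h'.neg

theorem Van.smul (h : Van j H z₀) {a : ℂ × ℂ → ℂ} (ha : AnalyticAt ℂ a (z₀, 0)) : Van j (fun x => a x • H x) z₀ := by
  obtain ⟨G, hG, e⟩ := h
  refine ⟨fun p => a p • G p, ha.smul hG, ?_⟩
  filter_upwards [e] with p h1
  rw [h1, smul_comm]

theorem Van.smul_right {a : ℂ × ℂ → ℂ} (h : Van j a z₀) (hH : AnalyticAt ℂ H (z₀, 0)) :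
    Van j (fun x => a x • H x) z₀ := by
  obtain ⟨G, hG, e⟩ := h
  refine ⟨fun p => G p • H p, hG.smul hH, ?_⟩
  filter_upwards [e] with p h1
  rw [h1, smul_assoc]

theorem Van.clm {L : ℂ × ℂ → F →L[ℂ] E} (h : Van j H z₀) (hL : AnalyticAt ℂ L (z₀, 0)) :
    Van j (fun x => L x (H x)) z₀ := by
  obtain ⟨G, hG, e⟩ := h
  refine ⟨fun p => L p (G p), van_clm_an hL hG, ?_⟩
  filter_upwards [e] with p h1
  rw [h1, map_smul]

theorem Van.apply {L : ℂ × ℂ → F →L[ℂ] E} (h : Van j L z₀) (hH : AnalyticAt ℂ H (z₀, 0)) :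
    Van j (fun x => L x (H x)) z₀ := by
  obtain ⟨G, hG, e⟩ := h
  refine ⟨fun p => G p (H p), van_clm_an hG hH, ?_⟩
  filter_upwards [e] with p h1
  rw [h1, smul_apply]

theorem Van.pi {ι : Type} [Fintype ι] {K : ℂ × ℂ → ι → F} (h : ∀ k, Van j (fun x => K x k) z₀) : Van j K z₀ := by
  choose G hG e using h
  refine ⟨fun p k => G k p, analyticAt_pi_iff.2 hG, ?_⟩
  filter_upwards [eventually_all.2 e] with p hp
  exact funext hp

theorem Van.init (h : Van (j + 1) H z₀) : ∀ᶠ z in 𝓝 z₀, H (z, 0) = 0 := by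
  obtain ⟨G, hG, e⟩ := h
  have hc : Tendsto (fun z : ℂ => (z, (0 : ℂ))) (𝓝 z₀) (𝓝 (z₀, 0)) :=
    (by fun_prop : ContinuousAt (fun z : ℂ => (z, (0 : ℂ))) z₀)
  filter_upwards [hc.eventually e] with z hz
  simpa using hz

/-- `divide` -/
theorem van_succ {G : ℂ × ℂ → F} (hG : AnalyticAt ℂ G (z₀, 0)) (e : H =ᶠ[𝓝 (z₀, 0)] fun p => p.2 ^ j • G p)
    (h0 : ∀ᶠ z in 𝓝 z₀, G (z, 0) = 0) : Van (j + 1) H z₀ := by
  obtain ⟨G', hG', e'⟩ := divide hG h0
  refine ⟨G', hG', ?_⟩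
  filter_upwards [e, e'] with p h1 h2
  rw [h1, h2, smul_smul, pow_succ]

/-- the quotient is unique: two continuous functions agreeing for `u ≠ 0` agree -/
theorem quot_unique {G G' : ℂ × ℂ → F} (hG : AnalyticAt ℂ G (z₀, 0)) (hG' : AnalyticAt ℂ G' (z₀, 0))
    (e : (fun p : ℂ × ℂ => p.2 ^ j • G p) =ᶠ[𝓝 (z₀, 0)] fun p => p.2 ^ j • G' p) : G =ᶠ[𝓝 (z₀, 0)] G' := by
  filter_upwards [e.eventually_nhds, hG.eventually_analyticAt, hG'.eventually_analyticAt] with p h1 h2 h3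
  refine tendsto_nhds_unique_of_frequently_eq h2.continuousAt h3.continuousAt ?_
  refine ((van_freq p).and_eventually h1).mono fun q hq => ?_
  exact smul_right_injective F (pow_ne_zero j hq.1) hq.2

theorem Van.cancel (hH : AnalyticAt ℂ H (z₀, 0)) (h : Van (j + 1) (fun p => p.2 • H p) z₀) : Van j H z₀ := by
  obtain ⟨G, hG, e⟩ := h
  refine ⟨G, hG, quot_unique (j := 1) hH ((analyticAt_snd.pow j).smul hG) ?_⟩
  filter_upwards [e] with p hp
  rw [pow_one, hp, smul_smul, pow_succ']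

theorem Van.dz (h : Van j H z₀) : Van j (fun p => fderiv ℂ H p (1, 0)) z₀ := by
  obtain ⟨G, hG, e⟩ := h
  refine ⟨fun p => fderiv ℂ G p (1, 0), van_clm_an hG.fderiv analyticAt_const, ?_⟩
  filter_upwards [e.eventually_nhds, hG.eventually_analyticAt] with p h1 h2
  rw [EventuallyEq.fderiv_eq h1, van_fderiv h2.differentiableAt]
  simp

theorem Van.du (h : Van (j + 1) H z₀) : Van j (fun p => fderiv ℂ H p (0, 1)) z₀ := by
  obtain ⟨G, hG, e⟩ := h
  refine ⟨fun p => ((j : ℂ) + 1) • G p + p.2 • fderiv ℂ G p (0, 1),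
    (analyticAt_const.smul hG).add (analyticAt_snd.smul (van_clm_an hG.fderiv analyticAt_const)), ?_⟩
  filter_upwards [e.eventually_nhds, hG.eventually_analyticAt] with p h1 h2
  rw [EventuallyEq.fderiv_eq h1, van_fderiv h2.differentiableAt]
  simp only [smul_add, smul_smul, pow_succ, Nat.add_sub_cancel, mul_one]
  push_cast
  rw [mul_comm (p.2 ^ j) ((j : ℂ) + 1)]

/-- `H = u^(j+1) G`, `∂ᵤ H = (j+1) u^j G + u^(j+1) ∂ᵤ G`, `quot_unique`, `van_succ` -/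
theorem Van.succ_of_du (h : Van (j + 1) H z₀) (hd : Van (j + 1) (fun p => fderiv ℂ H p (0, 1)) z₀) :
    Van (j + 2) H z₀ := by
  obtain ⟨G, hG, e⟩ := h
  obtain ⟨K, hK, e'⟩ := hd
  have hD : AnalyticAt ℂ (fun p : ℂ × ℂ => fderiv ℂ G p (0, 1)) (z₀, 0) := van_clm_an hG.fderiv analyticAt_const
  have h1 : (fun p : ℂ × ℂ => ((j : ℂ) + 1) • G p) =ᶠ[𝓝 (z₀, 0)] fun p => p.2 • (K p - fderiv ℂ G p (0, 1)) := by
    refine quot_unique (j := j) (analyticAt_const.smul hG) (analyticAt_snd.smul (hK.sub hD)) ?_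
    filter_upwards [e.eventually_nhds, e', hG.eventually_analyticAt] with p h1 h2 h3
    rw [EventuallyEq.fderiv_eq h1, van_fderiv h3.differentiableAt] at h2
    simp only [Nat.add_sub_cancel, mul_one] at h2
    push_cast at h2
    rw [smul_smul, smul_smul, ← pow_succ, smul_sub, ← h2, mul_comm]
    abel
  refine van_succ hG e ?_
  have hc : Tendsto (fun z : ℂ => (z, (0 : ℂ))) (𝓝 z₀) (𝓝 (z₀, 0)) :=
    (by fun_prop : ContinuousAt (fun z : ℂ => (z, (0 : ℂ))) z₀)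
  filter_upwards [hc.eventually h1] with z hz
  simp only [zero_smul, smul_eq_zero] at hz
  exact hz.resolve_left (by exact_mod_cast Nat.succ_ne_zero j)

/-- `φ = ψ + u^j G`; `divide` for `(x, s) ↦ K (ψ x + s • G x) - K (ψ x)`; `j = 0` is trivial -/
theorem Van.comp_sub {φ ψ : ℂ × ℂ → E} {K : E → F} (h : Van j (fun x => φ x - ψ x) z₀)
    (hψ : AnalyticAt ℂ ψ (z₀, 0)) (e : φ (z₀, 0) = ψ (z₀, 0)) (hK : AnalyticAt ℂ K (ψ (z₀, 0))) :
    Van j (fun x => K (φ x) - K (ψ x)) z₀ := by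
  have hφ : AnalyticAt ℂ φ (z₀, 0) := (h.analyticAt.add hψ).congr (Eventually.of_forall fun x => by simp)
  rcases j with _ | j
  · exact van_zero (((e ▸ hK : AnalyticAt ℂ K (φ (z₀, 0))).comp hφ).sub (hK.comp hψ))
  obtain ⟨G, hG, eG⟩ := h
  have h1 : AnalyticAt ℂ (fun y : (ℂ × ℂ) × ℂ => ψ y.1 + y.2 • G y.1) ((z₀, 0), 0) :=
    (hψ.comp_of_eq analyticAt_fst rfl).add (analyticAt_snd.smul (hG.comp_of_eq analyticAt_fst rfl))
  have h2 : AnalyticAt ℂ (fun y : (ℂ × ℂ) × ℂ => K (ψ y.1 + y.2 • G y.1) - K (ψ y.1)) ((z₀, 0), 0) :=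
    (hK.comp_of_eq h1 (by simp)).sub (hK.comp_of_eq (hψ.comp_of_eq analyticAt_fst rfl) rfl)
  obtain ⟨M, hM, eM⟩ := divide h2 (Eventually.of_forall fun q => by simp)
  have h3 : AnalyticAt ℂ (fun x : ℂ × ℂ => (x, x.2 ^ (j + 1))) (z₀, 0) := analyticAt_id.prod (analyticAt_snd.pow _)
  have h4 : Tendsto (fun x : ℂ × ℂ => (x, x.2 ^ (j + 1))) (𝓝 (z₀, 0)) (𝓝 ((z₀, 0), 0)) := by
    simpa [ContinuousAt] using h3.continuousAt
  refine ⟨fun x => M (x, x.2 ^ (j + 1)), hM.comp_of_eq h3 (by simp), ?_⟩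
  filter_upwards [eG, h4.eventually eM] with x h5 h6
  rw [← h6, ← h5]
  simp

/-- restrict to the lines through `(z₀, 0)`: infinite order of vanishing, then the identity theorem in a ball -/
theorem eq_zero_of_van (h : ∀ j, Van j H z₀) : H =ᶠ[𝓝 (z₀, 0)] 0 := by
  obtain ⟨r, hr, hb⟩ := Metric.eventually_nhds_iff_ball.1 (h 0).analyticAt.eventually_analyticAt
  filter_upwards [ball_mem_nhds _ hr] with x hx
  set y := x - (z₀, 0) with hy
  have hl : ∀ t : ℂ, AnalyticAt ℂ (fun t : ℂ => ((z₀, 0) : ℂ × ℂ) + t • y) t := fun t =>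
    analyticAt_const.add (analyticAt_id.smul analyticAt_const)
  have hl0 : Tendsto (fun t : ℂ => ((z₀, 0) : ℂ × ℂ) + t • y) (𝓝 0) (𝓝 (z₀, 0)) := by
    simpa [ContinuousAt] using (hl 0).continuousAt
  have ha : AnalyticOnNhd ℂ (fun t : ℂ => H ((z₀, 0) + t • y)) (closedBall 0 1) := fun t ht => by
    refine (hb _ ?_).comp (hl t)
    rw [mem_ball, dist_eq_norm] at hx ⊢
    rw [add_sub_cancel_left, norm_smul]
    exact lt_of_le_of_lt (mul_le_of_le_one_left (norm_nonneg _) (mem_closedBall_zero_iff.1 ht)) hx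
  have h0 : (fun t : ℂ => H ((z₀, 0) + t • y)) =ᶠ[𝓝 0] 0 := by
    have a0 := ha 0 (mem_closedBall_self zero_le_one)
    rw [EventuallyEq, show (∀ᶠ t in 𝓝 (0 : ℂ), H ((z₀, 0) + t • y) = (0 : ℂ → F) t) ↔
      ∀ᶠ t in 𝓝 (0 : ℂ), H ((z₀, 0) + t • y) = 0 from Iff.rfl, ← analyticOrderAt_eq_top, ENat.eq_top_iff_forall_ge]
    intro k
    obtain ⟨G, hG, e⟩ := h k
    refine (natCast_le_analyticOrderAt a0).2 ⟨fun t => y.2 ^ k • G ((z₀, 0) + t • y),
      analyticAt_const.smul (hG.comp_of_eq (hl 0) (by simp)), ?_⟩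
    filter_upwards [hl0.eventually e] with t ht
    rw [ht, smul_smul]
    simp [mul_pow]
  have := ha.eqOn_zero_of_preconnected_of_eventuallyEq_zero (convex_closedBall _ _).isPreconnected
    (mem_closedBall_self zero_le_one) h0 (show (1 : ℂ) ∈ closedBall 0 1 by simp)
  simpa [hy] using this

/-- induction on `j` with `van_succ`, `quot_unique` and continuity at `z₀` -/
theorem Van.of_punctured (hH : AnalyticAt ℂ H (z₀, 0)) (h : ∀ᶠ z in 𝓝[≠] z₀, Van j H z) : Van j H z₀ := by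
  induction j with
  | zero => exact van_zero hH
  | succ j ih =>
    obtain ⟨G, hG, e⟩ := ih (h.mono fun z hz => hz.mono (Nat.le_succ j))
    refine van_succ hG e ?_
    have hc : Tendsto (fun z : ℂ => (z, (0 : ℂ))) (𝓝 z₀) (𝓝 (z₀, 0)) :=
      (by fun_prop : ContinuousAt (fun z : ℂ => (z, (0 : ℂ))) z₀)
    have h1 : ∀ᶠ z in 𝓝[≠] z₀, G (z, 0) = 0 := by
      filter_upwards [h, mem_nhdsWithin_of_mem_nhds (hc.eventually e.eventually_nhds),
        mem_nhdsWithin_of_mem_nhds (hc.eventually hG.eventually_analyticAt)] with z h1 h2 h3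
      obtain ⟨G', hG', e'⟩ := h1
      have := quot_unique (j := j) (G' := fun p => p.2 • G' p) h3 (analyticAt_snd.smul hG') (by
        filter_upwards [h2, e'] with p h4 h5
        rw [← h4, h5, smul_smul, pow_succ])
      simpa using this.self_of_nhds
    have h2 : AnalyticAt ℂ (fun z => G (z, 0)) z₀ := hG.comp_of_eq (analyticAt_id.prod analyticAt_const) rfl
    exact h2.frequently_zero_iff_eventually_zero.1 h1.frequently

theorem inv2_analyticAt (hz : z₀ ≠ 0) : AnalyticAt ℂ inv2 (z₀, 0) := by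
  exact (analyticAt_fst.inv hz).prod (((analyticAt_fst.add analyticAt_snd).inv (by simpa using hz)).sub (analyticAt_fst.inv hz))

theorem inv2_inv2 (x : ℂ × ℂ) : inv2 (inv2 x) = x := by
  simp [inv2]

/-- `(inv2 x).2 = x.2 * (-(x.1 * (x.1 + x.2))⁻¹)` near `(z₀, 0)` -/
theorem Van.comp_inv2 (hz : z₀ ≠ 0) (h : Van j H z₀⁻¹) : Van j (fun x => H (inv2 x)) z₀ := by
  obtain ⟨G, hG, e⟩ := h
  have e0 : inv2 (z₀, 0) = (z₀⁻¹, 0) := by simp [inv2]
  have ht : Tendsto inv2 (𝓝 (z₀, 0)) (𝓝 (z₀⁻¹, 0)) := e0 ▸ (inv2_analyticAt hz).continuousAt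
  have ha : AnalyticAt ℂ (fun x : ℂ × ℂ => -(x.1 * (x.1 + x.2))⁻¹) (z₀, 0) :=
    ((analyticAt_fst.mul (analyticAt_fst.add analyticAt_snd)).inv (by simpa using hz)).neg
  refine ⟨fun x => (-(x.1 * (x.1 + x.2))⁻¹) ^ j • G (inv2 x), (ha.pow j).smul (hG.comp_of_eq (inv2_analyticAt hz) e0), ?_⟩
  have h1 : ∀ᶠ x : ℂ × ℂ in 𝓝 (z₀, 0), x.1 ≠ 0 := continuousAt_fst.eventually_ne hz
  have h2 : ∀ᶠ x : ℂ × ℂ in 𝓝 (z₀, 0), x.1 + x.2 ≠ 0 :=
    (continuousAt_fst.add continuousAt_snd).eventually_ne (by simpa using hz)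
  filter_upwards [ht.eventually e, h1, h2] with x h3 h4 h5
  rw [h3, smul_smul, ← mul_pow]
  congr 2
  simp only [inv2]
  field_simp
  ring

end

end Crest.Agent.R266

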