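import Crest.Agent.R266.Crv

/-!
# Row 266: global vector fields along rational curves
-/

set_option autoImplicit false
set_option linter.unusedSectionVars false
set_option linter.unusedVariables false

namespace Crest.Agent.R266

open Set Metric Filter Topology MeasureTheory Polynomial
open scoped ENNReal Classical

noncomputable section

namespace PA
variable {X E D : Type} {N : ℕ} [TopologicalSpace X] [T2Space X] [CompactSpace X] [Nonempty X]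
  [NormedAddCommGroup E] [NormedSpace ℂ E] [FiniteDimensional ℂ E] [CompleteSpace E]
  [NormedAddCommGroup D] [NormedSpace ℂ D] {𝒬 : PA X E N}

/-- the wedge `F ∧ μ Dξ ν` does not depend on the chart (differentiate `cmp_an`) -/
theorem wedge_chart {x : X} {i j : 𝒬.ι} (hi : x ∈ (𝒬.κ i).source) (hj : x ∈ (𝒬.κ j).source) {F : VV N} {μ μ' : ℂ}
    (h : F = μ • 𝒬.ξ i (𝒬.κ i x)) (h' : F = μ' • 𝒬.ξ j (𝒬.κ j x)) (v : E) (s t : Fin (N + 1)) :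
    μ' * (F s * fderiv ℂ (𝒬.ξ j) (𝒬.κ j x) (𝒬.toAtl.J i j x v) t - F t * fderiv ℂ (𝒬.ξ j) (𝒬.κ j x) (𝒬.toAtl.J i j x v) s) =
      μ * (F s * fderiv ℂ (𝒬.ξ i) (𝒬.κ i x) v t - F t * fderiv ℂ (𝒬.ξ i) (𝒬.κ i x) v s) := by
  obtain ⟨lam, hlam, hl0, he⟩ := cmp_an hi hj
  have hψ : AnalyticAt ℂ (𝒬.κ j ∘ (𝒬.κ i).symm) (𝒬.κ i x) := 𝒬.an i j x hi hj
  have hx : (𝒬.κ j ∘ (𝒬.κ i).symm) (𝒬.κ i x) = 𝒬.κ j x := by
    simp [(𝒬.κ i).left_inv hi]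
  have hξi := (𝒬.anξ i _ ((𝒬.κ i).map_source hi)).differentiableAt.hasFDerivAt
  have hξj : HasFDerivAt (𝒬.ξ j) (fderiv ℂ (𝒬.ξ j) (𝒬.κ j x)) ((𝒬.κ j ∘ (𝒬.κ i).symm) (𝒬.κ i x)) := by
    rw [hx]; exact (𝒬.anξ j _ ((𝒬.κ j).map_source hj)).differentiableAt.hasFDerivAt
  have h1 := hξj.comp _ hψ.differentiableAt.hasFDerivAt
  have h2 := (hlam.differentiableAt.hasFDerivAt.smul hξi).congr_of_eventuallyEq
    (f₁ := 𝒬.ξ j ∘ (𝒬.κ j ∘ (𝒬.κ i).symm)) he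
  have h3 : fderiv ℂ (𝒬.ξ j) (𝒬.κ j x) (𝒬.toAtl.J i j x v) =
      lam (𝒬.κ i x) • fderiv ℂ (𝒬.ξ i) (𝒬.κ i x) v + fderiv ℂ lam (𝒬.κ i x) v • 𝒬.ξ i (𝒬.κ i x) :=
    DFunLike.congr_fun (h1.unique h2) v
  have h4 := he.self_of_nhds
  rw [hx] at h4
  have h5 : μ = μ' * lam (𝒬.κ i x) := by
    apply smul_left_injective ℂ (𝒬.ne i _ ((𝒬.κ i).map_source hi))
    change μ • _ = (μ' * lam (𝒬.κ i x)) • _
    rw [← h, mul_smul, ← h4, h']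
  rw [h3]
  have hs : F s = μ * 𝒬.ξ i (𝒬.κ i x) s := by rw [h]; rfl
  have ht : F t = μ * 𝒬.ξ i (𝒬.κ i x) t := by rw [h]; rfl
  simp only [Pi.add_apply, Pi.smul_apply, smul_eq_mul]
  rw [hs, ht, h5]
  ring

theorem eq_zero_of_order_an {F : ℂ → VV N} {p : ℂ} (hF : AnalyticAt ℂ F p) (h : ∀ᶠ q in 𝓝 p, F q ∈ 𝒬.cone)
    {j : 𝒬.ι} (hj : 𝒬.pt (F p) ∈ (𝒬.κ j).source) {μ : ℂ → ℂ} (hμ : AnalyticAt ℂ μ p) {u : ℂ → E}
    (hu : AnalyticAt ℂ u p) (s t : Fin (N + 1)) :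
    AnalyticAt ℂ (fun q => μ q * (F q s * fderiv ℂ (𝒬.ξ j) (𝒬.κ j (𝒬.pt (F q))) (u q) t -
      F q t * fderiv ℂ (𝒬.ξ j) (𝒬.κ j (𝒬.pt (F q))) (u q) s)) p := by
  have h1 : AnalyticAt ℂ (fun q => 𝒬.κ j (𝒬.pt (F q))) p := (An_pt hF h).2 j hj
  have h2 : AnalyticAt ℂ (fun q => fderiv ℂ (𝒬.ξ j) (𝒬.κ j (𝒬.pt (F q)))) p :=
    (𝒬.anξ j _ ((𝒬.κ j).map_source hj)).fderiv.comp (f := fun q => 𝒬.κ j (𝒬.pt (F q))) h1
  have h3 : AnalyticAt ℂ (fun q => fderiv ℂ (𝒬.ξ j) (𝒬.κ j (𝒬.pt (F q))) (u q)) p :=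
    ((ContinuousLinearMap.id ℂ (E →L[ℂ] VV N)).analyticAt_bilinear _).comp₂ h2 hu
  have h4 := analyticAt_pi_iff.1 h3
  have h5 := analyticAt_pi_iff.1 hF
  exact hμ.mul (((h5 s).mul (h4 t)).sub ((h5 t).mul (h4 s)))

/-- `W z = μ (F_s (Dξ ν)_t - F_t (Dξ ν)_s)`, `F = ev c z` (chart chosen for each `z`, `wedge_chart`) is entire
(`exists_mu`), and `W ζ⁻¹ = ζ⁻¹ ^ (2d) • k ζ` (`evi_eq`), so it is a polynomial of degree `≤ 2d` (`exists_coeff`);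
`ev_eq_zero_of_order`; `W = 0` for all `s, t` gives `Dξ ν ∈ ℂ ξ`, `imm`. -/
theorem GSec.eq_zero_of_order {d : ℕ} {c : Fin (d + 1) → VV N} (hc : 𝒬.Crv c) {ν : 𝒬.ι → ℂ → E} (h : 𝒬.GSec c ν)
    {a : ℂ} {i : 𝒬.ι} (hi : 𝒬.pt (ev c a) ∈ (𝒬.κ i).source) {G : ℂ → E} (hG : AnalyticAt ℂ G a)
    (e : ∀ᶠ z in 𝓝 a, ν i z = (z - a) ^ (2 * d + 1) • G z) :
    ∀ z j, 𝒬.pt (ev c z) ∈ (𝒬.κ j).source → ν j z = 0 := by
  choose ch hch using fun z => 𝒬.cov (𝒬.pt (ev c z))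
  choose mu hmu0 hmu using fun z => (ov_pt (hc.1 z)).chart (hch z)
  have main : ∀ (s t : Fin (N + 1)) (z : ℂ) (j : 𝒬.ι) (μ' : ℂ), 𝒬.pt (ev c z) ∈ (𝒬.κ j).source →
      ev c z = μ' • 𝒬.ξ j (𝒬.κ j (𝒬.pt (ev c z))) →
      μ' * (ev c z s * fderiv ℂ (𝒬.ξ j) (𝒬.κ j (𝒬.pt (ev c z))) (ν j z) t -
        ev c z t * fderiv ℂ (𝒬.ξ j) (𝒬.κ j (𝒬.pt (ev c z))) (ν j z) s) = 0 := by
    intro s t
    set W : ℂ → ℂ := fun z => mu z *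
      (ev c z s * fderiv ℂ (𝒬.ξ (ch z)) (𝒬.κ (ch z) (𝒬.pt (ev c z))) (ν (ch z) z) t -
        ev c z t * fderiv ℂ (𝒬.ξ (ch z)) (𝒬.κ (ch z) (𝒬.pt (ev c z))) (ν (ch z) z) s) with hW
    have key : ∀ (z : ℂ) (j : 𝒬.ι) (μ' : ℂ), 𝒬.pt (ev c z) ∈ (𝒬.κ j).source →
        ev c z = μ' • 𝒬.ξ j (𝒬.κ j (𝒬.pt (ev c z))) →
        μ' * (ev c z s * fderiv ℂ (𝒬.ξ j) (𝒬.κ j (𝒬.pt (ev c z))) (ν j z) t -
          ev c z t * fderiv ℂ (𝒬.ξ j) (𝒬.κ j (𝒬.pt (ev c z))) (ν j z) s) = W z := by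
      intro z j μ' hj hμ'
      rw [(h.1 z).2 (ch z) j (hch z) hj]
      exact wedge_chart (hch z) hj (hmu z) hμ' _ s t
    have hsrc : ∀ (z : ℂ) (j : 𝒬.ι), 𝒬.pt (ev c z) ∈ (𝒬.κ j).source →
        ∀ᶠ q in 𝓝 z, 𝒬.pt (ev c q) ∈ (𝒬.κ j).source := fun z j hj =>
      (hc.an z).1.eventually ((𝒬.κ j).open_source.mem_nhds hj)
    have hWd : Differentiable ℂ W := by
      intro z
      obtain ⟨μ, hμ, -, hμe⟩ := exists_mu (ev_an c z) (Eventually.of_forall hc.1) (hch z)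
      refine ((eq_zero_of_order_an (ev_an c z) (Eventually.of_forall hc.1) (hch z) hμ
        ((h.1 z).1 _ (hch z)) s t).congr ?_).differentiableAt
      filter_upwards [hμe, hsrc z _ (hch z)] with q h1 h2
      exact key q _ _ h2 h1
    obtain ⟨i', ν', hi', hν', he'⟩ := h.2
    rw [← evi_zero c] at hi'
    obtain ⟨μ', hμ', -, hμe'⟩ := exists_mu (evi_an c 0) (Eventually.of_forall hc.evi_mem) hi'
    have hk := eq_zero_of_order_an (evi_an c 0) (Eventually.of_forall hc.evi_mem) hi' hμ' hν' s t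
    have hsrc' : ∀ᶠ q in 𝓝 (0 : ℂ), 𝒬.pt (evi c q) ∈ (𝒬.κ i').source :=
      (hc.an_evi 0).1.eventually ((𝒬.κ i').open_source.mem_nhds hi')
    obtain ⟨c', hc', -⟩ := exists_coeff (2 * d) hWd hk (by
      filter_upwards [he', mem_nhdsWithin_of_mem_nhds hμe', mem_nhdsWithin_of_mem_nhds hsrc',
        self_mem_nhdsWithin] with ζ h1 h2 h3 h4
      have h5 : ζ ≠ 0 := h4
      have h6 := hc.pt_evi h5
      have h7 := evi_eq c h5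
      have h8 : ζ⁻¹ ^ d * ζ ^ d = 1 := by rw [← mul_pow, inv_mul_cancel₀ h5, one_pow]
      have h2' : evi c ζ = μ' ζ • 𝒬.ξ i' (𝒬.κ i' (𝒬.pt (evi c ζ))) := h2
      have h3' : 𝒬.pt (evi c ζ) ∈ (𝒬.κ i').source := h3
      rw [h6] at h2' h3'
      have h9 : ev c ζ⁻¹ = (ζ⁻¹ ^ d * μ' ζ) • 𝒬.ξ i' (𝒬.κ i' (𝒬.pt (ev c ζ⁻¹))) := by
        rw [mul_smul, ← h2', h7, smul_smul, h8, one_smul]
      rw [← key ζ⁻¹ i' _ h3' h9, h6, h1, h7]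
      simp only [Pi.smul_apply, smul_eq_mul]
      linear_combination (-(ζ⁻¹ ^ d * μ' ζ) *
        (ev c ζ⁻¹ s * fderiv ℂ (𝒬.ξ i') (𝒬.κ i' (𝒬.pt (ev c ζ⁻¹))) (ν i' ζ⁻¹) t -
          ev c ζ⁻¹ t * fderiv ℂ (𝒬.ξ i') (𝒬.κ i' (𝒬.pt (ev c ζ⁻¹))) (ν i' ζ⁻¹) s)) * h8)
    obtain ⟨μ, hμ, -, hμe⟩ := exists_mu (ev_an c a) (Eventually.of_forall hc.1) hi
    have h0 := ev_eq_zero_of_order c'
      (eq_zero_of_order_an (ev_an c a) (Eventually.of_forall hc.1) hi hμ hG s t) (by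
      filter_upwards [hμe, hsrc a i hi, e] with q h1 h2 h3
      rw [hc', ← key q i _ h2 h1, h3, map_smul]
      simp only [Pi.smul_apply, smul_eq_mul]
      ring)
    intro z j μ₁ hj hμ₁
    rw [key z j μ₁ hj hμ₁, ← hc', h0]
  intro z j hj
  obtain ⟨μ₁, h0, hμ₁⟩ := (ov_pt (hc.1 z)).chart hj
  have ht := (𝒬.κ j).map_source hj
  obtain ⟨s, hs⟩ := Function.ne_iff.1 (𝒬.ne j _ ht)
  have hs' : 𝒬.ξ j (𝒬.κ j (𝒬.pt (ev c z))) s ≠ 0 := hs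
  refine 𝒬.imm j _ ht _ ⟨fderiv ℂ (𝒬.ξ j) (𝒬.κ j (𝒬.pt (ev c z))) (ν j z) s /
    𝒬.ξ j (𝒬.κ j (𝒬.pt (ev c z))) s, ?_⟩
  funext t
  have h1 := (mul_eq_zero.1 (main s t z j μ₁ hj hμ₁)).resolve_left h0
  have h2 : ev c z s = μ₁ * 𝒬.ξ j (𝒬.κ j (𝒬.pt (ev c z))) s := congrFun hμ₁ s
  have h3 : ev c z t = μ₁ * 𝒬.ξ j (𝒬.κ j (𝒬.pt (ev c z))) t := congrFun hμ₁ t
  rw [h2, h3, mul_assoc, mul_assoc, ← mul_sub] at h1
  have h4 := (mul_eq_zero.1 h1).resolve_left h0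
  rw [Pi.smul_apply, smul_eq_mul, div_mul_eq_mul_div, eq_div_iff hs']
  linear_combination h4

theorem GSec.proj {d : ℕ} {c : Fin (d + 1) → VV N} (hc : 𝒬.Crv c) {ν : 𝒬.ι → ℂ → E} (h : 𝒬.GSec c ν) :
    𝒬.GSec c (fun i z => (1 - 𝒬.P i (𝒬.κ i (𝒬.pt (ev c z)))) (ν i z)) := by
  have key : ∀ {γ : ℂ → X} {μ : ℂ → E} {z : ℂ} {i : 𝒬.ι}, 𝒬.An γ z → γ z ∈ (𝒬.κ i).source → AnalyticAt ℂ μ z →
      AnalyticAt ℂ (fun t => (1 - 𝒬.P i (𝒬.κ i (γ t))) (μ t)) z := fun {γ μ z i} hγ hi hμ =>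
    ((ContinuousLinearMap.apply ℂ E).flip.analyticAt_bilinear _).comp₂
      (analyticAt_const.sub ((𝒬.anP i _ ((𝒬.κ i).map_source hi)).comp (f := 𝒬.κ i ∘ γ) (hγ.2 i hi))) hμ
  obtain ⟨h1, i, ν', hi, h2, h3⟩ := h
  refine ⟨fun z => ⟨fun i hi => key (hc.an z) hi ((h1 z).1 i hi), fun i j hi hj => ?_⟩, i,
    fun ζ => (1 - 𝒬.P i (𝒬.κ i (𝒬.pt (evi c ζ)))) (ν' ζ), hi, key (hc.an_evi 0) (by rwa [evi_zero]) h2, ?_⟩
  · simp only [(h1 z).2 i j hi hj, ContinuousLinearMap.sub_apply, ContinuousLinearMap.one_apply, map_sub,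
      𝒬.cmpP i j _ hi hj]
  · filter_upwards [h3, self_mem_nhdsWithin] with ζ e hζ
    rw [e, hc.pt_evi hζ]

theorem variation_GSec_an {f : D × ℂ → E} {t₀ : D} {z : ℂ} (hf : AnalyticAt ℂ f (t₀, z)) (τ : D) :
    AnalyticAt ℂ (fun w => fderiv ℂ (fun t => f (t, w)) t₀ τ) z := by
  have h1 : AnalyticAt ℂ (fun w : ℂ => fderiv ℂ f (t₀, w) (τ, 0)) z :=
    (ContinuousLinearMap.apply ℂ E (τ, (0 : ℂ))).analyticAt _ |>.comp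
      (hf.fderiv.comp (f := fun w : ℂ => (t₀, w)) (analyticAt_const.prod analyticAt_id))
  refine h1.congr ?_
  have h2 : ContinuousAt (fun w : ℂ => (t₀, w)) z := by fun_prop
  filter_upwards [h2.eventually hf.eventually_analyticAt] with w hw
  have := hw.differentiableAt.hasFDerivAt.comp t₀ (hasFDerivAt_prodMk_left (𝕜 := ℂ) t₀ w)
  exact (congrArg (fun L : D →L[ℂ] E => L τ) this.fderiv).symm

/-- `(t, z) ↦ pt (ev (σ t) z)` is `An` at `(t₀, z)` (`An_pt`), the same for `evi`; the partial derivative is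
`fderiv _ (t₀, z) (τ, 0)`; `An.fderiv_chart` -/
theorem variation_GSec {d : ℕ} {σ : D → Fin (d + 1) → VV N} {t₀ : D} (hσ : AnalyticAt ℂ σ t₀)
    (h : ∀ᶠ t in 𝓝 t₀, 𝒬.Crv (σ t)) (τ : D) :
    𝒬.GSec (σ t₀) (fun i z => fderiv ℂ (fun t => 𝒬.κ i (𝒬.pt (ev (σ t) z))) t₀ τ) := by
  have hs : ∀ z : ℂ, AnalyticAt ℂ (fun p : D × ℂ => (σ p.1, p.2)) (t₀, z) := fun z =>
    (hσ.comp_of_eq analyticAt_fst rfl).prod analyticAt_snd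
  have he : ∀ z : ℂ, ∀ᶠ p : D × ℂ in 𝓝 (t₀, z), 𝒬.Crv (σ p.1) := fun z =>
    (continuousAt_fst (p := (t₀, z))).eventually h
  have h1 : ∀ z, 𝒬.An (fun p : D × ℂ => 𝒬.pt (ev (σ p.1) p.2)) (t₀, z) := fun z =>
    An_pt ((ev_analytic _).comp (hs z)) ((he z).mono fun p hp => hp.1 _)
  have h2 : 𝒬.An (fun p : D × ℂ => 𝒬.pt (evi (σ p.1) p.2)) (t₀, 0) :=
    An_pt ((evi_analytic _).comp (hs 0)) ((he 0).mono fun p hp => hp.evi_mem _)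
  obtain ⟨i, hi⟩ := 𝒬.cov (𝒬.pt (σ t₀ (Fin.last d)))
  refine ⟨fun z => ⟨fun i hi => variation_GSec_an ((h1 z).2 i hi) τ, fun i j hi hj => ?_⟩, i,
    fun ζ => fderiv ℂ (fun t => 𝒬.κ i (𝒬.pt (evi (σ t) ζ))) t₀ τ, hi,
    variation_GSec_an (h2.2 i (by simpa only [evi_zero] using hi)) τ, ?_⟩
  · exact (Atl.An.comp (g := fun t => (t, z)) (h1 z) (analyticAt_id.prod analyticAt_const)).fderiv_chart hi hj τ
  · filter_upwards [self_mem_nhdsWithin] with ζ hζ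
    rw [Filter.EventuallyEq.fderiv_eq (h.mono fun t ht => by rw [ht.pt_evi hζ])]

end PA

end

end Crest.Agent.R266

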